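import Vale.Agent.P137.ST2

open MeasureTheory Metric Set Filter
open scoped ENNReal Topology

set_option linter.unusedSectionVars false

namespace Vale.Agent.P137

variable {E : Type*} [NormedAddCommGroup E] [InnerProductSpace ℝ E] [FiniteDimensional ℝ E]
  [MeasurableSpace E] [BorelSpace E] (μ : Measure E) [μ.IsAddHaarMeasure] [Nontrivial E]

lemma exists_radius (t : ℝ) : ∃ R, 0 < R ∧ t ≤ μ.real (ball (0 : E) R) := by
  have hV := real_ball_pos (μ := μ) (0 : E) one_pos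
  have h1 : 1 ≤ max 1 (t / μ.real (ball (0 : E) 1)) := le_max_left _ _
  refine ⟨max 1 (t / μ.real (ball (0 : E) 1)), by linarith, ?_⟩
  rw [real_ball _ (by linarith), ← div_le_iff₀ hV]
  exact (le_max_right _ _).trans (le_self_pow₀ h1 (Module.finrank_pos (R := ℝ) (M := E)).ne')

theorem thmA : ∃ C : ℝ, 0 ≤ C ∧ ∀ (p : E → ℝ), Measurable p → (∀ x, 0 ≤ p x) →
    Integrable p μ → ∀ L : ℝ, 0 ≤ L → (∀ u, V μ p u ≤ L * ‖u‖) → ∀ v : E,
    ∫⁻ x, (gM μ p (x - v) - gM μ p x) ∂μ ≤ ENNReal.ofReal (C * L * ‖v‖) := by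
  obtain ⟨C₁, C₂, h1, h2, hST⟩ := ST μ
  have hV1 := real_ball_pos (μ := μ) (0 : E) one_pos
  refine ⟨C₂ * (1 + 2 * μ.real (ball (0 : E) 1)), by positivity, ?_⟩
  intro p hm h0 hp L hL hV v
  have hX : ∀ u, ∫⁻ z, exc p 0 u z ∂μ ≤ ENNReal.ofReal (L * ‖u‖) := fun u => by
    simpa [exc] using exc_zero_bound hp hV u
  have key : ∀ n : ℕ, ∫⁻ x, (gM μ p (x - v) - (gM μ p x +
      ENNReal.ofReal (C₁ * ‖v‖ * (1 / ((n : ℝ) + 1))))) ∂μ ≤
      ENNReal.ofReal (C₂ * (1 + 2 * μ.real (ball (0 : E) 1)) * L * ‖v‖) := by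
    intro n
    obtain ⟨R, hR0, hR⟩ := exists_radius μ (L * ((n : ℝ) + 1))
    have := hST p hm h0 hp L (1 / ((n : ℝ) + 1)) 0 L R hL hV (by positivity) le_rfl hL hX hR0
      (by rw [one_div, ← div_eq_inv_mul, le_div_iff₀ (by positivity)]; exact hR) v
    rw [add_zero, zero_mul, add_zero, mul_right_comm] at this
    refine this.trans ((mul_le_mul_right (add_le_add le_rfl
      (tel_sum_le hm hp hL hV (by positivity))) _).trans (le_of_eq ?_))
    rw [← ENNReal.ofReal_add hL (by positivity), ← ENNReal.ofReal_mul (by positivity)]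
    congr 1
    ring
  refine le_trans ?_ (iSup_le key)
  have hg := gM_measurable (μ := μ) p
  rw [← lintegral_iSup (f := fun (n : ℕ) x => gM μ p (x - v) - (gM μ p x +
      ENNReal.ofReal (C₁ * ‖v‖ * (1 / ((n : ℝ) + 1)))))
    (fun n => (hg.comp (measurable_sub_const v)).sub (hg.add measurable_const))]
  · refine lintegral_mono fun x => ?_
    rw [← ENNReal.sub_iInf, ← ENNReal.add_iInf]
    refine tsub_le_tsub_left (le_of_eq ?_) _
    have ht : Tendsto (fun n : ℕ => ENNReal.ofReal (C₁ * ‖v‖ * (1 / ((n : ℝ) + 1)))) atTop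
        (𝓝 (ENNReal.ofReal (C₁ * ‖v‖ * 0))) :=
      ENNReal.tendsto_ofReal (tendsto_one_div_add_atTop_nhds_zero_nat.const_mul _)
    have : ⨅ n : ℕ, ENNReal.ofReal (C₁ * ‖v‖ * (1 / ((n : ℝ) + 1))) ≤ 0 := by
      simpa using ge_of_tendsto' ht (fun n => iInf_le _ n)
    rw [le_zero_iff.1 this, add_zero]
  · intro n m hnm x
    refine tsub_le_tsub_left (add_le_add le_rfl (ENNReal.ofReal_le_ofReal ?_)) _
    gcongr

theorem thmB {p : E → ℝ} (hm : Measurable p) (h0 : ∀ x, 0 ≤ p x) (hp : Integrable p μ) {L : ℝ}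
    (hL : 0 ≤ L) (hV : ∀ u, V μ p u ≤ L * ‖u‖)
    (hX : ∀ ε, 0 < ε → ∃ Λ, 0 ≤ Λ ∧ ∀ u, ∫⁻ z, exc p Λ u z ∂μ ≤ ENNReal.ofReal (ε * ‖u‖))
    (η : ℝ) (hη : 0 < η) : ∃ Λ, 0 ≤ Λ ∧ ∀ v : E,
    ∫⁻ x, (gM μ p (x - v) - (gM μ p x + ENNReal.ofReal (Λ * ‖v‖))) ∂μ ≤
      ENNReal.ofReal (η * ‖v‖) := by
  obtain ⟨C₁, C₂, h1, h2, hST⟩ := ST μ
  set ε := η / (3 * (C₂ + 1)) with hε
  have hε0 : 0 < ε := by positivity
  obtain ⟨Λ', hΛ', hX'⟩ := hX ε hε0
  have ht := ENNReal.tendsto_sum_nat_add (fun n : ℕ => ENNReal.ofReal (tel μ p (4 * (1 / 2) ^ n)))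
    ((tel_sum_le hm hp hL hV (by norm_num)).trans_lt ENNReal.ofReal_lt_top).ne
  obtain ⟨m, hmm⟩ := (ht.eventually (gt_mem_nhds (ENNReal.ofReal_pos.2 hε0))).exists
  have hR : (0 : ℝ) < (1 / 2) ^ m := by positivity
  have hvR := real_ball_pos (μ := μ) (0 : E) hR
  set Λ := L / μ.real (ball (0 : E) ((1 / 2) ^ m)) + Λ' * L / ε + 1 with hΛ
  have a1 : 0 ≤ L / μ.real (ball (0 : E) ((1 / 2) ^ m)) := by positivity
  have a2 : 0 ≤ Λ' * L / ε := by positivity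
  have hΛ0 : 0 < Λ := by positivity
  refine ⟨C₁ * (Λ + Λ'), by positivity, fun v => ?_⟩
  refine (hST p hm h0 hp L Λ Λ' ε _ hL hV hΛ0 hΛ' hε0.le hX' hR
    (by rw [← div_le_iff₀ hvR]; linarith) v).trans ?_
  have b1 : ∑' n : ℕ, ENNReal.ofReal (tel μ p (4 * (1 / 2) ^ m * (1 / 2) ^ n)) ≤
      ENNReal.ofReal ε := by
    refine le_trans (le_of_eq (tsum_congr fun n => ?_)) hmm.le
    rw [pow_add]; congr 2; ring
  have b2 : Λ' * (L / Λ) ≤ ε := by
    rw [← mul_div_assoc, div_le_iff₀ hΛ0, mul_comm ε, ← div_le_iff₀ hε0]; linarith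
  refine (mul_le_mul_right (add_le_add (ENNReal.ofReal_le_ofReal (add_le_add le_rfl b2)) b1)
    _).trans ?_
  rw [← ENNReal.ofReal_add (by positivity) hε0.le, ← ENNReal.ofReal_mul (by positivity)]
  refine ENNReal.ofReal_le_ofReal ?_
  have b3 : 3 * (C₂ + 1) * ε = η := by rw [hε]; field_simp
  have : 0 ≤ ε * ‖v‖ := by positivity
  rw [← b3]
  nlinarith

theorem gM_ae_lt_top {p : E → ℝ} (h0 : ∀ x, 0 ≤ p x) (hp : Integrable p μ) :
    ∀ᵐ x ∂μ, gM μ p x < ∞ := by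
  set K := ENNReal.ofReal (8 ^ Module.finrank ℝ E) * ∫⁻ x, ENNReal.ofReal (p x) ∂μ with hK
  have hKf : K ≠ ∞ := ENNReal.mul_ne_top ENNReal.ofReal_ne_top hp.lintegral_lt_top.ne
  have key : ∀ n : ℕ, ((n + 1 : ℕ) : ℝ≥0∞) * μ {x | ¬ gM μ p x < ∞} ≤ K := by
    intro n
    obtain ⟨R, hR0, hR⟩ := exists_radius μ (∫ x, p x ∂μ)
    have hb := vitali_bound (μ := μ) (fun x => ENNReal.ofReal (p x)) ((n + 1 : ℕ) : ℝ≥0∞)
      {z : E × ℝ | 0 < z.2 ∧ ((n + 1 : ℕ) : ℝ) < av μ p z.1 z.2} R (fun z hz => ⟨hz.1, ?_, ?_⟩)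
    · refine le_trans (mul_le_mul_right (measure_mono fun x hx => ?_) _) hb
      have : ENNReal.ofReal ((n + 1 : ℕ) : ℝ) < gM μ p x := by
        rw [top_le_iff.1 (not_lt.1 hx)]; exact ENNReal.ofReal_lt_top
      simp only [gM, lt_iSup_iff] at this
      obtain ⟨c, r, h1, h2⟩ := this
      have hr := pos_of_mem_ball h1
      exact mem_biUnion (x := (c, r)) ⟨hr, (ENNReal.ofReal_lt_ofReal_iff'.1 h2).1⟩
        (ball_subset_ball (by simp only; linarith) h1)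
    · by_contra hc
      have h1 := (lt_av_iff p z.1 hz.1 _).1 hz.2
      have h2 : ∫ x in ball z.1 z.2, p x ∂μ ≤ ∫ x, p x ∂μ :=
        setIntegral_le_integral hp (Eventually.of_forall h0)
      have h3 : μ.real (ball (0 : E) R) ≤ μ.real (ball z.1 z.2) := by
        rw [Measure.addHaar_real_ball_center μ z.1]
        exact measureReal_mono (ball_subset_ball (not_le.1 hc).le) measure_ball_lt_top.ne
      have h4 : (1 : ℝ) ≤ ((n + 1 : ℕ) : ℝ) := by exact_mod_cast Nat.succ_pos n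
      have h5 : 0 ≤ μ.real (ball z.1 z.2) := measureReal_nonneg
      nlinarith
    · rw [← av_mul h0 hp z.1 hz.1, ← ENNReal.ofReal_natCast]
      gcongr
      exact hz.2.le
  rw [ae_iff]
  by_contra hc
  obtain ⟨n, hn⟩ := ENNReal.exists_nat_mul_gt hc hKf
  refine absurd (key n) (not_le.2 (hn.trans_le ?_))
  gcongr
  exact Nat.le_succ n

lemma exc_toReal_le {a b : ℝ≥0∞} (ha : a < ∞) (hb : b < ∞) (c : ℝ≥0∞) :
    ‖a.toReal - b.toReal‖ₑ - c ≤ (a - (b + c)) + (b - (a + c)) := by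
  lift a to NNReal using ha.ne
  lift b to NNReal using hb.ne
  rcases le_total a b with h | h
  · refine le_trans (le_of_eq ?_) le_add_self
    rw [← tsub_tsub, enorm_sub_rev, ENNReal.coe_toReal, ENNReal.coe_toReal, ← NNReal.coe_sub h,
      ← ENNReal.coe_sub, NNReal.enorm_eq]
  · refine le_trans (le_of_eq ?_) le_self_add
    rw [← tsub_tsub, ENNReal.coe_toReal, ENNReal.coe_toReal, ← NNReal.coe_sub h,
      ← ENNReal.coe_sub, NNReal.enorm_eq]

lemma two_sided {g : E → ℝ≥0∞} (hg : Measurable g) (hf : ∀ᵐ x ∂μ, g x < ∞) (Λ : ℝ) (K : ℝ)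
    (hK : 0 ≤ K)
    (h : ∀ v, ∫⁻ x, (g (x - v) - (g x + ENNReal.ofReal (Λ * ‖v‖))) ∂μ ≤ ENNReal.ofReal (K * ‖v‖))
    (v : E) : ∫⁻ x, exc (fun x => (g x).toReal) Λ v x ∂μ ≤ ENNReal.ofReal (2 * K * ‖v‖) := by
  have hf' : ∀ᵐ x ∂μ, g (x + v) < ∞ := (measurePreserving_add_right μ v).quasiMeasurePreserving.ae hf
  have h1 := h (-v)
  have h2 := h v
  rw [← lintegral_add_right_eq_self _ v] at h2
  simp only [sub_neg_eq_add, norm_neg, add_sub_cancel_right] at h1 h2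
  have hm : Measurable fun x => g (x + v) - (g x + ENNReal.ofReal (Λ * ‖v‖)) :=
    (hg.comp (measurable_add_const v)).sub (hg.add measurable_const)
  calc _ ≤ ∫⁻ x, ((g (x + v) - (g x + ENNReal.ofReal (Λ * ‖v‖))) +
        (g x - (g (x + v) + ENNReal.ofReal (Λ * ‖v‖)))) ∂μ := by
        refine lintegral_mono_ae ?_
        filter_upwards [hf, hf'] with x a1 a2
        exact exc_toReal_le a2 a1 _
    _ ≤ ENNReal.ofReal (K * ‖v‖) + ENNReal.ofReal (K * ‖v‖) := by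
        rw [lintegral_add_left hm]; exact add_le_add h1 h2
    _ = _ := by rw [← ENNReal.ofReal_add (by positivity) (by positivity)]; congr 1; ring

end Vale.Agent.P137
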