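import Mathlib.MeasureTheory.Measure.Lebesgue.EqHaar
import Mathlib.MeasureTheory.Measure.Haar.Unique
import Mathlib.MeasureTheory.Integral.Prod
import Mathlib.MeasureTheory.Group.Integral
import Mathlib.MeasureTheory.Integral.Bochner.Set

open MeasureTheory Metric Set Filter
open scoped ENNReal Topology

set_option linter.unusedSectionVars false

namespace Vale.Agent.P137

variable {E : Type*} [NormedAddCommGroup E] [NormedSpace ℝ E] [FiniteDimensional ℝ E]
  [MeasurableSpace E] [BorelSpace E] (μ : Measure E) [μ.IsAddHaarMeasure]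

/-- three point defect -/
def om (p : E → ℝ) (b u : E) : ℝ :=
  |p b - p (b - u)| + |p (b + u) - p b| - |p (b + u) - p (b - u)|

/-- integrated defect -/
noncomputable def W (p : E → ℝ) (ρ : ℝ) (b : E) : ℝ := ∫ u in ball (0 : E) ρ, om p b u ∂μ

/-- modulus of continuity in mean -/
noncomputable def V (p : E → ℝ) (u : E) : ℝ := ∫ x, |p (x + u) - p x| ∂μ

omit [NormedSpace ℝ E] [FiniteDimensional ℝ E] [MeasurableSpace E] [BorelSpace E] in
lemma om_nonneg (p : E → ℝ) (b u : E) : 0 ≤ om p b u := by
  unfold om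
  have := abs_sub_le (p (b + u)) (p b) (p (b - u))
  linarith

omit [NormedSpace ℝ E] [FiniteDimensional ℝ E] [MeasurableSpace E] [BorelSpace E] in
lemma om_max (p : E → ℝ) (b u : E) : p b - max (p (b - u)) (p (b + u)) ≤ om p b u := by
  unfold om
  rcases le_total (p (b - u)) (p (b + u)) with h | h
  · rw [max_eq_right h, abs_of_nonneg (sub_nonneg.2 h)]
    have h1 := le_abs_self (p b - p (b - u))
    have h2 := neg_abs_le (p (b + u) - p b)
    have h3 := abs_nonneg (p (b + u) - p b)
    linarith
  · rw [max_eq_left h, abs_of_nonpos (sub_nonpos.2 h)]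
    have h1 := abs_nonneg (p b - p (b - u))
    have h2 := neg_abs_le (p (b + u) - p b)
    have h3 := le_abs_self (p b - p (b - u))
    linarith

omit [NormedSpace ℝ E] [FiniteDimensional ℝ E] [MeasurableSpace E] [BorelSpace E] in
lemma om_min (p : E → ℝ) (b u : E) : min (p (b - u)) (p (b + u)) - p b ≤ om p b u := by
  unfold om
  rcases le_total (p (b - u)) (p (b + u)) with h | h
  · rw [min_eq_left h, abs_of_nonneg (sub_nonneg.2 h)]
    have h1 := neg_abs_le (p b - p (b - u))
    have h2 := le_abs_self (p (b + u) - p b)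
    have h3 := abs_nonneg (p b - p (b - u))
    linarith
  · rw [min_eq_right h, abs_of_nonpos (sub_nonpos.2 h)]
    have h1 := neg_abs_le (p b - p (b - u))
    have h2 := le_abs_self (p (b + u) - p b)
    have h3 := abs_nonneg (p (b + u) - p b)
    linarith

variable {μ}

lemma om_integrableOn {p : E → ℝ} (hp : Integrable p μ) (b : E) (ρ : ℝ) :
    IntegrableOn (fun u => om p b u) (ball (0 : E) ρ) μ := by
  have hc : IntegrableOn (fun _ : E => p b) (ball (0 : E) ρ) μ :=
    integrableOn_const measure_ball_lt_top.ne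
  have h1 : IntegrableOn (fun u => p (b - u)) (ball (0 : E) ρ) μ :=
    (hp.comp_sub_left b).integrableOn
  have h2 : IntegrableOn (fun u => p (b + u)) (ball (0 : E) ρ) μ :=
    (hp.comp_add_left b).integrableOn
  exact ((hc.sub h1).abs.add (h2.sub hc).abs).sub (h2.sub h1).abs

lemma W_nonneg (p : E → ℝ) (ρ : ℝ) (b : E) : 0 ≤ W μ p ρ b :=
  integral_nonneg fun u => om_nonneg p b u

lemma shift_integrable_prod {p : E → ℝ} (hm : Measurable p) (hp : Integrable p μ) (ρ : ℝ)
    (s : E → E) (hs : Measurable s) :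
    Integrable (fun z : E × E => p (z.1 + s z.2)) (μ.prod (μ.restrict (ball (0 : E) ρ))) := by
  have hmeas : Measurable (fun z : E × E => p (z.1 + s z.2)) :=
    hm.comp (measurable_fst.add (hs.comp measurable_snd))
  rw [integrable_prod_iff' hmeas.aestronglyMeasurable]
  refine ⟨Eventually.of_forall fun u => hp.comp_add_right (s u), ?_⟩
  have : (fun u : E => ∫ x, ‖p (x + s u)‖ ∂μ) = fun _ => ∫ x, ‖p x‖ ∂μ := by
    funext u
    exact integral_add_right_eq_self (fun x => ‖p x‖) (s u)
  rw [this]
  exact integrableOn_const (s := ball (0 : E) ρ) measure_ball_lt_top.ne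

lemma om_integrable_prod {p : E → ℝ} (hm : Measurable p) (hp : Integrable p μ) (ρ : ℝ) :
    Integrable (fun z : E × E => om p z.1 z.2) (μ.prod (μ.restrict (ball (0 : E) ρ))) := by
  have h0 := shift_integrable_prod hm hp ρ (fun _ => 0) measurable_const
  have h1 := shift_integrable_prod hm hp ρ (fun u => -u) measurable_neg
  have h2 := shift_integrable_prod hm hp ρ (fun u => u) measurable_id
  simp only [add_zero, ← sub_eq_add_neg] at h0 h1
  exact ((h0.sub h1).abs.add (h2.sub h0).abs).sub (h2.sub h1).abs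

lemma W_integrable {p : E → ℝ} (hm : Measurable p) (hp : Integrable p μ) (ρ : ℝ) :
    Integrable (W μ p ρ) μ :=
  (om_integrable_prod hm hp ρ).integral_prod_left

lemma V_nonneg (p : E → ℝ) (u : E) : 0 ≤ V μ p u := integral_nonneg fun _ => abs_nonneg _

lemma integral_om {p : E → ℝ} (hp : Integrable p μ) (u : E) :
    ∫ b, om p b u ∂μ = 2 * V μ p u - V μ p ((2 : ℝ) • u) := by
  have h1 : Integrable (fun b => p (b - u)) μ := hp.comp_sub_right u
  have h2 : Integrable (fun b => p (b + u)) μ := hp.comp_add_right u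
  have i1 : Integrable (fun b => |p b - p (b - u)|) μ := (hp.sub h1).abs
  have i2 : Integrable (fun b => |p (b + u) - p b|) μ := (h2.sub hp).abs
  have i3 : Integrable (fun b => |p (b + u) - p (b - u)|) μ := (h2.sub h1).abs
  have i4 : Integrable (fun b => |p b - p (b - u)| + |p (b + u) - p b|) μ := i1.add i2
  unfold om
  rw [integral_sub i4 i3, integral_add i1 i2]
  have e1 : ∫ b, |p b - p (b - u)| ∂μ = V μ p u := by
    unfold V
    rw [← integral_add_right_eq_self (fun b => |p b - p (b - u)|) u]
    simp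
  have e2 : ∫ b, |p (b + u) - p (b - u)| ∂μ = V μ p ((2 : ℝ) • u) := by
    unfold V
    rw [← integral_add_right_eq_self (fun b => |p (b + u) - p (b - u)|) u]
    simp [two_smul, add_assoc]
  rw [e1, e2]
  unfold V
  ring

lemma integral_W {p : E → ℝ} (hm : Measurable p) (hp : Integrable p μ) (ρ : ℝ) :
    ∫ b, W μ p ρ b ∂μ = ∫ u in ball (0 : E) ρ, (2 * V μ p u - V μ p ((2 : ℝ) • u)) ∂μ := by
  unfold W
  rw [integral_integral_swap (om_integrable_prod hm hp ρ)]
  simp only [integral_om hp]

lemma V_measurable {p : E → ℝ} (hm : Measurable p) : Measurable (V μ p) := by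
  have : Measurable (fun z : E × E => |p (z.2 + z.1) - p z.2|) :=
    continuous_abs.measurable.comp
      ((hm.comp (measurable_snd.add measurable_fst)).sub (hm.comp measurable_snd))
  exact (this.stronglyMeasurable.integral_prod_right'
    (ν := μ) (f := fun z : E × E => |p (z.2 + z.1) - p z.2|)).measurable

lemma real_ball (x : E) {r : ℝ} (hr : 0 < r) :
    μ.real (ball x r) = r ^ Module.finrank ℝ E * μ.real (ball (0 : E) 1) := by
  rw [measureReal_def, Measure.addHaar_ball_of_pos μ x hr, ENNReal.toReal_mul,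
    ENNReal.toReal_ofReal (by positivity), measureReal_def]

lemma real_ball_pos (x : E) {r : ℝ} (hr : 0 < r) : 0 < μ.real (ball x r) :=
  ENNReal.toReal_pos (measure_ball_pos μ x hr).ne' measure_ball_lt_top.ne

lemma real_ball_mul (x y : E) {r s : ℝ} (hr : 0 < r) (hs : 0 < s) :
    μ.real (ball x (s * r)) = s ^ Module.finrank ℝ E * μ.real (ball y r) := by
  rw [real_ball x (mul_pos hs hr), real_ball y hr, mul_pow, mul_assoc]

end Vale.Agent.P137
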