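import Vale.Agent.P137.CLev

open MeasureTheory Metric Set Filter
open scoped ENNReal Topology RealInnerProductSpace

set_option linter.unusedSectionVars false

namespace Vale.Agent.P137

variable {E : Type} [NormedAddCommGroup E] [InnerProductSpace ℝ E] [FiniteDimensional ℝ E]
  [MeasurableSpace E] [BorelSpace E] {μ : Measure E} [μ.IsAddHaarMeasure]
  {A ι : Type} [Countable ι] [Fintype A] {G N₀ : ℕ} {h ε δ : ℝ} {gr : Grid E A ι G N₀ h}
  {νs b : ℕ → E → E} {g : ℕ → E → ℝ}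

lemma Dec.tele {n : ℕ} (D : Dec μ gr ε δ n νs b g) {i j : ℕ} (hij : i ≤ j) (hj : j ≤ n) (y : E) :
    νs j y = νs i y + ∑ l ∈ Finset.Ico i j, b l y := by
  induction j, hij using Nat.le_induction with
  | base => simp
  | succ j hij ih =>
    rw [Finset.sum_Ico_succ_top hij, ← add_assoc, ← ih (by omega), D.eq j hj, sub_add_cancel]

lemma Grid.ball_sub {j : ℕ} {m : ι} {x y : E} {C C' t : ℝ} (hx : x ∈ gr.nb j m C)
    (hy : ‖y - x‖ ≤ t) (ht : C * sc h j + t ≤ C' * sc h j) : y ∈ gr.nb j m C' := by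
  obtain ⟨z, h1, h2⟩ := gr.mem_nb.1 hx
  refine gr.mem_nb.2 ⟨z, h1, ?_⟩
  rw [← dist_eq_norm] at hy
  linarith [dist_triangle y x z]

lemma item_hyp (hh : 0 < h) {i l n : ℕ} {m : ι} {b : E → E} {g : E → ℝ}
    (hc : Cls μ (13 * sc h l) b g) (hn : i + 3 ≤ n) {x : E} (hx : x ∈ gr.nb i m 3) {Λ : ℝ}
    {K : E → E} (a1 : 0 ≤ Λ) (a2 : ∀ y z, ‖K y - K z‖ ≤ Λ * ‖y - z‖)
    (a3 : ∀ y, 4 * sc h (i + 1) < ‖y - x‖ → K y = 0) :
    |∫ y, ⟪b y, K y⟫ ∂μ| ≤ ∫ y, crs ((gr.nb i m 6).indicator g) (fun _ => l) n y * ‖K y‖ ∂μ +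
      Λ * ∫ y, fin' G h ((gr.nb i m 6).indicator g) (fun _ => l) n y ∂μ := by
  have hK := lipK a1 a2 a3
  have hi := hc.2.2.1.indicator (gr.nb_meas i m 6)
  have s1 := sc_succ h i
  have s2 := sc_pos hh (i + 1)
  by_cases hl : l < n
  · simp only [crs, fin', if_pos hl, if_neg (not_le.2 hl), integral_zero, mul_zero, add_zero]
    rw [← Real.norm_eq_abs]
    refine norm_integral_le_of_norm_le (lipK_int' hK hi) (Eventually.of_forall fun y => ?_)
    by_cases hy : ‖y - x‖ ≤ 4 * sc h (i + 1)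
    · rw [indicator_of_mem (Grid.ball_sub hx hy (by linarith))]
      exact (norm_inner_le_norm _ _).trans
        (mul_le_mul_of_nonneg_right (hc.2.2.2.1 y) (norm_nonneg _))
    · simp [a3 y (not_le.1 hy)]
  · simp only [crs, fin', if_neg hl, if_pos (not_lt.1 hl), integral_zero, zero_mul, zero_add,
      integral_mul_const]
    refine (hc.2.2.2.2 Λ K x _ a1 a2 a3).trans ?_
    have s3 := sc_pos hh l
    have s4 := (sc_anti hh).antitone (show i + 3 ≤ l by omega)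
    have s5 := sc_add h i 3
    have s6 : (13 : ℝ) ≤ 3 ^ (G + 4) :=
      le_trans (by norm_num) (pow_le_pow_right₀ (by norm_num) (show 4 ≤ G + 4 by omega))
    rw [integral_indicator (gr.nb_meas i m 6), mul_assoc, mul_comm (13 * _)]
    gcongr
    · exact integral_nonneg hc.nonneg
    · exact Eventually.of_forall hc.nonneg
    · exact hc.2.2.1.integrableOn
    · exact fun y hy => Grid.ball_sub hx (mem_closedBall_iff_norm.1 hy) (by linarith)

variable (μ A ι G N₀) in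
theorem build : ∃ C : ℝ, 0 ≤ C ∧ ∀ (h ε δ : ℝ) (gr : Grid E A ι G N₀ h) (N i : ℕ) (m : ι)
    (νs b : ℕ → E → E) (g : ℕ → E → ℝ) (c : E → E) (e : E) (dp : E → ℕ) (ρ₁ ρ₂ : E → ℝ) (x₀ : E),
    0 < h → Dec μ gr ε δ (N + 1) νs b g → i ≤ N → gr.idx gr.a0 i x₀ = m →
    Integrable c μ → Measurable c → Measurable dp → ‖e‖ = 1 → (∀ y, 9 / 10 * ‖c y‖ ≤ ⟪e, c y⟫) →
    (∀ x z, ρ₁ x ≤ ρ₁ z + ‖x - z‖ / 2) → (∀ x z, ρ₂ x ≤ ρ₂ z + ‖x - z‖ / 2) →
    (∀ (n : ℕ) (Λ : ℝ) (K : E → E), i + (G + 30) ≤ n → 0 ≤ Λ → (∀ y z, ‖K y - K z‖ ≤ Λ * ‖y - z‖) →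
      (∃ M, ∀ y, ‖K y‖ ≤ M) → ∫ y, (if n ≤ dp y then
        (gr.nb i m 6).indicator (fun y => ‖νs i y - c y‖) y * ‖K y‖ else 0) ∂μ ≤
      1 / 1000 * ∫ y, ‖c y‖ * ‖K y‖ ∂μ +
        Λ * ∫ y, fin' G h ((gr.nb i m 6).indicator fun y => ‖νs i y - c y‖) dp n y ∂μ) →
    ∃ Err : E → ℝ≥0∞, Measurable Err ∧ ∫⁻ x, Err x ∂μ ≤ ENNReal.ofReal C *
      μ (ball (0 : E) (sc h (i + 1))) *
        (∫⁻ y in gr.nb i m 6, ‖νs i y - c y‖ₑ * Dw G (dp y - i) ∂μ + ∑ l ∈ Finset.Ico i (N + 1),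
          Dw G (l - i) * ∫⁻ y in gr.nb i m 6, ENNReal.ofReal (g l y) ∂μ) ∧
      ∀ (A : E → ℝ → ℝ) (x : E) (r t : ℝ), x ∈ gr.nb i m 3 → sc h (i + 1) ≤ r →
        r ≤ sc h i → ρ₁ x ≤ r → r ≤ ρ₂ x → ρ₂ x ≤ t → St μ A (νs (N + 1)) x t →
        (∀ t, ρ₁ x ≤ t → t ≤ ρ₂ x → A x t ≤ A x r) →
        ENNReal.ofReal (‖aa μ (νs (N + 1)) x r‖ - 250 * (⟪e, aa μ (νs (N + 1)) x r⟫ +
          1 / 2 * ps μ (νs (N + 1)) x r / r)) ≤ Err x ∧
        ENNReal.ofReal (‖aa μ (νs (N + 1)) x r‖ - 10 * ∫ y, ‖c y‖ ∂μ) ≤ Err x := by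
  obtain ⟨C, C0, hC⟩ := lemC' (μ := μ)
  refine ⟨C, C0, fun h ε δ gr N i m νs b g c e dp ρ₁ ρ₂ x₀ hh D hi hx₀ hc mc md he al l1 l2 hA => ?_⟩
  have mL := gr.nb_meas i m 6
  set o := (gr.nb i m 6).indicator fun y => ‖νs i y - c y‖ with ho
  have i0 : Integrable (fun y => νs i y - c y) μ := (D.int i (by omega)).sub hc
  have io : Integrable o μ := i0.norm.indicator mL
  have o0 : ∀ y, 0 ≤ o y := fun y => indicator_nonneg (fun _ _ => norm_nonneg _) y
  have cl : ∀ l ∈ Finset.Ico i (N + 1), Cls μ (13 * sc h l) (b l) (g l) := fun l hl =>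
    D.cls l (Finset.mem_Ico.1 hl).2
  obtain ⟨Err, h1, h2, h3⟩ := hC G i h x₀ (νs (N + 1)) c e (Finset.insertNone (Finset.Ico i (N + 1)))
    (fun l => l.elim o fun l => (gr.nb i m 6).indicator (g l)) (fun l => l.elim dp fun l _ => l)
    ρ₁ ρ₂ hh (D.int _ le_rfl) hc mc
    (by
      rintro (_ | l) hl
      exacts [io, (cl l (Finset.some_mem_insertNone.1 hl)).2.2.1.indicator mL])
    (by
      rintro (_ | l) hl
      exacts [((D.meas i (by omega)).sub mc).norm.indicator mL,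
        (cl l (Finset.some_mem_insertNone.1 hl)).2.1.indicator mL])
    (by
      rintro (_ | l) hl y
      exacts [o0 y, indicator_nonneg (fun y _ => (cl l (Finset.some_mem_insertNone.1 hl)).nonneg y) y])
    (by
      rintro (_ | l)
      exacts [md, measurable_const]) he al l1 l2
  refine ⟨Err, h1, h2.trans (le_of_eq ?_), fun A' x r t hx r1 r2 r3 r4 r5 hSt hopt =>
    h3 A' x r t ?_ r1 (by rwa [← sc_succ]) r3 r4 r5 hSt (fun n Λ K a1 a2 a3 => ?_) hopt⟩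
  · simp only [Finset.sum_insertNone, Option.elim]
    congr 2
    · rw [← lintegral_indicator mL]
      refine lintegral_congr fun y => ?_
      by_cases hy : y ∈ gr.nb i m 6 <;> simp [ho, hy]
    · refine Finset.sum_congr rfl fun l hl => ?_
      rw [← lintegral_indicator mL, ← lintegral_const_mul _
        ((cl l hl).2.1.ennreal_ofReal.indicator mL)]
      refine lintegral_congr fun y => ?_
      by_cases hy : y ∈ gr.nb i m 6 <;> simp [hy, mul_comm]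
  · have := gr.nb_diam hx (gr.mem_nb.2 ⟨x₀, hx₀, by rw [dist_self]; linarith [sc_pos hh i]⟩)
    obtain ⟨z, z1, z2⟩ := gr.mem_nb.1 hx
    have := gr.diam _ _ _ _ (z1.trans hx₀.symm)
    rw [mem_ball]
    linarith [dist_triangle x z x₀, sc_succ h i, sc_pos hh (i + 1)]
  have hK := lipK a1 a2 a3
  have s1 := sc_succ h i
  have s2 := sc_pos hh (i + 1)
  have e1 : ∫ y, ⟪νs (N + 1) y, K y⟫ ∂μ - ∫ y, ⟪c y, K y⟫ ∂μ = ∫ y, ⟪νs i y - c y, K y⟫ ∂μ +
      ∑ l ∈ Finset.Ico i (N + 1), ∫ y, ⟪b l y, K y⟫ ∂μ := by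
    rw [← integral_sub (lipK_int hK (D.int _ le_rfl)) (lipK_int hK hc),
      ← integral_finsetSum _ fun l hl => lipK_int hK (cl l hl).int, ← integral_add (lipK_int hK i0)
        (integrable_finsetSum _ fun l hl => lipK_int hK (cl l hl).int)]
    refine integral_congr_ae (Eventually.of_forall fun y => ?_)
    simp only [D.tele (show i ≤ N + 1 by omega) le_rfl y, inner_add_left, inner_sub_left, sum_inner]
    ring
  have i1 := lipK_int' hK (crs_int io md (i + nn G n))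
  have i2 : Integrable (fun y => if i + nn G n ≤ dp y then o y * ‖K y‖ else 0) μ :=
    (lipK_int' hK io).indicator (md (MeasurableSet.of_discrete (s := {j | i + nn G n ≤ j})))
      |>.congr (Eventually.of_forall fun y => by simp [indicator])
  have e2 : |∫ y, ⟪νs i y - c y, K y⟫ ∂μ| ≤ ∫ y, crs o dp (i + nn G n) y * ‖K y‖ ∂μ +
      ∫ y, (if i + nn G n ≤ dp y then o y * ‖K y‖ else 0) ∂μ := by
    rw [← integral_add i1 i2, ← Real.norm_eq_abs]
    refine norm_integral_le_of_norm_le (i1.add i2) (Eventually.of_forall fun y => ?_)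
    have : ‖⟪νs i y - c y, K y⟫‖ ≤ o y * ‖K y‖ := by
      by_cases hy : ‖y - x‖ ≤ 4 * sc h (i + 1)
      · rw [ho, indicator_of_mem (Grid.ball_sub hx hy (by linarith))]
        exact norm_inner_le_norm _ _
      · simp [a3 y (not_le.1 hy)]
    refine this.trans (le_of_eq ?_)
    by_cases hy : dp y < i + nn G n
    · simp [crs, hy, not_le.2 hy]
    · simp [crs, hy, not_lt.1 hy]
  have e3 := hA (i + nn G n) Λ K (by unfold nn; omega) a1 a2 hK.2
  have e4 := (Finset.abs_sum_le_sum_abs _ _).trans (Finset.sum_le_sum fun l hl =>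
    item_hyp (G := G) hh (cl l hl) (n := i + nn G n) (by unfold nn; omega) hx a1 a2 a3)
  have i3 := fun l hl => lipK_int' hK (crs_int ((cl l hl).2.2.1.indicator mL)
    (measurable_const (a := l)) (i + nn G n))
  simp only [Finset.sum_insertNone, Option.elim, add_mul, Finset.sum_mul]
  rw [e1, integral_add i1 (integrable_finsetSum _ i3), integral_finsetSum _ i3]
  rw [Finset.sum_add_distrib, ← Finset.mul_sum] at e4
  linarith [abs_add_le (∫ y, ⟪νs i y - c y, K y⟫ ∂μ)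
    (∑ l ∈ Finset.Ico i (N + 1), ∫ y, ⟪b l y, K y⟫ ∂μ)]

end Vale.Agent.P137
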