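import Vale.Agent.P137.CPt2
import Vale.Agent.P137.Basic
import Mathlib.MeasureTheory.Integral.IntervalIntegral.FundThmCalculus
import Mathlib.Analysis.Calculus.Deriv.Shift

open MeasureTheory Metric Set Filter
open scoped ENNReal Topology RealInnerProductSpace

set_option linter.unusedSectionVars false

namespace Vale.Agent.P137

/-- radial weight -/
noncomputable def wd (n : ℕ) (a t : ℝ) : ℝ := ((max t a) ^ n)⁻¹

/-- radial cutoff -/
noncomputable def th (n : ℕ) (a b s : ℝ) : ℝ :=
  (∫ t in Ioc a b, if s < t then wd n a t else 0) / ∫ t in Ioc a b, wd n a t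

section
variable {n : ℕ} {a b : ℝ}

lemma wd_pos (ha : 0 < a) (t : ℝ) : 0 < wd n a t :=
  inv_pos.2 (pow_pos (ha.trans_le (le_max_right _ _)) _)

lemma wd_le (ha : 0 < a) (t : ℝ) : wd n a t ≤ (a ^ n)⁻¹ := by
  unfold wd
  gcongr
  exact le_max_right _ _

lemma wd_meas : Measurable (wd n a) := by unfold wd; fun_prop

lemma wd_int (ha : 0 < a) {p : ℝ → Prop} [DecidablePred p] (hp : MeasurableSet {t | p t}) :
    IntegrableOn (fun t => if p t then wd n a t else 0) (Ioc a b) :=
  Measure.integrableOn_of_bounded (M := (a ^ n)⁻¹) measure_Ioc_lt_top.ne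
    (Measurable.ite hp wd_meas measurable_const).aestronglyMeasurable
    (Eventually.of_forall fun t => by
      split_ifs
      · rw [Real.norm_of_nonneg (wd_pos ha t).le]; exact wd_le ha t
      · simp only [norm_zero]; positivity)

lemma wd_int' (ha : 0 < a) : IntegrableOn (wd n a) (Ioc a b) := by
  simpa using wd_int (n := n) (b := b) ha (p := fun _ => True) (by simp)

lemma den_ge (ha : 0 < a) (hab : a < b) : (b - a) * (b ^ n)⁻¹ ≤ ∫ t in Ioc a b, wd n a t := by
  have := setIntegral_mono_on (μ := volume) (s := Ioc a b) (f := fun _ => (b ^ n)⁻¹)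
    (integrableOn_const measure_Ioc_lt_top.ne) (wd_int' (n := n) ha) measurableSet_Ioc
    fun t ht => by
      rw [wd, max_eq_left ht.1.le]
      gcongr
      exacts [pow_pos (ha.trans ht.1) _, (ha.trans ht.1).le, ht.2]
  rwa [setIntegral_const, Real.volume_real_Ioc_of_le hab.le, smul_eq_mul] at this

lemma den_pos (ha : 0 < a) (hab : a < b) : 0 < ∫ t in Ioc a b, wd n a t :=
  lt_of_lt_of_le (mul_pos (sub_pos.2 hab) (inv_pos.2 (pow_pos (ha.trans hab) _))) (den_ge ha hab)

lemma th_nonneg (ha : 0 < a) (hab : a < b) (s : ℝ) : 0 ≤ th n a b s :=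
  div_nonneg (integral_nonneg fun t => by
    dsimp only
    split_ifs
    exacts [(wd_pos ha t).le, le_rfl]) (den_pos ha hab).le

lemma th_le_one (ha : 0 < a) (hab : a < b) (s : ℝ) : th n a b s ≤ 1 :=
  (div_le_one (den_pos ha hab)).2 (integral_mono (wd_int ha measurableSet_Ioi) (wd_int' ha)
    fun t => by
      dsimp only
      split_ifs
      exacts [le_rfl, (wd_pos ha t).le])

lemma th_one (ha : 0 < a) (hab : a < b) {s : ℝ} (h : s ≤ a) : th n a b s = 1 := by
  rw [th, div_eq_one_iff_eq (den_pos ha hab).ne']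
  exact setIntegral_congr_fun measurableSet_Ioc fun t ht => if_pos (h.trans_lt ht.1)

lemma th_zero {s : ℝ} (h : b ≤ s) : th n a b s = 0 := by
  rw [th, setIntegral_congr_fun (g := fun _ => 0) measurableSet_Ioc
    fun t ht => if_neg (not_lt.2 (ht.2.trans h))]
  simp

lemma th_lip (ha : 0 < a) (hab : a < b) (h2 : b ≤ 2 * a) (s s' : ℝ) :
    |th n a b s - th n a b s'| ≤ 2 ^ n / (b - a) * |s - s'| := by
  wlog h : s ≤ s' generalizing s s'
  · rw [abs_sub_comm, abs_sub_comm s]; exact this s' s (not_le.1 h).le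
  have hd := den_pos (n := n) ha hab
  rw [th, th, ← sub_div, abs_div, abs_of_pos hd, div_le_iff₀ hd,
    ← integral_sub (wd_int ha measurableSet_Ioi) (wd_int ha measurableSet_Ioi)]
  have hi : Integrable ((Ioc s s').indicator fun _ => (a ^ n)⁻¹) :=
    (integrableOn_const measure_Ioc_lt_top.ne).integrable_indicator measurableSet_Ioc
  have hb : 0 < b := ha.trans hab
  have hba : 0 < b - a := sub_pos.2 hab
  calc _ ≤ ∫ t in Ioc a b, (Ioc s s').indicator (fun _ => (a ^ n)⁻¹) t := by
        rw [← Real.norm_eq_abs]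
        refine norm_integral_le_of_norm_le hi.integrableOn (Eventually.of_forall fun t => ?_)
        by_cases h1 : s < t
        · by_cases h3 : s' < t
          · simp only [h1, h3, if_true, sub_self, norm_zero]
            exact indicator_nonneg (fun _ _ => by positivity) t
          · rw [if_pos h1, if_neg h3, sub_zero, indicator_of_mem (show t ∈ Ioc s s' from
              ⟨h1, not_lt.1 h3⟩), Real.norm_of_nonneg (wd_pos ha t).le]
            exact wd_le ha t
        · rw [if_neg h1, if_neg (fun h3 => h1 (h.trans_lt h3)), sub_self, norm_zero]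
          exact indicator_nonneg (fun _ _ => by positivity) t
    _ ≤ ∫ t, (Ioc s s').indicator (fun _ => (a ^ n)⁻¹) t := setIntegral_le_integral hi
        (Eventually.of_forall fun t => indicator_nonneg (fun _ _ => by positivity) t)
    _ = (s' - s) * (a ^ n)⁻¹ := by
        rw [integral_indicator measurableSet_Ioc, setIntegral_const,
          Real.volume_real_Ioc_of_le h, smul_eq_mul]
    _ ≤ 2 ^ n / (b - a) * |s - s'| * ((b - a) * (b ^ n)⁻¹) := by
        rw [abs_sub_comm, abs_of_nonneg (sub_nonneg.2 h)]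
        have h3 : b ^ n ≤ 2 ^ n * a ^ n := by rw [← mul_pow]; gcongr
        have h4 : (a ^ n)⁻¹ ≤ 2 ^ n * (b ^ n)⁻¹ := by
          rw [inv_le_iff_one_le_mul₀' (by positivity), ← mul_assoc, ← div_eq_mul_inv,
            one_le_div (by positivity)]
          linarith
        calc _ ≤ (s' - s) * (2 ^ n * (b ^ n)⁻¹) := by gcongr
          _ = _ := by field_simp
    _ ≤ _ := by gcongr; exact den_ge ha hab

end

variable {E : Type*} [NormedAddCommGroup E] [InnerProductSpace ℝ E] [FiniteDimensional ℝ E]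
  [MeasurableSpace E] [BorelSpace E]

/-- vector integral over a ball -/
noncomputable def aa (μ : Measure E) (ν : E → E) (x : E) (r : ℝ) : E := ∫ y in ball x r, ν y ∂μ

/-- radial moment over a ball -/
noncomputable def ps (μ : Measure E) (ν : E → E) (x : E) (r : ℝ) : ℝ :=
  ∫ y in ball x r, ⟪ν y, y - x⟫ ∂μ

/-- structural identities at a point -/
def St (μ : Measure E) (A : E → ℝ → ℝ) (ν : E → E) (x : E) (s : ℝ) : Prop :=
  (∀ r, 0 < r → r ≤ s → ∀ (e : E) (κ : ℝ), HasDerivAt (fun t : ℝ => A (x + t • e) (r + κ * t))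
    ((⟪e, aa μ ν x r⟫ + κ * ps μ ν x r / r) / μ.real (ball (0 : E) r)) 0) ∧
  ∀ r, 0 < r → r ≤ s → ∀ u v : E,
    ∫ y in ball x r, ⟪ν y, ⟪y - x, v⟫ • u - ⟪y - x, u⟫ • v⟫ ∂μ = 0

/-- kernel hypothesis -/
def Hyp (μ : Measure E) (ν c : E → E) (g : E → ℝ) (σ : ℝ) (x : E) (ρ : ℝ) : Prop :=
  ∀ (Λ : ℝ) (K : E → E), 0 ≤ Λ → (∀ y z, ‖K y - K z‖ ≤ Λ * ‖y - z‖) →
    (∀ y, ρ < ‖y - x‖ → K y = 0) → |∫ y, ⟪ν y, K y⟫ ∂μ - ∫ y, ⟪c y, K y⟫ ∂μ| ≤
      1 / 1000 * ∫ y, ‖c y‖ * ‖K y‖ ∂μ + ∫ y, g y * ‖K y‖ ∂μ + Λ * σ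

/-- normalized coordinate -/
noncomputable def zz (R : ℝ) (x y : E) : E := R⁻¹ • (y - x)

variable {μ : Measure E} [μ.IsAddHaarMeasure]

lemma zz_meas (R : ℝ) (x : E) : Measurable (zz R x) := by unfold zz; fun_prop

lemma norm_zz {R : ℝ} (hR : 0 < R) (x y : E) : R * ‖zz R x y‖ = ‖y - x‖ := by
  rw [zz, norm_smul, Real.norm_of_nonneg (by positivity)]; field_simp

lemma norm_zz_sub {R : ℝ} (hR : 0 < R) (x y z : E) : R * ‖zz R x y - zz R x z‖ = ‖y - z‖ := by
  rw [zz, zz, ← smul_sub, sub_sub_sub_cancel_right, norm_smul,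
    Real.norm_of_nonneg (by positivity)]; field_simp

lemma th_fubini {n : ℕ} {a b : ℝ} (ha : 0 < a) {x : E} {F : E → ℝ}
    (hF : IntegrableOn F (ball x b) μ) :
    IntegrableOn (fun t => wd n a t * ∫ y in ball x t, F y ∂μ) (Ioc a b) ∧
    ∫ y, th n a b ‖y - x‖ * F y ∂μ =
      (∫ t in Ioc a b, wd n a t * ∫ y in ball x t, F y ∂μ) / ∫ t in Ioc a b, wd n a t := by
  have hi : Integrable (fun w : E × ℝ => (if ‖w.1 - x‖ < w.2 then wd n a w.2 else 0) * F w.1)
      ((μ.restrict (ball x b)).prod (volume.restrict (Ioc a b))) :=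
    (hF.comp_fst _).bdd_mul (c := (a ^ n)⁻¹) (Measurable.ite (measurableSet_lt (by fun_prop)
      measurable_snd) (wd_meas.comp measurable_snd) measurable_const).aestronglyMeasurable
      (Eventually.of_forall fun w => by
        split_ifs
        · rw [Real.norm_of_nonneg (wd_pos ha _).le]; exact wd_le ha _
        · simp only [norm_zero]; positivity)
  have e1 : ∀ t ∈ Ioc a b, ∫ y in ball x b, (if ‖y - x‖ < t then wd n a t else 0) * F y ∂μ =
      wd n a t * ∫ y in ball x t, F y ∂μ := by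
    intro t ht
    rw [← integral_const_mul, ← inter_eq_self_of_subset_right (ball_subset_ball ht.2 (x := x)),
      ← setIntegral_indicator measurableSet_ball]
    refine integral_congr_ae (Eventually.of_forall fun y => ?_)
    simp only [indicator, mem_ball_iff_norm, ite_mul, zero_mul]
  refine ⟨IntegrableOn.congr_fun hi.integral_prod_right e1 measurableSet_Ioc, ?_⟩
  rw [← setIntegral_congr_fun measurableSet_Ioc e1, ← integral_integral_swap
    (f := fun y t => (if ‖y - x‖ < t then wd n a t else 0) * F y) hi, ← integral_div,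
    ← setIntegral_eq_integral_of_forall_compl_eq_zero (s := ball x b) fun y hy => by
      rw [th_zero (not_lt.1 (mt mem_ball_iff_norm.2 hy)), zero_mul]]
  refine integral_congr_ae (Eventually.of_forall fun y => ?_)
  simp only [th, integral_mul_const]
  ring

lemma inner_intOn {ν : E → E} (hν : Integrable ν μ) {l : E → E} (hl : Continuous l) (x : E)
    (r : ℝ) : IntegrableOn (fun y => ⟪ν y, l y⟫) (ball x r) μ := by
  obtain ⟨M, hM⟩ := (isCompact_closedBall x r).exists_bound_of_continuousOn hl.continuousOn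
  refine (hν.norm.integrableOn.mul_const M).mono' (hν.1.inner hl.aestronglyMeasurable).restrict
    (ae_restrict_of_forall_mem measurableSet_ball fun y hy => (norm_inner_le_norm _ _).trans ?_)
  gcongr
  exact hM y (ball_subset_closedBall hy)

lemma St.sym {A : E → ℝ → ℝ} {ν : E → E} {x : E} {s : ℝ} (h : St μ A ν x s) (hν : Integrable ν μ)
    {n : ℕ} {a b R : ℝ} (ha : 0 < a) (hb : b ≤ s) (hR : 0 < R) (u v : E) :
    pr μ (zz R x) ν (fun z => th n a b (R * ‖z‖)) (fun z => ⟪z, v⟫ • u - ⟪z, u⟫ • v) = 0 := by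
  have h1 := (th_fubini (n := n) (b := b) ha (inner_intOn hν
    (l := fun y => ⟪y - x, v⟫ • u - ⟪y - x, u⟫ • v) (by fun_prop) x b)).2
  rw [setIntegral_congr_fun (g := fun _ => 0) measurableSet_Ioc fun t ht => by
    simp only [h.2 t (ha.trans ht.1) (ht.2.trans hb) u v, mul_zero]] at h1
  simp only [integral_zero, zero_div] at h1
  simp only [pr, norm_zz hR]
  simp only [zz, real_inner_smul_left, mul_smul, ← smul_sub, real_inner_smul_right,
    mul_left_comm _ R⁻¹, integral_const_mul, h1, mul_zero]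

lemma St.opt {A : E → ℝ → ℝ} {ν : E → E} {x : E} {s : ℝ} (h : St μ A ν x s) (hν : Integrable ν μ)
    {a b R : ℝ} (ha : 0 < a) (hab : a < b) (hb : b ≤ s) (hR : 0 < R) : ∃ k, 0 < k ∧
    pr μ (zz R x) ν (fun z => th (Module.finrank ℝ E + 1) a b (R * ‖z‖)) (fun z => z) =
      k * (A x b - A x a) := by
  obtain ⟨h0, h1⟩ := th_fubini (n := Module.finrank ℝ E + 1) (b := b) ha (inner_intOn hν
    (l := fun y => y - x) (by fun_prop) x b)
  have hc := real_ball_pos (μ := μ) (0 : E) one_pos
  have h2 := intervalIntegral.integral_eq_sub_of_hasDerivAt (a := a) (b := b)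
    (f := fun t => μ.real (ball (0 : E) 1) * A x t)
    (f' := fun t => wd (Module.finrank ℝ E + 1) a t * ps μ ν x t) (fun t ht => by
      rw [uIcc_of_le hab.le] at ht
      have t0 := ha.trans_le ht.1
      have h3 := h.1 t t0 (ht.2.trans hb) 0 1
      rw [← sub_self t] at h3
      have h4 := (HasDerivAt.comp_sub_const t t h3).const_mul (μ.real (ball (0 : E) 1))
      simp only [smul_zero, add_zero, one_mul, add_sub_cancel, inner_zero_left, zero_add] at h4
      refine h4.congr_deriv ?_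
      rw [real_ball _ t0, wd, max_eq_left ht.1]
      field_simp
      ring) ((intervalIntegrable_iff_integrableOn_Ioc_of_le hab.le).2 h0)
  rw [intervalIntegral.integral_of_le hab.le] at h2
  have hd := den_pos (n := Module.finrank ℝ E + 1) ha hab
  refine ⟨R⁻¹ * μ.real (ball (0 : E) 1) / ∫ t in Ioc a b, wd (Module.finrank ℝ E + 1) a t,
    by positivity, ?_⟩
  simp only [pr, norm_zz hR]
  simp only [zz, real_inner_smul_right, mul_left_comm _ R⁻¹, integral_const_mul, h1]
  simp only [ps] at h2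
  rw [h2]
  ring

lemma Hyp.hb {ν c : E → E} {g : E → ℝ} {σ R : ℝ} {x : E} (h : Hyp μ ν c g σ x (4 * R))
    (hR : 0 < R) {φ : E → ℝ} (hφ : Cf φ) {L s : ℝ} (hL : 0 ≤ L)
    (hl : ∀ z w, |φ z - φ w| ≤ L * ‖z - w‖) (hs : (L + 1) / R * σ ≤ s) :
    HB μ (zz R x) ν c g s φ := by
  intro κ l hA
  have k0 := hA.nonneg
  have key : ∀ z w : E, ‖z‖ ≤ 4 → ‖φ z • l z - φ w • l w‖ ≤ κ * (L + 1) * ‖z - w‖ := by
    intro z w hz
    rw [show φ z • l z - φ w • l w = (φ z - φ w) • l z + φ w • (l z - l w) by module]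
    refine (norm_add_le _ _).trans ?_
    rw [norm_smul, norm_smul, Real.norm_of_nonneg (hφ.2.1 w), Real.norm_eq_abs]
    have a1 : |φ z - φ w| * ‖l z‖ ≤ L * ‖z - w‖ * κ := by gcongr; exacts [hl z w, hA.2 z hz]
    have a2 : φ w * ‖l z - l w‖ ≤ 1 * (κ * ‖z - w‖) := by gcongr; exacts [hφ.2.2.1 w, hA.1 z w]
    linarith
  have key2 : ∀ z w : E, ‖φ z • l z - φ w • l w‖ ≤ κ * (L + 1) * ‖z - w‖ := by
    intro z w
    by_cases hz : ‖z‖ ≤ 4
    · exact key z w hz
    by_cases hw : ‖w‖ ≤ 4
    · rw [norm_sub_rev, norm_sub_rev z]; exact key w z hw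
    · simp only [hφ.2.2.2 z (not_le.1 hz), hφ.2.2.2 w (not_le.1 hw), zero_smul, sub_zero,
        norm_zero]
      positivity
  have := h (κ * ((L + 1) / R)) (fun y => φ (zz R x y) • l (zz R x y)) (by positivity)
    (fun y z => (key2 _ _).trans (le_of_eq (by rw [← norm_zz_sub hR x y z]; field_simp)))
    (fun y hy => by
      rw [hφ.2.2.2 _ (lt_of_mul_lt_mul_left (a := R) (by rw [norm_zz hR]; linarith) hR.le),
        zero_smul])
  simp only [real_inner_smul_right, norm_smul, Real.norm_of_nonneg (hφ.2.1 _)] at this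
  refine this.trans ?_
  rw [mul_assoc]
  exact add_le_add le_rfl (mul_le_mul_of_nonneg_left hs k0)

end Vale.Agent.P137
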