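import Vale.Agent.P137.CGrid
import Vale.Agent.P137.CCut

open MeasureTheory Metric Set Filter
open scoped ENNReal Topology RealInnerProductSpace

set_option linter.unusedSectionVars false

namespace Vale.Agent.P137

variable {E : Type} [NormedAddCommGroup E] [InnerProductSpace ℝ E] [FiniteDimensional ℝ E]
  [MeasurableSpace E] [BorelSpace E] {μ : Measure E} [μ.IsAddHaarMeasure]

lemma lipK {K : E → E} {Λ ρ : ℝ} {x : E} (h0 : 0 ≤ Λ) (h1 : ∀ y z, ‖K y - K z‖ ≤ Λ * ‖y - z‖)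
    (h2 : ∀ y, ρ < ‖y - x‖ → K y = 0) : Continuous K ∧ ∃ M, ∀ y, ‖K y‖ ≤ M := by
  have hc : Continuous K := (LipschitzWith.of_dist_le_mul (K := ⟨Λ, h0⟩) fun z w => by
    rw [dist_eq_norm, dist_eq_norm]; exact h1 z w).continuous
  exact ⟨hc, hc.bounded_above_of_compact_support (HasCompactSupport.intro
    (isCompact_closedBall x ρ) fun y hy => h2 y (not_le.1 (mt mem_closedBall_iff_norm.2 hy)))⟩

lemma lipK_int {K F : E → E} (hK : Continuous K ∧ ∃ M, ∀ y, ‖K y‖ ≤ M) (hF : Integrable F μ) :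
    Integrable (fun y => ⟪F y, K y⟫) μ := by
  obtain ⟨hc, M, hM⟩ := hK
  refine (hF.norm.mul_const M).mono' (hF.1.inner hc.aestronglyMeasurable)
    (Eventually.of_forall fun y => (norm_inner_le_norm _ _).trans ?_)
  gcongr
  exact hM y

lemma lipK_int' {K : E → E} {f : E → ℝ} (hK : Continuous K ∧ ∃ M, ∀ y, ‖K y‖ ≤ M)
    (hf : Integrable f μ) : Integrable (fun y => f y * ‖K y‖) μ := by
  obtain ⟨hc, M, hM⟩ := hK
  exact hf.mul_bdd hc.norm.aestronglyMeasurable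
    (Eventually.of_forall fun y => by rw [norm_norm]; exact hM y)

/-- fields with cancellation at a given scale -/
def Cls (μ : Measure E) (l : ℝ) (b : E → E) (g : E → ℝ) : Prop :=
  Measurable b ∧ Measurable g ∧ Integrable g μ ∧ (∀ y, ‖b y‖ ≤ g y) ∧
    ∀ (Λ : ℝ) (K : E → E) (x : E) (ρ : ℝ), 0 ≤ Λ → (∀ y z, ‖K y - K z‖ ≤ Λ * ‖y - z‖) →
      (∀ y, ρ < ‖y - x‖ → K y = 0) →
      |∫ y, ⟪b y, K y⟫ ∂μ| ≤ Λ * l * ∫ y in closedBall x (ρ + l), g y ∂μ

variable {l : ℝ} {b b' : E → E} {g g' : E → ℝ}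

lemma Cls.nonneg (h : Cls μ l b g) (y : E) : 0 ≤ g y := (norm_nonneg _).trans (h.2.2.2.1 y)

lemma Cls.int (h : Cls μ l b g) : Integrable b μ :=
  h.2.2.1.mono' h.1.aestronglyMeasurable (Eventually.of_forall h.2.2.2.1)

lemma cls_zero : Cls μ l (fun _ => 0) fun _ => 0 :=
  ⟨measurable_const, measurable_const, integrable_zero _ _ _, by simp, by simp⟩

lemma Cls.add (h : Cls μ l b g) (h' : Cls μ l b' g') :
    Cls μ l (fun y => b y + b' y) fun y => g y + g' y := by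
  refine ⟨h.1.add h'.1, h.2.1.add h'.2.1, h.2.2.1.add h'.2.2.1, fun y =>
    (norm_add_le _ _).trans (add_le_add (h.2.2.2.1 y) (h'.2.2.2.1 y)), fun Λ K x ρ a1 a2 a3 => ?_⟩
  simp only [inner_add_left]
  rw [integral_add (lipK_int (lipK a1 a2 a3) h.int) (lipK_int (lipK a1 a2 a3) h'.int),
    integral_add h.2.2.1.integrableOn h'.2.2.1.integrableOn, mul_add]
  exact (abs_add_le _ _).trans (add_le_add (h.2.2.2.2 Λ K x ρ a1 a2 a3)
    (h'.2.2.2.2 Λ K x ρ a1 a2 a3))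

lemma Cls.smul (h : Cls μ l b g) {t : ℝ} (ht : 0 ≤ t) :
    Cls μ l (fun y => t • b y) fun y => t * g y := by
  refine ⟨h.1.const_smul t, h.2.1.const_mul t, h.2.2.1.const_mul t, fun y => ?_,
    fun Λ K x ρ a1 a2 a3 => ?_⟩
  · rw [norm_smul, Real.norm_of_nonneg ht]; exact mul_le_mul_of_nonneg_left (h.2.2.2.1 y) ht
  · simp only [real_inner_smul_left, integral_const_mul]
    rw [abs_mul, abs_of_nonneg ht, mul_left_comm]
    exact mul_le_mul_of_nonneg_left (h.2.2.2.2 Λ K x ρ a1 a2 a3) ht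

lemma cls_sum {ι : Type*} (s : Finset ι) {b : ι → E → E} {g : ι → E → ℝ}
    (h : ∀ i, Cls μ l (b i) (g i)) :
    Cls μ l (fun y => ∑ i ∈ s, b i y) fun y => ∑ i ∈ s, g i y := by
  classical
  induction s using Finset.induction_on with
  | empty => simpa using cls_zero
  | insert a s ha ih => simpa only [Finset.sum_insert ha] using (h a).add ih

lemma avg_dir {F : E → E} (S : Set E) :
    (∫ y in S, ‖F y‖ ∂μ) • ((∫ y in S, ‖F y‖ ∂μ)⁻¹ • ∫ y in S, F y ∂μ) = ∫ y in S, F y ∂μ ∧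
      ‖(∫ y in S, ‖F y‖ ∂μ)⁻¹ • ∫ y in S, F y ∂μ‖ ≤ 1 := by
  have h0 : 0 ≤ ∫ y in S, ‖F y‖ ∂μ := integral_nonneg fun _ => norm_nonneg _
  have h1 := norm_integral_le_integral_norm (μ := μ.restrict S) F
  constructor
  · rcases h0.eq_or_lt with h | h
    · rw [← h] at h1 ⊢
      rw [norm_le_zero_iff.1 h1]; simp
    · rw [smul_smul, mul_inv_cancel₀ h.ne', one_smul]
  · rw [norm_smul, norm_inv, Real.norm_of_nonneg h0]
    exact inv_mul_le_one_of_le₀ h1 h0

lemma cls_atom {F : E → E} (hm : Measurable F) (hF : Integrable F μ) {S : Set E}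
    (hS : MeasurableSet S) (hl : 0 ≤ l) (hd : ∀ y ∈ S, ∀ z ∈ S, ‖y - z‖ ≤ l) {v : E}
    (hv : (∫ y in S, ‖F y‖ ∂μ) • v = ∫ y in S, F y ∂μ) (hv1 : ‖v‖ ≤ 1) :
    Cls μ l (S.indicator fun y => F y - ‖F y‖ • v) (S.indicator fun y => 2 * ‖F y‖) := by
  have key : ∀ y, ‖F y - ‖F y‖ • v‖ ≤ 2 * ‖F y‖ := fun y => (norm_sub_le _ _).trans (by
    rw [norm_smul, norm_norm]; nlinarith [norm_nonneg (F y)])
  have hi : Integrable (fun y => F y - ‖F y‖ • v) μ := hF.sub (hF.norm.smul_const v)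
  refine ⟨(hm.sub (hm.norm.smul_const v)).indicator hS, (hm.norm.const_mul 2).indicator hS,
    (hF.norm.const_mul 2).indicator hS, fun y => ?_, fun Λ K x ρ a1 a2 a3 => ?_⟩
  · by_cases hy : y ∈ S
    · simp only [indicator_of_mem hy, key y]
    · simp [hy]
  have e1 : ∫ y, ⟪S.indicator (fun y => F y - ‖F y‖ • v) y, K y⟫ ∂μ =
      ∫ y in S, ⟪F y - ‖F y‖ • v, K y⟫ ∂μ := by
    rw [← integral_indicator hS]
    refine integral_congr_ae (Eventually.of_forall fun y => ?_)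
    by_cases hy : y ∈ S <;> simp [hy]
  rw [e1]
  by_cases hex : ∃ y₀ ∈ S, ‖y₀ - x‖ ≤ ρ
  · obtain ⟨y₀, b1, b2⟩ := hex
    have e2 : ∫ y in S, ⟪F y - ‖F y‖ • v, K y₀⟫ ∂μ = 0 := by
      simp only [real_inner_comm (K y₀)]
      rw [integral_inner hi.integrableOn, integral_sub hF.integrableOn
        (hF.norm.smul_const v).integrableOn, integral_smul_const, hv, sub_self, inner_zero_right]
    rw [← sub_zero (∫ y in S, _ ∂μ), ← e2, ← integral_sub
      (lipK_int (lipK a1 a2 a3) hi).integrableOn (hi.inner_const _).integrableOn,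
      setIntegral_indicator hS, inter_eq_self_of_subset_right (fun y hy => ?_),
      ← integral_const_mul, ← Real.norm_eq_abs]
    · refine norm_integral_le_of_norm_le ((hF.norm.const_mul 2).const_mul _).integrableOn
        (ae_restrict_of_forall_mem hS fun y hy => ?_)
      rw [← inner_sub_right, mul_comm]
      refine (norm_inner_le_norm _ _).trans (mul_le_mul (key y) ((a2 y y₀).trans ?_)
        (norm_nonneg _) (by positivity))
      exact mul_le_mul_of_nonneg_left (hd y hy y₀ b1) a1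
    · rw [mem_closedBall_iff_norm]
      linarith [norm_sub_le_norm_sub_add_norm_sub y y₀ x, hd y hy y₀ b1]
  · push Not at hex
    rw [setIntegral_congr_fun (g := fun _ => 0) hS fun y hy => by simp [a3 y (hex y hy)]]
    simp only [integral_zero, abs_zero]
    exact mul_nonneg (by positivity) (integral_nonneg fun y =>
      indicator_nonneg (fun _ _ => by positivity) y)

variable {A ι : Type} [Countable ι] [Fintype A] {G N₀ : ℕ} {h : ℝ}

lemma Grid.nb_diam (gr : Grid E A ι G N₀ h) {j : ℕ} {m : ι} {C : ℝ} {y z : E}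
    (hy : y ∈ gr.nb j m C) (hz : z ∈ gr.nb j m C) : ‖y - z‖ ≤ (2 * C + 1) * sc h j := by
  obtain ⟨a, a1, a2⟩ := gr.mem_nb.1 hy
  obtain ⟨b, b1, b2⟩ := gr.mem_nb.1 hz
  have := gr.diam _ _ a b (a1.trans b1.symm)
  rw [← dist_eq_norm]
  linarith [dist_triangle4_right y z a b]

lemma perturb (gr : Grid E A ι G N₀ h) (h0 : 0 < h) (j : ℕ) {F : E → E} (hm : Measurable F)
    (hF : Integrable F μ) (s : Finset ι) : ∃ b g, Cls μ (13 * sc h j) b g ∧
      ∫ y, ‖F y - b y‖ ∂μ ≤ ∫ y, ‖F y‖ ∂μ - ((N₀ : ℝ) + 1)⁻¹ *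
        ∑ m ∈ s, (∫ y in gr.nb j m 6, ‖F y‖ ∂μ - ‖∫ y in gr.nb j m 6, F y ∂μ‖) ∧
      ∫ y, g y ∂μ = ((N₀ : ℝ) + 1)⁻¹ * ∑ m ∈ s, 2 * ∫ y in gr.nb j m 6, ‖F y‖ ∂μ := by
  classical
  set t : ℝ := ((N₀ : ℝ) + 1)⁻¹ with ht
  have t0 : 0 ≤ t := by positivity
  set v := fun m => (∫ y in gr.nb j m 6, ‖F y‖ ∂μ)⁻¹ • ∫ y in gr.nb j m 6, F y ∂μ with hv
  have hc := (cls_sum s fun m => cls_atom hm hF (gr.nb_meas j m 6) (l := 13 * sc h j)
    (by linarith [sc_pos h0 j]) (fun y hy z hz => (gr.nb_diam hy hz).trans (by norm_num))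
    (v := v m) (avg_dir _).1 (avg_dir _).2).smul t0
  have i1 : ∀ (c : ℝ) m, Integrable ((gr.nb j m 6).indicator fun y => c * ‖F y‖) μ := fun c m =>
    (hF.norm.const_mul c).indicator (gr.nb_meas j m 6)
  refine ⟨_, _, hc, ?_, ?_⟩
  · have e1 : ∀ m, ∫ y in gr.nb j m 6, ‖F y‖ ∂μ - ‖∫ y in gr.nb j m 6, F y ∂μ‖ =
        ∫ y, (gr.nb j m 6).indicator (fun y => (1 - ‖v m‖) * ‖F y‖) y ∂μ := fun m => by
      rw [integral_indicator (gr.nb_meas j m 6), integral_const_mul,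
        ← (avg_dir (F := F) (gr.nb j m 6)).1, norm_smul,
        Real.norm_of_nonneg (integral_nonneg fun _ => norm_nonneg _)]
      ring
    simp only [e1]
    have i2 := integrable_finsetSum s fun m _ => i1 (1 - ‖v m‖) m
    rw [← integral_finsetSum _ fun m _ => i1 _ m, ← integral_const_mul,
      ← integral_sub hF.norm (i2.const_mul t)]
    refine integral_mono (hF.sub hc.int).norm (hF.norm.sub (i2.const_mul t)) fun y => ?_
    simp only [indicator]
    rw [← Finset.sum_filter, ← Finset.sum_filter]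
    set s' := s.filter fun m => y ∈ gr.nb j m 6
    have c1 : (s'.card : ℝ) ≤ N₀ := by
      exact_mod_cast gr.ovl j y _ fun m hm => gr.mem_nb.1 (Finset.mem_filter.1 hm).2
    have c2 : 0 ≤ 1 - t * s'.card := by
      rw [sub_nonneg, ht, inv_mul_le_iff₀ (by positivity)]; linarith
    rw [Finset.sum_sub_distrib, Finset.sum_const, ← Finset.smul_sum, ← Nat.cast_smul_eq_nsmul ℝ,
      show F y - t • ((s'.card : ℝ) • F y - ‖F y‖ • ∑ m ∈ s', v m) =
        (1 - t * s'.card) • F y + (t * ‖F y‖) • ∑ m ∈ s', v m by module, ← Finset.sum_mul,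
      Finset.sum_sub_distrib, Finset.sum_const, nsmul_eq_mul]
    refine (norm_add_le _ _).trans ?_
    rw [norm_smul, norm_smul, Real.norm_of_nonneg c2, Real.norm_of_nonneg (by positivity)]
    have := mul_le_mul_of_nonneg_left (norm_sum_le s' v) (show 0 ≤ t * ‖F y‖ by positivity)
    linarith
  · rw [integral_const_mul, integral_finsetSum _ fun m _ => i1 _ m]
    simp only [integral_indicator (gr.nb_meas j _ 6), integral_const_mul]

lemma dec_step (gr : Grid E A ι G N₀ h) (h0 : 0 < h) (j : ℕ) {ν : E → E} (hm : Measurable ν)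
    (hν : Integrable ν μ) {ε δ : ℝ} (hε : 0 ≤ ε) (hδ : 0 < δ) : ∃ b g, Cls μ (13 * sc h j) b g ∧
      ∫ y, ‖ν y - b y‖ ∂μ + ε / 2 * ∫ y, g y ∂μ ≤ ∫ y, ‖ν y‖ ∂μ ∧
      ∑' m, ENNReal.ofReal ((1 - ε) * ∫ y in gr.nb j m 6, ‖ν y - b y‖ ∂μ -
        ‖∫ y in gr.nb j m 6, (ν y - b y) ∂μ‖) ≤ ENNReal.ofReal ((N₀ + 1) * δ) := by
  classical
  set S := {t | ∃ b g, Cls μ (13 * sc h j) b g ∧ ∫ y, ‖ν y - b y‖ ∂μ + ε / 2 * ∫ y, g y ∂μ = t ∧
    t ≤ ∫ y, ‖ν y‖ ∂μ}
  have hS : S.Nonempty := ⟨_, _, _, cls_zero, rfl, by simp⟩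
  have hb : BddBelow S := ⟨0, by
    rintro t ⟨b, g, h1, rfl, -⟩
    exact add_nonneg (integral_nonneg fun _ => norm_nonneg _)
      (mul_nonneg (by positivity) (integral_nonneg h1.nonneg))⟩
  obtain ⟨_, ⟨b, g, h1, rfl, h2⟩, h3⟩ := Real.lt_sInf_add_pos hS hδ
  refine ⟨b, g, h1, h2, ?_⟩
  rw [ENNReal.tsum_eq_iSup_sum]
  refine iSup_le fun s => ?_
  set u := fun m => (1 - ε) * ∫ y in gr.nb j m 6, ‖ν y - b y‖ ∂μ -
    ‖∫ y in gr.nb j m 6, (ν y - b y) ∂μ‖ with hu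
  rw [← Finset.sum_filter_of_ne (p := fun m => 0 ≤ u m) (fun m _ hm => by
    by_contra hc
    exact hm (ENNReal.ofReal_of_nonpos (not_le.1 hc).le)),
    ← ENNReal.ofReal_sum_of_nonneg fun m hm => (Finset.mem_filter.1 hm).2]
  refine ENNReal.ofReal_le_ofReal ?_
  obtain ⟨b', g', a1, a2, a3⟩ := perturb gr h0 j (hm.sub h1.1) (hν.sub h1.int)
    (s.filter fun m => 0 ≤ u m)
  have a4 : ∫ y, ‖ν y - b y‖ ∂μ + ε / 2 * ∫ y, g y ∂μ ≤
      ∫ y, ‖ν y - (b y + b' y)‖ ∂μ + ε / 2 * ∫ y, (g y + g' y) ∂μ + δ := by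
    by_cases hc : ∫ y, ‖ν y - (b y + b' y)‖ ∂μ + ε / 2 * ∫ y, (g y + g' y) ∂μ ≤ ∫ y, ‖ν y‖ ∂μ
    · linarith [csInf_le hb ⟨_, _, h1.add a1, rfl, hc⟩]
    · linarith [not_le.1 hc]
  rw [integral_add h1.2.2.1 a1.2.2.1, a3] at a4
  simp only [Pi.sub_apply, ← sub_sub] at a2 a4
  rw [← inv_mul_le_iff₀ (by positivity)]
  simp only [hu, Finset.sum_sub_distrib, ← Finset.mul_sum] at a2 a4 ⊢
  linarith

/-- multiscale decomposition -/
structure Dec (μ : Measure E) (gr : Grid E A ι G N₀ h) (ε δ : ℝ) (n : ℕ) (νs b : ℕ → E → E)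
    (g : ℕ → E → ℝ) : Prop where
  meas : ∀ j ≤ n, Measurable (νs j)
  int : ∀ j ≤ n, Integrable (νs j) μ
  eq : ∀ j < n, ∀ y, νs j y = νs (j + 1) y - b j y
  cls : ∀ j < n, Cls μ (13 * sc h j) (b j) (g j)
  step : ∀ j < n, ∫ y, ‖νs j y‖ ∂μ + ε / 2 * ∫ y, g j y ∂μ ≤ ∫ y, ‖νs (j + 1) y‖ ∂μ
  exc : ∀ j < n, ∑' m, ENNReal.ofReal ((1 - ε) * ∫ y in gr.nb j m 6, ‖νs j y‖ ∂μ -
    ‖∫ y in gr.nb j m 6, νs j y ∂μ‖) ≤ ENNReal.ofReal ((N₀ + 1) * δ)

theorem exists_dec (gr : Grid E A ι G N₀ h) (h0 : 0 < h) {ε δ : ℝ} (hε : 0 ≤ ε) (hδ : 0 < δ)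
    (n : ℕ) : ∀ ν : E → E, Measurable ν → Integrable ν μ →
      ∃ νs b g, νs n = ν ∧ Dec μ gr ε δ n νs b g := by
  induction n with
  | zero => exact fun ν hm hν => ⟨fun _ => ν, fun _ => 0, fun _ => 0, rfl, fun _ _ => hm,
      fun _ _ => hν, by simp, by simp, by simp, by simp⟩
  | succ n ih =>
    intro ν hm hν
    obtain ⟨b₀, g₀, a1, a2, a3⟩ := dec_step gr h0 n hm hν hε hδ
    obtain ⟨νs, b, g, c1, c2⟩ := ih (fun y => ν y - b₀ y) (hm.sub a1.1) (hν.sub a1.int)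
    have e1 : ∀ j, j ≤ n → Function.update νs (n + 1) ν j = νs j := fun j hj =>
      Function.update_of_ne (by omega) _ _
    have e2 : ∀ j, j < n → Function.update b n b₀ j = b j := fun j hj =>
      Function.update_of_ne (by omega) _ _
    have e3 : ∀ j, j < n → Function.update g n g₀ j = g j := fun j hj =>
      Function.update_of_ne (by omega) _ _
    refine ⟨Function.update νs (n + 1) ν, Function.update b n b₀, Function.update g n g₀,
      Function.update_self .., fun j hj => ?_, fun j hj => ?_, fun j hj => ?_, fun j hj => ?_,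
      fun j hj => ?_, fun j hj => ?_⟩
    · rcases hj.eq_or_lt with rfl | hj
      · rwa [Function.update_self]
      · rw [e1 j (by omega)]; exact c2.meas j (by omega)
    · rcases hj.eq_or_lt with rfl | hj
      · rwa [Function.update_self]
      · rw [e1 j (by omega)]; exact c2.int j (by omega)
    all_goals rcases (Nat.lt_succ_iff.1 hj).eq_or_lt with rfl | hj
    · simp only [e1 j le_rfl, Function.update_self, c1, implies_true]
    · rw [e1 j hj.le, e1 _ hj, e2 j hj]; exact c2.eq j hj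
    · simpa only [Function.update_self] using a1
    · rw [e2 j hj, e3 j hj]; exact c2.cls j hj
    · simpa only [e1 j le_rfl, Function.update_self, c1] using a2
    · rw [e1 j hj.le, e1 _ hj, e3 j hj]; exact c2.step j hj
    · simpa only [e1 j le_rfl, c1] using a3
    · rw [e1 j hj.le]; exact c2.exc j hj

end Vale.Agent.P137
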