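import Vale.Agent.P137.Cell1

open MeasureTheory Metric Set Filter
open scoped ENNReal Topology RealInnerProductSpace

set_option linter.unusedSectionVars false

namespace Vale.Agent.P137

variable {E : Type*} [NormedAddCommGroup E] [InnerProductSpace ℝ E] [FiniteDimensional ℝ E]
  [MeasurableSpace E] [BorelSpace E] {μ : Measure E} [μ.IsAddHaarMeasure]

lemma dil_gain {F : E → ℝ≥0∞} (hF : Measurable F) {V : ℝ≥0∞} (hV : V ≠ ∞) (hFV : ∀ x, F x ≤ V)
    (y : E) {κ ρ : ℝ} (h0 : 0 ≤ κ) (h1 : κ ≤ 1) (hρ : 0 < ρ)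
    (hmono : ∀ x, F x ≤ F (y + (1 + κ) • (x - y))) :
    ∫⁻ x in ball y ρ, (F (y + (1 + κ) • (x - y)) - F x) ∂μ ≤
      V * (ENNReal.ofReal (2 ^ Module.finrank ℝ E * κ) * μ (ball (0 : E) ρ)) := by
  have hfin : ∫⁻ x in ball y ρ, F x ∂μ ≠ ∞ :=
    ((setLIntegral_mono' measurableSet_ball fun x _ => hFV x).trans_lt (by
      rw [setLIntegral_const]; exact ENNReal.mul_lt_top hV.lt_top measure_ball_lt_top)).ne
  have hk : 0 < 1 + κ := by linarith
  rw [lintegral_sub hF hfin (Eventually.of_forall hmono), tsub_le_iff_left]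
  have e1 : ∫⁻ x in ball y ρ, F (y + (1 + κ) • (x - y)) ∂μ =
      ∫⁻ x, (ball y ((1 + κ) * ρ)).indicator F (y + (1 + κ) • (x - y)) ∂μ := by
    rw [← lintegral_indicator measurableSet_ball]
    refine lintegral_congr fun x => ?_
    have : y + (1 + κ) • (x - y) ∈ ball y ((1 + κ) * ρ) ↔ x ∈ ball y ρ := by
      rw [mem_ball_iff_norm, mem_ball_iff_norm, add_sub_cancel_left, norm_smul,
        Real.norm_of_nonneg hk.le, mul_lt_mul_iff_right₀ hk]
    by_cases hx : x ∈ ball y ρ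
    · rw [indicator_of_mem hx, indicator_of_mem (this.2 hx)]
    · rw [indicator_of_notMem hx, indicator_of_notMem (mt this.1 hx)]
  have hsub : ball y ρ ⊆ ball y ((1 + κ) * ρ) := ball_subset_ball (by nlinarith)
  rw [e1, lintegral_homothety (hF.indicator measurableSet_ball) y hk,
    lintegral_indicator measurableSet_ball]
  refine (mul_le_of_le_one_left' (ENNReal.ofReal_le_one.2 (pow_le_one₀ (by positivity)
    (inv_le_one_of_one_le₀ (by linarith))))).trans ?_
  rw [← lintegral_inter_add_sdiff _ _ (measurableSet_ball (x := y) (ε := ρ)),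
    inter_eq_self_of_subset_right hsub]
  gcongr
  refine (setLIntegral_mono' (measurableSet_ball.diff measurableSet_ball) fun x _ => hFV x).trans ?_
  rw [setLIntegral_const, measure_sdiff hsub measurableSet_ball.nullMeasurableSet
    measure_ball_lt_top.ne, Measure.addHaar_ball_mul_of_pos μ y hk, Measure.addHaar_ball_center μ y]
  gcongr
  rw [tsub_le_iff_left, ← one_add_mul, ← ENNReal.ofReal_one,
    ← ENNReal.ofReal_add zero_le_one (by positivity)]
  gcongr
  exact one_add_pow_le' h0 h1 _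

lemma gain_fun {γ : E → ℝ≥0∞} (hγ : Measurable γ) {Φ : E → E → ℝ≥0∞}
    (hΦ : Measurable fun w : E × E => Φ w.1 w.2) {V : ℝ≥0∞} (hV : V ≠ ∞) (hFV : ∀ y x, Φ y x ≤ V)
    {κ ρ : ℝ} (h0 : 0 ≤ κ) (h1 : κ ≤ 1) (hρ : 0 < ρ)
    (hmono : ∀ y x, Φ y x ≤ Φ y (y + (1 + κ) • (x - y))) :
    ∃ G : E → ℝ≥0∞, Measurable G ∧ ∫⁻ x, G x ∂μ ≤ (∫⁻ y, γ y ∂μ) *
      (V * (ENNReal.ofReal (2 ^ Module.finrank ℝ E * κ) * μ (ball (0 : E) ρ))) ∧
      (∀ x, G x ≤ (∫⁻ y, γ y ∂μ) * V) ∧
      ∀ x (S : Set E) (t : ℝ≥0∞), MeasurableSet S →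
        (∀ y ∈ S, dist x y < ρ ∧ t ≤ Φ y (y + (1 + κ) • (x - y)) - Φ y x) →
        t * ∫⁻ y in S, γ y ∂μ ≤ G x := by
  set K : E × E → ℝ≥0∞ := fun w => γ w.2 * {w : E × E | dist w.1 w.2 < ρ}.indicator
    (fun w => Φ w.2 (w.2 + (1 + κ) • (w.1 - w.2)) - Φ w.2 w.1) w with hK
  have m1 : Measurable fun w : E × E => Φ w.2 (w.2 + (1 + κ) • (w.1 - w.2)) :=
    hΦ.comp (f := fun w : E × E => (w.2, w.2 + (1 + κ) • (w.1 - w.2))) (by fun_prop)
  have m2 : Measurable fun w : E × E => Φ w.2 w.1 := hΦ.comp measurable_swap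
  have hKm : Measurable K := (hγ.comp measurable_snd).mul ((m1.sub m2).indicator
    (measurableSet_lt (by fun_prop) measurable_const))
  refine ⟨fun x => ∫⁻ y, K (x, y) ∂μ, hKm.lintegral_prod_right', ?_, fun x => ?_,
    fun x S t hS h => ?_⟩
  · rw [lintegral_lintegral_swap (f := fun x y => K (x, y)) hKm.aemeasurable,
      ← lintegral_mul_const _ hγ]
    refine lintegral_mono fun y => ?_
    have hy : Measurable (Φ y) := hΦ.comp (f := fun x : E => (y, x)) (by fun_prop)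
    refine le_trans (le_of_eq ?_) (mul_le_mul_right (dil_gain (μ := μ) hy hV (hFV y) y h0 h1 hρ
      (hmono y)) _)
    have hy2 : Measurable fun x => Φ y (y + (1 + κ) • (x - y)) - Φ y x :=
      (hy.comp (by fun_prop)).sub hy
    rw [← lintegral_indicator measurableSet_ball, ← lintegral_const_mul _ (Measurable.indicator
      hy2 measurableSet_ball)]
    rfl
  · rw [← lintegral_mul_const _ hγ]
    refine lintegral_mono fun y => mul_le_mul_right ?_ _
    exact indicator_le' (fun w _ => tsub_le_self.trans (hFV _ _)) (fun _ _ => zero_le) _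
  · rw [← lintegral_const_mul _ hγ, ← lintegral_indicator hS]
    refine lintegral_mono fun y => ?_
    by_cases hy : y ∈ S
    · rw [indicator_of_mem hy, hK, mul_comm]
      simp only
      rw [indicator_of_mem (show (x, y) ∈ {w : E × E | dist w.1 w.2 < ρ} from (h y hy).1)]
      exact mul_le_mul_right (h y hy).2 _
    · simp [hy]

lemma window_lemma {γ : E → ℝ≥0∞} (hγ : Measurable γ) {ρ : E → ℝ}
    (hρ : ∀ x z, ρ x ≤ ρ z + ‖x - z‖ / 2) {R b κ : ℝ} (hR : 0 < R) (h0 : 0 ≤ κ) (h1 : κ ≤ 1)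
    (hb : 2 * b < R) (hκ : 16 * b < κ * R) :
    ∃ G : E → ℝ≥0∞, Measurable G ∧ ∫⁻ x, G x ∂μ ≤ (∫⁻ y, γ y ∂μ) *
      (ENNReal.ofReal (2 ^ Module.finrank ℝ E * κ) * μ (ball (0 : E) (4 * R))) ∧
      ∀ x r, R ≤ r → r ≤ 3 * R → |r - ρ x| ≤ b → ∫⁻ y in {y | |‖y - x‖ - r| ≤ b}, γ y ∂μ ≤ G x := by
  have hc : Continuous ρ := (LipschitzWith.of_le_add_mul' (1 / 2) fun x z => by
    rw [dist_eq_norm]; linarith [hρ x z]).continuous
  have gain : ∀ y x : E, ‖x - y‖ - ρ x + κ * ‖x - y‖ / 2 ≤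
      ‖y + (1 + κ) • (x - y) - y‖ - ρ (y + (1 + κ) • (x - y)) := by
    intro y x
    have := hρ (y + (1 + κ) • (x - y)) x
    rw [show y + (1 + κ) • (x - y) - x = κ • (x - y) by module, norm_smul,
      Real.norm_of_nonneg h0] at this
    rw [add_sub_cancel_left, norm_smul, Real.norm_of_nonneg (by linarith)]
    linarith
  obtain ⟨G, g1, g2, -, g3⟩ := gain_fun (μ := μ) hγ
    (Φ := fun y x => if 2 * b < ‖x - y‖ - ρ x then 1 else 0)
    (Measurable.ite (measurableSet_lt measurable_const (by fun_prop)) measurable_const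
      measurable_const) ENNReal.one_ne_top (fun y x => by split_ifs <;> simp) h0 h1
    (ρ := 4 * R) (by linarith) (fun y x => by
      split_ifs with a b
      · exact le_rfl
      · exact absurd (by nlinarith [gain y x, norm_nonneg (x - y)]) b
      · exact zero_le
      · exact le_rfl)
  refine ⟨G, g1, by simpa using g2, fun x r r1 r2 r3 => ?_⟩
  have := g3 x {y | |‖y - x‖ - r| ≤ b} 1 (measurableSet_le (by fun_prop) measurable_const)
    fun y hy => by
      have a1 := abs_le.1 (show |‖y - x‖ - r| ≤ b from hy)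
      have a2 := abs_le.1 r3
      rw [norm_sub_rev] at a1
      have a3 : κ * (R / 2) ≤ κ * ‖x - y‖ := by gcongr; linarith
      refine ⟨by rw [dist_eq_norm]; linarith, ?_⟩
      rw [if_pos (by linarith [gain y x]), if_neg (by linarith)]
      simp
  simpa using this

lemma far_geom {A B : E} {R b τ κ : ℝ} (h0 : 0 ≤ κ) (h1 : κ ≤ 1) (hb0 : 0 ≤ b) (hb : 4 * b ≤ R)
    (hτ : 0 ≤ τ) (hκ : 72 * b * R < κ * τ ^ 2) (a1 : R / 2 ≤ ‖A‖) (a2 : ‖A‖ ≤ 4 * R)
    (b1 : ‖B - A‖ ≤ ‖A‖ + 2 * b) (b2 : τ ≤ ‖B‖) :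
    ‖B - (1 + κ) • A‖ < ‖(1 + κ) • A‖ - 2 * b := by
  have c1 := pow_le_pow_left₀ (norm_nonneg _) b1 2
  have c2 := mul_le_mul_of_nonneg_left (pow_le_pow_left₀ hτ b2 2) h0
  rw [norm_smul, Real.norm_of_nonneg (by linarith)]
  refine lt_of_pow_lt_pow_left₀ 2 (by nlinarith [norm_nonneg A]) ?_
  rw [norm_sub_sq_real] at c1 ⊢
  rw [norm_smul, Real.norm_of_nonneg (by linarith), real_inner_smul_right]
  have c3 := mul_le_mul_of_nonneg_left c1 (show 0 ≤ 1 + κ by linarith)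
  have c4 : (1 + κ) * (b * ‖A‖) ≤ 2 * (b * (4 * R)) := by gcongr; linarith
  have c5 : (1 + κ) * (b * b) ≤ 2 * (b * R) := by gcongr <;> linarith
  nlinarith [mul_nonneg hb0 hb0]

lemma far_lemma {γ f : E → ℝ≥0∞} (hγ : Measurable γ) (hf : Measurable f) {R q V : ℝ} (hR : 0 < R)
    (q0 : 0 < q) (q1 : q ≤ 1 / 100) (hV : 0 ≤ V) (hγV : ∫⁻ y, γ y ∂μ ≤ ENNReal.ofReal V) :
    ∃ G : E → ℝ≥0∞, Measurable G ∧ ∫⁻ x, G x ∂μ ≤
      ENNReal.ofReal (146 * 2 ^ Module.finrank ℝ E * (q * V)) * μ (ball (0 : E) (4 * R)) ∧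
      ∀ x r, R ≤ r → r ≤ 3 * R →
        ENNReal.ofReal (q * V) < ∫⁻ y in {y | |‖y - x‖ - r| ≤ q ^ 4 * R}, γ y ∂μ →
        ∫⁻ y in ball x (r - q ^ 4 * R), f y ∂μ ≤ ENNReal.ofReal V →
        ∃ y, |‖y - x‖ - r| ≤ q ^ 4 * R ∧ min (ENNReal.ofReal V)
          (∫⁻ u in {u | |‖u - x‖ - r| ≤ q ^ 4 * R ∧ q * R ≤ ‖u - y‖}, f u ∂μ) ≤
            G x + ENNReal.ofReal (q * V) := by
  rcases hV.eq_or_lt with rfl | hV
  · refine ⟨0, measurable_zero, by simp, fun x r _ _ h => absurd h (not_lt.2 ?_)⟩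
    exact (setLIntegral_le_lintegral _ _).trans (by simpa using hγV)
  set b := q ^ 4 * R with hb
  set W := ENNReal.ofReal V with hW
  set l := ENNReal.ofReal (q * V) with hl
  have q2 : q ^ 2 ≤ (1 / 100) ^ 2 := by gcongr
  have q4 : q ^ 4 ≤ (1 / 100) ^ 4 := by gcongr
  have b1 : 4 * b ≤ R := by nlinarith
  have b0 : 0 ≤ b := by positivity
  have l0 : l ≠ 0 := (ENNReal.ofReal_pos.2 (by positivity)).ne'
  have l1 : l ≠ ∞ := ENNReal.ofReal_ne_top
  have W1 : W ≠ ∞ := ENNReal.ofReal_ne_top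
  set S : E → E → Set E := fun y x => {u | ‖u - x‖ < ‖x - y‖ - 2 * b ∧ q * R ≤ ‖u - y‖} with hS
  have mS : MeasurableSet {w : (E × E) × E | w.2 ∈ S w.1.1 w.1.2} :=
    (measurableSet_lt (f := fun w : (E × E) × E => ‖w.2 - w.1.2‖)
      (g := fun w : (E × E) × E => ‖w.1.2 - w.1.1‖ - 2 * b) (by fun_prop) (by fun_prop)).inter
      (measurableSet_le (f := fun _ => q * R) (g := fun w : (E × E) × E => ‖w.2 - w.1.1‖)
        measurable_const (by fun_prop))
  have mS' : ∀ y x, MeasurableSet (S y x) := fun y x =>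
    mS.preimage (f := fun u : E => ((y, x), u)) (by fun_prop)
  have hκ0 : 0 ≤ 73 * q ^ 2 := by positivity
  have hsub : ∀ y x, S y x ⊆ S y (y + (1 + 73 * q ^ 2) • (x - y)) := fun y x u hu => by
    refine ⟨?_, hu.2⟩
    have := norm_sub_le (u - x) ((73 * q ^ 2) • (x - y))
    rw [norm_smul, Real.norm_of_nonneg hκ0] at this
    rw [add_sub_cancel_left, norm_smul, Real.norm_of_nonneg (by linarith),
      show u - (y + (1 + 73 * q ^ 2) • (x - y)) = u - x - (73 * q ^ 2) • (x - y) by module]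
    linarith [hu.1]
  obtain ⟨G, g1, g2, g4, g3⟩ := gain_fun (μ := μ) hγ
    (Φ := fun y x => min (W + W) (∫⁻ u in S y x, f u ∂μ))
    (measurable_const.min (by
      simp only [← lintegral_indicator (mS' _ _)]
      exact ((hf.comp measurable_snd).indicator mS).lintegral_prod_right'))
    (ENNReal.add_ne_top.2 ⟨W1, W1⟩) (fun y x => min_le_left _ _) hκ0 (by linarith)
    (ρ := 4 * R) (by linarith) (fun y x => min_le_min_left _ (lintegral_mono_set (hsub y x)))
  refine ⟨fun x => l⁻¹ * G x, g1.const_mul _, ?_, fun x r r1 r2 h1 h2 => ?_⟩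
  · rw [lintegral_const_mul _ g1, ← ENNReal.div_eq_inv_mul, ENNReal.div_le_iff l0 l1]
    refine g2.trans ((mul_le_mul_left hγV _).trans (le_of_eq ?_))
    rw [hl, hW, ← ENNReal.ofReal_add hV.le hV.le, ← mul_assoc, ← mul_assoc, mul_right_comm _ _
      (ENNReal.ofReal (q * V)), ← ENNReal.ofReal_mul hV.le, ← ENNReal.ofReal_mul (by positivity),
      ← ENNReal.ofReal_mul (by positivity)]
    congr 2
    ring
  by_contra hc
  push Not at hc
  have hG : G x ≠ ∞ := ((g4 x).trans_lt (ENNReal.mul_lt_top (hγV.trans_lt W1.lt_top)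
    (ENNReal.add_lt_top.2 ⟨W1.lt_top, W1.lt_top⟩))).ne
  have := g3 x {y | |‖y - x‖ - r| ≤ b} (l⁻¹ * G x + l)
    (measurableSet_le (by fun_prop) measurable_const) fun y hy => by
      have a1 := abs_le.1 (show |‖y - x‖ - r| ≤ b from hy)
      rw [norm_sub_rev] at a1
      refine ⟨by rw [dist_eq_norm]; linarith, (hc y hy).le.trans ?_⟩
      have a2 : ∫⁻ u in S y x, f u ∂μ ≤ W := (lintegral_mono_set fun u hu => by
        rw [mem_ball_iff_norm]; linarith [hu.1]).trans h2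
      have a3 : ∫⁻ u in S y x, f u ∂μ +
          ∫⁻ u in {u | |‖u - x‖ - r| ≤ b ∧ q * R ≤ ‖u - y‖}, f u ∂μ ≤
          ∫⁻ u in S y (y + (1 + 73 * q ^ 2) • (x - y)), f u ∂μ := by
        rw [add_comm, ← lintegral_union (mS' y x) (disjoint_left.2 fun u hu hu' => by
          linarith [(abs_le.1 hu.1).1, hu'.1])]
        refine lintegral_mono_set (union_subset (fun u hu => ⟨?_, hu.2⟩) (hsub y x))
        have := far_geom (A := x - y) (B := u - y) (R := R) (τ := q * R) hκ0 (by linarith) b0 b1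
          (by positivity) (by
            have : 0 < q ^ 4 * R ^ 2 := by positivity
            rw [hb]; nlinarith) (by linarith) (by linarith)
          (by rw [sub_sub_sub_cancel_right]; linarith [(abs_le.1 hu.1).2]) hu.2
        rwa [add_sub_cancel_left, ← sub_sub]
      refine ENNReal.le_sub_of_add_le_left (ne_top_of_le_ne_top (ENNReal.add_ne_top.2 ⟨W1, W1⟩)
        (min_le_left _ _)) (le_min ?_ ?_)
      · exact add_le_add ((min_le_right _ _).trans a2) (min_le_left _ _)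
      · exact (add_le_add (min_le_right _ _) (min_le_right _ _)).trans a3
  have h3 := (mul_le_mul_right h1.le _).trans this
  rw [add_mul, mul_right_comm, ENNReal.inv_mul_cancel l0 l1, one_mul] at h3
  exact absurd h3 (not_le.2 (ENNReal.lt_add_right hG (mul_ne_zero l0 l0)))

end Vale.Agent.P137
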