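import Mathlib.Analysis.InnerProductSpace.PiL2
import Mathlib.MeasureTheory.Measure.Haar.InnerProductSpace
import Mathlib.MeasureTheory.Function.Floor
import Mathlib.Data.Int.Interval
import Mathlib.Topology.MetricSpace.Thickening

open MeasureTheory Metric Set Filter
open scoped ENNReal Topology

set_option linter.unusedSectionVars false

namespace Vale.Agent.P137

/-- scales -/
noncomputable def sc (h : ℝ) (j : ℕ) : ℝ := h / 3 ^ j

lemma sc_pos {h : ℝ} (h0 : 0 < h) (j : ℕ) : 0 < sc h j := by unfold sc; positivity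

lemma sc_succ (h : ℝ) (j : ℕ) : sc h j = 3 * sc h (j + 1) := by unfold sc; field_simp; ring

lemma sc_add (h : ℝ) (j n : ℕ) : sc h j = 3 ^ n * sc h (j + n) := by unfold sc; field_simp; ring

lemma sc_anti {h : ℝ} (h0 : 0 < h) : StrictAnti (sc h) := strictAnti_nat_of_succ_lt fun j => by
  linarith [sc_succ h j, sc_pos h0 (j + 1)]

/-- a finite family of nested grids -/
structure Grid (E : Type) [PseudoMetricSpace E] [MeasurableSpace E] (A ι : Type) (G N₀ : ℕ)
    (h : ℝ) : Type where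
  idx : A → ℕ → E → ι
  a0 : A
  meas : ∀ α j m, MeasurableSet {y | idx α j y = m}
  nest : ∀ α j y z, idx α (j + 1) y = idx α (j + 1) z → idx α j y = idx α j z
  diam : ∀ α j y z, idx α j y = idx α j z → dist y z ≤ sc h j
  close : ∀ j y z, dist y z ≤ sc h (j + G) → ∃ α, idx α j y = idx α j z
  ovl : ∀ j y (s : Finset ι), (∀ m ∈ s, ∃ z, idx a0 j z = m ∧ dist y z < 6 * sc h j) → s.card ≤ N₀

namespace Grid

variable {E : Type} [PseudoMetricSpace E] [MeasurableSpace E] [OpensMeasurableSpace E] {A ι : Type}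
  [Countable ι] [Fintype A] {G N₀ : ℕ} {h : ℝ} (g : Grid E A ι G N₀ h)

/-- cube of the main grid -/
def cube (j : ℕ) (m : ι) : Set E := {y | g.idx g.a0 j y = m}

/-- neighbourhood of a cube -/
def nb (j : ℕ) (m : ι) (C : ℝ) : Set E := thickening (C * sc h j) (g.cube j m)

lemma nb_meas (j : ℕ) (m : ι) (C : ℝ) : MeasurableSet (g.nb j m C) :=
  isOpen_thickening.measurableSet

lemma mem_nb {j : ℕ} {m : ι} {C : ℝ} {y : E} :
    y ∈ g.nb j m C ↔ ∃ z, g.idx g.a0 j z = m ∧ dist y z < C * sc h j := mem_thickening_iff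

lemma nest_le {α : A} {j i : ℕ} (hji : j ≤ i) {y z : E} (e : g.idx α i y = g.idx α i z) :
    g.idx α j y = g.idx α j z := by
  induction i, hji using Nat.le_induction with
  | base => exact e
  | succ i _ ih => exact ih (g.nest α i y z e)

lemma meas_pre (α : A) (j : ℕ) (P : ι → Prop) : MeasurableSet {y | P (g.idx α j y)} := by
  have : {y | P (g.idx α j y)} = ⋃ m ∈ {m | P m}, {y | g.idx α j y = m} := by ext y; simp
  rw [this]
  exact MeasurableSet.biUnion (to_countable _) fun m _ => g.meas α j m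

lemma tsum_nb_le (j : ℕ) (f : E → ℝ≥0∞) (y : E) :
    ∑' m, (g.nb j m 6).indicator f y ≤ N₀ * f y := by
  classical
  rw [ENNReal.tsum_eq_iSup_sum]
  refine iSup_le fun s => ?_
  simp only [indicator]
  rw [← Finset.sum_filter, Finset.sum_const, nsmul_eq_mul]
  gcongr
  exact g.ovl j y _ fun m hm => g.mem_nb.1 (Finset.mem_filter.1 hm).2

lemma tsum_lintegral_nb (μ : Measure E) (j : ℕ) {f : E → ℝ≥0∞} (hf : Measurable f) :
    ∑' m, ∫⁻ y in g.nb j m 6, f y ∂μ ≤ N₀ * ∫⁻ y, f y ∂μ := by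
  simp only [← lintegral_indicator (g.nb_meas _ _ _)]
  rw [← lintegral_tsum fun m => (hf.indicator (g.nb_meas _ _ _)).aemeasurable,
    ← lintegral_const_mul _ hf]
  exact lintegral_mono (g.tsum_nb_le j f)

lemma nested_le (μ₁ μ₂ : Measure E) (α : A) (P : ℕ → ι → Prop)
    (hP : ∀ i m, P i m → μ₁ {y | g.idx α i y = m} ≤ μ₂ {y | g.idx α i y = m}) (n : ℕ) :
    μ₁ {y | ∃ i < n, P i (g.idx α i y)} ≤ μ₂ {y | ∃ i < n, P i (g.idx α i y)} := by
  have hm : ∀ n, MeasurableSet {y | ∃ i < n, P i (g.idx α i y)} := fun n => by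
    have : {y | ∃ i < n, P i (g.idx α i y)} = ⋃ i ∈ Iio n, {y | P i (g.idx α i y)} := by
      ext y; simp
    rw [this]
    exact MeasurableSet.biUnion (to_countable _) fun i _ => g.meas_pre α i _
  induction n with
  | zero => simp
  | succ n ih =>
    set T := {m | P n m ∧ ∀ y, g.idx α n y = m → ¬ ∃ i < n, P i (g.idx α i y)}
    have e : {y | ∃ i < n + 1, P i (g.idx α i y)} =
        (⋃ m ∈ T, {y | g.idx α n y = m}) ∪ {y | ∃ i < n, P i (g.idx α i y)} := by
      ext y
      simp only [mem_union, mem_iUnion, mem_ofPred_eq, exists_prop, exists_eq_right']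
      constructor
      · rintro ⟨i, h1, h2⟩
        by_cases hy : ∃ i < n, P i (g.idx α i y)
        · exact Or.inr hy
        · obtain rfl : i = n := by
            by_contra hc
            exact hy ⟨i, by omega, h2⟩
          refine Or.inl ⟨h2, fun z hz ⟨k, h3, h4⟩ => hy ⟨k, h3, ?_⟩⟩
          rwa [← g.nest_le h3.le hz]
      · rintro (h1 | ⟨i, h1, h2⟩)
        exacts [⟨n, by omega, h1.1⟩, ⟨i, by omega, h2⟩]
    have hd : Disjoint (⋃ m ∈ T, {y | g.idx α n y = m}) {y | ∃ i < n, P i (g.idx α i y)} :=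
      disjoint_iUnion₂_left.2 fun m hm => disjoint_left.2 fun y hy => hm.2 y hy
    have hp : T.PairwiseDisjoint fun m => {y | g.idx α n y = m} := fun a _ b _ hab =>
      disjoint_left.2 fun y h1 h2 => hab (h1.symm.trans h2)
    rw [e, measure_union hd (hm n), measure_union hd (hm n),
      measure_biUnion (to_countable T) hp fun m _ => g.meas α n m,
      measure_biUnion (to_countable T) hp fun m _ => g.meas α n m]
    exact add_le_add (ENNReal.tsum_le_tsum fun m => hP n m m.2.1) ih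

lemma cover_le (μ₁ μ₂ : Measure E) (P : A → ℕ → ι → Prop) {S T : Set E} (n : ℕ)
    (hP : ∀ α i m, P α i m → μ₁ {y | g.idx α i y = m} ≤ μ₂ {y | g.idx α i y = m})
    (hS : ∀ y ∈ S, ∃ α, ∃ i < n, P α i (g.idx α i y))
    (hT : ∀ α i y, P α i (g.idx α i y) → y ∈ T) : μ₁ S ≤ Fintype.card A * μ₂ T := by
  calc μ₁ S ≤ μ₁ (⋃ α, {y | ∃ i < n, P α i (g.idx α i y)}) :=
        measure_mono fun y hy => mem_iUnion.2 (hS y hy)
    _ ≤ ∑ α, μ₁ {y | ∃ i < n, P α i (g.idx α i y)} := measure_iUnion_fintype_le _ _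
    _ ≤ ∑ _α : A, μ₂ T := Finset.sum_le_sum fun α _ => (g.nested_le μ₁ μ₂ α _ (hP α) n).trans
        (measure_mono fun y ⟨i, _, hy⟩ => hT α i y hy)
    _ = _ := by simp

end Grid

lemma floor_three (u : ℝ) : ⌊u⌋ = ⌊3 * u⌋ / 3 := by
  have := Int.floor_div_natCast (3 * u) 3
  rw [show 3 * u / ((3 : ℕ) : ℝ) = u by push_cast; ring] at this
  exact_mod_cast this

lemma floor_close {u v : ℝ} (h : |u - v| < 1 / 2) (h' : ⌊u⌋ ≠ ⌊v⌋) :
    ⌊u - 1 / 2⌋ = ⌊v - 1 / 2⌋ := by
  wlog huv : u ≤ v generalizing u v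
  · exact (this (by rwa [abs_sub_comm]) h'.symm (not_le.1 huv).le).symm
  have h1 : ⌊u⌋ + 1 ≤ ⌊v⌋ := lt_of_le_of_ne (Int.floor_mono huv) h'
  have h2 : (⌊u⌋ : ℝ) + 1 ≤ v := le_trans (by exact_mod_cast h1) (Int.floor_le v)
  have h3 := Int.lt_floor_add_one u
  have h4 := (abs_lt.1 h).1
  rw [show ⌊u - 1 / 2⌋ = ⌊u⌋ from Int.floor_eq_iff.2 ⟨by linarith, by linarith⟩,
    show ⌊v - 1 / 2⌋ = ⌊u⌋ from Int.floor_eq_iff.2 ⟨by linarith, by linarith⟩]

theorem exists_grid (d : ℕ) (hd : 1 ≤ d) : ∃ G N₀ : ℕ, ∀ h : ℝ, 0 < h →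
    Nonempty (Grid (EuclideanSpace ℝ (Fin d)) (Fin d → Bool) (Fin d → ℤ) G N₀ h) := by
  have hd' : (1 : ℝ) ≤ d := by exact_mod_cast hd
  refine ⟨2 * d, (12 * d + 3) ^ d, fun h h0 => ⟨⟨fun α j y i =>
    ⌊y i / (sc h j / d) - if α i then 1 / 2 else 0⌋, fun _ => false, fun α j m => ?_,
    fun α j y z e => ?_, fun α j y z e => ?_, fun j y z e => ?_, fun j y s hs => ?_⟩⟩⟩
  · exact (measurable_pi_lambda _ fun i => Measurable.floor (by fun_prop))
      (measurableSet_singleton m)
  · funext i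
    have e1 := congrFun e i
    have e2 : ∀ w : ℝ, ⌊w / (sc h (j + 1) / d) - if α i then 1 / 2 else 0⌋ =
        ⌊3 * (w / (sc h j / d) - if α i then 1 / 2 else 0)⌋ + if α i then 1 else 0 := fun w => by
      have := sc_pos h0 (j + 1)
      rw [← Int.floor_add_intCast, sc_succ h j]
      congr 1
      split_ifs <;> push_cast <;> field_simp <;> ring
    simp only [e2, add_left_inj] at e1
    simp only
    rw [floor_three, e1, ← floor_three]
  · have t0 : 0 < sc h j / d := by have := sc_pos h0 j; positivity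
    have e1 : ∀ i, dist (y i) (z i) ^ 2 ≤ (sc h j / d) ^ 2 := fun i => by
      have := Int.abs_sub_lt_one_of_floor_eq_floor (congrFun e i)
      rw [sub_sub_sub_cancel_right, ← sub_div, abs_div, abs_of_pos t0, div_lt_one t0] at this
      gcongr
      exact this.le
    rw [EuclideanSpace.dist_eq, Real.sqrt_le_left (sc_pos h0 j).le]
    refine (Finset.sum_le_card_nsmul _ _ _ fun i _ => e1 i).trans ?_
    rw [Finset.card_fin, nsmul_eq_mul, div_pow, ← mul_div_assoc, div_le_iff₀ (by positivity),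
      mul_comm]
    gcongr
    nlinarith
  · classical
    have t0 : 0 < sc h j / d := by have := sc_pos h0 j; positivity
    refine ⟨fun i => decide (⌊y i / (sc h j / d)⌋ ≠ ⌊z i / (sc h j / d)⌋), funext fun i => ?_⟩
    by_cases hi : ⌊y i / (sc h j / d)⌋ = ⌊z i / (sc h j / d)⌋
    · simp [hi]
    · simp only [ne_eq, hi, not_false_eq_true, decide_true, if_true]
      refine floor_close ?_ hi
      have a1 := (PiLp.dist_apply_le y z i).trans e
      have a2 : ((2 * d : ℕ) : ℝ) < 3 ^ (2 * d) := by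
        exact_mod_cast Nat.lt_pow_self (show 1 < 3 by norm_num)
      have a3 := mul_lt_mul_of_pos_right a2 (sc_pos h0 (j + 2 * d))
      rw [← sc_add] at a3
      rw [← sub_div, abs_div, abs_of_pos t0, div_lt_iff₀ t0, ← Real.dist_eq, ← mul_div_assoc,
        lt_div_iff₀ (by positivity)]
      push_cast at a3
      nlinarith
  · have t0 : 0 < sc h j / d := by have := sc_pos h0 j; positivity
    refine (Finset.card_le_card (t := Fintype.piFinset fun i => Finset.Icc
      (⌊y i / (sc h j / d)⌋ - (6 * d + 1)) (⌊y i / (sc h j / d)⌋ + (6 * d + 1))) fun m hm => ?_).trans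
      (le_of_eq ?_)
    · obtain ⟨z, rfl, hz⟩ := hs m hm
      refine Fintype.mem_piFinset.2 fun i => Finset.mem_Icc.2 ?_
      have a1 : |y i / (sc h j / d) - z i / (sc h j / d)| < 6 * d := by
        rw [← sub_div, abs_div, abs_of_pos t0, div_lt_iff₀ t0, ← Real.dist_eq]
        refine ((PiLp.dist_apply_le y z i).trans_lt hz).trans_le (le_of_eq ?_)
        field_simp
      have a2 := abs_lt.1 a1
      have a3 := Int.floor_le (y i / (sc h j / d))
      have a4 := Int.lt_floor_add_one (y i / (sc h j / d))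
      simp only [Bool.false_eq_true, if_false, sub_zero]
      constructor
      · rw [Int.le_floor]; push_cast; linarith
      · rw [← Int.lt_add_one_iff, Int.floor_lt]; push_cast; linarith
    · rw [Fintype.card_piFinset]
      simp only [Int.card_Icc]
      rw [Finset.prod_congr rfl (g := fun _ => 12 * d + 3) fun i _ => by omega]
      simp

end Vale.Agent.P137
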