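import Vale.Agent.P137.Core2

open MeasureTheory Metric Set Filter
open scoped ENNReal Topology

set_option linter.unusedSectionVars false

namespace Vale.Agent.P137

variable {E : Type*} [NormedAddCommGroup E] [NormedSpace ℝ E] [FiniteDimensional ℝ E]
  [MeasurableSpace E] [BorelSpace E] (μ : Measure E) [μ.IsAddHaarMeasure]

/-- real average over a ball -/
noncomputable def av (p : E → ℝ) (c : E) (r : ℝ) : ℝ :=
  (∫ x in ball c r, p x ∂μ) / μ.real (ball c r)

/-- uncentered maximal function of a nonnegative function -/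
noncomputable def gM (p : E → ℝ) (x : E) : ℝ≥0∞ :=
  ⨆ (c : E) (r : ℝ) (_ : x ∈ ball c r), ENNReal.ofReal (av μ p c r)

noncomputable def xi (E : Type*) [AddCommGroup E] [Module ℝ E] : ℝ :=
  dl E / (4 * 4 ^ Module.finrank ℝ E)

noncomputable def dl1 (E : Type*) [AddCommGroup E] [Module ℝ E] : ℝ :=
  dl E / (2 * 2 ^ Module.finrank ℝ E)

/-- low density level -/
def Good (p : E → ℝ) (c : E) (r l : ℝ) : Prop :=
  μ.real ({x | l < p x} ∩ ball c ((1 - xi E) * r)) ≤ dl1 E * μ.real (ball c r) ∧ l < av μ p c r ∧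
    ∀ b ∈ ball c r, l < av μ p b (r / 2) →
      μ.real ({x | l < p x} ∩ ball b (r / 80)) ≤ dl1 E * μ.real (ball c r)

variable {μ}

lemma dl_le : dl E ≤ 1 / 100 := by
  unfold dl
  have : ((1 : ℝ) / 160) ^ Module.finrank ℝ E ≤ 1 := pow_le_one₀ (by norm_num) (by norm_num)
  linarith

lemma xi_pos : 0 < xi E := by unfold xi; have := dl_pos (E := E); positivity

lemma dl1_pos : 0 < dl1 E := by unfold dl1; have := dl_pos (E := E); positivity

lemma xi_le : xi E ≤ 1 / 100 := by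
  unfold xi
  have h1 : (1 : ℝ) ≤ 4 ^ Module.finrank ℝ E := one_le_pow₀ (by norm_num)
  have h2 := dl_le (E := E)
  have h3 := dl_pos (E := E)
  rw [div_le_iff₀ (by positivity)]
  nlinarith

lemma dl1_le : dl1 E ≤ dl E := by
  unfold dl1
  have h1 : (1 : ℝ) ≤ 2 ^ Module.finrank ℝ E := one_le_pow₀ (by norm_num)
  have h3 := dl_pos (E := E)
  rw [div_le_iff₀ (by positivity)]
  nlinarith

lemma one_add_pow_le' {x : ℝ} (h0 : 0 ≤ x) (h1 : x ≤ 1) (n : ℕ) : (1 + x) ^ n ≤ 1 + 2 ^ n * x := by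
  have : (1 + x) ^ n ≤ 1 + (2 ^ n - 1) * x := by
    induction n with
    | zero => simp
    | succ n ih =>
      have h2 : (1 : ℝ) ≤ 2 ^ n := one_le_pow₀ (by norm_num)
      have h3 : 0 ≤ (2 ^ n - 1) * x * (1 - x) := by
        apply mul_nonneg (mul_nonneg (by linarith) h0) (by linarith)
      calc (1 + x) ^ (n + 1) = (1 + x) ^ n * (1 + x) := pow_succ _ _
        _ ≤ (1 + (2 ^ n - 1) * x) * (1 + x) := by gcongr
        _ ≤ _ := by rw [pow_succ]; nlinarith
  linarith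

lemma one_sub_pow_ge' {x : ℝ} (h0 : 0 ≤ x) (h1 : x ≤ 1) (n : ℕ) : 1 - 2 ^ n * x ≤ (1 - x) ^ n := by
  have h := one_add_mul_le_pow (a := -x) (by linarith) n
  have h2 : (n : ℝ) ≤ 2 ^ n := by exact_mod_cast (Nat.lt_two_pow_self).le
  have : (n : ℝ) * x ≤ 2 ^ n * x := by gcongr
  rw [← sub_eq_add_neg] at h
  linarith

lemma lt_av_iff (p : E → ℝ) (c : E) {r : ℝ} (hr : 0 < r) (l : ℝ) :
    l < av μ p c r ↔ l * μ.real (ball c r) < ∫ x in ball c r, p x ∂μ :=
  lt_div_iff₀ (real_ball_pos c hr)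

lemma pair_bound {p : E → ℝ} (hm : Measurable p) (hp : Integrable p μ) {R ρ₀ : ℝ} (hR : 0 < R)
    (h1 : R ≤ ρ₀) (h2 : ρ₀ ≤ 2 * R) (c₀ c₁ c₂ : E) (r₁ r₂ l₁ l₂ : ℝ)
    (hc₁ : dist c₁ c₀ < xi E * R / 4) (hc₂ : dist c₂ c₀ < xi E * R / 4)
    (hr₁ : r₁ ∈ Icc ρ₀ (ρ₀ + xi E * R / 4)) (hr₂ : r₂ ∈ Icc ρ₀ (ρ₀ + xi E * R / 4))
    (G₁ : Good μ p c₁ r₁ l₁) (G₂ : Good μ p c₂ r₂ l₂) :
    l₂ - l₁ ≤ (∫ b in ball c₀ (8 * R), W μ p (8 * R) b ∂μ) /
      (dl E * μ.real (ball (0 : E) R) ^ 2) := by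
  have hξ := xi_pos (E := E)
  have hξ' := xi_le (E := E)
  have hδ := dl_pos (E := E)
  have hζ : xi E * R ≤ R / 100 := by nlinarith
  have hζ0 : 0 < xi E * R := by positivity
  obtain ⟨a1, a2⟩ := hr₁
  obtain ⟨b1, b2⟩ := hr₂
  have hr₁0 : 0 < r₁ := by linarith
  have hr₂0 : 0 < r₂ := by linarith
  have hvR : 0 < μ.real (ball (0 : E) R) := real_ball_pos _ hR
  set I := ∫ b in ball c₀ (8 * R), W μ p (8 * R) b ∂μ with hI
  have hI0 : 0 ≤ I := integral_nonneg fun b => W_nonneg p _ b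
  have hv2 : μ.real (ball (0 : E) R) ≤ μ.real (ball c₂ r₂) := by
    rw [Measure.addHaar_real_ball_center μ c₂]
    exact measureReal_mono (ball_subset_ball (by linarith)) measure_ball_lt_top.ne
  have hv12 : μ.real (ball c₁ r₁) ≤ 2 ^ Module.finrank ℝ E * μ.real (ball c₂ r₂) := by
    rw [← real_ball_mul c₁ c₂ hr₂0 (by norm_num)]
    exact measureReal_mono (ball_subset_ball (by linarith)) measure_ball_lt_top.ne
  have key := core hm hp c₂ (ρ := 8 * R) hr₂0 (by linarith) l₁ l₂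
    (I / μ.real (ball (0 : E) R) ^ 2) ?_ ?_ ((lt_av_iff p c₂ hr₂0 l₂).1 G₂.2.1) ?_
  · rw [le_div_iff₀ (by positivity)] at key ⊢
    linarith
  · calc _ ≤ I := setIntegral_mono_set (W_integrable hm hp _).integrableOn
          (Eventually.of_forall fun b => W_nonneg p _ b)
          (ball_subset_ball' (by linarith)).eventuallyLE
      _ = I / μ.real (ball (0 : E) R) ^ 2 * μ.real (ball (0 : E) R) ^ 2 := by field_simp
      _ ≤ _ := by gcongr
  · have hsub : {x | l₁ < p x} ∩ ball c₂ r₂ ⊆ ({x | l₁ < p x} ∩ ball c₁ ((1 - xi E) * r₁)) ∪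
        (ball c₁ ((1 + xi E) * r₁) \ ball c₁ ((1 - xi E) * r₁)) := by
      rintro x ⟨hx1, hx2⟩
      by_cases h : x ∈ ball c₁ ((1 - xi E) * r₁)
      · exact Or.inl ⟨hx1, h⟩
      · refine Or.inr ⟨ball_subset_ball' ?_ hx2, h⟩
        have := dist_triangle_right c₂ c₁ c₀
        have : xi E * R ≤ xi E * r₁ := by gcongr; linarith
        linarith
    have h3 := (measureReal_mono hsub (measure_union_ne_top
      ((measure_mono inter_subset_right).trans_lt measure_ball_lt_top).ne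
      ((measure_mono sdiff_subset).trans_lt measure_ball_lt_top).ne)).trans
      (measureReal_union_le (μ := μ) _ _)
    rw [measureReal_sdiff (ball_subset_ball (by nlinarith)) measurableSet_ball
      measure_ball_lt_top.ne, real_ball_mul c₁ c₁ hr₁0 (by linarith),
      real_ball_mul c₁ c₁ hr₁0 (by linarith)] at h3
    have e1 := one_add_pow_le' hξ.le (by linarith) (Module.finrank ℝ E)
    have e2 := one_sub_pow_ge' hξ.le (by linarith) (Module.finrank ℝ E)
    have e3 : 2 * (2 ^ Module.finrank ℝ E * xi E) = dl1 E := by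
      unfold xi dl1
      rw [show (4 : ℝ) ^ Module.finrank ℝ E = 2 ^ Module.finrank ℝ E * 2 ^ Module.finrank ℝ E by
        rw [← mul_pow]; norm_num]
      field_simp
      norm_num
    have e4 : 2 * dl1 E * 2 ^ Module.finrank ℝ E = dl E := by unfold dl1; field_simp
    have hv1 : 0 < μ.real (ball c₁ r₁) := real_ball_pos _ hr₁0
    have e5 : ((1 + xi E) ^ Module.finrank ℝ E - (1 - xi E) ^ Module.finrank ℝ E) *
        μ.real (ball c₁ r₁) ≤ dl1 E * μ.real (ball c₁ r₁) := by gcongr; linarith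
    have e6 := dl1_pos (E := E)
    calc _ ≤ 2 * dl1 E * μ.real (ball c₁ r₁) := by linarith [G₁.1]
      _ ≤ 2 * dl1 E * (2 ^ Module.finrank ℝ E * μ.real (ball c₂ r₂)) := by gcongr
      _ = _ := by rw [← mul_assoc, e4]
  · intro b hb hb2
    refine (G₂.2.2 b hb ((lt_av_iff p b (by linarith) l₂).2 hb2)).trans ?_
    gcongr
    exact dl1_le

lemma lintegral_smul_eq {f : E → ℝ≥0∞} (hf : Measurable f) {s : ℝ} (hs : 0 < s) :
    ∫⁻ x, f (s • x) ∂μ = ENNReal.ofReal (s⁻¹ ^ Module.finrank ℝ E) * ∫⁻ x, f x ∂μ := by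
  rw [← lintegral_map hf (measurable_const_smul s), Measure.map_addHaar_smul μ hs.ne',
    lintegral_smul_measure, abs_of_pos (by positivity), inv_pow, smul_eq_mul]

lemma lintegral_homothety {f : E → ℝ≥0∞} (hf : Measurable f) (c : E) {s : ℝ} (hs : 0 < s) :
    ∫⁻ x, f (c + s • (x - c)) ∂μ = ENNReal.ofReal (s⁻¹ ^ Module.finrank ℝ E) * ∫⁻ x, f x ∂μ := by
  rw [lintegral_sub_right_eq_self (fun x => f (c + s • x)) c,
    lintegral_smul_eq (f := fun x => f (c + x)) (hf.comp (measurable_const_add c)) hs,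
    lintegral_add_left_eq_self f c]

/-- gain under a small dilation -/
lemma dilation_gain {f : E → ℝ≥0∞} (hf : Measurable f) (c : E) {κ : ℝ} (h0 : 0 ≤ κ) (h1 : κ ≤ 1)
    (hfin : ∫⁻ x, f x ∂μ ≠ ∞) (hmono : ∀ x, f x ≤ f (c + (1 + κ)⁻¹ • (x - c))) :
    ∫⁻ x, (f (c + (1 + κ)⁻¹ • (x - c)) - f x) ∂μ ≤
      ENNReal.ofReal (2 ^ Module.finrank ℝ E * κ) * ∫⁻ x, f x ∂μ := by
  rw [lintegral_sub hf hfin (Eventually.of_forall hmono),
    lintegral_homothety hf c (by positivity), inv_inv, tsub_le_iff_right]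
  calc _ ≤ ENNReal.ofReal (2 ^ Module.finrank ℝ E * κ + 1) * ∫⁻ x, f x ∂μ := by
        gcongr
        linarith [one_add_pow_le' h0 h1 (Module.finrank ℝ E)]
    _ = _ := by rw [ENNReal.ofReal_add (by positivity) zero_le_one, add_mul]; simp

end Vale.Agent.P137
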