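import Vale.Agent.P137.CSup
import Vale.Agent.P137.Cell1
import Mathlib.Analysis.SpecialFunctions.SmoothTransition
import Mathlib.Analysis.Calculus.ParametricIntegral
import Mathlib.Analysis.Calculus.UniformLimitsDeriv
import Mathlib.Analysis.InnerProductSpace.Calculus

open MeasureTheory Metric Set Filter
open scoped ENNReal Topology RealInnerProductSpace ContDiff

set_option linter.unusedSectionVars false

namespace Vale.Agent.P137

variable {E : Type*} [NormedAddCommGroup E] [InnerProductSpace ℝ E] [FiniteDimensional ℝ E]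
  [MeasurableSpace E] [BorelSpace E] {μ : Measure E} [μ.IsAddHaarMeasure]

/-- weak gradient identity -/
def WG (μ : Measure E) (p : E → ℝ) (ν : E → E) : Prop :=
  ∀ φ : E → ℝ, ContDiff ℝ ∞ φ → HasCompactSupport φ → ∀ v : E,
    ∫ x, p x * fderiv ℝ φ x v ∂μ = -∫ x, ⟪ν x, v⟫ * φ x ∂μ

variable {p : E → ℝ} {ν : E → E}

lemma int_cc {f φ : E → ℝ} (hf : Integrable f μ) (h1 : Continuous φ) (h2 : HasCompactSupport φ) :
    Integrable (fun y => f y * φ y) μ :=
  hf.locallyIntegrable.integrable_smul_right_of_hasCompactSupport h1 h2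

lemma lipK_int'' (hν : Integrable ν μ) {K : E → E} (h1 : Continuous K) (h2 : HasCompactSupport K) :
    Integrable (fun y => ⟪ν y, K y⟫) μ := by
  obtain ⟨M, hM⟩ := h1.bounded_above_of_compact_support h2
  refine (hν.norm.mul_const M).mono' (hν.1.inner h1.aestronglyMeasurable)
    (Eventually.of_forall fun y => (norm_inner_le_norm _ _).trans ?_)
  gcongr
  exact hM y

lemma WG.lin (h : WG μ p ν) {φ : E → ℝ} (h1 : ContDiff ℝ ∞ φ) (h2 : HasCompactSupport φ)
    (x u v : E) : ∫ y, p y * (fderiv ℝ φ y u * ⟪v, y - x⟫ + φ y * ⟪v, u⟫) ∂μ =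
      -∫ y, ⟪ν y, u⟫ * (φ y * ⟪v, y - x⟫) ∂μ := by
  rw [← h (fun y => φ y * ⟪v, y - x⟫) (h1.mul (contDiff_const.inner ℝ (by fun_prop)))
    h2.mul_right u]
  refine integral_congr_ae (Eventually.of_forall fun y => ?_)
  have a : HasFDerivAt (fun y : E => ⟪v, y - x⟫) (innerSL ℝ v) y := by
    simp only [inner_sub_right]
    exact (innerSL ℝ v).hasFDerivAt.sub_const _
  have := (((h1.differentiable (by simp)) y).hasFDerivAt.fun_mul a).fderiv
  simp only [this, add_apply, smul_apply, innerSL_apply_apply, smul_eq_mul]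
  ring

lemma WG.dil (h : WG μ p ν) (hp : Integrable p μ) (hν : Integrable ν μ) {φ : E → ℝ}
    (h1 : ContDiff ℝ ∞ φ) (h2 : HasCompactSupport φ) (x : E) :
    ∫ y, p y * fderiv ℝ φ y (y - x) ∂μ =
      -∫ y, ⟪ν y, y - x⟫ * φ y ∂μ - Module.finrank ℝ E * ∫ y, p y * φ y ∂μ := by
  set b := stdOrthonormalBasis ℝ E
  have hc : Continuous (fderiv ℝ φ) := h1.continuous_fderiv (by simp)
  have c0 := h1.continuous
  have i0 := int_cc hp c0 h2
  have i1 : Integrable (fun y => p y * fderiv ℝ φ y (y - x)) μ :=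
    int_cc hp (by fun_prop) ((h2.fderiv ℝ).mono fun y hy h0 => hy (by simp [h0]))
  have e1 : ∀ y, p y * fderiv ℝ φ y (y - x) + Module.finrank ℝ E * (p y * φ y) =
      ∑ i, p y * (fderiv ℝ φ y (b i) * ⟪b i, y - x⟫ + φ y * ⟪b i, b i⟫) := fun y => by
    conv_lhs => rw [← b.sum_repr' (y - x)]
    simp only [map_sum, map_smul, smul_eq_mul, real_inner_self_eq_norm_sq, b.orthonormal.1,
      mul_add, Finset.sum_add_distrib, Finset.mul_sum, mul_comm (⟪b _, y - x⟫)]
    simp
  have e2 : ∀ y, ⟪ν y, y - x⟫ * φ y = ∑ i, ⟪ν y, b i⟫ * (φ y * ⟪b i, y - x⟫) := fun y => by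
    rw [← b.sum_inner_mul_inner, Finset.sum_mul]
    exact Finset.sum_congr rfl fun i _ => by ring
  rw [eq_sub_iff_add_eq, ← integral_const_mul, ← integral_add i1 (i0.const_mul _)]
  simp only [e1, e2]
  have j1 : ∀ i, Integrable (fun y => p y * (fderiv ℝ φ y (b i) * ⟪b i, y - x⟫ +
      φ y * ⟪b i, b i⟫)) μ := fun i => int_cc hp (by fun_prop)
    (HasCompactSupport.add (f := fun y => fderiv ℝ φ y (b i) * ⟪b i, y - x⟫)
      (f' := fun y => φ y * ⟪b i, b i⟫) (h2.fderiv_apply ℝ (b i)).mul_right h2.mul_right)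
  have j2 : ∀ i, Integrable (fun y => ⟪ν y, b i⟫ * (φ y * ⟪b i, y - x⟫)) μ := fun i =>
    int_cc (hν.inner_const _) (by fun_prop) h2.mul_right
  rw [integral_finsetSum _ fun i _ => j1 i, integral_finsetSum _ fun i _ => j2 i,
    ← Finset.sum_neg_distrib]
  exact Finset.sum_congr rfl fun i _ => h.lin h1 h2 x _ _

lemma zz_smooth {Ψ : E → ℝ} (h1 : ContDiff ℝ ∞ Ψ) (h2 : HasCompactSupport Ψ) {r : ℝ} (hr : 0 < r)
    (x : E) : ContDiff ℝ ∞ (fun y => Ψ (zz r x y)) ∧ HasCompactSupport (fun y => Ψ (zz r x y)) ∧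
      ∀ y w, fderiv ℝ (fun y => Ψ (zz r x y)) y w = fderiv ℝ Ψ (zz r x y) (r⁻¹ • w) := by
  refine ⟨h1.comp (by unfold zz; fun_prop), h2.comp_homeomorph
    ((Homeomorph.subRight x).trans (Homeomorph.smulOfNeZero r⁻¹ (inv_ne_zero hr.ne'))),
    fun y w => ?_⟩
  have a : HasFDerivAt (zz r x) (r⁻¹ • ContinuousLinearMap.id ℝ E) y :=
    ((hasFDerivAt_id y).sub_const x).const_smul r⁻¹
  have := (((h1.differentiable (by simp)) _).hasFDerivAt.comp y a).fderiv
  rw [show (fun y => Ψ (zz r x y)) = Ψ ∘ zz r x from rfl, this]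
  simp

lemma WG.deriv (h : WG μ p ν) (hp : Integrable p μ) (hν : Integrable ν μ) {Ψ : E → ℝ}
    (h1 : ContDiff ℝ ∞ Ψ) (h2 : HasCompactSupport Ψ) (x e : E) (r κ : ℝ) {t : ℝ}
    (ht : 0 < r + κ * t) (c : ℝ) : HasDerivAt (fun t : ℝ =>
      (∫ y, p y * Ψ (zz (r + κ * t) (x + t • e) y) ∂μ) / ((r + κ * t) ^ Module.finrank ℝ E * c))
      ((∫ y, ⟪ν y, e + κ • zz (r + κ * t) (x + t • e) y⟫ * Ψ (zz (r + κ * t) (x + t • e) y) ∂μ) /
        ((r + κ * t) ^ Module.finrank ℝ E * c)) t := by
  have hc : Continuous (fderiv ℝ Ψ) := h1.continuous_fderiv (by simp)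
  obtain ⟨M, hM⟩ := (show Continuous fun z => fderiv ℝ Ψ z (e + κ • z) by
    fun_prop).bounded_above_of_compact_support ((h2.fderiv ℝ).mono fun y hy h0 => hy (by simp [h0]))
  have hs : {s : ℝ | (r + κ * t) / 2 < r + κ * s} ∈ 𝓝 t :=
    (isOpen_lt continuous_const (by fun_prop)).mem_nhds (half_lt_self ht)
  obtain ⟨z1, z2, z3⟩ := zz_smooth h1 h2 ht (x + t • e)
  have cz : ∀ s : ℝ, Continuous (zz (r + κ * s) (x + s • e)) := fun s => by unfold zz; fun_prop
  have a1 := (hasDerivAt_integral_of_dominated_loc_of_deriv_le (μ := μ) hs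
    (F := fun s y => p y * Ψ (zz (r + κ * s) (x + s • e) y))
    (F' := fun s y => p y * (-(r + κ * s)⁻¹ * fderiv ℝ Ψ (zz (r + κ * s) (x + s • e) y)
      (e + κ • zz (r + κ * s) (x + s • e) y)))
    (bound := fun y => ‖p y‖ * (((r + κ * t) / 2)⁻¹ * M))
    (Eventually.of_forall fun s => hp.1.mul (h1.continuous.comp (cz s)).aestronglyMeasurable)
    (int_cc hp z1.continuous z2) (hp.1.mul (Continuous.aestronglyMeasurable (by
      have := cz t; fun_prop))) (Eventually.of_forall fun y s hs => by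
        have hs' : (r + κ * t) / 2 < r + κ * s := hs
        rw [norm_mul (p y), norm_mul, norm_neg, norm_inv,
          Real.norm_of_nonneg (show 0 ≤ r + κ * s by linarith)]
        gcongr
        exact hM _) (hp.norm.mul_const _) (Eventually.of_forall fun y s hs => by
        have hs' : 0 < r + κ * s := lt_trans (half_pos ht) hs
        have b1 : HasDerivAt (fun s => r + κ * s) κ s := by
          simpa using ((hasDerivAt_id s).const_mul κ).const_add r
        have b2 : HasDerivAt (fun s : ℝ => y - (x + s • e)) (-e) s := by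
          simpa using (((hasDerivAt_id s).smul_const e).const_add x).const_sub y
        have b3 := ((h1.differentiable (by simp)) _).hasFDerivAt.comp_hasDerivAt s
          ((b1.fun_inv hs'.ne').fun_smul b2)
        refine (b3.congr_deriv ?_).const_mul _
        refine Eq.trans ?_ ((map_smul _ _ _).trans (smul_eq_mul _ _))
        simp only [zz]
        congr 1
        match_scalars
        all_goals field_simp
        ring)).2
  have b1 : HasDerivAt (fun s => r + κ * s) κ t := by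
    simpa using ((hasDerivAt_id t).const_mul κ).const_add r
  by_cases h0 : c = 0
  · simpa [h0] using hasDerivAt_const t (0 : ℝ)
  refine (a1.div ((b1.pow _).mul_const c) (mul_ne_zero (pow_ne_zero _ ht.ne') h0)).congr_deriv ?_
  have i1 : Integrable (fun y => p y * fderiv ℝ (fun y => Ψ (zz (r + κ * t) (x + t • e) y)) y e) μ :=
    int_cc hp ((z1.continuous_fderiv (by simp)).clm_apply continuous_const) (z2.fderiv_apply ℝ e)
  have i2 : Integrable (fun y => p y * fderiv ℝ (fun y => Ψ (zz (r + κ * t) (x + t • e) y)) y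
      (y - (x + t • e))) μ := int_cc hp ((z1.continuous_fderiv (by simp)).clm_apply (by fun_prop))
    ((z2.fderiv ℝ).mono fun y hy h0 => hy (by simp [h0]))
  have e1 : ∫ y, p y * (-(r + κ * t)⁻¹ * fderiv ℝ Ψ (zz (r + κ * t) (x + t • e) y)
      (e + κ • zz (r + κ * t) (x + t • e) y)) ∂μ =
      -∫ y, p y * fderiv ℝ (fun y => Ψ (zz (r + κ * t) (x + t • e) y)) y e ∂μ -
      κ * (r + κ * t)⁻¹ * ∫ y, p y * fderiv ℝ (fun y => Ψ (zz (r + κ * t) (x + t • e) y)) y
        (y - (x + t • e)) ∂μ := by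
    have i1' : Integrable (fun y => -(p y * fderiv ℝ
      (fun y => Ψ (zz (r + κ * t) (x + t • e) y)) y e)) μ := i1.neg
    rw [← integral_const_mul, ← integral_neg, ← integral_sub i1' (i2.const_mul _)]
    refine integral_congr_ae (Eventually.of_forall fun y => ?_)
    simp only [z3, map_add, map_smul, smul_eq_mul]
    simp only [zz, map_smul, smul_eq_mul]
    ring
  have i3 := int_cc (hν.inner_const (𝕜 := ℝ) e) z1.continuous z2
  have i4 : Integrable (fun y => ⟪ν y, y - (x + t • e)⟫ * Ψ (zz (r + κ * t) (x + t • e) y)) μ := by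
    refine (lipK_int'' hν (K := fun y => Ψ (zz (r + κ * t) (x + t • e) y) • (y - (x + t • e)))
      (by have := z1.continuous; fun_prop) z2.smul_right).congr
      (Eventually.of_forall fun y => ?_)
    simp only [real_inner_smul_right, mul_comm]
  have e2 : ∫ y, ⟪ν y, e + κ • zz (r + κ * t) (x + t • e) y⟫ *
      Ψ (zz (r + κ * t) (x + t • e) y) ∂μ =
      ∫ y, ⟪ν y, e⟫ * Ψ (zz (r + κ * t) (x + t • e) y) ∂μ + κ * (r + κ * t)⁻¹ *
        ∫ y, ⟪ν y, y - (x + t • e)⟫ * Ψ (zz (r + κ * t) (x + t • e) y) ∂μ := by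
    rw [← integral_const_mul, ← integral_add i3 (i4.const_mul _)]
    refine integral_congr_ae (Eventually.of_forall fun y => ?_)
    simp only [inner_add_right, real_inner_smul_right]
    nth_rewrite 1 [zz]
    simp only [real_inner_smul_right]
    ring
  have e3 : (Module.finrank ℝ E : ℝ) * (r + κ * t) ^ (Module.finrank ℝ E - 1) =
      Module.finrank ℝ E * (r + κ * t) ^ Module.finrank ℝ E * (r + κ * t)⁻¹ := by
    cases Module.finrank ℝ E with
    | zero => simp
    | succ n => simp only [Nat.add_sub_cancel, pow_succ]; field_simp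
  rw [e1, e2, h _ z1 z2, h.dil hp hν z1 z2]
  simp only [Pi.pow_apply, e3]
  field_simp
  ring

end Vale.Agent.P137
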