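import Vale.Agent.P137.CId

open MeasureTheory Metric Set Filter
open scoped ENNReal Topology RealInnerProductSpace ContDiff

set_option linter.unusedSectionVars false

namespace Vale.Agent.P137

variable {E : Type*} [NormedAddCommGroup E] [InnerProductSpace ℝ E] [FiniteDimensional ℝ E]
  [MeasurableSpace E] [BorelSpace E] {μ : Measure E} [μ.IsAddHaarMeasure] {p : E → ℝ} {ν : E → E}

/-- smooth cutoffs of the unit ball -/
noncomputable def Psb (k : ℕ) (z : E) : ℝ := Real.smoothTransition (k * (1 - ‖z‖ ^ 2))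

lemma Psb_smooth (k : ℕ) : ContDiff ℝ ∞ (Psb k : E → ℝ) :=
  Real.smoothTransition.contDiff.comp (contDiff_const.mul (contDiff_const.sub (contDiff_norm_sq ℝ)))

lemma Psb_zero (k : ℕ) {z : E} (h : 1 ≤ ‖z‖) : Psb k z = 0 :=
  Real.smoothTransition.zero_of_nonpos (mul_nonpos_of_nonneg_of_nonpos k.cast_nonneg (by nlinarith))

lemma Psb_supp (k : ℕ) : HasCompactSupport (Psb k : E → ℝ) :=
  HasCompactSupport.intro (isCompact_closedBall 0 1) fun _ hy =>
    Psb_zero k (not_le.1 (mt mem_closedBall_zero_iff.2 hy)).le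

lemma Psb_lim {α : Type*} {l : Filter α} [l.IsCountablyGenerated] {k : α → ℕ} {R : α → ℝ}
    {X : α → E} {r : ℝ} {x : E} (hr : 0 < r) (hk : Tendsto k l atTop) (hR : Tendsto R l (𝓝 r))
    (hX : Tendsto X l (𝓝 x)) {F : α → E → ℝ} {F₀ B : E → ℝ}
    (h1 : ∀ a, AEStronglyMeasurable (F a) μ) (h2 : ∀ y, Tendsto (fun a => F a y) l (𝓝 (F₀ y)))
    (hB : Integrable B μ) (h3 : ∀ a y, ‖zz (R a) (X a) y‖ < 1 → ‖F a y‖ ≤ B y) :
    Tendsto (fun a => ∫ y, F a y * Psb (k a) (zz (R a) (X a) y) ∂μ) l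
      (𝓝 (∫ y in ball x r, F₀ y ∂μ)) := by
  rw [← integral_indicator measurableSet_ball]
  refine tendsto_integral_filter_of_dominated_convergence (fun y => ‖B y‖)
    (Eventually.of_forall fun a => (h1 a).mul ((Psb_smooth _).continuous.measurable.comp
      (zz_meas _ _)).aestronglyMeasurable)
    (Eventually.of_forall fun a => Eventually.of_forall fun y => ?_) hB.norm ?_
  · rcases lt_or_ge ‖zz (R a) (X a) y‖ 1 with h | h
    · rw [norm_mul, Psb, Real.norm_of_nonneg (Real.smoothTransition.nonneg _)]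
      exact (mul_le_of_le_one_right (norm_nonneg _) (Real.smoothTransition.le_one _)).trans
        ((h3 a y h).trans (le_abs_self _))
    · simp [Psb_zero _ h]
  filter_upwards [compl_mem_ae_iff.2 (Measure.addHaar_sphere_of_ne_zero μ x hr.ne')] with y hy
  have t : Tendsto (fun a => ‖zz (R a) (X a) y‖) l (𝓝 ‖zz r x y‖) :=
    ((hR.inv₀ hr.ne').smul (tendsto_const_nhds.sub hX)).norm
  have e := norm_zz hr x y
  rcases lt_or_gt_of_ne (mt mem_sphere_iff_norm.2 hy) with h | h
  · rw [indicator_of_mem (mem_ball_iff_norm.2 h)]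
    have a1 : ‖zz r x y‖ < 1 := by nlinarith
    have t2 := (tendsto_natCast_atTop_atTop.comp hk).atTop_mul_pos
      (show 0 < 1 - ‖zz r x y‖ ^ 2 by nlinarith [norm_nonneg (zz r x y)])
      (tendsto_const_nhds.sub (t.pow 2))
    refine (h2 y).congr' ?_
    filter_upwards [t2.eventually_ge_atTop 1] with a ha
    rw [Psb, Real.smoothTransition.one_of_one_le (by exact ha), mul_one]
  · rw [indicator_of_notMem (mt mem_ball_iff_norm.1 (not_lt.2 h.le))]
    have a1 : 1 < ‖zz r x y‖ := by nlinarith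
    refine tendsto_const_nhds.congr' ?_
    filter_upwards [t.eventually (lt_mem_nhds a1)] with a ha
    rw [Psb_zero _ ha.le, mul_zero]

lemma WG.st1 (h : WG μ p ν) (hp : Integrable p μ) (hν : Integrable ν μ) (x e : E) {r : ℝ}
    (hr : 0 < r) (κ : ℝ) : HasDerivAt (fun t : ℝ => av μ p (x + t • e) (r + κ * t))
      ((⟪e, aa μ ν x r⟫ + κ * ps μ ν x r / r) / μ.real (ball (0 : E) r)) 0 := by
  have hs : ∀ᶠ t in 𝓝 (0 : ℝ), 0 < r + κ * t :=
    (isOpen_lt continuous_const (by fun_prop)).mem_nhds (by simpa using hr)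
  have t1 : Tendsto (fun a : ℕ × ℝ => r + κ * a.2) (atTop ×ˢ 𝓝 0) (𝓝 r) := by
    simpa using ((tendsto_snd (g := 𝓝 (0 : ℝ))).const_mul κ).const_add r
  have t2 : Tendsto (fun a : ℕ × ℝ => x + a.2 • e) (atTop ×ˢ 𝓝 0) (𝓝 x) := by
    simpa using ((tendsto_snd (g := 𝓝 (0 : ℝ))).smul_const e).const_add x
  have t3 := (Psb_lim (μ := μ) hr tendsto_fst t1 t2
    (F := fun a y => ⟪ν y, e + κ • zz (r + κ * a.2) (x + a.2 • e) y⟫)
    (F₀ := fun y => ⟪ν y, e + κ • zz r x y⟫) (fun a => hν.1.inner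
      (((zz_meas _ _).const_smul κ).const_add e).aestronglyMeasurable)
    (fun y => tendsto_const_nhds.inner ((((t1.inv₀ hr.ne').smul
      (tendsto_const_nhds.sub t2)).const_smul κ).const_add e))
    (hν.norm.mul_const (‖e‖ + ‖κ‖)) (fun a y hy => by
      refine (norm_inner_le_norm _ _).trans ?_
      gcongr
      refine (norm_add_le _ _).trans ?_
      rw [norm_smul]
      gcongr
      exact mul_le_of_le_one_right (norm_nonneg _) hy.le)).div
    ((t1.pow (Module.finrank ℝ E)).mul_const (μ.real (ball (0 : E) 1)))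
    (mul_pos (pow_pos hr _) (real_ball_pos _ one_pos)).ne'
  have key := hasDerivAt_of_tendstoUniformlyOnFilter (l := atTop)
    (f := fun (k : ℕ) (t : ℝ) => (∫ y, p y * Psb k (zz (r + κ * t) (x + t • e) y) ∂μ) /
      ((r + κ * t) ^ Module.finrank ℝ E * μ.real (ball (0 : E) 1)))
    (g := fun t => (∫ y in ball (x + t • e) (r + κ * t), p y ∂μ) /
      ((r + κ * t) ^ Module.finrank ℝ E * μ.real (ball (0 : E) 1)))
    (f' := fun (k : ℕ) (t : ℝ) => (∫ y, ⟪ν y, e + κ • zz (r + κ * t) (x + t • e) y⟫ *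
      Psb k (zz (r + κ * t) (x + t • e) y) ∂μ) /
      ((r + κ * t) ^ Module.finrank ℝ E * μ.real (ball (0 : E) 1)))
    (tendsto_prod_filter_iff.1 t3) (by
      filter_upwards [tendsto_snd.eventually hs] with a ha
      exact h.deriv hp hν (Psb_smooth _) (Psb_supp _) x e r κ ha _) (by
      filter_upwards [hs] with t ht
      exact (Psb_lim ht tendsto_id tendsto_const_nhds tendsto_const_nhds (fun _ => hp.1)
        (fun _ => tendsto_const_nhds) hp.norm fun _ _ _ => le_rfl).div_const _)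
  refine (key.congr_of_eventuallyEq ?_).congr_deriv ?_
  · filter_upwards [hs] with t ht
    rw [av, real_ball _ ht]
  · rw [real_ball _ hr, aa, ps, ← integral_inner hν.integrableOn]
    congr 1
    simp only [zz, inner_add_right, real_inner_smul_right]
    rw [integral_add (hν.inner_const (𝕜 := ℝ) e).integrableOn ((((inner_intOn hν (l := fun y => y - x)
      (by fun_prop) x r).const_mul _).const_mul _)), integral_const_mul, integral_const_mul]
    simp only [real_inner_comm e]
    ring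

lemma WG.st2 (h : WG μ p ν) (hν : Integrable ν μ) (x : E) {r : ℝ} (hr : 0 < r) (u v : E) :
    ∫ y in ball x r, ⟪ν y, ⟪y - x, v⟫ • u - ⟪y - x, u⟫ • v⟫ ∂μ = 0 := by
  have t := Psb_lim (μ := μ) hr tendsto_id tendsto_const_nhds (tendsto_const_nhds (x := x))
    (F := fun (_ : ℕ) y => ⟪ν y, ⟪y - x, v⟫ • u - ⟪y - x, u⟫ • v⟫)
    (fun _ => hν.1.inner (Continuous.aestronglyMeasurable (by fun_prop)))
    (fun _ => tendsto_const_nhds) (hν.norm.mul_const (2 * (r * (‖u‖ * ‖v‖)))) fun _ y hy => by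
      refine (norm_inner_le_norm _ _).trans ?_
      gcongr
      have a : ‖y - x‖ ≤ r := by nlinarith [norm_zz hr x y]
      refine (norm_sub_le _ _).trans ?_
      rw [norm_smul, norm_smul]
      have b1 := (norm_inner_le_norm (𝕜 := ℝ) (y - x) v).trans
        (mul_le_mul_of_nonneg_right a (norm_nonneg _))
      have b2 := (norm_inner_le_norm (𝕜 := ℝ) (y - x) u).trans
        (mul_le_mul_of_nonneg_right a (norm_nonneg _))
      nlinarith [mul_le_mul_of_nonneg_right b1 (norm_nonneg u),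
        mul_le_mul_of_nonneg_right b2 (norm_nonneg v)]
  refine tendsto_nhds_unique t (tendsto_const_nhds.congr fun k => ?_)
  obtain ⟨z1, z2, z3⟩ := zz_smooth (Psb_smooth (E := E) k) (Psb_supp k) hr x
  have c0 := z1.continuous
  have j : ∀ u v : E, Integrable (fun y => ⟪ν y, u⟫ * (Psb k (zz r x y) * ⟪v, y - x⟫)) μ :=
    fun u v => int_cc (hν.inner_const _) (by fun_prop) z2.mul_right
  have e : ∀ z : E, ∃ c : ℝ, ∀ w, fderiv ℝ (Psb k) z w = c * ⟪z, w⟫ := fun z => by
    have a := ((Real.smoothTransition.contDiff (n := 1)).differentiable (by simp)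
      (k * (1 - ‖z‖ ^ 2))).hasDerivAt.comp_hasFDerivAt z
      (((hasStrictFDerivAt_norm_sq z).hasFDerivAt.const_sub 1).const_mul (k : ℝ))
    refine ⟨_root_.deriv Real.smoothTransition (k * (1 - ‖z‖ ^ 2)) * (-2 * k), fun w => ?_⟩
    rw [show fderiv ℝ (Psb k) z = _ from a.fderiv]
    simp only [smul_apply, neg_apply, innerSL_apply_apply, smul_eq_mul, nsmul_eq_mul]
    push_cast
    ring
  have e2 : ∫ y, ⟪ν y, u⟫ * (Psb k (zz r x y) * ⟪v, y - x⟫) ∂μ =
      ∫ y, ⟪ν y, v⟫ * (Psb k (zz r x y) * ⟪u, y - x⟫) ∂μ := by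
    rw [← neg_inj, ← h.lin z1 z2, ← h.lin z1 z2]
    refine integral_congr_ae (Eventually.of_forall fun y => ?_)
    obtain ⟨c, hc⟩ := e (zz r x y)
    simp only [z3, hc]
    simp only [zz, real_inner_smul_left, real_inner_smul_right, real_inner_comm (y - x),
      real_inner_comm u v]
    ring
  rw [← sub_eq_zero, ← integral_sub (j u v) (j v u)] at e2
  rw [← e2]
  refine integral_congr_ae (Eventually.of_forall fun y => ?_)
  simp only [inner_sub_right (ν y), real_inner_smul_right, real_inner_comm (y - x), id]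
  ring

lemma WG.st (h : WG μ p ν) (hp : Integrable p μ) (hν : Integrable ν μ) (x : E) (s : ℝ) :
    St μ (av μ p) ν x s :=
  ⟨fun _ hr _ e κ => h.st1 hp hν x e hr κ, fun _ hr _ => h.st2 hν x hr⟩

end Vale.Agent.P137
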