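import Vale.Agent.P137.CId2
import Mathlib.Analysis.Calculus.Gradient.Basic
import Mathlib.Analysis.Calculus.FDeriv.Measurable
import Mathlib.Analysis.Calculus.LocalExtr.Basic

open MeasureTheory Metric Set Filter
open scoped ENNReal Topology RealInnerProductSpace ContDiff

set_option linter.unusedSectionVars false

namespace Vale.Agent.P137

variable {E : Type*} [NormedAddCommGroup E] [InnerProductSpace ℝ E] [FiniteDimensional ℝ E]
  [MeasurableSpace E] [BorelSpace E] {μ : Measure E} [μ.IsAddHaarMeasure] {p : E → ℝ} {ν : E → E}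

lemma aa_le (hν : Integrable ν μ) (x : E) (r : ℝ) : ‖aa μ ν x r‖ ≤ ∫ y, ‖ν y‖ ∂μ :=
  (norm_integral_le_integral_norm _).trans
    (setIntegral_le_integral hν.norm (Eventually.of_forall fun _ => norm_nonneg _))

lemma ps_le (hν : Integrable ν μ) (x : E) {r : ℝ} (hr : 0 ≤ r) :
    ‖ps μ ν x r‖ ≤ (∫ y, ‖ν y‖ ∂μ) * r := by
  refine (norm_integral_le_of_norm_le (hν.norm.mul_const r).integrableOn
    (ae_restrict_of_forall_mem measurableSet_ball fun y hy => (norm_inner_le_norm _ _).trans
      (mul_le_mul_of_nonneg_left (mem_ball_iff_norm.1 hy).le (norm_nonneg _)))).trans ?_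
  rw [integral_mul_const]
  exact mul_le_mul_of_nonneg_right
    (setIntegral_le_integral hν.norm (Eventually.of_forall fun _ => norm_nonneg _)) hr

lemma real_ball_mono {r s : ℝ} (h : r ≤ s) : μ.real (ball (0 : E) r) ≤ μ.real (ball (0 : E) s) :=
  measureReal_mono (ball_subset_ball h) measure_ball_lt_top.ne

lemma JL_of_St {A : E → ℝ → ℝ} {s₁ s₂ : ℝ} (h : ∀ x, St μ A ν x s₂) (hν : Integrable ν μ)
    (h0 : 0 < s₁) : JL A s₁ s₂ ((∫ y, ‖ν y‖ ∂μ) / μ.real (ball (0 : E) s₁)) := by
  intro x x' r r' hr hr'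
  have m : ∀ t ∈ Icc (0 : ℝ) 1, r' + (r - r') * t ∈ Icc s₁ s₂ := fun t ht =>
    ⟨by nlinarith [hr.1, hr'.1, ht.1, ht.2], by nlinarith [hr.2, hr'.2, ht.1, ht.2]⟩
  have := norm_image_sub_le_of_norm_deriv_le_segment_01'
    (f := fun t => A (x' + t • (x - x')) (r' + (r - r') * t))
    (C := (∫ y, ‖ν y‖ ∂μ) / μ.real (ball (0 : E) s₁) * (‖x - x'‖ + |r - r'|))
    (f' := fun t => (⟪x - x', aa μ ν (x' + t • (x - x')) (r' + (r - r') * t)⟫ + (r - r') *
      ps μ ν (x' + t • (x - x')) (r' + (r - r') * t) / (r' + (r - r') * t)) /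
        μ.real (ball (0 : E) (r' + (r - r') * t))) (fun t ht => by
      have h3 := (h (x' + t • (x - x'))).1 _ (h0.trans_le (m t ht).1) (m t ht).2 (x - x') (r - r')
      rw [← sub_self t] at h3
      refine ((HasDerivAt.comp_sub_const t t h3).congr_of_eventuallyEq
        (Eventually.of_forall fun s => ?_)).hasDerivWithinAt
      exact congrArg₂ A (by module) (by ring)) (fun t ht => by
      have a := m t (Ico_subset_Icc_self ht)
      have b := h0.trans_le a.1
      have c := real_ball_pos (μ := μ) (0 : E) h0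
      have d : 0 ≤ ∫ y, ‖ν y‖ ∂μ := integral_nonneg fun _ => norm_nonneg _
      rw [norm_div, Real.norm_of_nonneg measureReal_nonneg, div_mul_eq_mul_div]
      refine div_le_div₀ (by positivity) ((norm_add_le _ _).trans ?_) c (real_ball_mono a.1)
      rw [mul_add (∫ y, ‖ν y‖ ∂μ), mul_comm _ ‖x - x'‖, mul_comm _ |r - r'|, mul_div_assoc, norm_mul, norm_div,
        Real.norm_of_nonneg b.le]
      gcongr
      · exact (norm_inner_le_norm _ _).trans (by gcongr; exact aa_le hν _ _)
      · exact le_rfl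
      · exact (div_le_iff₀ b).2 (ps_le hν _ b.le))
  simpa using this

lemma int_ball_odd (w x : E) (r : ℝ) : ∫ y in ball x r, ⟪w, y - x⟫ ∂μ = 0 := by
  rw [← integral_indicator measurableSet_ball, ← self_eq_neg, ← integral_neg,
    ← integral_sub_left_eq_self _ μ (x + x)]
  refine integral_congr_ae (Eventually.of_forall fun y => ?_)
  have e : x + x - y - x = -(y - x) := by abel
  simp only [indicator, mem_ball_iff_norm, e, norm_neg, inner_neg_right]
  split_ifs <;> simp

lemma aa_loc (hν : Integrable ν μ) {S : Set E} {x : E} {r : ℝ} (hS : ball x r ⊆ S) (v : E) :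
    aa μ (S.indicator fun y => ν y - v) x r = aa μ ν x r - μ.real (ball (0 : E) r) • v := by
  rw [aa, setIntegral_congr_fun measurableSet_ball fun y hy => indicator_of_mem (hS hy) _,
    integral_sub hν.integrableOn (integrableOn_const measure_ball_lt_top.ne), setIntegral_const,
    Measure.addHaar_real_ball_center, aa]

lemma inner_loc (hν : Integrable ν μ) {S : Set E} {x : E} {r : ℝ} (hS : ball x r ⊆ S) (v : E)
    {l : E → E} (hl : Continuous l) {w : E} (hw : ∀ y, ⟪v, l y⟫ = ⟪w, y - x⟫) :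
    ∫ y in ball x r, ⟪S.indicator (fun y => ν y - v) y, l y⟫ ∂μ =
      ∫ y in ball x r, ⟪ν y, l y⟫ ∂μ := by
  have i : IntegrableOn (fun y => ⟪w, y - x⟫) (ball x r) μ :=
    ((by fun_prop : Continuous fun y => ⟪w, y - x⟫).continuousOn.integrableOn_compact
      (isCompact_closedBall x r)).mono_set ball_subset_closedBall
  rw [setIntegral_congr_fun (g := fun y => ⟪ν y, l y⟫ - ⟪w, y - x⟫) measurableSet_ball
    fun y hy => by simp only [indicator_of_mem (hS hy), inner_sub_left, hw],
    integral_sub (inner_intOn hν hl x r) i, int_ball_odd, sub_zero]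

lemma St.loc {A : E → ℝ → ℝ} {x : E} {s : ℝ} (h : St μ A ν x s) (hν : Integrable ν μ) {S : Set E}
    (hS : ball x s ⊆ S) (v : E) :
    St μ (fun x r => A x r - ⟪v, x⟫) (S.indicator fun y => ν y - v) x s := by
  refine ⟨fun r h1 h2 e κ => ?_, fun r h1 h2 u w => ?_⟩
  · have hS' := (ball_subset_ball h2).trans hS
    have a : HasDerivAt (fun t : ℝ => ⟪v, x + t • e⟫) ⟪v, e⟫ 0 := by
      simpa only [inner_add_right, real_inner_smul_right, one_mul, id] using
        ((hasDerivAt_id (0 : ℝ)).mul_const ⟪v, e⟫).const_add ⟪v, x⟫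
    refine ((h.1 r h1 h2 e κ).fun_sub a).congr_deriv ?_
    have := real_ball_pos (μ := μ) (0 : E) h1
    rw [aa_loc hν hS', ps, ps, inner_loc hν hS' v (l := fun y => y - x) (by fun_prop)
      fun _ => rfl, inner_sub_right, real_inner_smul_right, real_inner_comm v]
    field_simp
    ring
  · rw [inner_loc hν ((ball_subset_ball h2).trans hS) v (by fun_prop)
      (w := ⟪v, u⟫ • w - ⟪v, w⟫ • u) fun y => ?_, h.2 r h1 h2]
    simp only [inner_sub_right v, inner_sub_left _ _ (y - x), real_inner_smul_right,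
      real_inner_comm (y - x)]
    ring

lemma JL.loc {A : E → ℝ → ℝ} {s₁ s₂ L : ℝ} (h : JL A s₁ s₂ L) (v : E) :
    JL (fun x r => A x r - ⟪v, x⟫) s₁ s₂ (L + ‖v‖) := fun x x' r r' a b => by
  have c := abs_real_inner_le_norm v (x - x')
  rw [inner_sub_right] at c
  have := abs_sub (A x r - A x' r') (⟪v, x⟫ - ⟪v, x'⟫)
  rw [show A x r - ⟪v, x⟫ - (A x' r' - ⟪v, x'⟫) = A x r - A x' r' - (⟪v, x⟫ - ⟪v, x'⟫) by ring]
  nlinarith [h x x' r r' a b, mul_nonneg (norm_nonneg v) (abs_nonneg (r - r'))]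

lemma grad_meas (U : E → ℝ) : Measurable (gradient U) :=
  (InnerProductSpace.toDual ℝ E).symm.continuous.measurable.comp (measurable_fderiv ℝ U)

lemma grad_eq {A : E → ℝ → ℝ} {U : E → ℝ} {x : E} {r : ℝ} (h : St μ A ν x r) (hr : 0 < r)
    (h1 : ∀ z, A z r ≤ U z) (h2 : U x = A x r) :
    gradient U x = 0 ∨ gradient U x = (μ.real (ball (0 : E) r))⁻¹ • aa μ ν x r := by
  by_cases hd : DifferentiableAt ℝ U x
  swap
  · exact Or.inl (gradient_eq_zero_of_not_differentiableAt hd)
  refine Or.inr (ext_inner_right ℝ fun e => ?_)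
  have a := (hd.hasFDerivAt.hasLineDerivAt e).fun_sub (h.1 r hr le_rfl e 0)
  have b := IsLocalMin.hasDerivAt_eq_zero (Eventually.of_forall fun t => by
    simpa [h2] using h1 (x + t • e)) a
  rw [inner_gradient_left, real_inner_smul_left, real_inner_comm, sub_eq_zero.1 b]
  ring

lemma WG_lip {U : E → ℝ} {L : NNReal} (hU : LipschitzWith L U) : WG μ U (gradient U) := by
  intro φ h1 h2 v
  obtain ⟨D, hD⟩ := h1.lipschitzWith_of_hasCompactSupport h2 (by simp)
  have := hU.integral_lineDeriv_mul_eq (μ := μ) hD h2 v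
  rw [integral_congr_ae (g := fun x => ⟪gradient U x, v⟫ * φ x) (by
    filter_upwards [hU.ae_differentiableAt (μ := μ)] with x hx
    rw [hx.lineDeriv_eq_fderiv, inner_gradient_left])] at this
  rw [this, ← integral_neg]
  refine integral_congr_ae (Eventually.of_forall fun x => ?_)
  simp only [((h1.differentiable (by simp)) x).lineDeriv_eq_fderiv, map_neg]
  ring

end Vale.Agent.P137
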