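import Vale.Agent.P137.CPt4
import Vale.Agent.P137.CCut
import Vale.Agent.P137.CFar

open MeasureTheory Metric Set Filter
open scoped ENNReal Topology RealInnerProductSpace

set_option linter.unusedSectionVars false

namespace Vale.Agent.P137

variable {E : Type*} [NormedAddCommGroup E] [InnerProductSpace ℝ E] [FiniteDimensional ℝ E]
  [MeasurableSpace E] [BorelSpace E] {μ : Measure E} [μ.IsAddHaarMeasure]

/-- block parameter -/
noncomputable def qq (m : ℕ) : ℝ := (1 / 3) ^ (m + 5)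

lemma qq_pos (m : ℕ) : 0 < qq m := by unfold qq; positivity

lemma qq_anti : Antitone qq := fun a b h =>
  pow_le_pow_of_le_one (by norm_num) (by norm_num) (by omega)

lemma qq_le (m : ℕ) : qq m ≤ 1 / 100 := (qq_anti (Nat.zero_le m)).trans (by norm_num [qq])

lemma qq4_le (m : ℕ) : qq m ^ 4 ≤ 1 / 100 :=
  (pow_le_of_le_one (qq_pos m).le ((qq_le m).trans (by norm_num)) (by norm_num)).trans (qq_le m)

lemma qq4_half (m : ℕ) : qq (m + 1) ^ 4 ≤ qq m ^ 4 / 2 := by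
  have : qq (m + 1) = qq m * (1 / 3) := by unfold qq; ring
  rw [this, mul_pow]
  have := pow_pos (qq_pos m) 4
  linarith

lemma ms_ind {Z : E → E} (hZ : Measurable Z) {f : E → ℝ} (hf : Integrable f μ) (h0 : ∀ y, 0 ≤ f y)
    {S : Set E} (hS : MeasurableSet S) :
    ENNReal.ofReal (ms μ Z f (ind S)) = ∫⁻ y in Z ⁻¹' S, ENNReal.ofReal (f y) ∂μ := by
  rw [← ofReal_integral_eq_lintegral_ofReal hf.integrableOn (Eventually.of_forall h0),
    ← integral_indicator (hZ hS), ms]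
  congr 2
  funext y
  by_cases hy : Z y ∈ S
  · rw [ind_of_mem hy, indicator_of_mem (show y ∈ Z ⁻¹' S from hy), mul_one]
  · rw [ind_of_notMem hy, indicator_of_notMem (show y ∉ Z ⁻¹' S from hy), mul_zero]

lemma zz_lt {R : ℝ} (hR : 0 < R) (x y : E) (r β : ℝ) :
    ‖zz R x y‖ < r / R - β ↔ ‖y - x‖ < r - β * R := by
  rw [← norm_zz hR x y, ← mul_lt_mul_iff_right₀ hR, mul_sub, mul_div_cancel₀ _ hR.ne', mul_comm β]

lemma zz_fW {R : ℝ} (hR : 0 < R) (x y : E) (r β : ℝ) :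
    zz R x y ∈ fW (r / R) β ↔ |‖y - x‖ - r| ≤ β * R := by
  rw [← norm_zz hR x y, fW, mem_ofPred_eq, ← mul_le_mul_iff_right₀ hR, mul_comm β,
    show R * ‖zz R x y‖ - r = R * (‖zz R x y‖ - r / R) by field_simp, abs_mul, abs_of_pos hR]

lemma th_cf {n : ℕ} {a b R β : ℝ} (ha : 0 < a) (hab : a + β * R / 2 ≤ b) (h2 : b ≤ 2 * a)
    (hR : 0 < R) (hβ : 0 < β) (h4 : b ≤ 4 * R) : Cf (fun z : E => th n a b (R * ‖z‖)) ∧
    ∀ z w : E, |th n a b (R * ‖z‖) - th n a b (R * ‖w‖)| ≤ 2 * 2 ^ n / β * ‖z - w‖ := by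
  have h0 : 0 < β * R := by positivity
  have hab' : a < b := by linarith
  have key : ∀ z w : E, |th n a b (R * ‖z‖) - th n a b (R * ‖w‖)| ≤ 2 * 2 ^ n / β * ‖z - w‖ := by
    intro z w
    refine (th_lip ha hab' h2 _ _).trans ?_
    rw [← mul_sub, abs_mul, abs_of_pos hR]
    calc _ ≤ 2 ^ n / (β * R / 2) * (R * ‖z - w‖) := by
          gcongr
          exacts [by linarith, abs_norm_sub_norm_le z w]
      _ = _ := by field_simp
  refine ⟨⟨?_, fun z => th_nonneg ha hab' _, fun z => th_le_one ha hab' _, fun z hz =>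
    th_zero (by nlinarith)⟩, key⟩
  exact (LipschitzWith.of_dist_le_mul (K := ⟨2 * 2 ^ n / β, by positivity⟩) fun z w => by
    rw [dist_eq_norm z]; exact key z w).continuous.measurable

lemma window_tendsto {ν : E → E} (hν : Integrable ν μ) {R r : ℝ} (hR : 0 < R) (hr : 0 < r) (x : E) :
    Tendsto (fun m => ms μ (zz R x) (fun y => ‖ν y‖) (ind (fW (r / R) (qq m ^ 4)))) atTop (𝓝 0) := by
  have := tendsto_integral_of_dominated_convergence (μ := μ) (f := fun _ => (0 : ℝ))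
    (F := fun m y => ‖ν y‖ * ind (fW (r / R) (qq m ^ 4)) (zz R x y)) (fun y => ‖ν y‖)
    (fun m => (ms_int (zz_meas R x) hν.norm (bs_ind (fW_meas _ _))).1) hν.norm
    (fun m => Eventually.of_forall fun y => by
      rw [norm_mul, norm_norm, Real.norm_of_nonneg (ind_nonneg _ _)]
      exact mul_le_of_le_one_right (norm_nonneg _) (ind_le_one _ _)) ?_
  · simpa [ms] using this
  have h0 : ∀ᵐ y ∂μ, y ∉ sphere x r :=
    measure_eq_zero_iff_ae_notMem.1 (Measure.addHaar_sphere_of_ne_zero μ x hr.ne')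
  filter_upwards [h0] with y hy
  have h1 : 0 < |‖y - x‖ - r| := abs_pos.2 (sub_ne_zero.2 (mt mem_sphere_iff_norm.2 hy))
  have h2 : Tendsto (fun m => qq m ^ 4 * R) atTop (𝓝 (0 ^ 4 * R)) :=
    (((tendsto_pow_atTop_nhds_zero_of_lt_one (r := (1 / 3 : ℝ)) (by norm_num) (by norm_num)).comp
      (tendsto_add_atTop_nat 5)).pow 4).mul_const R
  refine tendsto_const_nhds.congr' ?_
  filter_upwards [h2.eventually (gt_mem_nhds (a := |‖y - x‖ - r|) (by linarith))] with m hm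
  rw [ind_of_notMem (mt (zz_fW hR x y r _).1 (not_le.2 hm)), mul_zero]

lemma sharp_cmp {ν c : E → E} {e : E} {γ : ℕ → E → ℝ} {R r : ℝ} {x : E} {q β err V : ℕ → ℝ}
    {χ : ℕ → E → ℝ} {θ : ℝ → ℕ → E → ℝ} {act : ℕ → Prop} (hR : 0 < R)
    (H : Pt μ (zz R x) ν c e γ (r / R) q β err V χ θ act) (M : ℕ) {κ : ℝ} {l : E → E}
    (hl : Adm κ l) : |∫ y in ball x r, ⟪ν y, l (zz R x y)⟫ ∂μ - pr μ (zz R x) ν (χ M) l| ≤
      κ * ms μ (zz R x) (fun y => ‖ν y‖) (ind (fW (r / R) (β M))) := by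
  have hm : MeasurableSet {z : E | ‖z‖ < r / R - 0} :=
    measurableSet_lt (by fun_prop) measurable_const
  have c1 : Cf (ind {z : E | ‖z‖ < r / R - 0}) := ⟨(bs_ind hm).1, ind_nonneg _, ind_le_one _,
    fun z hz => ind_of_notMem (fun h : ‖z‖ < r / R - 0 => by linarith [H.ρ3])⟩
  have c2 : ∀ z, χ M z ≤ ind {z : E | ‖z‖ < r / R - 0} z := fun z => by
    by_cases h : z ∈ {z : E | ‖z‖ < r / R - 0}
    · rw [ind_of_mem h]; exact (H.cχ M).2.2.1 z
    · rw [ind_of_notMem h, H.χ0 M z (by linarith [not_lt.1 (show ¬ ‖z‖ < r / R - 0 from h), H.β0 M])]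
  have e1 : ∫ y in ball x r, ⟪ν y, l (zz R x y)⟫ ∂μ =
      pr μ (zz R x) ν (ind {z : E | ‖z‖ < r / R - 0}) l := by
    rw [← integral_indicator measurableSet_ball, pr]
    refine integral_congr_ae (Eventually.of_forall fun y => ?_)
    have := zz_lt hR x y r 0
    rw [zero_mul, sub_zero r, ← mem_ball_iff_norm] at this
    by_cases hy : y ∈ ball x r
    · simp only [indicator_of_mem hy, ind_of_mem (S := {z : E | ‖z‖ < r / R - 0}) (this.2 hy),
        one_mul]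
    · simp only [indicator_of_notMem hy,
        ind_of_notMem (S := {z : E | ‖z‖ < r / R - 0}) (mt this.1 hy), zero_mul]
  rw [e1, ← pr_sub H.hZ H.hν c1 (H.cχ M) hl]
  refine (abs_pr_le H.hZ H.hν (c1.sub (H.cχ M) c2) hl).trans (ms_one H.hZ H.hν.norm
    (fun _ => norm_nonneg _) ((c1.sub (H.cχ M) c2).bs_mul hl) (bs_ind (fW_meas _ _)) fun z =>
      ((c1.sub (H.cχ M) c2).mul_le hl z).trans (mul_le_mul_of_nonneg_left ?_ hl.nonneg))
  by_cases hz : z ∈ fW (r / R) (β M)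
  · rw [ind_of_mem hz]; exact (c1.sub (H.cχ M) c2).2.2.1 z
  · rw [ind_of_notMem hz]
    rcases lt_abs.1 (not_le.1 (show ¬ |‖z‖ - r / R| ≤ β M from hz)) with h1 | h1
    · rw [ind_of_notMem (S := {z : E | ‖z‖ < r / R - 0})
        (fun h : ‖z‖ < r / R - 0 => by linarith [H.β0 M])]
      linarith [(H.cχ M).2.1 z]
    · rw [H.χ1 M z (by linarith)]; linarith [ind_le_one {z : E | ‖z‖ < r / R - 0} z]

lemma Pt.concl {ν c : E → E} {e : E} {γ : ℕ → E → ℝ} {R r : ℝ} {x : E} {q err V : ℕ → ℝ}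
    {χ : ℕ → E → ℝ} {θ : ℝ → ℕ → E → ℝ} {act : ℕ → Prop} (hR : 0 < R)
    (H : Pt μ (zz R x) ν c e γ (r / R) q (fun m => qq m ^ 4) err V χ θ act) {T : ℝ}
    (hT : ∀ M, cum err M ≤ T) :
    ‖aa μ ν x r‖ - 250 * (⟪e, aa μ ν x r⟫ + 1 / 2 * ps μ ν x r / r) ≤ 100400 * T ∧
      ‖aa μ ν x r‖ - 10 * ∫ y, ‖c y‖ ∂μ ≤ 100400 * T := by
  have hr : 0 < r := by have := H.ρ1; rw [one_le_div hR] at this; linarith
  have ht := (window_tendsto H.hν hR hr x).const_mul 4000 |>.const_add (100400 * T)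
  rw [mul_zero, add_zero] at ht
  have ea : ∀ v, ∫ y in ball x r, ⟪ν y, v⟫ ∂μ = ⟪v, aa μ ν x r⟫ := fun v => by
    rw [aa, ← integral_inner H.hν.integrableOn]
    simp only [real_inner_comm]
  have eb : ∫ y in ball x r, ⟪ν y, zz R x y⟫ ∂μ = R⁻¹ * ps μ ν x r := by
    simp only [zz, real_inner_smul_right, integral_const_mul, ps]
  obtain ⟨v, hv, hv'⟩ : ∃ v : E, ‖v‖ ≤ 1 ∧ ⟪v, aa μ ν x r⟫ = ‖aa μ ν x r‖ := by
    refine ⟨‖aa μ ν x r‖⁻¹ • aa μ ν x r, ?_, ?_⟩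
    · rw [norm_smul, norm_inv, norm_norm]; exact inv_mul_le_one_of_le₀ le_rfl (norm_nonneg _)
    · rw [real_inner_smul_left, real_inner_self_eq_norm_mul_norm]
      by_cases h : ‖aa μ ν x r‖ = 0
      · simp [h]
      · field_simp
  have key : ∀ M, ‖aa μ ν x r‖ - 250 * (⟪e, aa μ ν x r⟫ + 1 / 2 * ps μ ν x r / r) ≤ 100400 * T +
      4000 * ms μ (zz R x) (fun y => ‖ν y‖) (ind (fW (r / R) (qq M ^ 4))) ∧
      ‖aa μ ν x r‖ - 10 * ∫ y, ‖c y‖ ∂μ ≤ 100400 * T +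
      4000 * ms μ (zz R x) (fun y => ‖ν y‖) (ind (fW (r / R) (qq M ^ 4))) := by
    intro M
    obtain ⟨P, h1, h2, h3⟩ := H.main M
    have a1 := abs_le.1 (sharp_cmp hR H M (adm_const hv))
    have a2 := abs_le.1 (sharp_cmp hR H M (adm_const H.he.le))
    have a3 := sharp_cmp hR H M adm_id
    have a4 := h2 v hv
    have a5 := hT (M + 1)
    have a6 : 0 ≤ T := le_trans (by simp [cum]) (hT 0)
    have a7 : 0 ≤ ms μ (zz R x) (fun y => ‖ν y‖) (ind (fW (r / R) (qq M ^ 4))) :=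
      ms_nonneg (fun _ => norm_nonneg _) (ind_nonneg _)
    rw [ea] at a1 a2
    rw [eb] at a3
    have a8 : |1 / (2 * (r / R)) * (R⁻¹ * ps μ ν x r - pr μ (zz R x) ν (χ M) fun z => z)| ≤
        1 / 2 * (4 * ms μ (zz R x) (fun y => ‖ν y‖) (ind (fW (r / R) (qq M ^ 4)))) := by
      rw [abs_mul, abs_of_pos (by positivity)]
      gcongr
      linarith [H.ρ1]
    rw [mul_sub, show 1 / (2 * (r / R)) * (R⁻¹ * ps μ ν x r) = 1 / 2 * ps μ ν x r / r by
      field_simp, abs_le] at a8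
    constructor <;> linarith [a1.1, a1.2, a2.1, a2.2, a8.1, a8.2]
  exact ⟨ge_of_tendsto' ht fun M => (key M).1, ge_of_tendsto' ht fun M => (key M).2⟩

end Vale.Agent.P137
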