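import Vale.Agent.P137.CLemC

open MeasureTheory Metric Set Filter
open scoped ENNReal Topology RealInnerProductSpace

set_option linter.unusedSectionVars false

namespace Vale.Agent.P137

variable {E : Type*} [NormedAddCommGroup E] [InnerProductSpace ℝ E] [FiniteDimensional ℝ E]
  [MeasurableSpace E] [BorelSpace E] {μ : Measure E} [μ.IsAddHaarMeasure]

lemma lip_sub {φ ψ : E → ℝ} {a b c : ℝ} (h1 : ∀ z w, |φ z - φ w| ≤ a * ‖z - w‖)
    (h2 : ∀ z w, |ψ z - ψ w| ≤ b * ‖z - w‖) (h : a + b ≤ c) (z w : E) :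
    |(φ z - ψ z) - (φ w - ψ w)| ≤ c * ‖z - w‖ := by
  have a1 := abs_le.1 (h1 z w)
  have a2 := abs_le.1 (h2 z w)
  have a3 := mul_le_mul_of_nonneg_right h (norm_nonneg (z - w))
  rw [abs_le]
  constructor <;> linarith [a1.1, a1.2, a2.1, a2.2]

lemma pt_inst {ν c : E → E} {e : E} {γ : ℕ → E → ℝ} {σ err V : ℕ → ℝ} {R r s r₁ r₂ : ℝ} {x : E}
    {A : E → ℝ → ℝ} {act : ℕ → Prop} (hR : 0 < R) (hν : Integrable ν μ) (hc : Integrable c μ)
    (hγ : ∀ m, Integrable (γ m) μ) (γ0 : ∀ m y, 0 ≤ γ m y) (γmono : ∀ m y, γ m y ≤ γ (m + 1) y)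
    (he : ‖e‖ = 1) (align : ∀ y, 9 / 10 * ‖c y‖ ≤ ⟪e, c y⟫) (h1 : R ≤ r) (h3 : r ≤ 3 * R)
    (hs : r₂ ≤ s) (hrs : r ≤ s) (hSt : St μ A ν x s)
    (hH : ∀ m, Hyp μ ν c (γ m) (σ m) x (4 * R)) (hσ : ∀ m, 0 ≤ σ m)
    (hopt : ∀ t, r₁ ≤ t → t ≤ r₂ → A x t ≤ A x r)
    (hact : ∀ m, act m → r₁ ≤ r - qq m ^ 4 * R ∧ r + qq m ^ 4 * R ≤ r₂)
    (hV : ∀ m : ℕ, V m = 1000 * ((m : ℝ) + 2) * ∫ y, γ (m + 1) y ∂μ)
    (e1 : ∀ m, qq m * V m ≤ err m)
    (e2 : ∀ m, 5 * 2 ^ (Module.finrank ℝ E + 1) * (σ m / (qq m ^ 4 * R)) ≤ err m)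
    (e3 : ∀ m, ¬ act m → ms μ (zz R x) (γ (m + 1)) (ind (fW (r / R) (qq m ^ 4))) ≤ err m)
    (e4 : ∀ m, act m → ms μ (zz R x) (fun y => ‖c y‖) (ind {z | ‖z‖ < r / R - qq m ^ 4}) +
      ms μ (zz R x) (γ (m + 1)) (ind {z | ‖z‖ < r / R - qq m ^ 4}) ≤ V m →
      ∃ z₀ ∈ fW (r / R) (qq m ^ 4), V m ≤ err m ∨
        ms μ (zz R x) (fun y => ‖c y‖) (ind (fF (r / R) (qq m ^ 4) z₀ (qq m))) +
          ms μ (zz R x) (γ (m + 1)) (ind (fF (r / R) (qq m ^ 4) z₀ (qq m))) ≤ err m) :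
    ∃ χ θ, Pt μ (zz R x) ν c e γ (r / R) qq (fun m => qq m ^ 4) err V χ θ act := by
  set n := Module.finrank ℝ E + 1 with hn
  have β0 : ∀ m, 0 < qq m ^ 4 := fun m => pow_pos (qq_pos m) 4
  have b0 : ∀ m, 0 < qq m ^ 4 * R := fun m => mul_pos (β0 m) hR
  have b1 : ∀ m, qq m ^ 4 * R ≤ 1 / 100 * R := fun m => by gcongr; exact qq4_le m
  have b2 : ∀ {p m}, p ≤ m → qq m ^ 4 * R ≤ qq p ^ 4 * R := fun h => by
    gcongr; exacts [(qq_pos _).le, qq_anti h]
  have W0 : ∀ m, 0 ≤ ∫ y, γ m y ∂μ := fun m => integral_nonneg (γ0 m)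
  have Wm : ∀ m, ∫ y, γ m y ∂μ ≤ ∫ y, γ (m + 1) y ∂μ := fun m =>
    integral_mono (hγ m) (hγ _) (γmono m)
  have V0 : ∀ m, 0 ≤ V m := fun m => by rw [hV]; have := W0 (m + 1); positivity
  have t1 := fun m => th_cf (E := E) (n := n) (a := r - qq m ^ 4 * R) (b := r - qq m ^ 4 * R / 2)
    (by linarith [b1 m]) (by linarith) (by linarith [b1 m]) hR (β0 m) (by linarith [b0 m])
  have t2 := fun m => th_cf (E := E) (n := n) (a := r) (b := r + qq m ^ 4 * R)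
    (by linarith) (by linarith [b0 m]) (by linarith [b1 m]) hR (β0 m) (by linarith [b1 m])
  have t3 := fun m => th_cf (E := E) (n := n) (a := r - qq m ^ 4 * R / 2) (b := r)
    (by linarith [b1 m]) (by linarith) (by linarith [b1 m]) hR (β0 m) (by linarith)
  have u1 : ∀ {z : E} {t : ℝ}, ‖z‖ ≤ r / R - t → R * ‖z‖ ≤ r - t * R := fun {z t} h => by
    have := mul_le_mul_of_nonneg_left h hR.le
    rwa [mul_sub, mul_div_cancel₀ _ hR.ne', mul_comm R t] at this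
  have u2 : ∀ {z : E} {t : ℝ}, r / R - t ≤ ‖z‖ → r - t * R ≤ R * ‖z‖ := fun {z t} h => by
    have := mul_le_mul_of_nonneg_left h hR.le
    rwa [mul_sub, mul_div_cancel₀ _ hR.ne', mul_comm R t] at this
  have hL : ∀ m, 0 ≤ 2 * 2 ^ n / qq m ^ 4 := fun m => by have := β0 m; positivity
  have hs' : ∀ m, (2 * (2 * 2 ^ n / qq m ^ 4) + 1) / R * σ m ≤ err m := fun m => by
    refine le_trans ?_ (e2 m)
    have a1 : (1 : ℝ) ≤ 2 ^ n / qq m ^ 4 := (one_le_div (β0 m)).2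
      ((qq4_le m).trans (le_trans (by norm_num) (one_le_pow₀ one_le_two)))
    have := β0 m
    calc _ ≤ (2 * (2 * 2 ^ n / qq m ^ 4) + 2 ^ n / qq m ^ 4) / R * σ m := by
          gcongr; exact hσ m
      _ = _ := by field_simp; ring
  set χ : ℕ → E → ℝ := fun m z => th n (r - qq m ^ 4 * R) (r - qq m ^ 4 * R / 2) (R * ‖z‖)
  set θ : ℝ → ℕ → E → ℝ := fun s m z => if s = 1 then th n r (r + qq m ^ 4 * R) (R * ‖z‖) else
    th n (r - qq m ^ 4 * R / 2) r (R * ‖z‖) with hθ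
  have t4 : ∀ s m, Cf (θ s m) ∧ ∀ z w, |θ s m z - θ s m w| ≤ 2 * 2 ^ n / qq m ^ 4 * ‖z - w‖ := by
    intro s m
    by_cases h : s = 1
    · simpa only [hθ, if_pos h] using t2 m
    · simpa only [hθ, if_neg h] using t3 m
  have χ1 : ∀ m z, ‖z‖ ≤ r / R - qq m ^ 4 → χ m z = 1 := fun m z h =>
    th_one (by linarith [b1 m]) (by linarith [b0 m]) (u1 h)
  have χ0 : ∀ m z, r / R - qq m ^ 4 / 2 ≤ ‖z‖ → χ m z = 0 := fun m z h =>
    th_zero (by linarith [u2 h])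
  have θ1 : ∀ s m z, ‖z‖ ≤ r / R - qq m ^ 4 / 2 → θ s m z = 1 := fun s m z h => by
    have := u1 h
    simp only [hθ]
    split_ifs
    · exact th_one (by linarith) (by linarith [b0 m]) (by linarith [b0 m])
    · exact th_one (by linarith [b1 m]) (by linarith [b0 m]) (by linarith)
  refine ⟨χ, θ, zz_meas R x, hν, hc, hγ, γ0, γmono, he, align, (one_le_div hR).2 h1,
    (div_le_iff₀ hR).2 h3, fun m => (qq_pos m).le, qq_le, qq_anti, β0, qq4_le, qq4_half,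
    fun m => (t1 m).1, χ1, χ0, fun s m => (t4 s m).1, θ1, fun s m z h => ?_,
    fun p m s hp hpm hs1 => ?_, fun m => ?_, fun m => ?_, fun s m => ?_,
    fun m u v => hSt.sym hν (by linarith [b1 m]) (by linarith [b0 m]) hR u v,
    fun m => (mul_nonneg (qq_pos m).le (V0 m)).trans (e1 m), fun m => (hV m).ge,
    monotone_nat_of_le_succ fun m => ?_, e1, ?_, e3, e4⟩
  · have := u2 (t := -qq m ^ 4) (by rwa [sub_neg_eq_add])
    simp only [hθ]
    split_ifs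
    · exact th_zero (by linarith)
    · exact th_zero (by linarith [b0 m])
  · obtain ⟨a1, a2⟩ := hact p hp
    have a3 := b2 hpm
    rcases hs1 with rfl | rfl
    · obtain ⟨k, k0, hk⟩ := hSt.opt hν (a := r) (b := r + qq m ^ 4 * R) (by linarith)
        (by linarith [b0 m]) (by linarith) hR
      simp only [hθ, if_true]
      rw [hk, one_mul]
      exact mul_nonpos_of_nonneg_of_nonpos k0.le
        (sub_nonpos.2 (hopt _ (by linarith [b0 m, b0 p]) (by linarith)))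
    · obtain ⟨k, k0, hk⟩ := hSt.opt hν (a := r - qq m ^ 4 * R / 2) (b := r) (by linarith [b1 m])
        (by linarith [b0 m]) hrs hR
      simp only [hθ, if_neg (show (-1 : ℝ) ≠ 1 by norm_num)]
      rw [hk, neg_one_mul, neg_nonpos]
      exact mul_nonneg k0.le
        (sub_nonneg.2 (hopt _ (by linarith [b0 m]) (by linarith [b0 m, b0 p])))
  · exact (hH m).hb hR (t1 m).1 (by linarith [hL m]) (fun z w => ((t1 m).2 z w).trans
      (mul_le_mul_of_nonneg_right (by linarith [hL m]) (norm_nonneg _))) (hs' m)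
  · refine (hH (m + 1)).hb hR ((t1 (m + 1)).1.sub (t1 m).1 fun z => ?_) (by linarith [hL (m + 1)])
      (lip_sub (t1 (m + 1)).2 (t1 m).2 ?_) (hs' (m + 1))
    · by_cases h : ‖z‖ ≤ r / R - qq (m + 1) ^ 4
      · exact ((t1 m).1.2.2.1 z).trans (χ1 _ z h).ge
      · exact (χ0 m z (by linarith [qq4_half m, not_le.1 h])).le.trans ((t1 _).1.2.1 z)
    · have : 2 * 2 ^ n / qq m ^ 4 ≤ 2 * 2 ^ n / qq (m + 1) ^ 4 := by
        gcongr; exacts [β0 _, (qq_pos _).le, qq_anti m.le_succ]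
      linarith
  · refine (hH m).hb hR ((t4 s m).1.sub (t1 m).1 fun z => ?_) (by linarith [hL m])
      (lip_sub (t4 s m).2 (t1 m).2 (by linarith)) (hs' m)
    by_cases h : ‖z‖ ≤ r / R - qq m ^ 4 / 2
    · exact ((t1 m).1.2.2.1 z).trans (θ1 s m z h).ge
    · exact (χ0 m z (not_le.1 h).le).le.trans ((t4 s m).1.2.1 z)
  · rw [hV, hV]
    have := W0 (m + 1)
    exact mul_le_mul (by push_cast; linarith) (Wm _) this (by positivity)
  · refine le_trans ?_ (e1 0)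
    rw [hV, qq]
    linarith [W0 1, Wm 0]

theorem lemC : ∃ C : ℝ, 0 ≤ C ∧ ∀ (R : ℝ) (x₀ : E) (ν c : E → E) (e : E) (γ : ℕ → E → ℝ)
    (σ : ℕ → ℝ) (ρ₁ ρ₂ : E → ℝ), 0 < R → Integrable ν μ → Integrable c μ → Measurable c →
    (∀ m, Integrable (γ m) μ) → (∀ m, Measurable (γ m)) → (∀ m y, 0 ≤ γ m y) →
    (∀ m y, γ m y ≤ γ (m + 1) y) → ‖e‖ = 1 → (∀ y, 9 / 10 * ‖c y‖ ≤ ⟪e, c y⟫) → (∀ m, 0 ≤ σ m) →
    (∀ x z, ρ₁ x ≤ ρ₁ z + ‖x - z‖ / 2) → (∀ x z, ρ₂ x ≤ ρ₂ z + ‖x - z‖ / 2) →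
    ∃ Err : E → ℝ≥0∞, Measurable Err ∧ ∫⁻ x, Err x ∂μ ≤ ENNReal.ofReal C * μ (ball (0 : E) R) *
      ∑' m : ℕ, ENNReal.ofReal (qq m * (1000 * ((m : ℝ) + 2) * ∫ y, γ (m + 1) y ∂μ) +
        σ m / (qq m ^ 4 * R)) ∧
      ∀ (A : E → ℝ → ℝ) (x : E) (r s : ℝ), x ∈ ball x₀ (21 * R) → R ≤ r → r ≤ 3 * R → ρ₁ x ≤ r →
        r ≤ ρ₂ x → ρ₂ x ≤ s → St μ A ν x s → (∀ m, Hyp μ ν c (γ m) (σ m) x (4 * R)) →
        (∀ t, ρ₁ x ≤ t → t ≤ ρ₂ x → A x t ≤ A x r) →
        ENNReal.ofReal (‖aa μ ν x r‖ - 250 * (⟪e, aa μ ν x r⟫ + 1 / 2 * ps μ ν x r / r)) ≤ Err x ∧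
        ENNReal.ofReal (‖aa μ ν x r‖ - 10 * ∫ y, ‖c y‖ ∂μ) ≤ Err x := by
  set d := Module.finrank ℝ E with hd
  refine ⟨100400 * (5 * 2 ^ (d + 1) * 21 ^ d + 300 * 2 ^ d * 4 ^ d), by positivity,
    fun R x₀ ν c e γ σ ρ₁ ρ₂ hR hν hc mc hγ mγ γ0 γmono he align hσ l1 l2 => ?_⟩
  set V : ℕ → ℝ := fun m => 1000 * ((m : ℝ) + 2) * ∫ y, γ (m + 1) y ∂μ with hV
  set u : ℕ → ℝ := fun m => qq m * V m + σ m / (qq m ^ 4 * R) with hu
  have W0 : ∀ m, 0 ≤ ∫ y, γ m y ∂μ := fun m => integral_nonneg (γ0 m)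
  have V0 : ∀ m, 0 ≤ V m := fun m => by have := W0 (m + 1); positivity
  have qV : ∀ m, 0 ≤ qq m * V m := fun m => mul_nonneg (qq_pos m).le (V0 m)
  have σ0 : ∀ m, 0 ≤ σ m / (qq m ^ 4 * R) := fun m => by
    have := qq_pos m; have := hσ m; positivity
  have hW : ∀ m, ∫⁻ y, ENNReal.ofReal (γ (m + 1) y) ∂μ ≤ ENNReal.ofReal (V m) := fun m => by
    rw [← ofReal_integral_eq_lintegral_ofReal (hγ _) (Eventually.of_forall (γ0 _))]
    exact ENNReal.ofReal_le_ofReal (le_mul_of_one_le_left (W0 _) (by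
      linarith [(Nat.cast_nonneg m : (0 : ℝ) ≤ m)]))
  have q2 : ∀ m, qq m ^ 2 ≤ (1 / 100) ^ 2 := fun m => by gcongr; exacts [(qq_pos m).le, qq_le m]
  choose G₀ g1 g2 g3 using fun m => far_lemma (μ := μ) (mγ (m + 1)).ennreal_ofReal
    (f := fun y => ENNReal.ofReal ‖c y‖ + ENNReal.ofReal (γ (m + 1) y))
    (mc.norm.ennreal_ofReal.add (mγ (m + 1)).ennreal_ofReal) hR (qq_pos m) (qq_le m) (V0 m) (hW m)
  have hw := fun (ρ : E → ℝ) (hρ : ∀ x z, ρ x ≤ ρ z + ‖x - z‖ / 2) (m : ℕ) =>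
    window_lemma (μ := μ) (mγ (m + 1)).ennreal_ofReal hρ (b := qq m ^ 4 * R) (κ := 73 * qq m ^ 2)
      hR (by positivity) (by linarith [q2 m]) (by nlinarith [qq4_le m]) (by
        have := mul_pos (pow_pos (qq_pos m) 2) hR
        nlinarith [q2 m])
  choose G₁ g4 g5 g6 using hw ρ₁ l1
  choose G₂ g7 g8 g9 using hw ρ₂ l2
  set T : ℕ → E → ℝ≥0∞ := fun m x => (ball x₀ (21 * R)).indicator
    (fun _ => ENNReal.ofReal (5 * 2 ^ (d + 1) * u m)) x + (G₀ m x + (G₁ m x + G₂ m x)) with hT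
  have mT : ∀ m, Measurable (T m) := fun m =>
    (measurable_const.indicator measurableSet_ball).add ((g1 m).add ((g4 m).add (g7 m)))
  refine ⟨fun x => ENNReal.ofReal 100400 * ∑' m, T m x, (Measurable.tsum mT).const_mul _,
    ?_, fun A x r s hx r1 r2 r3 r4 r5 hSt hH hopt => ?_⟩
  · rw [lintegral_const_mul _ (Measurable.tsum mT), lintegral_tsum
      fun m => (mT m).aemeasurable, ENNReal.ofReal_mul (by norm_num), mul_assoc, mul_assoc]
    refine mul_le_mul_right ?_ _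
    rw [← ENNReal.tsum_mul_left, ← ENNReal.tsum_mul_left]
    refine ENNReal.tsum_le_tsum fun m => ?_
    have a1 : ENNReal.ofReal (V m) * (ENNReal.ofReal (2 ^ d * (73 * qq m ^ 2)) *
        μ (ball (0 : E) (4 * R))) ≤
        ENNReal.ofReal (73 * 2 ^ d * (qq m * V m)) * μ (ball (0 : E) (4 * R)) := by
      rw [← mul_assoc, ← ENNReal.ofReal_mul (V0 m)]
      refine mul_le_mul_left (ENNReal.ofReal_le_ofReal ?_) _
      have := mul_le_mul_of_nonneg_left ((qq_le m).trans (by norm_num : _ ≤ (1 : ℝ)))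
        (show 0 ≤ 73 * 2 ^ d * (qq m * V m) by have := qV m; positivity)
      linarith
    simp only [hT]
    rw [lintegral_add_left (measurable_const.indicator measurableSet_ball),
      lintegral_add_left (g1 m), lintegral_add_left (g4 m), lintegral_indicator_const
      measurableSet_ball]
    refine (add_le_add le_rfl (add_le_add (g2 m) (add_le_add
      ((g5 m).trans ((mul_le_mul_left (hW m) _).trans a1))
      ((g8 m).trans ((mul_le_mul_left (hW m) _).trans a1))))).trans ?_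
    have := qV m
    have := σ0 m
    have hm : ∀ (a b : ℝ) (X : ℝ≥0∞), 0 ≤ a →
        ENNReal.ofReal a * (ENNReal.ofReal b * X) = ENNReal.ofReal (a * b) * X := fun a b X h => by
      rw [ENNReal.ofReal_mul h, mul_assoc]
    rw [Measure.addHaar_ball_mul_of_pos μ x₀ (by norm_num), Measure.addHaar_ball_mul_of_pos μ 0
      (by norm_num), mul_comm (μ _), hm _ _ _ (by positivity), hm _ _ _ (by positivity),
      hm _ _ _ (by positivity), hm _ _ _ (by positivity), ← add_mul, ← add_mul, ← add_mul,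
      ← ENNReal.ofReal_add (by positivity) (by positivity),
      ← ENNReal.ofReal_add (by positivity) (by positivity),
      ← ENNReal.ofReal_add (by positivity) (by positivity)]
    refine mul_le_mul_left (ENNReal.ofReal_le_ofReal ?_) _
    have : 0 ≤ u m := add_nonneg (qV m) (σ0 m)
    change _ ≤ _ * u m
    have : 0 ≤ 2 ^ d * 4 ^ d * (σ m / (qq m ^ 4 * R)) := by positivity
    have : 0 ≤ 2 ^ d * 4 ^ d * (qq m * V m) := by positivity
    simp only [hu, ← hd]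
    nlinarith
  by_cases hfin : ∑' m, T m x = ∞
  · simp [hfin]
  have f1 : ∀ m, T m x ≠ ∞ := ENNReal.ne_top_of_tsum_ne_top hfin
  have f2 : ∀ m {t : ℝ}, ENNReal.ofReal t ≤ T m x → t ≤ (T m x).toReal := fun m t h =>
    (ENNReal.ofReal_le_iff_le_toReal (f1 m)).1 h
  have f3 : ∀ m, T m x = ENNReal.ofReal (5 * 2 ^ (d + 1) * u m) + (G₀ m x + (G₁ m x + G₂ m x)) :=
    fun m => by simp only [hT, indicator_of_mem hx]
  have f4 : ∀ m, u m ≤ 5 * 2 ^ (d + 1) * u m := fun m => le_mul_of_one_le_left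
    (add_nonneg (qV m) (σ0 m)) (by linarith [one_le_pow₀ (n := d + 1) (one_le_two (α := ℝ))])
  have f5 : ∀ m, ENNReal.ofReal (qq m * V m) ≤ ENNReal.ofReal (5 * 2 ^ (d + 1) * u m) := fun m =>
    ENNReal.ofReal_le_ofReal ((le_add_of_nonneg_right (σ0 m)).trans (f4 m))
  have p1 : ∀ m, zz R x ⁻¹' fW (r / R) (qq m ^ 4) = {y | |‖y - x‖ - r| ≤ qq m ^ 4 * R} :=
    fun m => Set.ext fun y => zz_fW hR x y r _
  obtain ⟨χ, θ, H⟩ := pt_inst (err := fun m => (T m x).toReal) (V := V)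
    (act := fun m => (ρ₁ x ≤ r - qq m ^ 4 * R ∧ r + qq m ^ 4 * R ≤ ρ₂ x) ∧
      ENNReal.ofReal (qq m * V m) < ∫⁻ y in {y | |‖y - x‖ - r| ≤ qq m ^ 4 * R},
        ENNReal.ofReal (γ (m + 1) y) ∂μ)
    hR hν hc hγ γ0 γmono he align r1 r2 r5 (r4.trans r5) hSt hH hσ hopt (fun m h => h.1)
    (fun m => rfl) (fun m => f2 m (by rw [f3]; exact (f5 m).trans le_self_add))
    (fun m => f2 m (by
      rw [f3]
      refine le_trans (ENNReal.ofReal_le_ofReal ?_) le_self_add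
      gcongr
      exact le_add_of_nonneg_left (qV m)))
    (fun m h => f2 m (by
      rw [ms_ind (zz_meas R x) (hγ _) (γ0 _) (fW_meas _ _), p1, f3]
      rcases not_and_or.1 h with h | h
      · rcases not_and_or.1 h with h | h
        · exact (g6 m x r r1 r2 (abs_le.2 ⟨by linarith [mul_pos (pow_pos (qq_pos m) 4) hR],
            by linarith [not_le.1 h]⟩)).trans (le_add_left (le_add_left le_self_add))
        · exact (g9 m x r r1 r2 (abs_le.2 ⟨by linarith [not_le.1 h],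
            by linarith [mul_pos (pow_pos (qq_pos m) 4) hR]⟩)).trans
            (le_add_left (le_add_left le_add_self))
      · exact (not_lt.1 h).trans ((f5 m).trans le_self_add)))
    (fun m h hin => by
      have key : ∀ S : Set E, MeasurableSet S → ENNReal.ofReal
          (ms μ (zz R x) (fun y => ‖c y‖) (ind S) + ms μ (zz R x) (γ (m + 1)) (ind S)) =
          ∫⁻ y in zz R x ⁻¹' S, (ENNReal.ofReal ‖c y‖ + ENNReal.ofReal (γ (m + 1) y)) ∂μ :=
        fun S hS => by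
          rw [ENNReal.ofReal_add (ms_nonneg (fun _ => norm_nonneg _) (ind_nonneg _))
            (ms_nonneg (γ0 _) (ind_nonneg _)), ms_ind (zz_meas R x) (hγ _) (γ0 _) hS,
            ms_ind (zz_meas R x) hc.norm (fun _ => norm_nonneg _) hS,
            lintegral_add_left mc.norm.ennreal_ofReal]
      obtain ⟨y, y1, y2⟩ := g3 m x r r1 r2 h.2 (by
        have := ENNReal.ofReal_le_ofReal hin
        rwa [key _ (measurableSet_lt (by fun_prop) measurable_const),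
          show zz R x ⁻¹' {z | ‖z‖ < r / R - qq m ^ 4} = ball x (r - qq m ^ 4 * R) from
            Set.ext fun y => (zz_lt hR x y r _).trans mem_ball_iff_norm.symm] at this)
      have y3 : G₀ m x + ENNReal.ofReal (qq m * V m) ≤ T m x := by
        rw [f3, add_comm]; exact add_le_add (f5 m) le_self_add
      refine ⟨zz R x y, (zz_fW hR x y r _).2 y1, (min_le_iff.1 (y2.trans y3)).imp (f2 m)
        fun h => f2 m ?_⟩
      rw [key _ (fF_meas _ _ _ _)]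
      refine le_trans (lintegral_mono_set fun w hw => And.intro ((zz_fW hR x w r _).1 hw.1) ?_) h
      rw [← norm_zz_sub hR x w y, mul_comm]
      exact mul_le_mul_of_nonneg_left hw.2 hR.le)
  have := H.concl hR (T := (∑' m, T m x).toReal) fun M => by
    rw [cum, ← ENNReal.toReal_sum fun m _ => f1 m]
    exact ENNReal.toReal_mono hfin (ENNReal.sum_le_tsum _)
  simp only
  rw [← ENNReal.ofReal_toReal hfin, ← ENNReal.ofReal_mul (by norm_num)]
  exact ⟨ENNReal.ofReal_le_ofReal this.1, ENNReal.ofReal_le_ofReal this.2⟩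

end Vale.Agent.P137
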