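import Vale.Agent.P137.CLemC2
import Vale.Agent.P137.CDec

open MeasureTheory Metric Set Filter
open scoped ENNReal Topology RealInnerProductSpace

set_option linter.unusedSectionVars false

namespace Vale.Agent.P137

/-- block thresholds -/
def nn (G m : ℕ) : ℕ := 5 * m + (G + 30)

/-- depth weights -/
noncomputable def Dw (G n : ℕ) : ℝ≥0∞ := ∑' m : ℕ, ENNReal.ofReal
  ((1000 + 3 ^ (G + 5)) * (((m : ℝ) + 2) * qq m) * (1 / 3) ^ (n - nn G (m + 1)))

lemma Dw_ge {G n : ℕ} (h : n ≤ G + 4) : 1 ≤ Dw G n := by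
  refine le_trans ?_ (ENNReal.le_tsum 0)
  rw [show n - nn G (0 + 1) = 0 by unfold nn; omega, ENNReal.one_le_ofReal]
  have : (0 : ℝ) ≤ 3 ^ (G + 5) := by positivity
  norm_num [qq]
  linarith

lemma tsum_shift_geom (K : ℕ) :
    ∑' n : ℕ, ENNReal.ofReal ((1 / 3) ^ (n - K)) ≤ ENNReal.ofReal (K + 2) := by
  rw [← Summable.sum_add_tsum_nat_add' (k := K) ENNReal.summable,
    ENNReal.ofReal_add (by positivity) (by norm_num)]
  gcongr
  · rw [Finset.sum_congr rfl (g := fun _ => 1) fun i hi => by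
      rw [show i - K = 0 by have := Finset.mem_range.1 hi; omega]; simp]
    simp
  · simp only [Nat.add_sub_cancel]
    rw [← ENNReal.ofReal_tsum_of_nonneg (fun _ => by positivity)
      (summable_geometric_of_lt_one (by norm_num) (by norm_num)),
      tsum_geometric_of_lt_one (by norm_num) (by norm_num)]
    exact ENNReal.ofReal_le_ofReal (by norm_num)

lemma Dw_sum (G : ℕ) : ∑' n, Dw G n ≠ ∞ := by
  unfold Dw
  rw [ENNReal.tsum_comm]
  have hs : Summable fun m : ℕ => (1000 + 3 ^ (G + 5)) * (((m : ℝ) + 2) * qq m) *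
      ((nn G (m + 1) : ℕ) + 2) := by
    have h := fun k => summable_pow_mul_geometric_of_norm_lt_one (R := ℝ) k (r := 1 / 3)
      (by norm_num)
    refine ((((h 2).mul_left 5).add ((h 1).mul_left ((G : ℝ) + 47))).add
      ((h 0).mul_left (2 * (G : ℝ) + 74))).mul_left ((1000 + 3 ^ (G + 5)) * (1 / 3) ^ 5) |>.congr
      fun m => ?_
    simp only [nn, qq]
    push_cast
    ring
  refine ne_top_of_le_ne_top hs.tsum_ofReal_ne_top (ENNReal.tsum_le_tsum fun m => ?_)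
  have := qq_pos m
  simp only [ENNReal.ofReal_mul (show 0 ≤ (1000 + 3 ^ (G + 5)) * (((m : ℝ) + 2) * qq m) by
    positivity), ENNReal.tsum_mul_left]
  exact mul_le_mul_right (tsum_shift_geom _) _

variable {E : Type} [NormedAddCommGroup E] [InnerProductSpace ℝ E] [FiniteDimensional ℝ E]
  [MeasurableSpace E] [BorelSpace E] {μ : Measure E} [μ.IsAddHaarMeasure]

/-- coarse part -/
noncomputable def crs (f : E → ℝ) (dp : E → ℕ) (n : ℕ) (y : E) : ℝ := if dp y < n then f y else 0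

/-- fine part -/
noncomputable def fin' (G : ℕ) (h : ℝ) (f : E → ℝ) (dp : E → ℕ) (n : ℕ) (y : E) : ℝ :=
  if n ≤ dp y then f y * (3 ^ (G + 4) * sc h (dp y)) else 0

variable {f : E → ℝ} {dp : E → ℕ} {G : ℕ} {h : ℝ}

lemma crs_meas (hf : Measurable f) (hd : Measurable dp) (n : ℕ) : Measurable (crs f dp n) :=
  Measurable.ite (hd (MeasurableSet.of_discrete (s := {j | j < n}))) hf measurable_const

lemma crs_int (hf : Integrable f μ) (hd : Measurable dp) (n : ℕ) : Integrable (crs f dp n) μ :=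
  hf.indicator (hd (MeasurableSet.of_discrete (s := {j | j < n}))) |>.congr
    (Eventually.of_forall fun y => by simp [crs, indicator])

lemma crs_nonneg (h0 : ∀ y, 0 ≤ f y) (n : ℕ) (y : E) : 0 ≤ crs f dp n y := by
  unfold crs; split_ifs; exacts [h0 y, le_rfl]

lemma fin_nonneg (hh : 0 < h) (h0 : ∀ y, 0 ≤ f y) (n : ℕ) (y : E) : 0 ≤ fin' G h f dp n y := by
  have := sc_pos hh (dp y)
  have := h0 y
  unfold fin'; split_ifs; exacts [by positivity, le_rfl]

lemma fin_int (hh : 0 < h) (hf : Integrable f μ) (hd : Measurable dp) (n : ℕ) :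
    Integrable (fin' G h f dp n) μ := by
  have : Integrable (fun y => f y * (3 ^ (G + 4) * sc h (dp y))) μ :=
    hf.mul_bdd (c := 3 ^ (G + 4) * sc h 0) (((measurable_from_nat (f := sc h)).comp hd).const_mul
      _).aestronglyMeasurable (Eventually.of_forall fun y => by
        have := sc_pos hh (dp y)
        rw [Real.norm_of_nonneg (by positivity)]
        gcongr
        exact (sc_anti hh).antitone (Nat.zero_le _))
  exact this.indicator (hd (MeasurableSet.of_discrete (s := {j | n ≤ j}))) |>.congr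
    (Eventually.of_forall fun y => by simp [fin', indicator])

lemma item_pt (hh : 0 < h) (h0 : ∀ y, 0 ≤ f y) (i m : ℕ) (y : E) :
    qq m * (1000 * ((m : ℝ) + 2)) * crs f dp (i + nn G (m + 1)) y +
      (qq m ^ 4 * sc h (i + 1))⁻¹ * fin' G h f dp (i + nn G m) y ≤ f y *
      ((1000 + 3 ^ (G + 5)) * (((m : ℝ) + 2) * qq m) * (1 / 3) ^ (dp y - i - nn G (m + 1))) := by
  have a0 := h0 y
  have q0 := qq_pos m
  rw [add_mul 1000, add_mul (1000 * _), mul_add (f y)]
  refine add_le_add ?_ ?_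
  · unfold crs
    split_ifs with a
    · rw [show dp y - i - nn G (m + 1) = 0 by omega]; exact le_of_eq (by ring)
    · rw [mul_zero]; positivity
  · unfold fin'
    split_ifs with a
    · obtain ⟨t, ht⟩ := Nat.exists_eq_add_of_le a
      have s0 := sc_pos hh (i + 1)
      have e1 : sc h (dp y) = sc h (i + 1) * (3 * (1 / 3) ^ (G + 5) * qq m ^ 5 * (1 / 3) ^ t) := by
        rw [ht]
        simp only [sc, nn, qq, one_div, inv_pow]
        field_simp
        ring
      have e2 : ((1 : ℝ) / 3) ^ t ≤ (1 / 3) ^ (dp y - i - nn G (m + 1)) :=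
        pow_le_pow_of_le_one (by norm_num) (by norm_num) (by unfold nn at *; omega)
      have e3 : ((1 : ℝ) / 3) ^ (G + 5) ≤ (m : ℝ) + 2 :=
        (pow_le_one₀ (by norm_num) (by norm_num)).trans (by linarith [m.cast_nonneg (α := ℝ)])
      calc _ = f y * (3 ^ (G + 5) * ((1 / 3) ^ (G + 5) * qq m) * (1 / 3) ^ t) := by
            rw [e1]; field_simp; ring
        _ ≤ _ := by gcongr
    · rw [mul_zero]; positivity

lemma item_bound (hh : 0 < h) (hm : Measurable f) (hf : Integrable f μ) (h0 : ∀ y, 0 ≤ f y)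
    (hd : Measurable dp) (i : ℕ) : ∑' m : ℕ, ENNReal.ofReal
      (qq m * (1000 * ((m : ℝ) + 2) * ∫ y, crs f dp (i + nn G (m + 1)) y ∂μ) +
        (∫ y, fin' G h f dp (i + nn G m) y ∂μ) / (qq m ^ 4 * sc h (i + 1))) ≤
      ∫⁻ y, ENNReal.ofReal (f y) * Dw G (dp y - i) ∂μ := by
  simp only [Dw, ← ENNReal.tsum_mul_left]
  have hmm : ∀ m : ℕ, Measurable fun y => ENNReal.ofReal (f y) * ENNReal.ofReal
      ((1000 + 3 ^ (G + 5)) * (((m : ℝ) + 2) * qq m) * (1 / 3) ^ (dp y - i - nn G (m + 1))) :=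
    fun m => hm.ennreal_ofReal.mul ((measurable_from_nat (f := fun n =>
      ENNReal.ofReal ((1000 + 3 ^ (G + 5)) * (((m : ℝ) + 2) * qq m) *
        (1 / 3) ^ (n - i - nn G (m + 1))))).comp hd)
  rw [lintegral_tsum fun m : ℕ => (hmm m).aemeasurable]
  refine ENNReal.tsum_le_tsum fun m => ?_
  have i1 := (crs_int hf hd (i + nn G (m + 1))).const_mul (qq m * (1000 * ((m : ℝ) + 2)))
  have i2 := (fin_int (G := G) hh hf hd (i + nn G m)).const_mul (qq m ^ 4 * sc h (i + 1))⁻¹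
  have q0 := qq_pos m
  have s0 := sc_pos hh (i + 1)
  rw [← mul_assoc, div_eq_inv_mul, ← integral_const_mul, ← integral_const_mul,
    ← integral_add i1 i2]
  refine (ofReal_integral_eq_lintegral_ofReal (i1.add i2)
      (Eventually.of_forall fun y => add_nonneg (mul_nonneg (by positivity) (crs_nonneg h0 _ y))
        (mul_nonneg (by positivity) (fin_nonneg hh h0 _ y)))).le.trans ?_
  refine lintegral_mono fun y => ?_
  rw [← ENNReal.ofReal_mul (h0 y)]
  exact ENNReal.ofReal_le_ofReal (item_pt hh h0 i m y)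

theorem lemC' : ∃ C : ℝ, 0 ≤ C ∧ ∀ (G i : ℕ) (h : ℝ) (x₀ : E) (ν c : E → E) (e : E)
    (s : Finset (Option ℕ)) (f : Option ℕ → E → ℝ) (dp : Option ℕ → E → ℕ) (ρ₁ ρ₂ : E → ℝ), 0 < h →
    Integrable ν μ → Integrable c μ → Measurable c → (∀ l ∈ s, Integrable (f l) μ) →
    (∀ l ∈ s, Measurable (f l)) → (∀ l ∈ s, ∀ y, 0 ≤ f l y) → (∀ l, Measurable (dp l)) →
    ‖e‖ = 1 → (∀ y, 9 / 10 * ‖c y‖ ≤ ⟪e, c y⟫) →
    (∀ x z, ρ₁ x ≤ ρ₁ z + ‖x - z‖ / 2) → (∀ x z, ρ₂ x ≤ ρ₂ z + ‖x - z‖ / 2) →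
    ∃ Err : E → ℝ≥0∞, Measurable Err ∧ ∫⁻ x, Err x ∂μ ≤ ENNReal.ofReal C *
      μ (ball (0 : E) (sc h (i + 1))) *
        ∑ l ∈ s, ∫⁻ y, ENNReal.ofReal (f l y) * Dw G (dp l y - i) ∂μ ∧
      ∀ (A : E → ℝ → ℝ) (x : E) (r t : ℝ), x ∈ ball x₀ (21 * sc h (i + 1)) → sc h (i + 1) ≤ r →
        r ≤ 3 * sc h (i + 1) → ρ₁ x ≤ r → r ≤ ρ₂ x → ρ₂ x ≤ t → St μ A ν x t →
        (∀ m, Hyp μ ν c (fun y => ∑ l ∈ s, crs (f l) (dp l) (i + nn G m) y)
          (∑ l ∈ s, ∫ y, fin' G h (f l) (dp l) (i + nn G m) y ∂μ) x (4 * sc h (i + 1))) →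
        (∀ t, ρ₁ x ≤ t → t ≤ ρ₂ x → A x t ≤ A x r) →
        ENNReal.ofReal (‖aa μ ν x r‖ - 250 * (⟪e, aa μ ν x r⟫ + 1 / 2 * ps μ ν x r / r)) ≤ Err x ∧
        ENNReal.ofReal (‖aa μ ν x r‖ - 10 * ∫ y, ‖c y‖ ∂μ) ≤ Err x := by
  obtain ⟨C, C0, hC⟩ := lemC (μ := μ)
  refine ⟨C, C0, fun G i h x₀ ν c e s f dp ρ₁ ρ₂ hh hν hc mc hf mf f0 md he al l1 l2 => ?_⟩
  obtain ⟨Err, h1, h2, h3⟩ := hC (sc h (i + 1)) x₀ ν c e
    (fun m y => ∑ l ∈ s, crs (f l) (dp l) (i + nn G m) y)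
    (fun m => ∑ l ∈ s, ∫ y, fin' G h (f l) (dp l) (i + nn G m) y ∂μ) ρ₁ ρ₂ (sc_pos hh _) hν hc mc
    (fun m => integrable_finsetSum _ fun l hl => crs_int (hf l hl) (md l) _)
    (fun m => Finset.measurable_sum _ fun l hl => crs_meas (mf l hl) (md l) _)
    (fun m y => Finset.sum_nonneg fun l hl => crs_nonneg (f0 l hl) _ y)
    (fun m y => Finset.sum_le_sum fun l hl => by
      unfold crs nn
      split_ifs
      exacts [le_rfl, by omega, f0 l hl y, le_rfl]) he al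
    (fun m => Finset.sum_nonneg fun l hl => integral_nonneg (fin_nonneg hh (f0 l hl) _)) l1 l2
  refine ⟨Err, h1, h2.trans (mul_le_mul_right ?_ _), h3⟩
  refine le_trans ?_ (Finset.sum_le_sum fun l hl =>
    item_bound (G := G) hh (mf l hl) (hf l hl) (f0 l hl) (md l) i)
  rw [← Summable.tsum_finsetSum fun _ _ => ENNReal.summable]
  refine ENNReal.tsum_le_tsum fun m => le_of_eq ?_
  have q0 := qq_pos m
  have s0 := sc_pos hh (i + 1)
  rw [← ENNReal.ofReal_sum_of_nonneg fun l hl => add_nonneg (mul_nonneg q0.le (mul_nonneg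
    (by positivity) (integral_nonneg (crs_nonneg (f0 l hl) _)))) (div_nonneg
      (integral_nonneg (fin_nonneg hh (f0 l hl) _)) (by positivity)), integral_finsetSum _ fun l hl => crs_int (hf l hl) (md l) _]
  simp only [Finset.mul_sum, Finset.sum_div, Finset.sum_add_distrib]

end Vale.Agent.P137
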