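import Vale.Agent.P137.CRec

open MeasureTheory Metric Set Filter
open scoped ENNReal Topology RealInnerProductSpace

set_option linter.unusedSectionVars false

namespace Vale.Agent.P137

variable {E : Type} [NormedAddCommGroup E] [InnerProductSpace ℝ E] [FiniteDimensional ℝ E]
  [MeasurableSpace E] [BorelSpace E] {μ : Measure E} [μ.IsAddHaarMeasure]
  {A ι : Type} [Countable ι] [Fintype A] {G N₀ : ℕ} {h ε δ : ℝ} {gr : Grid E A ι G N₀ h}
  {νs b : ℕ → E → E} {g : ℕ → E → ℝ} {c : E → E} {k N : ℕ} {m : ι}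

lemma Dec.telesc {n : ℕ} (D : Dec μ gr ε δ n νs b g) {j : ℕ} (hj : j ≤ n) :
    ∫ y, ‖νs 0 y‖ ∂μ + ε / 2 * ∑ l ∈ Finset.range j, ∫ y, g l y ∂μ ≤ ∫ y, ‖νs j y‖ ∂μ := by
  induction j with
  | zero => simp
  | succ j ih =>
    rw [Finset.sum_range_succ]
    linarith [ih (by omega), D.step j hj]

lemma bud_sum (D : Dec μ gr ε δ (N + 1) νs b g) : ∑' p, bud μ gr g N p ≤ N₀ * (∑' n, Dw G n) *
    ∑ l ∈ Finset.range (N + 1), ∫⁻ y, ENNReal.ofReal (g l y) ∂μ := by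
  rw [ENNReal.tsum_prod']
  calc _ ≤ ∑' i, ∑ l ∈ Finset.range (N + 1), (if i ≤ l then Dw G (l - i) else 0) *
        (N₀ * ∫⁻ y, ENNReal.ofReal (g l y) ∂μ) := by
        refine ENNReal.tsum_le_tsum fun i => ?_
        simp only [bud]
        rw [Summable.tsum_finsetSum fun _ _ => ENNReal.summable]
        refine le_trans (Finset.sum_le_sum fun l hl => ?_) (Finset.sum_le_sum_of_subset
          (s := Finset.Ico i (N + 1)) fun l hl => Finset.mem_range.2 (Finset.mem_Ico.1 hl).2)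
        rw [ENNReal.tsum_mul_left, if_pos (Finset.mem_Ico.1 hl).1]
        exact mul_le_mul_right (gr.tsum_lintegral_nb μ i
          (D.cls l (Finset.mem_Ico.1 hl).2).2.1.ennreal_ofReal) _
    _ ≤ _ := by
        rw [Summable.tsum_finsetSum fun _ _ => ENNReal.summable, Finset.mul_sum]
        refine Finset.sum_le_sum fun l _ => ?_
        rw [ENNReal.tsum_mul_right, mul_comm (N₀ : ℝ≥0∞) (∑' _, _), mul_assoc]
        exact mul_le_mul_left (tsum_rev _ _) _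

lemma Bud_sum (D : Dec μ gr ε δ (N + 1) νs b g) (q : ℕ × ι) :
    ∑' p, (Sub gr N q).indicator (Bud μ ε gr νs g N) p ≤ (N + 1 : ℕ) * ENNReal.ofReal ((N₀ + 1) * δ) +
      N₀ * (∑' n, Dw G n) * ∑ l ∈ Finset.range (N + 1), ∫⁻ y, ENNReal.ofReal (g l y) ∂μ := by
  calc _ ≤ ∑' p : ℕ × ι, ((if p.1 < N + 1 then ENNReal.ofReal ((1 - ε) *
        ∫ y in gr.nb p.1 p.2 6, ‖νs p.1 y‖ ∂μ - ‖∫ y in gr.nb p.1 p.2 6, νs p.1 y ∂μ‖) else 0) +
          bud μ gr g N p) := ENNReal.tsum_le_tsum fun p => indicator_apply_le'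
        (fun hp => by rw [if_pos (Nat.lt_succ_of_le hp.2.1), Bud]) fun _ => zero_le
    _ ≤ _ := by
        rw [ENNReal.tsum_add, ENNReal.tsum_prod']
        refine add_le_add ?_ (bud_sum D)
        rw [tsum_eq_sum (s := Finset.range (N + 1)) fun i hi => by
          simp only [if_neg (mt Finset.mem_range.2 hi), tsum_zero]]
        refine (Finset.sum_le_card_nsmul _ _ _ fun i hi => ?_).trans
          (by rw [Finset.card_range, nsmul_eq_mul])
        simpa only [if_pos (Finset.mem_range.1 hi)] using D.exc i (Finset.mem_range.1 hi)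

variable (μ A ι G N₀) in
theorem local_thm [Nontrivial E] [Nonempty A] : ∃ K : ℝ≥0∞, K ≠ ∞ ∧
    ∀ (h : ℝ) (gr : Grid E A ι G N₀ h) (N : ℕ) (m₀ : ι) (ν : E → E) (a : E → ℝ → ℝ) (L : ℝ)
    (w : E → ℝ), 0 < h → Measurable ν → Integrable ν μ → 0 ≤ L →
    JL a (sc h N) (sc h 0) L → (∀ x ∈ gr.nb 0 m₀ 3, St μ a ν x (sc h 0)) →
    Measurable w → (∀ x, 0 ≤ w x) → (∀ x ∈ gr.cube 0 m₀, ∀ r, Opt a (sc h N) (sc h 0) x r →
      w x ≤ ‖aa μ ν x r‖ / μ.real (ball (0 : E) r)) →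
    ∫⁻ x in gr.cube 0 m₀ ∩ {x | ∃ r, Opt a (sc h N) (sc h 0) x r}, ENNReal.ofReal (w x) ∂μ ≤
      K * ∫⁻ y, ‖ν y‖ₑ ∂μ := by
  obtain ⟨ε, C₁, C₂, ε0, c1, c2, hR⟩ := recursion μ A ι G N₀
  have := Dw_sum G
  refine ⟨C₁ + C₂ * (N₀ * (∑' n, Dw G n) * ENNReal.ofReal (2 / ε)), by finiteness,
    fun h gr N m₀ ν a L w hh mν hν hL hA hSt mw w0 hw => ?_⟩
  rcases (gr.cube 0 m₀).eq_empty_or_nonempty with h0 | ⟨x₀, h0⟩
  · simp [h0]
  refine ENNReal.le_of_forall_pos_le_add fun η η0 _ => ?_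
  obtain ⟨νs, b, g, e1, D⟩ := exists_dec (μ := μ) gr hh ε0.le
    (δ := η / ((C₂.toReal + 1) * ((N + 1 : ℕ) * (N₀ + 1)))) (by positivity) (N + 1) ν mν hν
  subst e1
  have a1 := hR h _ gr N m₀ νs b g a L w hh D hL hA hSt mw w0 hw (N + 1) 0 x₀ h0 N.zero_le
    (by omega)
  rw [show gr.idx gr.a0 0 x₀ = m₀ from h0] at a1
  refine le_trans (lintegral_mono_set ?_) (a1.trans ?_)
  · exact inter_subset_inter_right _ fun x ⟨r, hr⟩ => ⟨r, hr.1, hr⟩
  have a2 := D.telesc le_rfl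
  have g0 : ∀ l ∈ Finset.range (N + 1), 0 ≤ ∫ y, g l y ∂μ := fun l hl =>
    integral_nonneg (D.cls l (Finset.mem_range.1 hl)).nonneg
  have g1 := Finset.sum_nonneg g0
  have n0 : 0 ≤ ∫ y, ‖νs 0 y‖ ∂μ := integral_nonneg fun _ => norm_nonneg _
  have a3 : ∫⁻ y in gr.nb 0 m₀ 6, ‖νs 0 y‖ₑ ∂μ ≤ ∫⁻ y, ‖νs (N + 1) y‖ₑ ∂μ := by
    refine (setLIntegral_le_lintegral _ _).trans ?_
    rw [← ofReal_integral_norm_eq_lintegral_enorm hν,
      ← ofReal_integral_norm_eq_lintegral_enorm (D.int 0 (by omega))]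
    exact ENNReal.ofReal_le_ofReal (by nlinarith)
  have a4 : ∑ l ∈ Finset.range (N + 1), ∫⁻ y, ENNReal.ofReal (g l y) ∂μ ≤
      ENNReal.ofReal (2 / ε) * ∫⁻ y, ‖νs (N + 1) y‖ₑ ∂μ := by
    rw [← ofReal_integral_norm_eq_lintegral_enorm hν, ← ENNReal.ofReal_mul (by positivity),
      ← Finset.sum_congr rfl fun l hl => ofReal_integral_eq_lintegral_ofReal
        (D.cls l (Finset.mem_range.1 hl)).2.2.1
        (Eventually.of_forall (D.cls l (Finset.mem_range.1 hl)).nonneg),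
      ← ENNReal.ofReal_sum_of_nonneg g0]
    refine ENNReal.ofReal_le_ofReal ?_
    rw [div_mul_eq_mul_div, le_div_iff₀ ε0]
    linarith
  have a5 : C₂ * ((N + 1 : ℕ) * ENNReal.ofReal ((N₀ + 1) *
      (η / ((C₂.toReal + 1) * ((N + 1 : ℕ) * (N₀ + 1)))))) ≤ η := by
    nth_rewrite 1 [← ENNReal.ofReal_toReal c2]
    rw [← ENNReal.ofReal_natCast, ← ENNReal.ofReal_mul (by positivity),
      ← ENNReal.ofReal_mul (by positivity), ← ENNReal.ofReal_coe_nnreal]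
    refine ENNReal.ofReal_le_ofReal (le_trans (le_of_eq (b := C₂.toReal / (C₂.toReal + 1) * η)
      (by field_simp)) (mul_le_of_le_one_left η.2 ?_))
    rw [div_le_one (by positivity)]
    linarith
  refine (add_le_add (mul_le_mul_right a3 _) (mul_le_mul_right ((Bud_sum D _).trans
    (add_le_add le_rfl (mul_le_mul_right a4 _))) _)).trans ?_
  rw [mul_add]
  refine (add_le_add le_rfl (add_le_add a5 le_rfl)).trans (le_of_eq ?_)
  ring

end Vale.Agent.P137
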