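import Vale.Agent.P137.CId3
import Vale.Agent.P137.CLocal
import Mathlib.MeasureTheory.Function.ContinuousMapDense

open MeasureTheory Metric Set Filter
open scoped ENNReal Topology RealInnerProductSpace

set_option linter.unusedSectionVars false

namespace Vale.Agent.P137

variable {E : Type} [NormedAddCommGroup E] [InnerProductSpace ℝ E] [FiniteDimensional ℝ E]
  [MeasurableSpace E] [BorelSpace E] {μ : Measure E} [μ.IsAddHaarMeasure]
  {A ι : Type} [Countable ι] [Fintype A] {G N₀ : ℕ}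

lemma grad_le {a : E → ℝ → ℝ} {ν : E → E} {U : E → ℝ} {s₁ s₂ s r : ℝ} {x : E}
    (hν : Integrable ν μ) (hS : ∀ x s, St μ a ν x s) (hU : ∀ x, ∃ r, Opt a s₁ s₂ x r ∧ U x = a x r)
    (hr : Opt a s₁ s₂ x r) (h0 : 0 < s) (h1 : s ≤ r) :
    ‖gradient U x‖ ≤ (∫ y, ‖ν y‖ ∂μ) / μ.real (ball (0 : E) s) := by
  have d : 0 ≤ ∫ y, ‖ν y‖ ∂μ := integral_nonneg fun _ => norm_nonneg _
  have c := real_ball_pos (μ := μ) (0 : E) h0
  rcases grad_eq (U := U) (hS x r) (h0.trans_le h1) (fun z => by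
    obtain ⟨t, a1, a2⟩ := hU z
    exact a2 ▸ a1.2 r hr.1) (by
    obtain ⟨t, a1, a2⟩ := hU x
    exact a2 ▸ le_antisymm (hr.2 t a1.1) (a1.2 r hr.1)) with h | h
  · rw [h, norm_zero]; positivity
  · rw [h, norm_smul, norm_inv, Real.norm_of_nonneg measureReal_nonneg, ← div_eq_inv_mul]
    exact div_le_div₀ d (aa_le hν _ _) c (real_ball_mono h1)

variable (μ A ι G N₀) in
theorem gen_loc [Nontrivial E] [Nonempty A] : ∃ K : ℝ≥0∞, K ≠ ∞ ∧ ∀ (a : E → ℝ → ℝ) (ν : E → E)
    (s₂ h Λ : ℝ) (N : ℕ) (gr : Grid E A ι G N₀ h) (U : E → ℝ) (v : ι → E), Measurable ν →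
    Integrable ν μ → (∀ x s, St μ a ν x s) → 0 < h → sc h 0 ≤ s₂ → (∀ m, ‖v m‖ ≤ Λ) →
    (∀ x, ∃ r, Opt a (sc h N) s₂ x r ∧ U x = a x r) →
    ∫⁻ x in {x | ∃ r ∈ Icc (sc h N) (sc h 0), Opt a (sc h N) s₂ x r},
      (‖gradient U x‖ₑ - ENNReal.ofReal Λ) ∂μ ≤
        K * ∑' m, ∫⁻ y in gr.nb 0 m 6, ‖ν y - v m‖ₑ ∂μ := by
  obtain ⟨K, hK, hL⟩ := local_thm μ A ι G N₀
  refine ⟨K, hK, fun a ν s₂ h Λ N gr U v mν hν hS hh hs hv hU => ?_⟩
  have p1 := sc_pos hh N
  have p0 := sc_pos hh 0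
  have p2 : sc h N ≤ sc h 0 := (sc_anti hh).antitone (Nat.zero_le N)
  have j := JL_of_St (fun x => hS x s₂) hν p1
  have L0 : 0 ≤ (∫ y, ‖ν y‖ ∂μ) / μ.real (ball (0 : E) (sc h N)) :=
    div_nonneg (integral_nonneg fun _ => norm_nonneg _) measureReal_nonneg
  have mS := opt_meas L0 j hs (l := fun _ => sc h N) (fun _ => ⟨le_rfl, p2⟩) fun x z => by
    linarith [norm_nonneg (x - z)]
  set S := {x | ∃ r ∈ Icc (sc h N) (sc h 0), Opt a (sc h N) s₂ x r}
  have b : ∀ m, ∀ x ∈ gr.nb 0 m 3, ball x (sc h 0) ⊆ gr.nb 0 m 6 := fun m x hx y hy =>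
    Grid.ball_sub hx (mem_ball_iff_norm.1 hy).le (by linarith)
  have key := fun m => hL h gr N m ((gr.nb 0 m 6).indicator fun y => ν y - v m)
    (fun x r => a x r - ⟪v m, x⟫) _ (S.indicator fun x => max (‖gradient U x‖ - Λ) 0) hh
    ((mν.sub measurable_const).indicator (gr.nb_meas _ _ _))
    ((hν.integrableOn.sub (integrableOn_const (Bornology.IsBounded.measure_lt_top
      (Metric.isBounded_iff.2 ⟨_, fun y hy z hz => dist_eq_norm y z ▸ gr.nb_diam hy hz⟩)).ne)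
      ).integrable_indicator (gr.nb_meas _ _ _)) (by positivity) ((j.mono hs).loc (v m))
    (fun x hx => (hS x _).loc hν (b m x hx) _)
    ((((grad_meas U).norm.sub measurable_const).max measurable_const).indicator mS)
    (fun x => indicator_nonneg (fun _ _ => le_max_right _ _) x) (fun x hx r hr => by
      refine indicator_apply_le' (fun ⟨r₀, c1, c2⟩ => max_le ?_ (by positivity))
        fun _ => by positivity
      have c3 : Opt a (sc h N) s₂ x r := ⟨⟨hr.1.1, hr.1.2.trans hs⟩, fun t ht =>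
        (c2.2 t ht).trans (by linarith [hr.2 r₀ c1])⟩
      have r0 := p1.trans_le hr.1.1
      have c := real_ball_pos (μ := μ) (0 : E) r0
      rcases grad_eq (U := U) (hS x r) r0 (fun z => by
        obtain ⟨t, a1, a2⟩ := hU z
        exact a2 ▸ a1.2 r c3.1) (by
        obtain ⟨t, a1, a2⟩ := hU x
        exact a2 ▸ le_antisymm (c3.2 t a1.1) (a1.2 r c3.1)) with e | e
      · rw [e, norm_zero]
        exact le_trans (by linarith [norm_nonneg (v m), hv m]) (div_nonneg (norm_nonneg _) c.le)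
      · rw [aa_loc hν ((ball_subset_ball hr.1.2).trans (b m x (self_subset_thickening
          (by positivity) _ hx))), (inv_smul_eq_iff₀ c.ne').1 e.symm, ← smul_sub, norm_smul,
          Real.norm_of_nonneg c.le, mul_div_cancel_left₀ _ c.ne']
        linarith [norm_sub_norm_le (gradient U x) (v m), hv m])
  calc _ = ∫⁻ x in S, ENNReal.ofReal (S.indicator (fun x => max (‖gradient U x‖ - Λ) 0) x) ∂μ := by
        refine setLIntegral_congr_fun mS fun x hx => ?_
        obtain ⟨m⟩ : Nonempty ι := ⟨gr.idx gr.a0 0 x⟩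
        simp only [indicator_of_mem hx, ENNReal.ofReal_max, ENNReal.ofReal_zero, zero_le,
          sup_of_le_left]
        rw [ENNReal.ofReal_sub _ ((norm_nonneg _).trans (hv m)), ofReal_norm]
    _ ≤ _ := lintegral_mono_set (t := ⋃ m, gr.cube 0 m ∩ {x | ∃ r, Opt (fun x r =>
        a x r - ⟪v m, x⟫) (sc h N) (sc h 0) x r}) fun x ⟨r, c1, c2⟩ => mem_iUnion.2
          ⟨gr.idx gr.a0 0 x, rfl, r, c1, fun t ht =>
            sub_le_sub_right (c2.2 t ⟨ht.1, ht.2.trans hs⟩) _⟩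
    _ ≤ _ := lintegral_iUnion_le _ _
    _ ≤ _ := ENNReal.tsum_le_tsum key
    _ = _ := by
        rw [ENNReal.tsum_mul_left]
        congr 2
        ext m
        rw [← lintegral_indicator (gr.nb_meas _ _ _)]
        exact lintegral_congr fun y => enorm_indicator_eq_indicator_enorm _ _

variable (μ A ι G N₀) in
theorem grad_bounds [Nontrivial E] [Nonempty A]
    (hg : ∀ h, 0 < h → Nonempty (Grid E A ι G N₀ h)) : ∃ K : ℝ≥0∞, K ≠ ∞ ∧
    ∀ (a : E → ℝ → ℝ) (ν : E → E) (U : ℕ → E → ℝ), Measurable ν → Integrable ν μ →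
    (∀ x s, St μ a ν x s) → (∀ n x, ∃ r, Opt a (sc 1 n) (3 ^ n) x r ∧ U n x = a x r) →
    (∀ n, ∫⁻ x, ‖gradient (U n) x‖ₑ ∂μ ≤ K * ∫⁻ y, ‖ν y‖ₑ ∂μ) ∧ ∀ η, 0 < η → ∃ Λ, 0 ≤ Λ ∧
      ∀ᶠ n in atTop, ∫⁻ x, (‖gradient (U n) x‖ₑ - ENNReal.ofReal Λ) ∂μ ≤ ENNReal.ofReal η := by
  obtain ⟨K, hK, hL⟩ := gen_loc μ A ι G N₀
  refine ⟨K * N₀, by finiteness, fun a ν U mν hν hS hU => ⟨fun n => ?_, fun η hη => ?_⟩⟩
  · obtain ⟨gr⟩ := hg (3 ^ n) (by positivity)
    have e1 : sc (3 ^ n) (n + n) = sc 1 n := by unfold sc; field_simp; ring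
    have e2 : sc (3 ^ n) 0 = 3 ^ n := by simp [sc]
    have := hL a ν (3 ^ n) _ 0 (n + n) gr (U n) (fun _ => 0) mν hν hS (by positivity) e2.le
      (by simp) (e1 ▸ hU n)
    rw [e1, e2, eq_univ_of_forall (s := {x | _}) fun x => by
      obtain ⟨r, h, -⟩ := hU n x
      exact ⟨r, h.1, h⟩] at this
    simp only [Measure.restrict_univ, ENNReal.ofReal_zero, tsub_zero, sub_zero] at this
    rw [mul_assoc]
    exact this.trans (mul_le_mul_right (gr.tsum_lintegral_nb μ 0 mν.enorm) _)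
  obtain ⟨ε, e0, e1⟩ := ENNReal.exists_nnreal_pos_mul_lt (a := K * N₀ * 2) (b := ENNReal.ofReal η)
    (by finiteness) (by simpa using hη)
  obtain ⟨w, w1, w2, w3, -⟩ := hν.exists_hasCompactSupport_lintegral_sub_le
    (ε := ε) (by simpa using e0.ne')
  obtain ⟨M, hM⟩ := w3.bounded_above_of_compact_support w1
  obtain ⟨R, hR⟩ := w1.isCompact.isBounded.subset_closedBall 0
  obtain ⟨ε', e2, e3⟩ := ENNReal.exists_nnreal_pos_mul_lt (a := μ (closedBall (0 : E) (R + 1)))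
    (b := ε) measure_closedBall_lt_top.ne (by simpa using e0.ne')
  obtain ⟨δ, d0, d1⟩ := Metric.uniformContinuous_iff.1
    (w1.uniformContinuous_of_continuous w3) ε' e2
  obtain ⟨k, hk⟩ := exists_pow_lt_of_lt_one (show 0 < min δ 1 / 13 by positivity)
    (show (1 / 3 : ℝ) < 1 by norm_num)
  have hh := sc_pos one_pos k
  have e4 : sc (sc 1 k) 0 = sc 1 k := by simp [sc]
  have e5 : 13 * sc 1 k < min δ 1 := by
    rw [one_div_pow] at hk; unfold sc; linarith
  obtain ⟨gr⟩ := hg _ hh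
  have : ∀ m, ∃ z, ∀ y ∈ gr.nb 0 m 6, dist y z < min δ 1 := fun m => by
    rcases (gr.nb 0 m 6).eq_empty_or_nonempty with h | ⟨z, h⟩
    · simp [h]
    · refine ⟨z, fun y hy => ?_⟩
      have := gr.nb_diam hy h
      rw [e4, ← dist_eq_norm] at this
      linarith
  choose z hz using this
  have L0 : 0 ≤ (∫ y, ‖ν y‖ ∂μ) / μ.real (ball (0 : E) (sc 1 k)) :=
    div_nonneg (integral_nonneg fun _ => norm_nonneg _) measureReal_nonneg
  have M0 := (norm_nonneg _).trans (hM 0)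
  refine ⟨M + (∫ y, ‖ν y‖ ∂μ) / μ.real (ball (0 : E) (sc 1 k)), by positivity, ?_⟩
  filter_upwards [eventually_ge_atTop k] with n hn
  obtain ⟨N, rfl⟩ := Nat.exists_eq_add_of_le hn
  have e6 : sc (sc 1 k) N = sc 1 (k + N) := by unfold sc; field_simp; ring
  have key := hL a ν (3 ^ (k + N)) _ (M + (∫ y, ‖ν y‖ ∂μ) / μ.real (ball (0 : E) (sc 1 k))) N gr
    (U (k + N)) (fun m => w (z m)) mν hν hS hh (by
      rw [e4, sc]
      exact (div_le_one (by positivity)).2 (one_le_pow₀ (by norm_num)) |>.trans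
        (one_le_pow₀ (by norm_num))) (fun m => by linarith [hM (z m)]) (e6 ▸ hU _)
  rw [e6, e4, setLIntegral_eq_of_support_subset fun x hx => by
    by_contra hc
    obtain ⟨r, h, -⟩ := hU (k + N) x
    refine hx (tsub_eq_zero_of_le ?_)
    rw [← ofReal_norm]
    refine ENNReal.ofReal_le_ofReal ?_
    linarith [grad_le hν hS (hU (k + N)) h hh (not_lt.1 fun h' => hc ⟨r, ⟨h.1.1, h'.le⟩, h⟩)]] at key
  have mf : Measurable fun y => ‖ν y - w y‖ₑ + (closedBall (0 : E) (R + 1)).indicator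
      (fun _ => (ε' : ℝ≥0∞)) y :=
    (mν.sub w3.measurable).enorm.add (measurable_const.indicator measurableSet_closedBall)
  refine key.trans (le_trans (mul_le_mul_right ((ENNReal.tsum_le_tsum fun m =>
    setLIntegral_mono mf fun y hy => ?_).trans (gr.tsum_lintegral_nb μ 0 mf)) _) ?_)
  · have a1 := lt_min_iff.1 (hz m y hy)
    rw [← sub_add_sub_cancel _ (w y)]
    refine (enorm_add_le _ _).trans (add_le_add le_rfl ?_)
    by_cases hc : y ∈ closedBall (0 : E) (R + 1)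
    · rw [indicator_of_mem hc, ← edist_eq_enorm_sub, edist_dist, ← ENNReal.ofReal_coe_nnreal]
      exact ENNReal.ofReal_le_ofReal (d1 a1.1).le
    · rw [mem_closedBall, not_le] at hc
      have a2 := dist_triangle y (z m) 0
      rw [image_eq_zero_of_notMem_tsupport (f := w) (x := y) fun h => by
        linarith [mem_closedBall.1 (hR h)], image_eq_zero_of_notMem_tsupport (f := w) (x := z m)
          fun h => by linarith [mem_closedBall.1 (hR h)]]
      simp
  · rw [lintegral_add_left (f := fun y => ‖ν y - w y‖ₑ) (mν.sub w3.measurable).enorm,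
      lintegral_indicator_const measurableSet_closedBall]
    refine le_trans ?_ e1.le
    calc _ ≤ K * (N₀ * (ε + ε)) := by gcongr
      _ = _ := by ring

end Vale.Agent.P137
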