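import Mathlib.MeasureTheory.Function.L2Space
import Mathlib.Analysis.Normed.Module.WeakDual
import Mathlib.Analysis.InnerProductSpace.Dual
import Mathlib.MeasureTheory.Function.L1Space.AEEqFun
import Mathlib.MeasureTheory.Function.LpSpace.Complete
import Mathlib.Order.Filter.Ultrafilter.Basic

open MeasureTheory Metric Set Filter
open scoped ENNReal Topology InnerProductSpace

namespace Vale.Agent.P137

variable {α : Type*} [MeasurableSpace α] {μ : Measure α}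

lemma inner_toLp {f g : α → ℝ} (hf : MemLp f 2 μ) (hg : MemLp g 2 μ) :
    ⟪hf.toLp f, hg.toLp g⟫_ℝ = ∫ x, f x * g x ∂μ := by
  rw [L2.inner_def]
  refine integral_congr_ae ?_
  filter_upwards [hf.coeFn_toLp, hg.coeFn_toLp] with x h1 h2
  rw [h1, h2]; simp [mul_comm]

lemma memLp_two_of_bdd {f : α → ℝ} (hf : Integrable f μ) {Λ : ℝ} (hb : ∀ x, |f x| ≤ Λ) :
    MemLp f 2 μ := by
  rw [memLp_two_iff_integrable_sq hf.aestronglyMeasurable]
  refine (hf.abs.const_mul Λ).mono' (hf.aestronglyMeasurable.pow 2)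
    (Eventually.of_forall fun x => ?_)
  rw [Real.norm_eq_abs, abs_pow, sq]
  gcongr
  exact hb x

lemma weak_L2 (U : Ultrafilter ℕ) {F : ℕ → α → ℝ} (hF : ∀ n, Integrable (F n) μ) {Λ K : ℝ}
    (hΛ : 0 ≤ Λ) (hb : ∀ n x, |F n x| ≤ Λ) (hK : ∀ n, ∫ x, |F n x| ∂μ ≤ K) :
    ∃ Γ : α → ℝ, MemLp Γ 2 μ ∧ ∀ φ, MemLp φ 2 μ →
      Tendsto (fun n => ∫ x, F n x * φ x ∂μ) U (𝓝 (∫ x, Γ x * φ x ∂μ)) := by
  have h2 := fun n => memLp_two_of_bdd (hF n) (hb n)
  set T : ℕ → WeakDual ℝ (Lp ℝ 2 μ) := fun n =>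
    StrongDual.toWeakDual (InnerProductSpace.toDual ℝ (Lp ℝ 2 μ) ((h2 n).toLp (F n))) with hT
  have hmem : ∀ n, T n ∈ WeakDual.toStrongDual ⁻¹' closedBall 0 (Real.sqrt (Λ * K)) := by
    intro n
    rw [mem_preimage, mem_closedBall_zero_iff, hT]
    simp only [StrongDual.toStrongDual_toWeakDual, LinearIsometryEquiv.norm_map]
    refine Real.le_sqrt_of_sq_le ?_
    rw [← real_inner_self_eq_norm_sq, inner_toLp]
    calc _ ≤ ∫ x, Λ * |F n x| ∂μ := by
          refine integral_mono ((h2 n).integrable_mul (h2 n)) ((hF n).abs.const_mul Λ) fun x => ?_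
          simp only
          rw [← abs_mul_abs_self]
          gcongr
          exact hb n x
      _ ≤ _ := by rw [integral_const_mul]; gcongr; exact hK n
  obtain ⟨S, -, hS⟩ := (WeakDual.isCompact_closedBall (0 : StrongDual ℝ (Lp ℝ 2 μ))
    (Real.sqrt (Λ * K))).ultrafilter_le_nhds (U.map T)
    (le_principal_iff.2 (mem_map.2 (Eventually.of_forall hmem)))
  set γ := (InnerProductSpace.toDual ℝ (Lp ℝ 2 μ)).symm (WeakDual.toStrongDual S) with hγ
  refine ⟨γ, Lp.memLp γ, fun φ hφ => ?_⟩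
  have h3 := ((WeakDual.eval_continuous (hφ.toLp φ)).tendsto S).comp
    (show Tendsto T U (𝓝 S) from hS)
  have e1 : S (hφ.toLp φ) = ∫ x, γ x * φ x ∂μ := by
    rw [← inner_toLp (Lp.memLp γ) hφ, Lp.toLp_coeFn, hγ, InnerProductSpace.toDual_symm_apply]
    rfl
  rw [e1] at h3
  refine h3.congr fun n => ?_
  rw [← inner_toLp (h2 n) hφ]
  rfl

/-- clamp to a symmetric interval -/
def cl (Λ t : ℝ) : ℝ := max (-Λ) (min t Λ)

lemma cl_cont (Λ : ℝ) : Continuous (cl Λ) := by unfold cl; fun_prop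

lemma abs_cl_le {Λ : ℝ} (h : 0 ≤ Λ) (t : ℝ) : |cl Λ t| ≤ Λ := by
  unfold cl
  exact abs_le.2 ⟨le_max_left _ _, max_le (by linarith) (min_le_right _ _)⟩

lemma abs_cl_le' {Λ : ℝ} (h : 0 ≤ Λ) (t : ℝ) : |cl Λ t| ≤ |t| := by
  unfold cl
  have := le_abs_self t
  have := neg_abs_le t
  refine abs_le.2 ⟨le_max_of_le_right (le_min (by linarith) (by linarith)),
    max_le (by linarith) ((min_le_left _ _).trans (by linarith))⟩

lemma enorm_sub_cl {Λ : ℝ} (h : 0 ≤ Λ) (t : ℝ) :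
    ‖t - cl Λ t‖ₑ ≤ ‖t‖ₑ - ENNReal.ofReal Λ := by
  rw [← ofReal_norm, ← ofReal_norm, ← ENNReal.ofReal_sub _ h, Real.norm_eq_abs, Real.norm_eq_abs]
  unfold cl
  rcases le_total t Λ with h1 | h1
  · rw [min_eq_left h1]
    rcases le_total (-Λ) t with h2 | h2
    · rw [max_eq_right h2]; simp
    · rw [max_eq_left h2, abs_of_nonpos (by linarith), abs_of_nonpos (by linarith)]
      exact ENNReal.ofReal_le_ofReal (by linarith)
  · rw [min_eq_right h1, max_eq_right (by linarith), abs_of_nonneg (by linarith),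
      abs_of_nonneg (by linarith)]

lemma L1_of_test {Γ : α → ℝ} (hΓ : MemLp Γ 2 μ) {K : ℝ}
    (h : ∀ φ, MemLp φ 2 μ → (∀ x, |φ x| ≤ 1) → ∫ x, Γ x * φ x ∂μ ≤ K) :
    ∫⁻ x, ‖Γ x‖ₑ ∂μ ≤ ENNReal.ofReal K := by
  have hφ : ∀ m : ℕ, MemLp (fun x => cl 1 (m * Γ x)) 2 μ := fun m =>
    (hΓ.const_mul (m : ℝ)).mono ((cl_cont 1).comp_aestronglyMeasurable (hΓ.const_mul (m : ℝ)).1)
      (Eventually.of_forall fun x => abs_cl_le' zero_le_one _)
  have hnn : ∀ (m : ℕ) (t : ℝ), 0 ≤ t * cl 1 (m * t) := by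
    intro m t
    have hm : (0 : ℝ) ≤ m := Nat.cast_nonneg m
    unfold cl
    rcases le_total 0 t with h | h
    · exact mul_nonneg h (le_max_of_le_right (le_min (by positivity) zero_le_one))
    · exact mul_nonneg_of_nonpos_of_nonpos h (max_le (by norm_num)
        ((min_le_left _ _).trans (mul_nonpos_of_nonneg_of_nonpos hm h)))
  have hb : ∀ m : ℕ, ∫⁻ x, ENNReal.ofReal (Γ x * cl 1 (m * Γ x)) ∂μ ≤ ENNReal.ofReal K := by
    intro m
    rw [← ofReal_integral_eq_lintegral_ofReal (f := fun x => Γ x * cl 1 (m * Γ x))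
      (hΓ.integrable_mul (hφ m)) (Eventually.of_forall fun x => hnn m _)]
    exact ENNReal.ofReal_le_ofReal (h _ (hφ m) fun x => abs_cl_le zero_le_one _)
  have hlim : ∀ t : ℝ, ∀ᶠ m : ℕ in atTop, t * cl 1 (m * t) = |t| := by
    intro t
    rcases lt_trichotomy t 0 with h | rfl | h
    · filter_upwards [tendsto_natCast_atTop_atTop.eventually_ge_atTop (1 / -t)] with m hm
      rw [div_le_iff₀ (by linarith)] at hm
      unfold cl
      rw [max_eq_left ((min_le_left _ _).trans (by linarith)), abs_of_neg h]; ring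
    · simp
    · filter_upwards [tendsto_natCast_atTop_atTop.eventually_ge_atTop (1 / t)] with m hm
      rw [div_le_iff₀ h] at hm
      unfold cl
      rw [min_eq_right hm, max_eq_right (by norm_num), abs_of_pos h]; ring
  calc _ = ∫⁻ x, liminf (fun m : ℕ => ENNReal.ofReal (Γ x * cl 1 (m * Γ x))) atTop ∂μ := by
        refine lintegral_congr fun x => (Tendsto.liminf_eq ?_).symm
        refine tendsto_const_nhds.congr' ?_
        filter_upwards [hlim (Γ x)] with m hm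
        rw [hm, ← ofReal_norm, Real.norm_eq_abs]
    _ ≤ liminf (fun m : ℕ => ∫⁻ x, ENNReal.ofReal (Γ x * cl 1 (m * Γ x)) ∂μ) atTop :=
        lintegral_liminf_le' fun m =>
          (hΓ.integrable_mul (hφ m)).aemeasurable.ennreal_ofReal
    _ ≤ _ := liminf_le_of_frequently_le' (Frequently.of_forall hb)

lemma abs_integral_mul_le {f φ : α → ℝ} (hf : Integrable f μ) {M K : ℝ} (hM : 0 ≤ M)
    (hK : 0 ≤ K) (hφ : ∀ x, |φ x| ≤ M) (h : ∫⁻ x, ‖f x‖ₑ ∂μ ≤ ENNReal.ofReal K) :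
    |∫ x, f x * φ x ∂μ| ≤ M * K := by
  rw [← ofReal_integral_norm_eq_lintegral_enorm hf, ENNReal.ofReal_le_ofReal_iff hK] at h
  rw [← Real.norm_eq_abs]
  refine le_trans (norm_integral_le_of_norm_le (hf.norm.const_mul M)
    (Eventually.of_forall fun x => ?_)) ?_
  · rw [norm_mul, mul_comm]
    gcongr
    exact hφ x
  · rw [integral_const_mul]; gcongr

lemma integrable_of_le {f : α → ℝ} (hf : AEStronglyMeasurable f μ) {K : ℝ}
    (h : ∫⁻ x, ‖f x‖ₑ ∂μ ≤ ENNReal.ofReal K) : Integrable f μ :=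
  ⟨hf, h.trans_lt ENNReal.ofReal_lt_top⟩

lemma weak_bound (U : Ultrafilter ℕ) {F : ℕ → α → ℝ} (hF : ∀ n, Integrable (F n) μ) {K : ℝ}
    (hK0 : 0 ≤ K) (hK : ∀ n, ∫⁻ x, ‖F n x‖ₑ ∂μ ≤ ENNReal.ofReal K) {Γ : α → ℝ} (hΓ : MemLp Γ 2 μ)
    (h : ∀ φ, MemLp φ 2 μ →
      Tendsto (fun n => ∫ x, F n x * φ x ∂μ) U (𝓝 (∫ x, Γ x * φ x ∂μ))) :
    ∫⁻ x, ‖Γ x‖ₑ ∂μ ≤ ENNReal.ofReal K := by
  refine L1_of_test hΓ fun φ hφ hφ1 => le_of_tendsto' (h φ hφ) fun n => ?_
  have := abs_integral_mul_le (hF n) zero_le_one hK0 hφ1 (hK n)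
  linarith [le_abs_self (∫ x, F n x * φ x ∂μ)]

/-- weak compactness of uniformly integrable sequences -/
theorem weak_L1 (U : Ultrafilter ℕ) {D : ℕ → α → ℝ} (hD : ∀ n, AEStronglyMeasurable (D n) μ)
    {K : ℝ} (hK0 : 0 ≤ K) (hK : ∀ n, ∫⁻ x, ‖D n x‖ₑ ∂μ ≤ ENNReal.ofReal K)
    (hU : ∀ η, 0 < η → ∃ Λ, 0 ≤ Λ ∧ ∀ n,
      ∫⁻ x, (‖D n x‖ₑ - ENNReal.ofReal Λ) ∂μ ≤ ENNReal.ofReal η) :
    ∃ Γ : α → ℝ, Integrable Γ μ ∧ ∫ x, |Γ x| ∂μ ≤ K ∧ ∀ φ M, MemLp φ 2 μ → (∀ x, |φ x| ≤ M) →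
      0 ≤ M → Tendsto (fun n => ∫ x, D n x * φ x ∂μ) U (𝓝 (∫ x, Γ x * φ x ∂μ)) := by
  choose Λ hΛ0 hΛ using fun k : ℕ => hU ((1 / 2) ^ k) (by positivity)
  have hDi : ∀ n, Integrable (D n) μ := fun n => integrable_of_le (hD n) (hK n)
  have hc1 : ∀ k n, ∫⁻ x, ‖cl (Λ k) (D n x)‖ₑ ∂μ ≤ ENNReal.ofReal K := fun k n =>
    le_trans (lintegral_mono fun x => by
      rw [← ofReal_norm, ← ofReal_norm]
      exact ENNReal.ofReal_le_ofReal (abs_cl_le' (hΛ0 k) _)) (hK n)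
  have hci : ∀ k n, Integrable (fun x => cl (Λ k) (D n x)) μ := fun k n =>
    integrable_of_le ((cl_cont _).comp_aestronglyMeasurable (hD n)) (hc1 k n)
  have hc2 : ∀ k n, ∫⁻ x, ‖D n x - cl (Λ k) (D n x)‖ₑ ∂μ ≤ ENNReal.ofReal ((1 / 2) ^ k) :=
    fun k n => le_trans (lintegral_mono fun x => enorm_sub_cl (hΛ0 k) _) (hΛ k n)
  have hc2' := fun k n => memLp_two_of_bdd (hci k n) fun x => abs_cl_le (hΛ0 k) (D n x)
  choose Γ hΓ hΓt using fun k => weak_L2 U (hci k) (hΛ0 k) (fun n x => abs_cl_le (hΛ0 k) _)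
    (K := K) (fun n => by
      have := hc1 k n
      rwa [← ofReal_integral_norm_eq_lintegral_enorm (hci k n),
        ENNReal.ofReal_le_ofReal_iff hK0] at this)
  have hΓ1 : ∀ k, ∫⁻ x, ‖Γ k x‖ₑ ∂μ ≤ ENNReal.ofReal K := fun k =>
    weak_bound U (hci k) hK0 (hc1 k) (hΓ k) (hΓt k)
  have hΓi : ∀ k, Integrable (Γ k) μ := fun k => integrable_of_le (hΓ k).1 (hΓ1 k)
  have hΓd : ∀ k, ∫⁻ x, ‖Γ k x - Γ (k + 1) x‖ₑ ∂μ ≤ ENNReal.ofReal (2 * (1 / 2) ^ k) := by
    intro k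
    refine weak_bound U (F := fun n x => cl (Λ k) (D n x) - cl (Λ (k + 1)) (D n x))
      (fun n => (hci k n).sub (hci (k + 1) n)) (by positivity) (fun n => ?_)
      ((hΓ k).sub (hΓ (k + 1))) fun φ hφ => ?_
    · calc _ ≤ ∫⁻ x, (‖D n x - cl (Λ k) (D n x)‖ₑ + ‖D n x - cl (Λ (k + 1)) (D n x)‖ₑ) ∂μ := by
            refine lintegral_mono fun x => ?_
            rw [show cl (Λ k) (D n x) - cl (Λ (k + 1)) (D n x) =
              (D n x - cl (Λ (k + 1)) (D n x)) - (D n x - cl (Λ k) (D n x)) by ring]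
            exact enorm_sub_le.trans (le_of_eq (add_comm _ _))
        _ ≤ ENNReal.ofReal ((1 / 2) ^ k) + ENNReal.ofReal ((1 / 2) ^ (k + 1)) := by
            rw [lintegral_add_left' (f := fun x => ‖D n x - cl (Λ k) (D n x)‖ₑ)
              ((hDi n).sub (hci k n)).aemeasurable.enorm]
            exact add_le_add (hc2 k n) (hc2 (k + 1) n)
        _ ≤ _ := by
            rw [← ENNReal.ofReal_add (by positivity) (by positivity), pow_succ]
            refine ENNReal.ofReal_le_ofReal ?_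
            have : (0 : ℝ) < (1 / 2) ^ k := by positivity
            linarith
    · have := (hΓt k φ hφ).sub (hΓt (k + 1) φ hφ)
      have hi : ∀ {f : α → ℝ}, MemLp f 2 μ → Integrable (fun x => f x * φ x) μ := fun hf =>
        hf.integrable_mul hφ
      rw [← integral_sub (hi (hΓ k)) (hi (hΓ (k + 1)))] at this
      simp only [← sub_mul] at this
      refine this.congr fun n => ?_
      rw [← integral_sub (hi (hc2' k n)) (hi (hc2' (k + 1) n))]
      simp only [← sub_mul]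
  have hdist : ∀ k, dist ((hΓi k).toL1 (Γ k)) ((hΓi (k + 1)).toL1 (Γ (k + 1))) ≤
      2 * (1 / 2) ^ k := by
    intro k
    rw [dist_eq_norm, ← Integrable.toL1_sub, Integrable.norm_toL1_eq_lintegral_enorm]
    exact ENNReal.toReal_le_of_le_ofReal (by positivity) (hΓd k)
  obtain ⟨G, hG⟩ := cauchySeq_tendsto_of_complete
    (cauchySeq_of_le_geometric (1 / 2) 2 (by norm_num) hdist)
  have hGk : ∀ k, ∫⁻ x, ‖Γ k x - G x‖ₑ ∂μ ≤ ENNReal.ofReal (4 * (1 / 2) ^ k) := by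
    intro k
    have h1 := dist_le_of_le_geometric_of_tendsto (1 / 2) 2 (by norm_num) hdist hG k
    rw [dist_eq_norm, L1.norm_eq_integral_norm] at h1
    rw [← ofReal_integral_norm_eq_lintegral_enorm (f := fun x => Γ k x - G x)
      ((hΓi k).sub (L1.integrable_coeFn G))]
    refine ENNReal.ofReal_le_ofReal (le_trans (le_of_eq (integral_congr_ae ?_))
      (h1.trans (le_of_eq (by ring))))
    filter_upwards [Lp.coeFn_sub ((hΓi k).toL1 (Γ k)) G, (hΓi k).coeFn_toL1] with x a1 a2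
    rw [a1, Pi.sub_apply, a2]
  have hpow : Tendsto (fun k : ℕ => ((1 : ℝ) / 2) ^ k) atTop (𝓝 0) :=
    tendsto_pow_atTop_nhds_zero_of_lt_one (by norm_num) (by norm_num)
  refine ⟨G, L1.integrable_coeFn G, ?_, fun φ M hφ hM hM0 => ?_⟩
  · have := L1.norm_eq_integral_norm G
    simp only [Real.norm_eq_abs] at this
    rw [← this]
    refine le_of_tendsto' hG.norm fun k => ?_
    rw [Integrable.norm_toL1_eq_lintegral_enorm]
    exact ENNReal.toReal_le_of_le_ofReal hK0 (hΓ1 k)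
  rw [Metric.tendsto_nhds]
  intro ε hε
  obtain ⟨k, hk⟩ := ((hpow.const_mul (5 * M)).eventually
    (gt_mem_nhds (show 5 * M * 0 < ε / 2 by linarith))).exists
  filter_upwards [Metric.tendsto_nhds.1 (hΓt k φ hφ) (ε / 2) (by linarith)] with n hn
  have hbm : ∀ {f : α → ℝ}, Integrable f μ → Integrable (fun x => f x * φ x) μ := fun hf =>
    hf.mul_bdd hφ.1 (Eventually.of_forall hM)
  have a1 := abs_integral_mul_le ((hDi n).sub (hci k n)) hM0 (by positivity) hM (hc2 k n)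
  have a2 := abs_integral_mul_le ((hΓi k).sub (L1.integrable_coeFn G)) hM0 (by positivity) hM
    (hGk k)
  simp only [Pi.sub_apply, sub_mul] at a1 a2
  rw [integral_sub (hbm (hDi n)) (hbm (hci k n))] at a1
  rw [integral_sub (hbm (hΓi k)) (hbm (L1.integrable_coeFn G))] at a2
  rw [Real.dist_eq] at hn ⊢
  rw [abs_lt] at hn ⊢
  rw [abs_le] at a1 a2
  constructor <;> linarith [a1.1, a1.2, a2.1, a2.2, hn.1, hn.2]

end Vale.Agent.P137
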