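import Vale.Agent.P137.FD
import Vale.Agent.P137.Weak1

open MeasureTheory Metric Set Filter
open scoped ENNReal Topology ContDiff

set_option linter.unusedSectionVars false

namespace Vale.Agent.P137

variable {E : Type*} [NormedAddCommGroup E] [InnerProductSpace ℝ E] [FiniteDimensional ℝ E]
  [MeasurableSpace E] [BorelSpace E] {μ : Measure E} [μ.IsAddHaarMeasure]

lemma locInt {g : E → ℝ} (hg : Measurable g) {K : ℝ} (hK : 0 ≤ K)
    (h : ∀ u, ∫⁻ z, exc g 0 u z ∂μ ≤ ENNReal.ofReal (K * ‖u‖)) : LocallyIntegrable g μ := by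
  intro x
  have h1 := ae_lt_top (exc_measurable hg 0).lintegral_prod_right'
    ((lintegral_exc_ball hg hK h 2).trans_lt
      (ENNReal.mul_lt_top ENNReal.ofReal_lt_top measure_ball_lt_top)).ne
  obtain ⟨z, hz, hz2⟩ := Measure.exists_mem_of_measure_ne_zero_of_ae
    (measure_ball_pos μ x one_pos).ne' (ae_restrict_of_ae h1)
  refine ⟨ball z 2, isOpen_ball.mem_nhds (mem_ball'.2 (by linarith [mem_ball.1 hz])), ?_⟩
  have h2 : IntegrableOn (fun y => g y - g z) (ball z 2) μ := by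
    refine ⟨(hg.sub measurable_const).aestronglyMeasurable, ?_⟩
    rw [← setLIntegral_shift (fun u => exc g 0 u z) z] at hz2
    simpa [exc, HasFiniteIntegral] using hz2
  have h3 := h2.add (integrableOn_const (C := g z) (measure_ball_lt_top (x := z) (r := 2)).ne)
  refine h3.congr_fun (fun y _ => ?_) measurableSet_ball
  simp

lemma quot_tendsto {g : E → ℝ} (hg : LocallyIntegrable g μ) {φ : E → ℝ} (hφ : ContDiff ℝ ∞ φ)
    (hφc : HasCompactSupport φ) (e : E) :
    Tendsto (fun n : ℕ => ∫ x, (((n : ℝ) + 1) * (g (x + (1 / ((n : ℝ) + 1)) • e) - g x)) * φ x ∂μ)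
      atTop (𝓝 (-∫ x, g x * fderiv ℝ φ x e ∂μ)) := by
  have hd : Differentiable ℝ φ := hφ.differentiable (by simp)
  have hc : Continuous (fderiv ℝ φ) := hφ.continuous_fderiv (by simp)
  obtain ⟨M', hM'⟩ := hc.bounded_above_of_compact_support (hφc.fderiv ℝ)
  obtain ⟨R, hR⟩ := hφc.isCompact.isBounded.subset_closedBall (0 : E)
  have hi : ∀ a : E, Integrable (fun x => g x * φ (x - a)) μ := fun a =>
    hg.integrable_smul_right_of_hasCompactSupport (hφ.continuous.comp (by fun_prop))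
      (hφc.comp_homeomorph (Homeomorph.subRight a))
  have e1 : ∀ n : ℕ, ∫ x, (((n : ℝ) + 1) * (g (x + (1 / ((n : ℝ) + 1)) • e) - g x)) * φ x ∂μ =
      ∫ x, g x * (((n : ℝ) + 1) * (φ (x - (1 / ((n : ℝ) + 1)) • e) - φ x)) ∂μ := by
    intro n
    set a := (1 / ((n : ℝ) + 1)) • e
    have a1 := (hi a).comp_add_right a
    have a2 := hi 0
    simp only [add_sub_cancel_right, sub_zero] at a1 a2
    simp only [mul_assoc, mul_left_comm (g _), integral_const_mul]
    simp only [mul_sub, sub_mul]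
    rw [integral_sub a1 a2, integral_sub (hi a) a2,
      ← integral_add_right_eq_self (fun x => g x * φ (x - a)) a]
    simp
  simp only [e1, ← integral_neg, ← mul_neg]
  have hs : ∀ n : ℕ, (0 : ℝ) < 1 / ((n : ℝ) + 1) ∧ 1 / ((n : ℝ) + 1) ≤ 1 := fun n =>
    ⟨by positivity, by rw [div_le_one (by positivity)]; simp⟩
  refine tendsto_integral_of_dominated_convergence
    ((closedBall (0 : E) (R + ‖e‖)).indicator fun x => ‖g x‖ * (M' * ‖e‖)) (fun n => ?_) ?_
    (fun n => Eventually.of_forall fun x => ?_) (Eventually.of_forall fun x => ?_)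
  · exact hg.aestronglyMeasurable.mul (Continuous.aestronglyMeasurable
      (continuous_const.mul ((hφ.continuous.comp (by fun_prop)).sub hφ.continuous)))
  · rw [integrable_indicator_iff measurableSet_closedBall]
    exact (hg.integrableOn_isCompact (isCompact_closedBall _ _)).norm.mul_const _
  · by_cases hx : x ∈ closedBall (0 : E) (R + ‖e‖)
    · rw [indicator_of_mem hx, norm_mul, norm_mul]
      refine mul_le_mul_of_nonneg_left ?_ (norm_nonneg _)
      have := Convex.norm_image_sub_le_of_norm_fderiv_le (fun y _ => hd y) (fun y _ => hM' y)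
        convex_univ (mem_univ x) (mem_univ (x - (1 / ((n : ℝ) + 1)) • e))
      rw [sub_sub_cancel_left, norm_neg, norm_smul, Real.norm_eq_abs (1 / _),
        abs_of_pos (hs n).1] at this
      rw [Real.norm_eq_abs ((n : ℝ) + 1), abs_of_pos (by positivity)]
      calc _ ≤ ((n : ℝ) + 1) * (M' * (1 / ((n : ℝ) + 1) * ‖e‖)) := by gcongr
        _ = _ := by field_simp
    · rw [mem_closedBall_zero_iff, not_le] at hx
      have z1 : ∀ y : E, R < ‖y‖ → φ y = 0 := fun y hy => by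
        by_contra h
        exact absurd (mem_closedBall_zero_iff.1 (hR (subset_tsupport _ h))) (not_le.2 hy)
      have z2 : ‖(1 / ((n : ℝ) + 1)) • e‖ ≤ ‖e‖ := by
        rw [norm_smul, Real.norm_eq_abs, abs_of_pos (hs n).1]
        exact mul_le_of_le_one_left (norm_nonneg _) (hs n).2
      rw [z1 x (by linarith [norm_nonneg e]),
        z1 _ (by linarith [norm_sub_norm_le x ((1 / ((n : ℝ) + 1)) • e)])]
      rw [sub_self, mul_zero, mul_zero, norm_zero]
      exact indicator_nonneg (fun y _ => mul_nonneg (norm_nonneg _)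
        (mul_nonneg ((norm_nonneg _).trans (hM' 0)) (norm_nonneg _))) x
  · refine Tendsto.const_mul _ ?_
    have a : HasDerivAt (fun t : ℝ => x - t • e) (-e) 0 := by
      simpa using ((hasDerivAt_id (0 : ℝ)).smul_const e).const_sub x
    have b := (hd (x - (0 : ℝ) • e)).hasFDerivAt.comp_hasDerivAt (0 : ℝ) a
    rw [map_neg, zero_smul, sub_zero] at b
    have c := b.tendsto_slope_zero.comp (tendsto_nhdsWithin_iff.2
      ⟨tendsto_one_div_add_atTop_nhds_zero_nat, Eventually.of_forall fun n => (hs n).1.ne'⟩)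
    refine c.congr fun n => ?_
    simp

lemma dir_deriv {g : E → ℝ} (hg : Measurable g) {K : ℝ} (hK : 0 ≤ K)
    (h : ∀ u, ∫⁻ z, exc g 0 u z ∂μ ≤ ENNReal.ofReal (K * ‖u‖))
    (hB : ∀ η, 0 < η → ∃ Λ, 0 ≤ Λ ∧ ∀ u, ∫⁻ z, exc g Λ u z ∂μ ≤ ENNReal.ofReal (η * ‖u‖))
    (e : E) : ∃ Γ : E → ℝ, Integrable Γ μ ∧ ∫ x, |Γ x| ∂μ ≤ K * ‖e‖ ∧
      ∀ φ : E → ℝ, ContDiff ℝ ∞ φ → HasCompactSupport φ →
        ∫ x, g x * fderiv ℝ φ x e ∂μ = -∫ x, Γ x * φ x ∂μ := by
  have key : ∀ Λ η : ℝ, (∀ u, ∫⁻ z, exc g Λ u z ∂μ ≤ ENNReal.ofReal (η * ‖u‖)) → ∀ n : ℕ,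
      ∫⁻ x, (‖((n : ℝ) + 1) * (g (x + (1 / ((n : ℝ) + 1)) • e) - g x)‖ₑ -
        ENNReal.ofReal (Λ * ‖e‖)) ∂μ ≤ ENNReal.ofReal (η * ‖e‖) := by
    intro Λ η hh n
    have hn : (0 : ℝ) < (n : ℝ) + 1 := by positivity
    have e1 : ∀ c : ℝ, ENNReal.ofReal (c * ‖e‖) = ENNReal.ofReal ((n : ℝ) + 1) *
        ENNReal.ofReal (c * ‖(1 / ((n : ℝ) + 1)) • e‖) := by
      intro c
      rw [← ENNReal.ofReal_mul hn.le, norm_smul, Real.norm_eq_abs, abs_of_pos (by positivity)]
      congr 1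
      field_simp
    rw [e1 η]
    refine le_trans (le_of_eq ?_) (mul_le_mul_right (hh _) _)
    rw [← lintegral_const_mul' _ _ ENNReal.ofReal_ne_top]
    refine lintegral_congr fun x => ?_
    rw [exc, ENNReal.mul_sub (fun _ _ => ENNReal.ofReal_ne_top), ← e1 Λ, enorm_mul,
      Real.enorm_eq_ofReal hn.le]
  obtain ⟨Γ, h1, h2, h3⟩ := weak_L1 (μ := μ) (hyperfilter ℕ)
    (D := fun n x => ((n : ℝ) + 1) * (g (x + (1 / ((n : ℝ) + 1)) • e) - g x))
    (fun n => (((hg.comp (measurable_add_const _)).sub hg).const_mul _).aestronglyMeasurable)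
    (K := K * ‖e‖) (by positivity) (fun n => by simpa using key 0 K h n) (fun η hη => by
      obtain ⟨Λ, hΛ, hh⟩ := hB (η / (‖e‖ + 1)) (by positivity)
      refine ⟨Λ * ‖e‖, by positivity, fun n => (key Λ _ hh n).trans (ENNReal.ofReal_le_ofReal ?_)⟩
      rw [div_mul_eq_mul_div, div_le_iff₀ (by positivity)]
      nlinarith)
  refine ⟨Γ, h1, h2, fun φ hφ hφc => ?_⟩
  obtain ⟨M, hM⟩ := hφ.continuous.bounded_above_of_compact_support hφc
  have t1 := h3 φ M (hφ.continuous.memLp_of_hasCompactSupport hφc) hM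
    ((norm_nonneg _).trans (hM 0))
  have t2 := (quot_tendsto (locInt hg hK h) hφ hφc e).mono_left Nat.hyperfilter_le_atTop
  rw [tendsto_nhds_unique t1 t2, neg_neg]

end Vale.Agent.P137
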