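import Vale.Agent.P137.CMain1
import Vale.Agent.P137.CDefs
import Vale.Agent.P137.AB
import Vale.Agent.P137.Weak2

open MeasureTheory Metric Set Filter
open scoped ENNReal Topology RealInnerProductSpace

set_option linter.unusedSectionVars false

namespace Vale.Agent.P137

variable {E : Type} [NormedAddCommGroup E] [InnerProductSpace ℝ E] [FiniteDimensional ℝ E]
  [MeasurableSpace E] [BorelSpace E] {μ : Measure E} [μ.IsAddHaarMeasure]
  {A ι : Type} [Countable ι] [Fintype A] {G N₀ : ℕ}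

lemma assemble {g : E → ℝ} (hg : Measurable g) {K : ℝ≥0∞} (hK : K ≠ ∞)
    (h : ∀ u, ∫⁻ z, exc g 0 u z ∂μ ≤ K * ENNReal.ofReal ‖u‖)
    (hB : ∀ η, 0 < η → ∃ Λ, 0 ≤ Λ ∧ ∀ u, ∫⁻ z, exc g Λ u z ∂μ ≤
      ENNReal.ofReal η * ENNReal.ofReal ‖u‖) : LocallyIntegrable g μ ∧
    ∃ ν : E → E, Measurable ν ∧ Integrable ν μ ∧ WG μ g ν ∧
      ∫ x, ‖ν x‖ ∂μ ≤ Module.finrank ℝ E * K.toReal := by
  have h' : ∀ u, ∫⁻ z, exc g 0 u z ∂μ ≤ ENNReal.ofReal (K.toReal * ‖u‖) := fun u => by
    rw [ENNReal.ofReal_mul ENNReal.toReal_nonneg, ENNReal.ofReal_toReal hK]; exact h u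
  have h2 := locInt hg ENNReal.toReal_nonneg h'
  set b := stdOrthonormalBasis ℝ E
  choose Γ g1 g2 g3 using fun i => dir_deriv hg ENNReal.toReal_nonneg h' (fun η hη => by
    simpa only [ENNReal.ofReal_mul hη.le] using hB η hη) (b i)
  have gi : ∀ i, Integrable (fun x => Γ i x • b i) μ := fun i => (g1 i).smul_const _
  have hG : Integrable (fun x => ∑ i, Γ i x • b i) μ := integrable_finsetSum _ fun i _ => gi i
  have eG := hG.1.ae_eq_mk
  refine ⟨h2, _, hG.1.stronglyMeasurable_mk.measurable, hG.congr eG, fun φ a c v => ?_, ?_⟩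
  · rw [integral_congr_ae (f := fun x => ⟪hG.1.mk _ x, v⟫ * φ x)
      (g := fun x => ⟪∑ i, Γ i x • b i, v⟫ * φ x) (by filter_upwards [eG] with x hx; rw [← hx])]
    have hc : Continuous (fderiv ℝ φ) := a.continuous_fderiv (by simp)
    have i1 : ∀ i, Integrable (fun x => ⟪b i, v⟫ * (g x * fderiv ℝ φ x (b i))) μ := fun i =>
      (h2.integrable_smul_right_of_hasCompactSupport (g := fun x => fderiv ℝ φ x (b i))
        (by fun_prop) (c.fderiv_apply ℝ (b i))).const_mul _
    have i2 : ∀ i, Integrable (fun x => ⟪b i, v⟫ * (Γ i x * φ x)) μ := fun i =>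
      (int_cc (g1 i) a.continuous c).const_mul _
    have e1 : ∀ x, g x * fderiv ℝ φ x v = ∑ i, ⟪b i, v⟫ * (g x * fderiv ℝ φ x (b i)) := by
      intro x
      conv_lhs => rw [← b.sum_repr' v]
      simp only [map_sum, map_smul, smul_eq_mul, Finset.mul_sum]
      exact Finset.sum_congr rfl fun i _ => by ring
    have e2 : ∀ x, ⟪∑ i, Γ i x • b i, v⟫ * φ x = ∑ i, ⟪b i, v⟫ * (Γ i x * φ x) := by
      intro x
      simp only [sum_inner, real_inner_smul_left, Finset.sum_mul]
      exact Finset.sum_congr rfl fun i _ => by ring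
    simp only [e1, e2]
    rw [integral_finsetSum _ fun i _ => i1 i, integral_finsetSum _ fun i _ => i2 i,
      ← Finset.sum_neg_distrib]
    refine Finset.sum_congr rfl fun i _ => ?_
    rw [integral_const_mul, integral_const_mul, g3 i φ a c, mul_neg]
  · calc _ ≤ ∫ x, ∑ i, |Γ i x| ∂μ := by
          refine integral_mono_ae (hG.congr eG).norm (integrable_finsetSum _ fun i _ => (g1 i).abs) ?_
          filter_upwards [eG] with x hx
          rw [← hx]
          refine (norm_sum_le _ _).trans (le_of_eq (Finset.sum_congr rfl fun i _ => ?_))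
          rw [norm_smul, b.orthonormal.1 i, mul_one, Real.norm_eq_abs]
      _ ≤ ∑ _i : Fin (Module.finrank ℝ E), K.toReal := by
          rw [integral_finsetSum _ fun i _ => (g1 i).abs]
          refine Finset.sum_le_sum fun i _ => ?_
          have := g2 i
          rwa [b.orthonormal.1 i, mul_one] at this
      _ = _ := by simp

lemma ball_int {p : E → ℝ} (hm : Measurable p) (hp : Integrable p μ) (s : ℝ) :
    Integrable (fun x => ∫ y in ball x s, p y ∂μ) μ := by
  refine (shift_integrable_prod hm hp s id measurable_id).integral_prod_left.congr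
    (Eventually.of_forall fun x => ?_)
  simp only [id]
  rw [← (measurePreserving_add_left μ x).setIntegral_preimage_emb
    (Homeomorph.addLeft x).measurableEmbedding p (ball x s)]
  congr 2
  ext y
  simp

variable (μ) in
/-- centered maximal function of a nonnegative function -/
noncomputable def cM (p : E → ℝ) (x : E) : ℝ≥0∞ :=
  ⨆ (r : ℝ) (_ : 0 < r), ENNReal.ofReal (av μ p x r)

variable (μ A ι G N₀) in
theorem centered_abs [Nontrivial E] [Nonempty A]
    (hg : ∀ h, 0 < h → Nonempty (Grid E A ι G N₀ h)) : ∃ C : ℝ, ∀ (f : E → ℝ) (F : E → E),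
    Measurable f → Measurable F → Integrable f μ → Integrable F μ → WG μ f F →
    (∀ᵐ x ∂μ, cM μ (fun x => |f x|) x < ⊤) ∧
    LocallyIntegrable (fun x => (cM μ (fun x => |f x|) x).toReal) μ ∧ ∃ ν : E → E,
      Integrable ν μ ∧ WG μ (fun x => (cM μ (fun x => |f x|) x).toReal) ν ∧
        ∫ x, ‖ν x‖ ∂μ ≤ C * ∫ x, ‖F x‖ ∂μ := by
  obtain ⟨K, hK, hB⟩ := grad_bounds μ A ι G N₀ hg
  refine ⟨Module.finrank ℝ E * (K.toReal * Module.finrank ℝ E), fun f F mf mF hf hF hw => ?_⟩
  have hm : Measurable fun x => |f x| := continuous_abs.measurable.comp mf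
  have h0 : (0 : E → ℝ) ≤ fun x => |f x| := fun x => abs_nonneg _
  obtain ⟨-, ν, mν, hν, hw', n1⟩ := assemble hm hF.2.ne (fun u => by
    simpa only [ENNReal.ofReal_zero, tsub_zero] using exc_le_of_weak hf hF mF hw le_rfl u)
    fun η hη => by
      obtain ⟨Λ, h1, h2⟩ := exists_level hF mF hη
      exact ⟨Λ, h1, fun u => (exc_le_of_weak hf hF mF hw h1 u).trans (mul_le_mul_left h2 _)⟩
  have hp := hf.abs
  generalize (fun x => |f x|) = p at *
  have hS := hw'.st hp hν
  have s0 := sc_pos one_pos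
  have s1 : ∀ n, sc 1 n ≤ 3 ^ n := fun n => (div_le_one (by positivity)).2
    (one_le_pow₀ (by norm_num)) |>.trans (one_le_pow₀ (by norm_num))
  choose ro r1 r2 using fun n => exists_opt (div_nonneg (integral_nonneg fun _ => norm_nonneg _)
    measureReal_nonneg) (JL_of_St (fun x => hS x (3 ^ n)) hν (s0 n)) (lo := fun _ => sc 1 n)
    (fun _ => ⟨le_rfl, s1 n⟩) fun x z => by linarith [norm_nonneg (x - z)]
  obtain ⟨b1, b2⟩ := hB _ ν (fun n x => av μ p x (ro n x)) mν hν hS fun n x => ⟨_, r1 n x, rfl⟩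
  set U := fun n x => av μ p x (ro n x)
  have l := fun n => LipschitzWith.of_le_add_mul' (f := U n) _ fun x z => by
    rw [dist_eq_norm]; exact r2 n x z
  have mU := fun n => (l n).continuous.measurable
  have U0 : ∀ n x, 0 ≤ U n x := fun n x => div_nonneg (integral_nonneg h0) measureReal_nonneg
  have iU : ∀ n, Integrable (U n) μ := fun n =>
    ((ball_int hm hp (3 ^ n)).div_const (μ.real (ball (0 : E) (sc 1 n)))).mono'
      (mU n).aestronglyMeasurable (Eventually.of_forall fun x => by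
        rw [Real.norm_of_nonneg (U0 n x)]
        refine div_le_div₀ (integral_nonneg h0) (setIntegral_mono_set hp.integrableOn
          (Eventually.of_forall h0) (ball_subset_ball (r1 n x).1.2).eventuallyLE)
          (real_ball_pos _ (s0 n)) ?_
        rw [Measure.addHaar_real_ball_center μ x]
        exact real_ball_mono (r1 n x).1.1)
  have K1 : K * ∫⁻ y, ‖ν y‖ₑ ∂μ ≠ ∞ := ENNReal.mul_ne_top hK hν.2.ne
  have eM : cM μ p = fun x => ⨆ n, ENNReal.ofReal (U n x) := by
    ext x
    refine le_antisymm (iSup₂_le fun r hr => ?_) (iSup_le fun n =>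
      le_iSup₂_of_le (ro n x) ((s0 n).trans_le (r1 n x).1.1) le_rfl)
    obtain ⟨n, hn⟩ := pow_unbounded_of_one_lt (max r r⁻¹) (show (1 : ℝ) < 3 by norm_num)
    refine le_iSup_of_le n (ENNReal.ofReal_le_ofReal ((r1 n x).2 r ⟨?_, (max_lt_iff.1 hn).1.le⟩))
    rw [sc, one_div]
    exact inv_le_of_inv_le₀ hr (max_lt_iff.1 hn).2.le
  have fin : ∀ᵐ x ∂μ, cM μ p x < ∞ := by
    filter_upwards [gM_ae_lt_top μ h0 hp] with x hx
    refine lt_of_le_of_lt (iSup₂_le fun r hr => le_iSup₂_of_le x r ?_) hx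
    rw [iSup_pos (mem_ball_self hr)]
  have lim : ∀ᵐ x ∂μ, Tendsto (fun n => U n x) atTop (𝓝 (cM μ p x).toReal) := by
    filter_upwards [fin] with x hx
    rw [eM] at hx ⊢
    have := (ENNReal.tendsto_toReal hx.ne).comp (tendsto_atTop_iSup
      (monotone_nat_of_le_succ fun n => ENNReal.ofReal_le_ofReal ((r1 (n + 1) x).2 _
        ⟨((sc_anti one_pos).antitone n.le_succ).trans (r1 n x).1.1, (r1 n x).1.2.trans
          (pow_le_pow_right₀ (by norm_num) n.le_succ)⟩)))
    exact this.congr fun n => ENNReal.toReal_ofReal (U0 n x)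
  have fat : ∀ Λ (B : ℝ≥0∞), 0 ≤ Λ → (∀ᶠ n in atTop, ∫⁻ x, (‖gradient (U n) x‖ₑ -
      ENNReal.ofReal Λ) ∂μ ≤ B) → ∀ u, ∫⁻ z, exc (fun x => (cM μ p x).toReal) Λ u z ∂μ ≤
        B * ENNReal.ofReal ‖u‖ := fun Λ B h1 h2 u => by
    rw [lintegral_congr_ae (g := fun z => liminf (fun n => exc (U n) Λ u z) atTop) (by
      filter_upwards [lim, (measurePreserving_add_right μ u).quasiMeasurePreserving.ae lim]
        with x a1 a2
      exact (((ENNReal.continuous_sub_right _).tendsto _).comp (a2.sub a1).enorm).liminf_eq.symm)]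
    refine (lintegral_liminf_le fun n => (exc_measurable (mU n) Λ).comp
      (measurable_id.prodMk measurable_const)).trans (liminf_le_of_frequently_le' ?_)
    refine (h2.mono fun n hn => ?_).frequently
    have := exc_le_of_weak (iU n) ⟨(grad_meas _).aestronglyMeasurable,
      (b1 n).trans_lt K1.lt_top⟩ (grad_meas _) (WG_lip (l n)) h1 u
    simp only [abs_of_nonneg (U0 n _)] at this
    exact this.trans (mul_le_mul_left hn _)
  obtain ⟨c1, Γ, -, c2, c3, c4⟩ := assemble (g := fun x => (cM μ p x).toReal)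
    (eM ▸ (Measurable.iSup fun n => (mU n).ennreal_ofReal).ennreal_toReal) K1
    (fat 0 _ le_rfl (Eventually.of_forall fun n => by simpa using b1 n)) fun η hη => by
      obtain ⟨Λ, h1, h2⟩ := b2 η hη
      exact ⟨Λ, h1, fat Λ _ h1 h2⟩
  refine ⟨fin, c1, Γ, c2, c3, c4.trans ?_⟩
  rw [← integral_norm_eq_lintegral_enorm hF.1] at n1
  rw [ENNReal.toReal_mul, ← integral_norm_eq_lintegral_enorm hν.1, mul_assoc, mul_assoc]
  gcongr

lemma centered_eq {d : ℕ} {f f' : EuclideanSpace ℝ (Fin d) → ℝ} (hf : Integrable f' volume)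
    (h : f =ᵐ[volume] f') : centeredMaximal f = cM volume (fun x => |f' x|) := by
  funext x
  refine iSup_congr fun r => iSup_congr fun hr => ?_
  have h1 : ∫⁻ y in ball x r, ‖f y‖ₑ = ∫⁻ y in ball x r, ENNReal.ofReal |f' y| := by
    refine lintegral_congr_ae (ae_restrict_of_ae ?_)
    filter_upwards [h] with y hy
    rw [hy, ← ofReal_norm, Real.norm_eq_abs]
  rw [h1, ← av_mul (fun x => abs_nonneg _) hf.abs x hr,
    ENNReal.mul_div_cancel_right (measure_ball_pos volume x hr).ne' measure_ball_lt_top.ne]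

theorem centered_main (d : ℕ) (hd : 1 ≤ d) : ∃ C : ℝ,
    ∀ (f : EuclideanSpace ℝ (Fin d) → ℝ) (G : EuclideanSpace ℝ (Fin d) → EuclideanSpace ℝ (Fin d)),
      Integrable f volume → Integrable G volume → HasWeakGradient f G →
      (∀ᵐ x, centeredMaximal f x < ⊤) ∧
      ∃ G' : EuclideanSpace ℝ (Fin d) → EuclideanSpace ℝ (Fin d),
        HasWeakGradient (fun x => (centeredMaximal f x).toReal) G' ∧ Integrable G' volume ∧
          ∫ x, ‖G' x‖ ≤ C * ∫ x, ‖G x‖ := by
  have : Nonempty (Fin d) := ⟨⟨0, hd⟩⟩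
  obtain ⟨g, N₀, hg⟩ := exists_grid d hd
  obtain ⟨C, h⟩ := centered_abs volume _ _ g N₀ hg
  refine ⟨C, fun f G hf hG hw => ?_⟩
  have ef := hf.1.ae_eq_mk
  have eG := hG.1.ae_eq_mk
  obtain ⟨h1, h2, ν, h3, h4, h5⟩ := h (hf.1.mk f) (hG.1.mk G) hf.1.stronglyMeasurable_mk.measurable
    hG.1.stronglyMeasurable_mk.measurable (hf.congr ef) (hG.congr eG) (fun φ a b v => by
      have := hw.2.2 φ a b v
      rw [integral_congr_ae (g := fun x => hf.1.mk f x * fderiv ℝ φ x v)
        (by filter_upwards [ef] with x hx; rw [hx]),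
        integral_congr_ae (f := fun x => inner ℝ (G x) v * φ x)
          (g := fun x => inner ℝ (hG.1.mk G x) v * φ x)
          (by filter_upwards [eG] with x hx; rw [hx])] at this
      exact this)
  rw [← centered_eq (hf.congr ef) ef] at h1 h2 h4
  rw [integral_congr_ae (f := fun x => ‖hG.1.mk G x‖) (g := fun x => ‖G x‖)
    (by filter_upwards [eG] with x hx; rw [hx])] at h5
  exact ⟨h1, ν, ⟨h2, h3.locallyIntegrable, h4⟩, h3, h5⟩

end Vale.Agent.P137
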