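import Mathlib.Analysis.InnerProductSpace.Continuous
import Mathlib.MeasureTheory.Function.L2Space
import Mathlib.MeasureTheory.Integral.Bochner.Set
import Mathlib.MeasureTheory.Constructions.BorelSpace.Metric

open MeasureTheory Metric Set Filter
open scoped ENNReal Topology RealInnerProductSpace

set_option linter.unusedSectionVars false

namespace Vale.Agent.P137

variable {E : Type*} [NormedAddCommGroup E] [InnerProductSpace ℝ E] [FiniteDimensional ℝ E]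
  [MeasurableSpace E] [BorelSpace E] {Ω : Type*} [MeasurableSpace Ω]

/-- admissible vector field -/
def Adm (κ : ℝ) (l : E → E) : Prop :=
  (∀ z w, ‖l z - l w‖ ≤ κ * ‖z - w‖) ∧ ∀ z, ‖z‖ ≤ 4 → ‖l z‖ ≤ κ

/-- cutoff function -/
def Cf (φ : E → ℝ) : Prop :=
  Measurable φ ∧ (∀ z, 0 ≤ φ z) ∧ (∀ z, φ z ≤ 1) ∧ ∀ z, 4 < ‖z‖ → φ z = 0

/-- bounded scalar weight -/
def Bs (k : E → ℝ) : Prop := Measurable k ∧ ∃ M, ∀ z, |k z| ≤ M

/-- pairing -/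
noncomputable def pr (μ : Measure Ω) (Z F : Ω → E) (φ : E → ℝ) (l : E → E) : ℝ :=
  ∫ y, φ (Z y) * ⟪F y, l (Z y)⟫ ∂μ

/-- weighted mass -/
noncomputable def ms (μ : Measure Ω) (Z : Ω → E) (f : Ω → ℝ) (k : E → ℝ) : ℝ :=
  ∫ y, f y * k (Z y) ∂μ

/-- indicator -/
noncomputable def ind (S : Set E) : E → ℝ := S.indicator fun _ => 1

/-- window -/
def fW (ρ b : ℝ) : Set E := {z | |‖z‖ - ρ| ≤ b}

/-- far part of the window -/
def fF (ρ b : ℝ) (z₀ : E) (t : ℝ) : Set E := {z | |‖z‖ - ρ| ≤ b ∧ t ≤ ‖z - z₀‖}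

variable {μ : Measure Ω} {Z F : Ω → E} {f : Ω → ℝ} {φ φ' : E → ℝ} {l l' : E → E} {κ κ' : ℝ}
  {k k' : E → ℝ}

lemma Adm.nonneg (h : Adm κ l) : 0 ≤ κ := (norm_nonneg _).trans (h.2 0 (by simp))

lemma Adm.continuous (h : Adm κ l) : Continuous l :=
  (LipschitzWith.of_dist_le_mul (K := ⟨κ, h.nonneg⟩) fun z w => by
    rw [dist_eq_norm, dist_eq_norm]; exact h.1 z w).continuous

lemma Cf.mul_le (hφ : Cf φ) (hl : Adm κ l) (z : E) : φ z * ‖l z‖ ≤ κ * φ z := by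
  by_cases h : ‖z‖ ≤ 4
  · rw [mul_comm]; exact mul_le_mul_of_nonneg_right (hl.2 z h) (hφ.2.1 z)
  · simp [hφ.2.2.2 z (not_le.1 h)]

lemma Cf.bs (hφ : Cf φ) : Bs φ :=
  ⟨hφ.1, 1, fun z => by rw [abs_of_nonneg (hφ.2.1 z)]; exact hφ.2.2.1 z⟩

lemma Cf.bs_mul (hφ : Cf φ) (hl : Adm κ l) : Bs fun z => φ z * ‖l z‖ :=
  ⟨hφ.1.mul hl.continuous.norm.measurable, κ, fun z => by
    rw [abs_of_nonneg (mul_nonneg (hφ.2.1 z) (norm_nonneg _))]
    exact (hφ.mul_le hl z).trans (mul_le_of_le_one_right hl.nonneg (hφ.2.2.1 z))⟩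

lemma Cf.sub (hφ : Cf φ) (hφ' : Cf φ') (h : ∀ z, φ' z ≤ φ z) : Cf fun z => φ z - φ' z :=
  ⟨hφ.1.sub hφ'.1, fun z => sub_nonneg.2 (h z), fun z => by linarith [hφ.2.2.1 z, hφ'.2.1 z],
    fun z hz => by simp only [hφ.2.2.2 z hz, hφ'.2.2.2 z hz, sub_zero]⟩

lemma ind_nonneg (S : Set E) (z : E) : 0 ≤ ind S z := indicator_nonneg (fun _ _ => zero_le_one) z

lemma ind_le_one (S : Set E) (z : E) : ind S z ≤ 1 :=
  indicator_le' (fun _ _ => le_rfl) (fun _ _ => zero_le_one) z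

lemma ind_of_mem {S : Set E} {z : E} (h : z ∈ S) : ind S z = 1 := indicator_of_mem h _

lemma ind_of_notMem {S : Set E} {z : E} (h : z ∉ S) : ind S z = 0 := indicator_of_notMem h _

lemma bs_ind {S : Set E} (hS : MeasurableSet S) : Bs (ind S) :=
  ⟨measurable_const.indicator hS, 1, fun z => by
    rw [abs_of_nonneg (ind_nonneg S z)]; exact ind_le_one S z⟩

lemma fW_meas (ρ b : ℝ) : MeasurableSet (fW ρ b : Set E) :=
  measurableSet_le (by fun_prop) measurable_const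

lemma fF_meas (ρ b : ℝ) (z₀ : E) (t : ℝ) : MeasurableSet (fF ρ b z₀ t) :=
  (fW_meas ρ b).inter (s₂ := {z | t ≤ ‖z - z₀‖}) (measurableSet_le measurable_const (by fun_prop))

lemma Bs.add (h : Bs k) (h' : Bs k') : Bs fun z => k z + k' z := by
  obtain ⟨h1, M, hM⟩ := h
  obtain ⟨h2, M', hM'⟩ := h'
  exact ⟨h1.add h2, M + M', fun z => (abs_add_le _ _).trans (add_le_add (hM z) (hM' z))⟩

lemma Bs.const_mul (h : Bs k) (a : ℝ) : Bs fun z => a * k z := by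
  obtain ⟨h1, M, hM⟩ := h
  exact ⟨h1.const_mul a, |a| * M, fun z => by rw [abs_mul]; gcongr; exact hM z⟩

lemma ms_int (hZ : Measurable Z) (hf : Integrable f μ) (hk : Bs k) :
    Integrable (fun y => f y * k (Z y)) μ := by
  obtain ⟨h1, M, hM⟩ := hk
  exact hf.mul_bdd (h1.comp hZ).aestronglyMeasurable (Eventually.of_forall fun y => hM _)

lemma pr_int (hZ : Measurable Z) (hF : Integrable F μ) (hφ : Cf φ) (hl : Adm κ l) :
    Integrable (fun y => φ (Z y) * ⟪F y, l (Z y)⟫) μ := by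
  refine (ms_int hZ hF.norm (hφ.bs_mul hl)).mono'
    ((hφ.1.comp hZ).aestronglyMeasurable.mul
      (hF.1.inner (hl.continuous.measurable.comp hZ).aestronglyMeasurable))
    (Eventually.of_forall fun y => ?_)
  rw [norm_mul, Real.norm_of_nonneg (hφ.2.1 _), mul_left_comm]
  exact mul_le_mul_of_nonneg_left (norm_inner_le_norm _ _) (hφ.2.1 _)

lemma ms_add (hZ : Measurable Z) (hf : Integrable f μ) (hk : Bs k) (hk' : Bs k') :
    ms μ Z f (fun z => k z + k' z) = ms μ Z f k + ms μ Z f k' := by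
  simp only [ms, mul_add]
  exact integral_add (ms_int hZ hf hk) (ms_int hZ hf hk')

lemma ms_const_mul (a : ℝ) : ms μ Z f (fun z => a * k z) = a * ms μ Z f k := by
  simp only [ms, mul_left_comm _ a, integral_const_mul]

lemma ms_mono (hZ : Measurable Z) (hf : Integrable f μ) (h0 : ∀ y, 0 ≤ f y) (hk : Bs k)
    (hk' : Bs k') (h : ∀ z, k z ≤ k' z) : ms μ Z f k ≤ ms μ Z f k' :=
  integral_mono (ms_int hZ hf hk) (ms_int hZ hf hk') fun y =>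
    mul_le_mul_of_nonneg_left (h _) (h0 y)

lemma ms_mono_left {f' : Ω → ℝ} (hZ : Measurable Z) (hf : Integrable f μ) (hf' : Integrable f' μ)
    (h : ∀ y, f y ≤ f' y) (hk : Bs k) (h0 : ∀ z, 0 ≤ k z) : ms μ Z f k ≤ ms μ Z f' k :=
  integral_mono (ms_int hZ hf hk) (ms_int hZ hf' hk) fun y =>
    mul_le_mul_of_nonneg_right (h y) (h0 _)

lemma ms_nonneg (h0 : ∀ y, 0 ≤ f y) (hk : ∀ z, 0 ≤ k z) : 0 ≤ ms μ Z f k :=
  integral_nonneg fun y => mul_nonneg (h0 y) (hk _)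

lemma ms_le (hZ : Measurable Z) (hf : Integrable f μ) (h0 : ∀ y, 0 ≤ f y) (hk : Bs k)
    (h : ∀ z, k z ≤ 1) : ms μ Z f k ≤ ∫ y, f y ∂μ :=
  integral_mono (ms_int hZ hf hk) hf fun y => mul_le_of_le_one_right (h0 y) (h _)

lemma ms_two (hZ : Measurable Z) (hf : Integrable f μ) (h0 : ∀ y, 0 ≤ f y) {k₁ k₂ : E → ℝ}
    (hk : Bs k) (h1 : Bs k₁) (h2 : Bs k₂) {a b : ℝ} (h : ∀ z, k z ≤ a * k₁ z + b * k₂ z) :
    ms μ Z f k ≤ a * ms μ Z f k₁ + b * ms μ Z f k₂ := by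
  rw [← ms_const_mul, ← ms_const_mul, ← ms_add hZ hf (h1.const_mul a) (h2.const_mul b)]
  exact ms_mono hZ hf h0 hk ((h1.const_mul a).add (h2.const_mul b)) h

lemma ms_one (hZ : Measurable Z) (hf : Integrable f μ) (h0 : ∀ y, 0 ≤ f y) {k₁ : E → ℝ}
    (hk : Bs k) (h1 : Bs k₁) {a : ℝ} (h : ∀ z, k z ≤ a * k₁ z) :
    ms μ Z f k ≤ a * ms μ Z f k₁ := by
  rw [← ms_const_mul]
  exact ms_mono hZ hf h0 hk (h1.const_mul a) h

lemma pr_sub (hZ : Measurable Z) (hF : Integrable F μ) (hφ : Cf φ) (hφ' : Cf φ') (hl : Adm κ l) :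
    pr μ Z F (fun z => φ z - φ' z) l = pr μ Z F φ l - pr μ Z F φ' l := by
  simp only [pr, sub_mul]
  exact integral_sub (pr_int hZ hF hφ hl) (pr_int hZ hF hφ' hl)

lemma pr_comb (hZ : Measurable Z) (hF : Integrable F μ) (hφ : Cf φ) (hl : Adm κ l)
    (hl' : Adm κ' l') (a : ℝ) :
    pr μ Z F φ (fun z => l z - a • l' z) = pr μ Z F φ l - a * pr μ Z F φ l' := by
  simp only [pr, inner_sub_right, real_inner_smul_right, mul_sub, mul_left_comm _ a]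
  rw [integral_sub (pr_int hZ hF hφ hl) ((pr_int hZ hF hφ hl').const_mul a), integral_const_mul]

lemma abs_pr_le (hZ : Measurable Z) (hF : Integrable F μ) (hφ : Cf φ) (hl : Adm κ l) :
    |pr μ Z F φ l| ≤ ms μ Z (fun y => ‖F y‖) fun z => φ z * ‖l z‖ := by
  refine (abs_integral_le_integral_abs).trans (integral_mono (pr_int hZ hF hφ hl).abs
    (ms_int hZ hF.norm (hφ.bs_mul hl)) fun y => ?_)
  simp only
  rw [abs_mul, abs_of_nonneg (hφ.2.1 _), mul_left_comm]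
  exact mul_le_mul_of_nonneg_left (abs_real_inner_le_norm _ _) (hφ.2.1 _)

lemma le_pr (hZ : Measurable Z) (hF : Integrable F μ) (hφ : Cf φ) (hl : Adm κ l) (hk : Bs k)
    (s : ℝ) (h : ∀ y, ‖F y‖ * k (Z y) ≤ s * (φ (Z y) * ⟪F y, l (Z y)⟫)) :
    ms μ Z (fun y => ‖F y‖) k ≤ s * pr μ Z F φ l := by
  rw [pr, ← integral_const_mul]
  exact integral_mono (ms_int hZ hF.norm hk) ((pr_int hZ hF hφ hl).const_mul s) h

lemma adm_const {v : E} (hv : ‖v‖ ≤ 1) : Adm 1 fun _ : E => v :=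
  ⟨fun _ _ => by simp, fun _ _ => hv⟩

lemma adm_id : Adm 4 fun z : E => z :=
  ⟨fun z w => by linarith [norm_nonneg (z - w)], fun _ h => h⟩

lemma adm_lin {v : E} (hv : ‖v‖ ≤ 1) {a : ℝ} (ha : |a| ≤ 2) : Adm 9 fun z : E => v - a • z := by
  refine ⟨fun z w => ?_, fun z hz => (norm_sub_le _ _).trans ?_⟩
  · rw [sub_sub_sub_cancel_left, ← smul_sub, norm_smul, Real.norm_eq_abs, norm_sub_rev]
    gcongr
    linarith
  · rw [norm_smul, Real.norm_eq_abs]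
    nlinarith [abs_nonneg a, norm_nonneg z]

lemma adm_rot {u v : E} (hu : ‖u‖ ≤ 2) (hv : ‖v‖ ≤ 1) :
    Adm 16 fun z : E => ⟪z, v⟫ • u - ⟪z, u⟫ • v := by
  have key : ∀ z : E, ‖⟪z, v⟫ • u - ⟪z, u⟫ • v‖ ≤ 4 * ‖z‖ := fun z => by
    refine (norm_sub_le _ _).trans ?_
    rw [norm_smul, norm_smul]
    have h1 := norm_inner_le_norm (𝕜 := ℝ) z v
    have h2 := norm_inner_le_norm (𝕜 := ℝ) z u
    have h3 : ‖⟪z, v⟫‖ * ‖u‖ ≤ (‖z‖ * 1) * 2 := by gcongr; exact h1.trans (by gcongr)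
    have h4 : ‖⟪z, u⟫‖ * ‖v‖ ≤ (‖z‖ * 2) * 1 := by gcongr; exact h2.trans (by gcongr)
    linarith
  refine ⟨fun z w => ?_, fun z hz => (key z).trans (by linarith)⟩
  have := key (z - w)
  rw [inner_sub_left, inner_sub_left, sub_smul, sub_smul] at this
  refine le_trans (le_of_eq ?_) (this.trans (by linarith [norm_nonneg (z - w)]))
  congr 1
  module

/-- inversion -/
noncomputable def nv (z : E) : E := (‖z‖ ^ 2)⁻¹ • z

lemma norm_nv_le {z : E} (h : 1 / 2 ≤ ‖z‖) : ‖nv z‖ ≤ 2 := by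
  have h0 : 0 < ‖z‖ := by linarith
  rw [nv, norm_smul, Real.norm_of_nonneg (by positivity), inv_mul_le_iff₀ (by positivity)]
  nlinarith

lemma norm_nv_sub {z w : E} (h : 1 / 2 ≤ ‖z‖) (h' : 1 / 2 ≤ ‖w‖) :
    ‖nv z - nv w‖ ≤ 4 * ‖z - w‖ := by
  have h0 : 0 < ‖z‖ := by linarith
  have h1 : 0 < ‖w‖ := by linarith
  have e : ‖nv z - nv w‖ ^ 2 = (‖z - w‖ / (‖z‖ * ‖w‖)) ^ 2 := by
    rw [div_pow, norm_sub_sq_real, norm_sub_sq_real, nv, nv, norm_smul, norm_smul,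
      real_inner_smul_left, real_inner_smul_right, Real.norm_of_nonneg (by positivity),
      Real.norm_of_nonneg (by positivity)]
    field_simp
    ring
  rw [(pow_left_inj₀ (norm_nonneg _) (by positivity) two_ne_zero).1 e, div_le_iff₀ (by positivity)]
  have : 1 / 2 * (1 / 2) ≤ ‖z‖ * ‖w‖ := by gcongr
  nlinarith [norm_nonneg (z - w)]

/-- the affine field vanishing at `z₀` -/
noncomputable def Lv (z₀ v z : E) : E :=
  (v - ⟪v, nv z₀⟫ • z) - (-1 : ℝ) • (⟪z, v⟫ • nv z₀ - ⟪z, nv z₀⟫ • v)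

lemma Lv_sub (z₀ v z w : E) : Lv z₀ v z - Lv z₀ v w =
    (⟪z - w, v⟫ • nv z₀ - ⟪z - w, nv z₀⟫ • v) - ⟪v, nv z₀⟫ • (z - w) := by
  simp only [Lv, inner_sub_left, sub_smul, smul_sub, neg_smul, one_smul]
  abel

lemma Lv_self {z₀ : E} (h : 1 / 2 ≤ ‖z₀‖) (v : E) : Lv z₀ v z₀ = 0 := by
  have h0 : 0 < ‖z₀‖ := by linarith
  have e : ⟪z₀, nv z₀⟫ = 1 := by
    rw [nv, real_inner_smul_right, real_inner_self_eq_norm_sq]; field_simp
  simp only [Lv, e, neg_smul, one_smul]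
  simp only [nv, real_inner_smul_right, smul_smul, real_inner_comm z₀ v]
  module

lemma Lv_lip {z₀ v : E} (h : 1 / 2 ≤ ‖z₀‖) (hv : ‖v‖ ≤ 1) (z w : E) :
    ‖Lv z₀ v z - Lv z₀ v w‖ ≤ 6 * ‖z - w‖ := by
  have hn := norm_nv_le h
  rw [Lv_sub]
  refine (norm_sub_le _ _).trans (le_trans (add_le_add (norm_sub_le _ _) le_rfl) ?_)
  rw [norm_smul, norm_smul, norm_smul]
  have h1 := norm_inner_le_norm (𝕜 := ℝ) (z - w) v
  have h2 := norm_inner_le_norm (𝕜 := ℝ) (z - w) (nv z₀)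
  have h5 := norm_inner_le_norm (𝕜 := ℝ) v (nv z₀)
  have h3 : ‖⟪z - w, v⟫‖ * ‖nv z₀‖ ≤ (‖z - w‖ * 1) * 2 := by gcongr; exact h1.trans (by gcongr)
  have h4 : ‖⟪z - w, nv z₀⟫‖ * ‖v‖ ≤ (‖z - w‖ * 2) * 1 := by gcongr; exact h2.trans (by gcongr)
  have h6 : ‖⟪v, nv z₀⟫‖ * ‖z - w‖ ≤ (1 * 2) * ‖z - w‖ := by gcongr; exact h5.trans (by gcongr)
  linarith

lemma Lv_le {z₀ v : E} (h : 1 / 2 ≤ ‖z₀‖) (hv : ‖v‖ ≤ 1) (z : E) :
    ‖Lv z₀ v z‖ ≤ 6 * ‖z - z₀‖ := by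
  simpa [Lv_self h] using Lv_lip h hv z z₀

lemma adm_Lv {z₀ v : E} (h : 1 / 2 ≤ ‖z₀‖) (h4 : ‖z₀‖ ≤ 4) (hv : ‖v‖ ≤ 1) : Adm 48 (Lv z₀ v) :=
  ⟨fun z w => (Lv_lip h hv z w).trans (by linarith [norm_nonneg (z - w)]), fun z hz =>
    (Lv_le h hv z).trans (by linarith [norm_sub_le z z₀])⟩

end Vale.Agent.P137
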