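import Vale.Agent.P137.CPt1

open MeasureTheory Metric Set Filter
open scoped ENNReal Topology RealInnerProductSpace

set_option linter.unusedSectionVars false

namespace Vale.Agent.P137

variable {E : Type*} [NormedAddCommGroup E] [InnerProductSpace ℝ E] [FiniteDimensional ℝ E]
  [MeasurableSpace E] [BorelSpace E] {Ω : Type*} [MeasurableSpace Ω]

/-- basic kernel estimate -/
def HB (μ : Measure Ω) (Z ν c : Ω → E) (g : Ω → ℝ) (s : ℝ) (φ : E → ℝ) : Prop :=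
  ∀ κ l, Adm κ l → |pr μ Z ν φ l - pr μ Z c φ l| ≤
    1 / 1000 * ms μ Z (fun y => ‖c y‖) (fun z => φ z * ‖l z‖) +
      ms μ Z g (fun z => φ z * ‖l z‖) + κ * s

/-- hypotheses of the pointwise lemma -/
structure Pt (μ : Measure Ω) (Z ν c : Ω → E) (e : E) (γ : ℕ → Ω → ℝ) (ρ : ℝ)
    (q β err V : ℕ → ℝ) (χ : ℕ → E → ℝ) (θ : ℝ → ℕ → E → ℝ) (act : ℕ → Prop) : Prop where
  hZ : Measurable Z
  hν : Integrable ν μ
  hc : Integrable c μ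
  hγ : ∀ m, Integrable (γ m) μ
  γ0 : ∀ m y, 0 ≤ γ m y
  γmono : ∀ m y, γ m y ≤ γ (m + 1) y
  he : ‖e‖ = 1
  align : ∀ y, 9 / 10 * ‖c y‖ ≤ ⟪e, c y⟫
  ρ1 : 1 ≤ ρ
  ρ3 : ρ ≤ 3
  q0 : ∀ m, 0 ≤ q m
  q1 : ∀ m, q m ≤ 1 / 100
  qanti : Antitone q
  β0 : ∀ m, 0 < β m
  β1 : ∀ m, β m ≤ 1 / 100
  βhalf : ∀ m, β (m + 1) ≤ β m / 2
  cχ : ∀ m, Cf (χ m)
  χ1 : ∀ m z, ‖z‖ ≤ ρ - β m → χ m z = 1
  χ0 : ∀ m z, ρ - β m / 2 ≤ ‖z‖ → χ m z = 0
  cθ : ∀ s m, Cf (θ s m)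
  θ1 : ∀ s m z, ‖z‖ ≤ ρ - β m / 2 → θ s m z = 1
  θ0 : ∀ s m z, ρ + β m ≤ ‖z‖ → θ s m z = 0
  opt : ∀ p m s, act p → p ≤ m → s = 1 ∨ s = -1 → s * pr μ Z ν (θ s m) (fun z => z) ≤ 0
  h1 : ∀ m, HB μ Z ν c (γ m) (err m) (χ m)
  h2 : ∀ m, HB μ Z ν c (γ (m + 1)) (err (m + 1)) fun z => χ (m + 1) z - χ m z
  h3 : ∀ s m, HB μ Z ν c (γ m) (err m) fun z => θ s m z - χ m z
  sym : ∀ m u v, pr μ Z ν (χ m) (fun z => ⟪z, v⟫ • u - ⟪z, u⟫ • v) = 0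
  err0 : ∀ m, 0 ≤ err m
  hV : ∀ m : ℕ, 1000 * ((m : ℝ) + 2) * ∫ y, γ (m + 1) y ∂μ ≤ V m
  Vmono : Monotone V
  qV : ∀ m, q m * V m ≤ err m
  W0 : ∫ y, γ 0 y ∂μ ≤ err 0
  inact : ∀ m, ¬ act m → ms μ Z (γ (m + 1)) (ind (fW ρ (β m))) ≤ err m
  far : ∀ m, act m → ms μ Z (fun y => ‖c y‖) (ind {z | ‖z‖ < ρ - β m}) +
    ms μ Z (γ (m + 1)) (ind {z | ‖z‖ < ρ - β m}) ≤ V m → ∃ z₀ ∈ fW ρ (β m), V m ≤ err m ∨
      ms μ Z (fun y => ‖c y‖) (ind (fF ρ (β m) z₀ (q m))) +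
        ms μ Z (γ (m + 1)) (ind (fF ρ (β m) z₀ (q m))) ≤ err m

/-- cumulative sum -/
def cum (err : ℕ → ℝ) (m : ℕ) : ℝ := ∑ i ∈ Finset.range m, err i

lemma cum_succ (err : ℕ → ℝ) (m : ℕ) : cum err (m + 1) = cum err m + err m :=
  Finset.sum_range_succ _ _

lemma cum_mono {err : ℕ → ℝ} (h : ∀ m, 0 ≤ err m) : Monotone (cum err) :=
  monotone_nat_of_le_succ fun m => by rw [cum_succ]; linarith [h m]

variable {μ : Measure Ω} {Z ν c : Ω → E} {e : E} {γ : ℕ → Ω → ℝ} {ρ : ℝ}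
  {q β err V : ℕ → ℝ} {χ : ℕ → E → ℝ} {θ : ℝ → ℕ → E → ℝ} {act : ℕ → Prop}

namespace Pt
variable (H : Pt μ Z ν c e γ ρ q β err V χ θ act)
include H

lemma βanti : Antitone β := antitone_nat_of_succ_le fun m => by linarith [H.βhalf m, H.β0 m]

lemma χmono {p m : ℕ} (h : p ≤ m) (z : E) : χ p z ≤ χ m z := by
  refine monotone_nat_of_le_succ (f := fun m => χ m z) (fun m => ?_) h
  by_cases h1 : ‖z‖ ≤ ρ - β (m + 1)
  · rw [H.χ1 _ z h1]; exact (H.cχ m).2.2.1 z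
  · rw [H.χ0 m z (by linarith [H.βhalf m, not_le.1 h1])]; exact (H.cχ _).2.1 z

lemma γle {p m : ℕ} (h : p ≤ m) (y : Ω) : γ p y ≤ γ m y :=
  monotone_nat_of_le_succ (f := fun m => γ m y) (fun m => H.γmono m y) h

lemma cΔ {p m : ℕ} (h : p ≤ m) : Cf fun z => χ m z - χ p z :=
  (H.cχ m).sub (H.cχ p) (H.χmono h)

lemma χθ (s : ℝ) (m : ℕ) (z : E) : χ m z ≤ θ s m z := by
  by_cases h1 : ‖z‖ ≤ ρ - β m / 2
  · rw [H.θ1 s m z h1]; exact (H.cχ m).2.2.1 z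
  · rw [H.χ0 m z (not_le.1 h1).le]; exact (H.cθ s m).2.1 z

lemma cδ (s : ℝ) (m : ℕ) : Cf fun z => θ s m z - χ m z := (H.cθ s m).sub (H.cχ m) (H.χθ s m)

lemma Δ_le {p m : ℕ} (h : p ≤ m) (z : E) : χ m z - χ p z ≤ ind (fW ρ (β p)) z := by
  by_cases hz : z ∈ fW ρ (β p)
  · rw [ind_of_mem hz]; exact (H.cΔ h).2.2.1 z
  · rw [ind_of_notMem hz]
    rcases lt_abs.1 (not_le.1 (show ¬ |‖z‖ - ρ| ≤ β p from hz)) with h1 | h1
    · rw [H.χ0 m z (by linarith [H.β0 m, H.β0 p])]; linarith [(H.cχ p).2.1 z]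
    · rw [H.χ1 p z (by linarith)]; linarith [(H.cχ m).2.2.1 z]

lemma δ_le (s : ℝ) (m : ℕ) (z : E) : θ s m z - χ m z ≤ ind (fW ρ (β m)) z := by
  by_cases hz : z ∈ fW ρ (β m)
  · rw [ind_of_mem hz]; exact (H.cδ s m).2.2.1 z
  · rw [ind_of_notMem hz]
    rcases lt_abs.1 (not_le.1 (show ¬ |‖z‖ - ρ| ≤ β m from hz)) with h1 | h1
    · rw [H.θ0 s m z (by linarith)]; linarith [(H.cχ m).2.1 z]
    · rw [H.χ1 m z (by linarith)]; linarith [(H.cθ s m).2.2.1 z]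

lemma Pmono {p m : ℕ} (h : p ≤ m) :
    ms μ Z (fun y => ‖c y‖) (χ p) ≤ ms μ Z (fun y => ‖c y‖) (χ m) :=
  ms_mono H.hZ H.hc.norm (fun _ => norm_nonneg _) (H.cχ p).bs (H.cχ m).bs (H.χmono h)

lemma Cle {φ : E → ℝ} (hφ : Cf φ) {κ : ℝ} {l : E → E} (hl : Adm κ l) :
    ms μ Z (fun y => ‖c y‖) (fun z => φ z * ‖l z‖) ≤ κ * ms μ Z (fun y => ‖c y‖) φ :=
  ms_one H.hZ H.hc.norm (fun _ => norm_nonneg _) (hφ.bs_mul hl) hφ.bs (hφ.mul_le hl)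

lemma Gle {φ : E → ℝ} (hφ : Cf φ) {κ : ℝ} {l : E → E} (hl : Adm κ l) {S : Set E}
    (hS : MeasurableSet S) (h : ∀ z, φ z ≤ ind S z) (m : ℕ) :
    ms μ Z (γ m) (fun z => φ z * ‖l z‖) ≤ κ * ms μ Z (γ m) (ind S) :=
  ms_one H.hZ (H.hγ m) (H.γ0 m) (hφ.bs_mul hl) (bs_ind hS) fun z =>
    (hφ.mul_le hl z).trans (mul_le_mul_of_nonneg_left (h z) hl.nonneg)

lemma GW {S : Set E} (hS : MeasurableSet S) (m : ℕ) : ms μ Z (γ m) (ind S) ≤ ∫ y, γ m y ∂μ :=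
  ms_le H.hZ (H.hγ m) (H.γ0 m) (bs_ind hS) (ind_le_one S)

lemma T1 (m : ℕ) {κ : ℝ} {l : E → E} (hl : Adm κ l) :
    |pr μ Z ν (χ m) l - pr μ Z c (χ m) l| ≤
      κ * (1 / 1000 * ms μ Z (fun y => ‖c y‖) (χ m) + ∫ y, γ m y ∂μ + err m) := by
  have h1 := H.h1 m κ l hl
  have h2 := H.Cle (H.cχ m) hl
  have h3 := H.Gle (H.cχ m) hl MeasurableSet.univ
    (fun z => by rw [ind_of_mem (mem_univ z)]; exact (H.cχ m).2.2.1 z) m
  have h4 := mul_le_mul_of_nonneg_left (H.GW MeasurableSet.univ m) hl.nonneg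
  linarith

lemma Tsh (m : ℕ) {κ : ℝ} {l : E → E} (hl : Adm κ l) :
    |(pr μ Z ν (χ (m + 1)) l - pr μ Z c (χ (m + 1)) l) - (pr μ Z ν (χ m) l - pr μ Z c (χ m) l)| ≤
      1 / 1000 * ms μ Z (fun y => ‖c y‖) (fun z => (χ (m + 1) z - χ m z) * ‖l z‖) +
      ms μ Z (γ (m + 1)) (fun z => (χ (m + 1) z - χ m z) * ‖l z‖) + κ * err (m + 1) := by
  have h1 := H.h2 m κ l hl
  rw [pr_sub H.hZ H.hν (H.cχ _) (H.cχ _) hl, pr_sub H.hZ H.hc (H.cχ _) (H.cχ _) hl] at h1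
  refine le_trans (le_of_eq ?_) h1
  congr 1
  ring

lemma Cadd {p m n : ℕ} (h : p ≤ m) (h' : m ≤ n) {κ : ℝ} {l : E → E} (hl : Adm κ l) :
    ms μ Z (fun y => ‖c y‖) (fun z => (χ n z - χ p z) * ‖l z‖) =
      ms μ Z (fun y => ‖c y‖) (fun z => (χ n z - χ m z) * ‖l z‖) +
      ms μ Z (fun y => ‖c y‖) (fun z => (χ m z - χ p z) * ‖l z‖) := by
  rw [← ms_add H.hZ H.hc.norm ((H.cΔ h').bs_mul hl) ((H.cΔ h).bs_mul hl)]
  congr 1
  funext z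
  ring

lemma Tinact {p n : ℕ} (h : p ≤ n) (hi : ∀ m, p ≤ m → m < n → ¬ act m) {κ : ℝ} {l : E → E}
    (hl : Adm κ l) :
    |(pr μ Z ν (χ n) l - pr μ Z c (χ n) l) - (pr μ Z ν (χ p) l - pr μ Z c (χ p) l)| ≤
      1 / 1000 * ms μ Z (fun y => ‖c y‖) (fun z => (χ n z - χ p z) * ‖l z‖) +
      κ * ((cum err n - cum err p) + (cum err (n + 1) - cum err (p + 1))) := by
  induction n, h using Nat.le_induction with
  | base => simp [ms]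
  | succ n h ih =>
    have h1 := ih fun m a b => hi m a (by omega)
    have h2 := H.Tsh n hl
    have h3 := H.Gle (H.cΔ n.le_succ) hl (fW_meas ρ (β n)) (H.Δ_le n.le_succ) (n + 1)
    have h4 := mul_le_mul_of_nonneg_left (H.inact n (hi n h (by omega))) hl.nonneg
    rw [H.Cadd h n.le_succ hl, cum_succ err (n + 1), cum_succ err n]
    rw [cum_succ err n] at h1
    refine (abs_sub_le _ _ _).trans ((add_le_add h2 h1).trans ?_)
    simp only [Nat.succ_eq_add_one] at h3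
    linarith

open Classical in
lemma Treset (m : ℕ) {κ : ℝ} {l : E → E} (hl : Adm κ l) :
    |pr μ Z ν (χ m) l - pr μ Z c (χ m) l| ≤ κ * (1 / 1000 * ms μ Z (fun y => ‖c y‖) (χ m) +
      cum (fun m => if act m then ms μ Z (γ (m + 1)) (ind (fW ρ (β m))) else 0) m +
      err 0 + cum err m + cum err (m + 1)) := by
  induction m with
  | zero =>
    have h1 := H.T1 0 hl
    have h2 := mul_le_mul_of_nonneg_left H.W0 hl.nonneg
    simp only [cum, Finset.range_zero, Finset.sum_empty, zero_add, Finset.range_one,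
      Finset.sum_singleton]
    linarith
  | succ n ih =>
    have h2 := H.Tsh n hl
    have h3 := H.Gle (H.cΔ n.le_succ) hl (fW_meas ρ (β n)) (H.Δ_le n.le_succ) (n + 1)
    have h4 := H.Cle (H.cΔ n.le_succ) hl
    have h5 : ms μ Z (fun y => ‖c y‖) (χ (n + 1)) = ms μ Z (fun y => ‖c y‖)
        (fun z => χ (n + 1) z - χ n z) + ms μ Z (fun y => ‖c y‖) (χ n) := by
      rw [← ms_add H.hZ H.hc.norm (H.cΔ n.le_succ).bs (H.cχ n).bs]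
      simp
    have h6 : κ * ms μ Z (γ (n + 1)) (ind (fW ρ (β n))) ≤
        κ * ((if act n then ms μ Z (γ (n + 1)) (ind (fW ρ (β n))) else 0) + err n) := by
      refine mul_le_mul_of_nonneg_left ?_ hl.nonneg
      split_ifs with ha
      · linarith [H.err0 n]
      · linarith [H.inact n ha]
    rw [cum_succ err (n + 1), cum_succ err n, cum_succ _ n, h5]
    rw [cum_succ err n] at ih
    refine (abs_sub_abs_le_abs_sub _ _ |> sub_le_iff_le_add.1).trans ((add_le_add h2 ih).trans ?_)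
    simp only [Nat.succ_eq_add_one] at h3 h4
    linarith

lemma mem_fW {m : ℕ} {z : E} (hz : z ∈ fW ρ (β m)) : 1 / 2 ≤ ‖z‖ ∧ ‖z‖ ≤ 4 := by
  have := abs_le.1 (show |‖z‖ - ρ| ≤ β m from hz)
  constructor <;> linarith [H.β1 m, H.ρ1, H.ρ3]

lemma W_nonneg (m : ℕ) : 0 ≤ ∫ y, γ m y ∂μ := integral_nonneg (H.γ0 m)

lemma crude {p n : ℕ} (h : p < n) (hi : ∀ m, p < m → m < n → ¬ act m)
    (hP : ms μ Z (fun y => ‖c y‖) (χ n) + ∫ y, γ (p + 1) y ∂μ ≤ V p) :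
    |pr μ Z ν (χ n) fun z => z| ≤ 5 * V p + 8 * (cum err (n + 1) - cum err (p + 1)) := by
  have h1 := H.T1 (p + 1) adm_id
  have h2 := H.Tinact (p := p + 1) h hi adm_id
  have h3 := abs_pr_le H.hZ H.hc (H.cχ n) adm_id
  have h4 := H.Cle (H.cχ n) adm_id
  have h5 := H.Pmono h
  have h6 : ms μ Z (fun y => ‖c y‖) (fun z => (χ n z - χ (p + 1) z) * ‖z‖) ≤
      4 * ms μ Z (fun y => ‖c y‖) (χ n) := ms_one H.hZ H.hc.norm (fun _ => norm_nonneg _)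
    ((H.cΔ h).bs_mul adm_id) (H.cχ n).bs fun z =>
      ((H.cΔ h).mul_le adm_id z).trans (by linarith [(H.cχ (p + 1)).2.1 z])
  have h7 : 0 ≤ ms μ Z (fun y => ‖c y‖) (χ (p + 1)) :=
    ms_nonneg (fun _ => norm_nonneg _) (H.cχ _).2.1
  have h8 := H.W_nonneg (p + 1)
  have h9 := cum_mono H.err0 n.le_succ
  rw [cum_succ err (p + 1)] at h2
  simp only [Nat.succ_eq_add_one] at h5 h9
  rw [abs_le] at *
  constructor <;> linarith [h1.1, h1.2, h2.1, h2.2, h3.1, h3.2]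

lemma fine {p n : ℕ} (hp : act p) (h : p ≤ n) : |pr μ Z ν (χ n) fun z => z| ≤
    5 * ms μ Z (fun y => ‖c y‖) (ind (fW ρ (β n))) + 4 * ms μ Z (γ n) (ind (fW ρ (β n))) +
      4 * err n := by
  have key : ∀ s, |pr μ Z ν (θ s n) (fun z => z) - pr μ Z ν (χ n) fun z => z| ≤
      5 * ms μ Z (fun y => ‖c y‖) (ind (fW ρ (β n))) + 4 * ms μ Z (γ n) (ind (fW ρ (β n))) +
      4 * err n := by
    intro s
    have h1 := H.h3 s n 4 _ adm_id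
    have h2 := abs_pr_le H.hZ H.hc (H.cδ s n) adm_id
    have h3 := H.Gle (H.cδ s n) adm_id (fW_meas ρ (β n)) (H.δ_le s n) n
    have h4 := H.Cle (H.cδ s n) adm_id
    have h5 := ms_mono H.hZ H.hc.norm (fun _ => norm_nonneg _) (H.cδ s n).bs
      (bs_ind (fW_meas ρ (β n))) (H.δ_le s n)
    have h6 : 0 ≤ ms μ Z (fun y => ‖c y‖) (ind (fW ρ (β n))) :=
      ms_nonneg (fun _ => norm_nonneg _) (ind_nonneg _)
    rw [← pr_sub H.hZ H.hν (H.cθ s n) (H.cχ n) adm_id]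
    rw [abs_le] at *
    constructor <;> linarith [h1.1, h1.2, h2.1, h2.2]
  have a1 := H.opt p n 1 hp h (Or.inl rfl)
  have a2 := H.opt p n (-1) hp h (Or.inr rfl)
  have b1 := abs_le.1 (key 1)
  have b2 := abs_le.1 (key (-1))
  rw [abs_le]
  constructor <;> linarith [b1.1, b2.2]

lemma final {p n : ℕ} (hp : act p) (h : p ≤ n) : |pr μ Z ν (χ n) fun z => z| ≤
    4 * ms μ Z (fun y => ‖ν y‖) (ind (fW ρ (β n))) := by
  have key : ∀ s, |pr μ Z ν (θ s n) (fun z => z) - pr μ Z ν (χ n) fun z => z| ≤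
      4 * ms μ Z (fun y => ‖ν y‖) (ind (fW ρ (β n))) := by
    intro s
    rw [← pr_sub H.hZ H.hν (H.cθ s n) (H.cχ n) adm_id]
    exact (abs_pr_le H.hZ H.hν (H.cδ s n) adm_id).trans (ms_one H.hZ H.hν.norm
      (fun _ => norm_nonneg _) ((H.cδ s n).bs_mul adm_id) (bs_ind (fW_meas ρ (β n))) fun z =>
        ((H.cδ s n).mul_le adm_id z).trans (by linarith [H.δ_le s n z]))
  have a1 := H.opt p n 1 hp h (Or.inl rfl)
  have a2 := H.opt p n (-1) hp h (Or.inr rfl)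
  have b1 := abs_le.1 (key 1)
  have b2 := abs_le.1 (key (-1))
  rw [abs_le]
  constructor <;> linarith [b1.1, b2.2]

end Pt

end Vale.Agent.P137
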