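import Vale.Agent.P137.CPt2

open MeasureTheory Metric Set Filter
open scoped ENNReal Topology RealInnerProductSpace

set_option linter.unusedSectionVars false

namespace Vale.Agent.P137

variable {E : Type*} [NormedAddCommGroup E] [InnerProductSpace ℝ E] [FiniteDimensional ℝ E]
  [MeasurableSpace E] [BorelSpace E] {Ω : Type*} [MeasurableSpace Ω]

lemma abs_inner_nv {v z : E} (hv : ‖v‖ ≤ 1) (h : 1 / 2 ≤ ‖z‖) : |⟪v, nv z⟫| ≤ 2 :=
  (abs_real_inner_le_norm _ _).trans (by nlinarith [norm_nv_le h, norm_nonneg (nv z)])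

lemma polar_near {e c z₀ z : E} {s : ℝ} (he : ‖e‖ = 1) (hc : 9 / 10 * ‖c‖ ≤ ⟪e, c⟫)
    (hs : s = 1 ∨ s = -1) (h1 : 1 / 2 ≤ ‖z₀‖) (hp : 4 / 5 * ‖z₀‖ ≤ s * ⟪e, z₀⟫)
    (hz : ‖z - z₀‖ ≤ 1 / 100) : 1 / 10 * ‖c‖ ≤ s * ⟪c, z⟫ := by
  have hs1 : |s| = 1 := by rcases hs with rfl | rfl <;> simp
  have hs2 : s ^ 2 = 1 := by rcases hs with rfl | rfl <;> simp
  have a1 : ‖‖z₀‖ • e - s • z₀‖ ≤ 16 / 25 * ‖z₀‖ := by
    refine (pow_le_pow_iff_left₀ (norm_nonneg _) (by positivity) two_ne_zero).1 ?_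
    rw [norm_sub_sq_real, norm_smul, norm_smul, real_inner_smul_left, real_inner_smul_right, he,
      norm_norm, Real.norm_eq_abs, hs1]
    nlinarith
  have a2 := (abs_le.1 (abs_real_inner_le_norm c (‖z₀‖ • e - s • z₀))).2
  have a3 := (abs_le.1 (abs_real_inner_le_norm c (s • (z - z₀)))).1
  rw [norm_smul, Real.norm_eq_abs, hs1, real_inner_smul_right, inner_sub_right] at a3
  rw [inner_sub_right, real_inner_smul_right, real_inner_smul_right, ← real_inner_comm c e] at a2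
  have a4 := mul_le_mul_of_nonneg_left a1 (norm_nonneg c)
  have a5 := mul_le_mul_of_nonneg_left hz (norm_nonneg c)
  have a6 := mul_le_mul_of_nonneg_left hc (norm_nonneg z₀)
  have a7 := mul_le_mul_of_nonneg_left h1 (norm_nonneg c)
  nlinarith [norm_nonneg c]

variable {μ : Measure Ω} {Z ν c : Ω → E} {e : E} {γ : ℕ → Ω → ℝ} {ρ : ℝ}
  {q β err V : ℕ → ℝ} {χ : ℕ → E → ℝ} {θ : ℝ → ℕ → E → ℝ} {act : ℕ → Prop}

namespace Pt
variable (H : Pt μ Z ν c e γ ρ q β err V χ θ act)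
include H

lemma w_eq (m : ℕ) {v : E} (hv : ‖v‖ ≤ 1) (a : ℝ) : pr μ Z ν (χ m) (fun z => v - a • z) =
    pr μ Z ν (χ m) (fun _ => v) - a * pr μ Z ν (χ m) fun z => z :=
  pr_comb H.hZ H.hν (H.cχ m) (adm_const hv) adm_id a

lemma w_Lv (m : ℕ) {v z₀ : E} (hv : ‖v‖ ≤ 1) (h : 1 / 2 ≤ ‖z₀‖) :
    pr μ Z ν (χ m) (Lv z₀ v) = pr μ Z ν (χ m) fun z => v - ⟪v, nv z₀⟫ • z := by
  have := pr_comb H.hZ H.hν (H.cχ m) (adm_lin hv (abs_inner_nv hv h))
    (adm_rot (norm_nv_le h) hv) (-1)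
  rw [H.sym, mul_zero, sub_zero] at this
  exact this

lemma split_far {p n : ℕ} (h : p ≤ n) {v z₀ : E} (hv : ‖v‖ ≤ 1) (hz : z₀ ∈ fW ρ (β p)) (z : E) :
    (χ n z - χ p z) * ‖Lv z₀ v z‖ ≤ 6 * q p * χ n z + 48 * ind (fF ρ (β p) z₀ (q p)) z := by
  have h1 := H.mem_fW hz
  have h2 := (H.cΔ h).mul_le (adm_Lv h1.1 h1.2 hv) z
  have h3 := H.Δ_le h z
  have h4 : 0 ≤ χ n z - χ p z := (H.cΔ h).2.1 z
  have h5 := (H.cχ p).2.1 z
  have h6 : 0 ≤ q p * χ n z := mul_nonneg (H.q0 p) ((H.cχ n).2.1 z)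
  by_cases hq : q p ≤ ‖z - z₀‖
  · by_cases hw : z ∈ fW ρ (β p)
    · rw [ind_of_mem (S := fF ρ (β p) z₀ (q p)) ⟨hw, hq⟩]
      linarith [ind_le_one (fW ρ (β p)) z]
    · rw [ind_of_notMem hw] at h3
      linarith [ind_nonneg (fF ρ (β p) z₀ (q p)) z]
  · have h7 : ‖Lv z₀ v z‖ ≤ 6 * q p := (Lv_le h1.1 hv z).trans (by linarith [not_le.1 hq])
    have h8 := mul_le_mul_of_nonneg_left h7 h4
    have h9 := mul_nonneg (H.q0 p) h5
    nlinarith [ind_nonneg (fF ρ (β p) z₀ (q p)) z]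

lemma seg {p n : ℕ} (h : p < n) (hi : ∀ m, p < m → m < n → ¬ act m)
    (hP : ms μ Z (fun y => ‖c y‖) (χ n) + ∫ y, γ (p + 1) y ∂μ ≤ V p) {v z₀ : E} (hv : ‖v‖ ≤ 1)
    (hz : z₀ ∈ fW ρ (β p)) (hF : V p ≤ err p ∨
      ms μ Z (fun y => ‖c y‖) (ind (fF ρ (β p) z₀ (q p))) +
        ms μ Z (γ (p + 1)) (ind (fF ρ (β p) z₀ (q p))) ≤ err p) :
    |pr μ Z ν (χ n) (fun z => v - ⟪v, nv z₀⟫ • z) - pr μ Z ν (χ p) fun z => v - ⟪v, nv z₀⟫ • z| ≤
      60 * err p + 96 * (cum err (n + 1) - cum err (p + 1)) := by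
  have h1 := H.mem_fW hz
  have hl := adm_Lv h1.1 h1.2 hv
  rw [← H.w_Lv n hv h1.1, ← H.w_Lv p hv h1.1]
  have a1 := H.Tinact (p := p + 1) h hi hl
  have a2 := H.Tsh p hl
  have a3 := abs_pr_le H.hZ H.hc (H.cΔ h.le) hl
  rw [pr_sub H.hZ H.hc (H.cχ _) (H.cχ _) hl] at a3
  have a4 := H.Cadd p.le_succ h hl
  have a5 := cum_mono H.err0 n.le_succ
  have a6 : 0 ≤ ms μ Z (γ (p + 1)) fun z => (χ (p + 1) z - χ p z) * ‖Lv z₀ v z‖ :=
    ms_nonneg (H.γ0 _) fun z => mul_nonneg ((H.cΔ p.le_succ).2.1 z) (norm_nonneg _)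
  have a7 : ms μ Z (fun y => ‖c y‖) (fun z => (χ n z - χ p z) * ‖Lv z₀ v z‖) +
      ms μ Z (γ (p + 1)) (fun z => (χ (p + 1) z - χ p z) * ‖Lv z₀ v z‖) ≤ 54 * err p := by
    have b0 := ms_le H.hZ (H.hγ (p + 1)) (H.γ0 _) (H.cχ (p + 1)).bs (H.cχ _).2.2.1
    rcases hF with hF | hF
    · have b1 := ms_one H.hZ H.hc.norm (fun _ => norm_nonneg _) ((H.cΔ h.le).bs_mul hl)
        (H.cχ n).bs (a := 48) fun z =>
          ((H.cΔ h.le).mul_le hl z).trans (by linarith [(H.cχ p).2.1 z])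
      have b2 := ms_one H.hZ (H.hγ (p + 1)) (H.γ0 _) ((H.cΔ p.le_succ).bs_mul hl)
        (H.cχ (p + 1)).bs (a := 48) fun z =>
          ((H.cΔ p.le_succ).mul_le hl z).trans (by linarith [(H.cχ p).2.1 z])
      simp only [Nat.succ_eq_add_one] at b2
      linarith [H.err0 p]
    · have b1 := ms_two H.hZ H.hc.norm (fun _ => norm_nonneg _) ((H.cΔ h.le).bs_mul hl)
        (H.cχ n).bs (bs_ind (fF_meas ρ (β p) z₀ (q p))) (H.split_far h.le hv hz)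
      have b2 := ms_two H.hZ (H.hγ (p + 1)) (H.γ0 _) ((H.cΔ p.le_succ).bs_mul hl)
        (H.cχ (p + 1)).bs (bs_ind (fF_meas ρ (β p) z₀ (q p))) (H.split_far p.le_succ hv hz)
      have b3 := mul_le_mul_of_nonneg_left b0 (H.q0 p)
      have b4 := mul_le_mul_of_nonneg_left hP (H.q0 p)
      simp only [Nat.succ_eq_add_one] at b2
      linarith [H.qV p]
  rw [cum_succ err (p + 1)] at a1
  simp only [Nat.succ_eq_add_one] at a4 a5
  have a8 := H.err0 p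
  rw [abs_le] at *
  constructor <;> linarith [a1.1, a1.2, a2.1, a2.2, a3.1, a3.2]

lemma W_split {p n : ℕ} (h : p ≤ n) {z₀ z₁ : E} (hd : 2 * q p < ‖z₀ - z₁‖) (z : E) :
    ind (fW ρ (β n)) z ≤ 1 * ind (fF ρ (β p) z₀ (q p)) z + 1 * ind (fF ρ (β n) z₁ (q n)) z := by
  have a := ind_nonneg (fF ρ (β p) z₀ (q p)) z
  have b := ind_nonneg (fF ρ (β n) z₁ (q n)) z
  by_cases hz : z ∈ fW ρ (β n)
  · rw [ind_of_mem hz]
    by_cases h1 : q p ≤ ‖z - z₀‖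
    · rw [ind_of_mem (S := fF ρ (β p) z₀ (q p)) ⟨le_trans hz (H.βanti h), h1⟩]; linarith
    · rw [ind_of_mem (S := fF ρ (β n) z₁ (q n)) ⟨hz, ?_⟩]
      · linarith
      · have := norm_sub_le_norm_sub_add_norm_sub z₀ z z₁
        rw [norm_sub_rev z₀ z] at this
        linarith [H.qanti h, not_le.1 h1]
  · rw [ind_of_notMem hz]; linarith

lemma jump {p n : ℕ} (h : p < n) (hp : act p) (hi : ∀ m, p < m → m < n → ¬ act m)
    (hP : ms μ Z (fun y => ‖c y‖) (χ n) + ∫ y, γ (p + 1) y ∂μ ≤ V p) {v z₀ z₁ : E} (hv : ‖v‖ ≤ 1)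
    (hz : z₀ ∈ fW ρ (β p)) (hF : V p ≤ err p ∨
      ms μ Z (fun y => ‖c y‖) (ind (fF ρ (β p) z₀ (q p))) +
        ms μ Z (γ (p + 1)) (ind (fF ρ (β p) z₀ (q p))) ≤ err p)
    (hz' : z₁ ∈ fW ρ (β n)) (hF' : V n ≤ err n ∨
      ms μ Z (fun y => ‖c y‖) (ind (fF ρ (β n) z₁ (q n))) +
        ms μ Z (γ (n + 1)) (ind (fF ρ (β n) z₁ (q n))) ≤ err n) :
    |pr μ Z ν (χ n) (fun z => v - ⟪v, nv z₁⟫ • z) - pr μ Z ν (χ n) fun z => v - ⟪v, nv z₀⟫ • z| ≤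
      40 * err p + 52 * (cum err (n + 1) - cum err (p + 1)) := by
  have h1 := (H.mem_fW hz).1
  have h2 := (H.mem_fW hz').1
  have a0 : |pr μ Z ν (χ n) (fun z => v - ⟪v, nv z₁⟫ • z) -
      pr μ Z ν (χ n) fun z => v - ⟪v, nv z₀⟫ • z| ≤
      ‖nv z₀ - nv z₁‖ * |pr μ Z ν (χ n) fun z => z| := by
    rw [H.w_eq n hv, H.w_eq n hv, sub_sub_sub_cancel_left, ← sub_mul, ← inner_sub_right, abs_mul]
    gcongr
    exact (abs_real_inner_le_norm _ _).trans (mul_le_of_le_one_left (norm_nonneg _) hv)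
  refine a0.trans ?_
  have a1 := H.crude h hi hP
  have a2 := cum_mono H.err0 (show p + 1 ≤ n from h)
  have a3 := H.err0 p
  have a4 := H.err0 n
  have a5 := abs_nonneg (pr μ Z ν (χ n) fun z => z)
  rw [cum_succ err n] at a1 ⊢
  by_cases hd : ‖z₀ - z₁‖ ≤ 2 * q p
  · have b1 : ‖nv z₀ - nv z₁‖ ≤ 8 * q p := (norm_nv_sub h1 h2).trans (by linarith)
    have b2 := mul_le_mul b1 a1 a5 (by linarith [H.q0 p])
    have b3 := mul_le_mul_of_nonneg_right (H.q1 p)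
      (show 0 ≤ cum err n + err n - cum err (p + 1) by linarith)
    linarith [H.qV p]
  have b1 : ‖nv z₀ - nv z₁‖ ≤ 4 :=
    (norm_sub_le _ _).trans (by linarith [norm_nv_le h1, norm_nv_le h2])
  refine (mul_le_mul_of_nonneg_right b1 a5).trans ?_
  rcases hF with hF | hF
  · linarith
  rcases hF' with hF' | hF'
  · linarith [H.Vmono h.le]
  have b2 := H.fine hp h.le
  have m1 := bs_ind (fF_meas ρ (β p) z₀ (q p))
  have m2 := bs_ind (fF_meas ρ (β n) z₁ (q n))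
  have b3 := ms_two H.hZ H.hc.norm (fun _ => norm_nonneg _) (bs_ind (fW_meas ρ (β n))) m1 m2
    (H.W_split h.le (not_le.1 hd))
  have n1 : 0 ≤ ms μ Z (fun y => ‖c y‖) (ind (fF ρ (β p) z₀ (q p))) :=
    ms_nonneg (fun _ => norm_nonneg _) (ind_nonneg _)
  have n2 : 0 ≤ ms μ Z (fun y => ‖c y‖) (ind (fF ρ (β n) z₁ (q n))) :=
    ms_nonneg (fun _ => norm_nonneg _) (ind_nonneg _)
  have n3 : 0 ≤ ms μ Z (γ (p + 1)) (ind (fF ρ (β p) z₀ (q p))) :=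
    ms_nonneg (H.γ0 _) (ind_nonneg _)
  have n4 : 0 ≤ ms μ Z (γ (n + 1)) (ind (fF ρ (β n) z₁ (q n))) :=
    ms_nonneg (H.γ0 _) (ind_nonneg _)
  obtain ⟨m, rfl⟩ : ∃ m, n = m + 1 := ⟨n - 1, by omega⟩
  rcases (show p = m ∨ p < m by omega) with rfl | hm
  · have b4 := ms_two H.hZ (H.hγ (p + 1)) (H.γ0 _) (bs_ind (fW_meas ρ (β (p + 1)))) m1 m2
      (H.W_split h.le (not_le.1 hd))
    have b5 := ms_mono_left H.hZ (H.hγ (p + 1)) (H.hγ (p + 1 + 1)) (H.γmono _) m2 (ind_nonneg _)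
    linarith
  · have b4 := H.inact m (hi m hm (by omega))
    have b5 := ms_mono H.hZ (H.hγ (m + 1)) (H.γ0 _) (bs_ind (fW_meas ρ (β (m + 1))))
      (bs_ind (fW_meas ρ (β m))) fun z => indicator_le_indicator_of_subset
        (fun z hz => le_trans hz (H.βanti m.le_succ)) (fun _ => zero_le_one) z
    have b6 := cum_mono H.err0 (show p + 1 ≤ m from hm)
    rw [cum_succ err m]
    linarith [H.err0 m]

lemma chain {f M : ℕ} {z : ℕ → E} (hz : ∀ p, f ≤ p → p < M → act p → z p ∈ fW ρ (β p) ∧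
      (V p ≤ err p ∨ ms μ Z (fun y => ‖c y‖) (ind (fF ρ (β p) (z p) (q p))) +
        ms μ Z (γ (p + 1)) (ind (fF ρ (β p) (z p) (q p))) ≤ err p))
    (hP : ∀ p n, f ≤ p → p < n → n ≤ M → (∀ m, p < m → m < n → ¬ act m) →
      ms μ Z (fun y => ‖c y‖) (χ n) + ∫ y, γ (p + 1) y ∂μ ≤ V p) {v : E} (hv : ‖v‖ ≤ 1)
    (k : ℕ) : ∀ p, M ≤ p + k → f ≤ p → p < M → act p →
      |pr μ Z ν (χ M) (fun _ => v) - pr μ Z ν (χ p) fun w => v - ⟪v, nv (z p)⟫ • w| ≤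
        100 * err p + 300 * (cum err (M + 1) - cum err (p + 1)) +
          2 * |pr μ Z ν (χ M) fun z => z| := by
  classical
  induction k with
  | zero => intro p h1 _ h2; omega
  | succ k ih =>
    intro p h1 h2 h3 h4
    obtain ⟨z1, z2⟩ := hz p h2 h3 h4
    have e0 := H.err0 p
    by_cases hex : ∃ n, p < n ∧ n < M ∧ act n
    · obtain ⟨b1, b2, b3⟩ := Nat.find_spec hex
      set n := Nat.find hex
      have hi : ∀ m, p < m → m < n → ¬ act m := fun m a b c =>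
        Nat.find_min hex b ⟨a, b.trans b2, c⟩
      obtain ⟨z3, z4⟩ := hz n (by omega) b2 b3
      have c0 := hP p n h2 b1 b2.le hi
      have c1 := H.seg b1 hi c0 hv z1 z2
      have c2 := H.jump b1 h4 hi c0 hv z1 z2 z3 z4
      have c3 := ih n (by omega) (by omega) b2 b3
      have c4 := cum_mono H.err0 (show p + 1 ≤ n from b1)
      have c5 := H.err0 n
      rw [cum_succ err n] at c1 c2 c3
      rw [abs_le] at c1 c2 c3 ⊢
      constructor <;> linarith [c1.1, c1.2, c2.1, c2.2, c3.1, c3.2]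
    · have hi : ∀ m, p < m → m < M → ¬ act m := fun m a b c => hex ⟨m, a, b, c⟩
      have c1 := H.seg h3 hi (hP p M h2 h3 le_rfl hi) hv z1 z2
      have c2 : |⟪v, nv (z p)⟫ * pr μ Z ν (χ M) fun z => z| ≤ 2 * |pr μ Z ν (χ M) fun z => z| := by
        rw [abs_mul]
        gcongr
        exact abs_inner_nv hv (H.mem_fW z1).1
      have c4 := cum_mono H.err0 (show p + 1 ≤ M + 1 by omega)
      rw [H.w_eq M hv] at c1
      rw [abs_le] at c1 c2 ⊢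
      constructor <;> linarith [c1.1, c1.2, c2.1, c2.2]

end Pt

end Vale.Agent.P137
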