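import Vale.Agent.P137.CPt3

open MeasureTheory Metric Set Filter
open scoped ENNReal Topology RealInnerProductSpace

set_option linter.unusedSectionVars false

namespace Vale.Agent.P137

variable {E : Type*} [NormedAddCommGroup E] [InnerProductSpace ℝ E] [FiniteDimensional ℝ E]
  [MeasurableSpace E] [BorelSpace E] {Ω : Type*} [MeasurableSpace Ω]

variable {μ : Measure Ω} {Z ν c : Ω → E} {e : E} {γ : ℕ → Ω → ℝ} {ρ : ℝ}
  {q β err V : ℕ → ℝ} {χ : ℕ → E → ℝ} {θ : ℝ → ℕ → E → ℝ} {act : ℕ → Prop}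

namespace Pt
variable (H : Pt μ Z ν c e γ ρ q β err V χ θ act)
include H

lemma J_pos (m : ℕ) {a t : ℝ} (ha : |a| ≤ 2) (h : ∀ z : E, ‖z‖ < ρ → |a| * ‖z‖ ≤ 9 / 10 - t) :
    t * ms μ Z (fun y => ‖c y‖) (χ m) ≤ pr μ Z c (χ m) fun z => e - a • z := by
  have := le_pr H.hZ H.hc (H.cχ m) (adm_lin H.he.le ha) ((H.cχ m).bs.const_mul t) 1 fun y => by
    by_cases hz : ‖Z y‖ < ρ
    · have h1 := h _ hz
      have h2 := (abs_le.1 (abs_real_inner_le_norm (c y) (a • Z y))).2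
      have h3 := H.align y
      rw [norm_smul, Real.norm_eq_abs] at h2
      have h4 := mul_le_mul_of_nonneg_left h1 (norm_nonneg (c y))
      rw [inner_sub_right, ← real_inner_comm (c y) e, one_mul, mul_left_comm, ← mul_assoc,
        mul_comm (χ m _)]
      exact mul_le_mul_of_nonneg_right (by linarith) ((H.cχ m).2.1 _)
    · simp [H.χ0 m _ (show ρ - β m / 2 ≤ ‖Z y‖ by linarith [H.β0 m, not_lt.1 hz])]
  rwa [ms_const_mul, one_mul] at this

lemma polar {f : ℕ} (hf : act f) {z₀ : E} (hz : z₀ ∈ fW ρ (β f)) {s : ℝ} (hs : s = 1 ∨ s = -1)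
    (hp : 4 / 5 * ‖z₀‖ ≤ s * ⟪e, z₀⟫) : s * pr μ Z ν (χ f) (fun z => z) ≤
      5 * ms μ Z (fun y => ‖c y‖) (ind (fF ρ (β f) z₀ (q f))) +
        4 * ms μ Z (γ f) (ind (fW ρ (β f))) + 4 * err f := by
  have a1 := H.opt f f s hf le_rfl hs
  have a2 := H.h3 s f 4 _ adm_id
  have a3 := H.Gle (H.cδ s f) adm_id (fW_meas ρ (β f)) (H.δ_le s f) f
  have m1 := ((H.cδ s f).bs_mul adm_id).const_mul (1 / 1000)
  have m2 := (bs_ind (fF_meas ρ (β f) z₀ (q f))).const_mul (-5)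
  have a4 := le_pr H.hZ H.hc (H.cδ s f) adm_id (m1.add m2) s fun y => by
    have b1 := (H.cδ s f).2.1 (Z y)
    have b2 := (H.cδ s f).mul_le adm_id (Z y)
    have b3 := H.δ_le s f (Z y)
    have b4 := norm_nonneg (c y)
    simp only at b1 b2 ⊢
    by_cases hw : Z y ∈ fW ρ (β f)
    · by_cases hq : q f ≤ ‖Z y - z₀‖
      · rw [ind_of_mem (S := fF ρ (β f) z₀ (q f)) ⟨hw, hq⟩]
        have b5 := abs_le.1 (abs_real_inner_le_norm (c y) (Z y))
        have b6 := ind_le_one (fW ρ (β f)) (Z y)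
        have b7 := mul_le_mul_of_nonneg_left b5.1 b1
        have b8 := mul_le_mul_of_nonneg_left b5.2 b1
        have b9 := mul_le_mul_of_nonneg_left (b2.trans (show _ ≤ 4 by linarith)) b4
        rcases hs with rfl | rfl <;> nlinarith
      · have b5 := polar_near H.he (H.align y) hs (H.mem_fW hz).1 hp
          ((not_le.1 hq).le.trans (H.q1 f))
        have b6 := mul_le_mul_of_nonneg_left b5 b1
        have b7 := mul_le_mul_of_nonneg_left b2 b4
        have b8 := mul_nonneg b4 (ind_nonneg (fF ρ (β f) z₀ (q f)) (Z y))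
        nlinarith [mul_nonneg b1 b4]
    · rw [ind_of_notMem hw] at b3
      have b8 := mul_nonneg b4 (ind_nonneg (fF ρ (β f) z₀ (q f)) (Z y))
      rw [le_antisymm b3 b1]
      linarith
  rw [ms_add H.hZ H.hc.norm m1 m2, ms_const_mul, ms_const_mul] at a4
  rw [pr_sub H.hZ H.hν (H.cθ s f) (H.cχ f) adm_id, abs_le] at a2
  rcases hs with rfl | rfl <;> linarith [a2.1, a2.2]

open Classical in
lemma start {f : ℕ} (hf : act f) {z₀ : E} (hz : z₀ ∈ fW ρ (β f)) (hF : V f ≤ err f ∨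
      ms μ Z (fun y => ‖c y‖) (ind (fF ρ (β f) z₀ (q f))) +
        ms μ Z (γ (f + 1)) (ind (fF ρ (β f) z₀ (q f))) ≤ err f)
    (hr : cum (fun m => if act m then ms μ Z (γ (m + 1)) (ind (fW ρ (β m))) else 0) f ≤
      1 / 1000 * ms μ Z (fun y => ‖c y‖) (χ f)) (hP : ms μ Z (fun y => ‖c y‖) (χ f) ≤ V f) :
    (∀ v : E, ‖v‖ ≤ 1 → |pr μ Z ν (χ f) fun z => v - ⟪v, nv z₀⟫ • z| ≤
      10 * ms μ Z (fun y => ‖c y‖) (χ f) + 27 * cum err (f + 1)) ∧
    1 / 25 * ms μ Z (fun y => ‖c y‖) (χ f) ≤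
      (pr μ Z ν (χ f) fun z => e - ⟪e, nv z₀⟫ • z) + 38 * cum err (f + 1) := by
  have z1 := (H.mem_fW hz).1
  have c0 : 0 ≤ ms μ Z (fun y => ‖c y‖) (χ f) := ms_nonneg (fun _ => norm_nonneg _) (H.cχ _).2.1
  have c1 := cum_mono H.err0 f.le_succ
  have c2 : err 0 ≤ cum err (f + 1) := by
    simpa [cum] using cum_mono H.err0 (show 1 ≤ f + 1 by omega)
  have c3 : 0 ≤ cum err f := by simpa [cum] using cum_mono H.err0 (Nat.zero_le f)
  have c4 := cum_succ err f
  have c5 := H.err0 f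
  simp only [Nat.succ_eq_add_one] at c1
  have s1 : ∀ v : E, ‖v‖ ≤ 1 → |pr μ Z ν (χ f) fun z => v - ⟪v, nv z₀⟫ • z| ≤
      10 * ms μ Z (fun y => ‖c y‖) (χ f) + 27 * cum err (f + 1) := by
    intro v hv
    have hl := adm_lin hv (abs_inner_nv hv z1)
    have a1 := H.Treset f hl
    have a2 := (abs_pr_le H.hZ H.hc (H.cχ f) hl).trans (H.Cle (H.cχ f) hl)
    rw [abs_le] at *
    constructor <;> linarith [a1.1, a1.2, a2.1, a2.2]
  refine ⟨s1, ?_⟩
  rcases hF with hF | hF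
  · linarith [(abs_le.1 (s1 e H.he.le)).1]
  have hn : ⟪e, nv z₀⟫ = (‖z₀‖ ^ 2)⁻¹ * ⟪e, z₀⟫ := by rw [nv, real_inner_smul_right]
  have ha := abs_inner_nv H.he.le z1
  by_cases hp : |⟪e, z₀⟫| ≤ 4 / 5 * ‖z₀‖
  · have a1 := abs_le.1 (H.Treset f (adm_lin H.he.le ha))
    have a2 := H.J_pos f ha (t := 3 / 50) fun z h => by
      have b1 := (abs_le.1 (show |‖z₀‖ - ρ| ≤ β f from hz)).1
      have b2 : ‖z‖ ≤ 21 / 20 * ‖z₀‖ := by linarith [H.β1 f, H.ρ1]
      rw [hn, abs_mul, abs_of_nonneg (by positivity), mul_assoc, inv_mul_le_iff₀ (by positivity)]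
      calc _ ≤ 4 / 5 * ‖z₀‖ * (21 / 20 * ‖z₀‖) := by gcongr
        _ = _ := by ring
    linarith [a1.1]
  obtain ⟨s, hs, hp'⟩ : ∃ s : ℝ, (s = 1 ∨ s = -1) ∧ 4 / 5 * ‖z₀‖ ≤ s * ⟪e, z₀⟫ := by
    rcases lt_abs.1 (not_le.1 hp) with h | h
    · exact ⟨1, Or.inl rfl, by linarith⟩
    · exact ⟨-1, Or.inr rfl, by linarith⟩
  have a1 := H.polar hf hz hs hp'
  have a2 : ms μ Z (γ f) (ind (fW ρ (β f))) ≤
      1 / 1000 * ms μ Z (fun y => ‖c y‖) (χ f) + cum err (f + 1) := by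
    cases f with
    | zero => linarith [H.GW (fW_meas ρ (β 0)) 0, H.W0]
    | succ m =>
      have b5 := ms_mono H.hZ (H.hγ (m + 1)) (H.γ0 _) (bs_ind (fW_meas ρ (β (m + 1))))
        (bs_ind (fW_meas ρ (β m))) fun z => indicator_le_indicator_of_subset
          (fun z hz => le_trans hz (H.βanti m.le_succ)) (fun _ => zero_le_one) z
      have b6 : 0 ≤ cum (fun m => if act m then ms μ Z (γ (m + 1)) (ind (fW ρ (β m))) else 0) m :=
        Finset.sum_nonneg fun i _ => by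
          split_ifs
          · exact ms_nonneg (H.γ0 _) (ind_nonneg _)
          · exact le_rfl
      have b7 : 0 ≤ cum err m := by simpa [cum] using cum_mono H.err0 (Nat.zero_le m)
      rw [cum_succ] at hr
      have b8 := cum_succ err m
      split_ifs at hr with h
      · linarith
      · linarith [H.inact m h]
  have a3 : 0 ≤ ms μ Z (γ (f + 1)) (ind (fF ρ (β f) z₀ (q f))) := ms_nonneg (H.γ0 _) (ind_nonneg _)
  have a4 := abs_le.1 (H.Treset f (adm_const H.he.le))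
  have a5 := H.J_pos f (a := 0) (t := 9 / 10) (by simp) (by simp)
  simp only [zero_smul, sub_zero] at a5
  have a6 : 0 ≤ s * ⟪e, nv z₀⟫ := by
    rw [hn, mul_left_comm]
    exact mul_nonneg (by positivity) (le_trans (by positivity) hp')
  have a7 : s * ⟪e, nv z₀⟫ ≤ 2 := by
    rcases hs with rfl | rfl <;> linarith [abs_le.1 ha]
  have a8 : s * pr μ Z ν (χ f) (fun z => z) ≤
      4 / 1000 * ms μ Z (fun y => ‖c y‖) (χ f) + 13 * cum err (f + 1) := by linarith
  have a9 := (mul_le_mul_of_nonneg_left a8 a6).trans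
    (mul_le_mul_of_nonneg_right a7 (by linarith))
  have a10 : s * ⟪e, nv z₀⟫ * (s * pr μ Z ν (χ f) fun z => z) =
      ⟪e, nv z₀⟫ * pr μ Z ν (χ f) fun z => z := by
    rcases hs with rfl | rfl <;> ring
  rw [H.w_eq f H.he.le]
  linarith [a4.1]

theorem main (M : ℕ) : ∃ P, P ≤ ∫ y, ‖c y‖ ∂μ ∧
    (∀ v : E, ‖v‖ ≤ 1 → pr μ Z ν (χ M) (fun _ => v) ≤ 10 * P + 400 * cum err (M + 1) +
      8 * ms μ Z (fun y => ‖ν y‖) (ind (fW ρ (β M)))) ∧
    1 / 25 * P ≤ pr μ Z ν (χ M) (fun _ => e) + 1 / (2 * ρ) * pr μ Z ν (χ M) (fun z => z) +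
      400 * cum err (M + 1) + 10 * ms μ Z (fun y => ‖ν y‖) (ind (fW ρ (β M))) := by
  classical
  set X := fun m => if act m then ms μ Z (γ (m + 1)) (ind (fW ρ (β m))) else 0 with hX
  set P := fun m => ms μ Z (fun y => ‖c y‖) (χ m) with hPd
  set f := Nat.findGreatest (fun m => cum X m ≤ 1 / 1000 * P m) M with hf
  have P0 : ∀ m, 0 ≤ P m := fun m => ms_nonneg (fun _ => norm_nonneg _) (H.cχ _).2.1
  have r1 : cum X f ≤ 1 / 1000 * P f := Nat.findGreatest_spec
    (P := fun m => cum X m ≤ 1 / 1000 * P m) (Nat.zero_le M) (by simpa [cum] using P0 0)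
  have r2 : ∀ m, f < m → m ≤ M → 1 / 1000 * P m < cum X m := fun m a b =>
    not_le.1 (Nat.findGreatest_is_greatest a b)
  have ε0 : 0 ≤ ms μ Z (fun y => ‖ν y‖) (ind (fW ρ (β M))) :=
    ms_nonneg (fun _ => norm_nonneg _) (ind_nonneg _)
  have hρ : 0 < ρ := by linarith [H.ρ1]
  have hρ' : 1 / (2 * ρ) ≤ 1 / 2 := by gcongr; linarith [H.ρ1]
  have c3 : ∀ m, 0 ≤ cum err m := fun m => by simpa [cum] using cum_mono H.err0 (Nat.zero_le m)
  refine ⟨P f, ms_le H.hZ H.hc.norm (fun _ => norm_nonneg _) (H.cχ f).bs (H.cχ f).2.2.1, ?_⟩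
  rcases (show f ≤ M from Nat.findGreatest_le M).eq_or_lt with hM | hM
  · rw [hM] at r1 ⊢
    have c1 := cum_mono H.err0 M.le_succ
    have c2 : err 0 ≤ cum err (M + 1) := by
      simpa [cum] using cum_mono H.err0 (show 1 ≤ M + 1 by omega)
    simp only [Nat.succ_eq_add_one] at c1
    refine ⟨fun v hv => ?_, ?_⟩
    · have a1 := abs_le.1 (H.Treset M (adm_const hv))
      have a2 := abs_le.1 ((abs_pr_le H.hZ H.hc (H.cχ M) (adm_const hv)).trans
        (H.Cle (H.cχ M) (adm_const hv)))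
      linarith [a1.2, a2.2, P0 M, c3 (M + 1)]
    · have ha : |-(1 / (2 * ρ))| = 1 / (2 * ρ) := by rw [abs_neg, abs_of_pos (by positivity)]
      have a1 := abs_le.1 (H.Treset M (adm_lin H.he.le (ha.trans_le (by linarith))))
      have a2 := H.J_pos M (ha.trans_le (by linarith)) (t := 2 / 5) fun z h => by
        rw [ha, div_mul_eq_mul_div, div_le_iff₀ (by positivity)]
        linarith
      rw [H.w_eq M H.he.le] at a1
      linarith [a1.1, P0 M, c3 (M + 1)]
  have hXW : ∀ p n, p < n → (∀ m, p < m → m < n → ¬ act m) →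
      cum X n ≤ ((p : ℝ) + 1) * ∫ y, γ (p + 1) y ∂μ := by
    intro p n h hi
    have b1 : cum X n = cum X (p + 1) := by
      induction n, (show p + 1 ≤ n from h) using Nat.le_induction with
      | base => rfl
      | succ n h' ih =>
        rw [cum_succ, ih h' fun m a b => hi m a (by omega)]
        simp [hX, hi n h' (by omega)]
    rw [b1]
    refine (Finset.sum_le_card_nsmul _ _ (∫ y, γ (p + 1) y ∂μ) fun i hi => ?_).trans (by simp)
    simp only [hX]
    split_ifs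
    · exact (H.GW (fW_meas _ _) _).trans (integral_mono (H.hγ _) (H.hγ _)
        (H.γle (by simpa using hi)))
    · exact H.W_nonneg _
  have hP : ∀ p n, f ≤ p → p < n → n ≤ M → (∀ m, p < m → m < n → ¬ act m) →
      P n + ∫ y, γ (p + 1) y ∂μ ≤ V p := fun p n a b c d => by
    have := H.W_nonneg (p + 1)
    linarith [r2 n (by omega) c, hXW p n b d, H.hV p]
  have hP' : ∀ p, f ≤ p → p < M → P p + ∫ y, γ (p + 1) y ∂μ ≤ V p := fun p a b => by
    linarith [hP p (p + 1) a (by omega) b (fun m a b => by omega), H.Pmono p.le_succ]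
  have hz : ∀ p, ∃ z₀ : E, f ≤ p → p < M → act p → z₀ ∈ fW ρ (β p) ∧
      (V p ≤ err p ∨ ms μ Z (fun y => ‖c y‖) (ind (fF ρ (β p) z₀ (q p))) +
        ms μ Z (γ (p + 1)) (ind (fF ρ (β p) z₀ (q p))) ≤ err p) := by
    intro p
    by_cases hc : f ≤ p ∧ p < M ∧ act p
    · have hm : MeasurableSet {z : E | ‖z‖ < ρ - β p} :=
        measurableSet_lt (by fun_prop) measurable_const
      have hk : ∀ z, ind {z : E | ‖z‖ < ρ - β p} z ≤ χ p z := fun z => by
        by_cases h : z ∈ {z : E | ‖z‖ < ρ - β p}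
        · rw [ind_of_mem h, H.χ1 p z (le_of_lt h)]
        · rw [ind_of_notMem h]; exact (H.cχ p).2.1 z
      obtain ⟨z₀, h1, h2⟩ := H.far p hc.2.2 (le_trans (add_le_add (ms_mono H.hZ H.hc.norm
        (fun _ => norm_nonneg _) (bs_ind hm) (H.cχ p).bs hk) (H.GW hm _))
        (hP' p hc.1 hc.2.1))
      exact ⟨z₀, fun _ _ _ => ⟨h1, h2⟩⟩
    · exact ⟨0, fun a b c => absurd ⟨a, b, c⟩ hc⟩
  choose z hz using hz
  have hact : act f := by
    by_contra h
    have := r2 (f + 1) (by omega) hM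
    rw [cum_succ] at this
    simp only [hX, h, if_false] at this
    linarith [H.Pmono f.le_succ]
  obtain ⟨z1, z2⟩ := hz f le_rfl hM hact
  obtain ⟨s1, s2⟩ := H.start hact z1 z2 r1 (by linarith [hP' f le_rfl hM, H.W_nonneg (f + 1)])
  have a1 := H.final hact hM.le
  have a2 := cum_mono H.err0 (show f + 1 ≤ M + 1 by omega)
  have a3 : err f ≤ cum err (f + 1) := by rw [cum_succ]; linarith [c3 f]
  refine ⟨fun v hv => ?_, ?_⟩
  · have b1 := abs_le.1 (H.chain hz hP hv M f (by omega) le_rfl hM hact)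
    have b2 := abs_le.1 (s1 v hv)
    linarith [b1.2, b2.2, c3 (f + 1)]
  · have b1 := abs_le.1 (H.chain hz hP H.he.le M f (by omega) le_rfl hM hact)
    have b2 : |1 / (2 * ρ) * pr μ Z ν (χ M) fun z => z| ≤
        1 / 2 * (4 * ms μ Z (fun y => ‖ν y‖) (ind (fW ρ (β M)))) := by
      rw [abs_mul, abs_of_pos (by positivity)]
      gcongr
    linarith [b1.1, (abs_le.1 b2).1, c3 (f + 1)]

end Pt

end Vale.Agent.P137
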