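import Vale.Agent.P137.CTree4

open MeasureTheory Metric Set Filter
open scoped ENNReal Topology RealInnerProductSpace

set_option linter.unusedSectionVars false

namespace Vale.Agent.P137

variable {E : Type} [NormedAddCommGroup E] [InnerProductSpace ℝ E] [FiniteDimensional ℝ E]
  [MeasurableSpace E] [BorelSpace E] {μ : Measure E} [μ.IsAddHaarMeasure]
  {A ι : Type} [Countable ι] [Fintype A] {G N₀ : ℕ} {h ε δ : ℝ} {gr : Grid E A ι G N₀ h}
  {νs b : ℕ → E → E} {g : ℕ → E → ℝ} {c : E → E} {k N : ℕ} {m : ι}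

/-- optimal radius -/
def Opt (a : E → ℝ → ℝ) (s₁ s₂ : ℝ) (x : E) (r : ℝ) : Prop :=
  r ∈ Icc s₁ s₂ ∧ ∀ t ∈ Icc s₁ s₂, a x t ≤ a x r

lemma JL.mono {a : E → ℝ → ℝ} {s₁ s₂ s L : ℝ} (hA : JL a s₁ s₂ L) (hs : s ≤ s₂) : JL a s₁ s L :=
  fun x x' r r' h h' => hA x x' r r' ⟨h.1, h.2.trans hs⟩ ⟨h'.1, h'.2.trans hs⟩

lemma opt_meas {a : E → ℝ → ℝ} {s₁ s₂ s L : ℝ} (hL : 0 ≤ L) (hA : JL a s₁ s₂ L) (hs : s ≤ s₂)
    {l : E → ℝ} (h1 : ∀ x, l x ∈ Icc s₁ s) (h2 : ∀ x z, l x ≤ l z + ‖x - z‖ / 2) :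
    MeasurableSet {x | ∃ r ∈ Icc (l x) s, Opt a s₁ s₂ x r} := by
  obtain ⟨r₁, a1, a2⟩ := exists_opt hL (hA.mono hs) h1 h2
  obtain ⟨r₂, b1, b2⟩ := exists_opt hL hA (lo := fun _ => s₁)
    (fun x => ⟨le_rfl, (h1 x).1.trans ((h1 x).2.trans hs)⟩) fun x z => by
      linarith [norm_nonneg (x - z)]
  have c : ∀ {r : E → ℝ}, (∀ x z, a x (r x) ≤ a z (r z) + 2 * L * ‖x - z‖) →
      Measurable fun x => a x (r x) := fun h => (LipschitzWith.of_le_add_mul' (2 * L) fun x z => by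
    rw [dist_eq_norm]; exact h x z).continuous.measurable
  convert measurableSet_le (c b2) (c a2) using 1
  ext x
  refine ⟨fun ⟨r, c1, c2⟩ => (c2.2 _ (b1 x).1).trans ((a1 x).2 r c1), fun hx => ⟨r₁ x, (a1 x).1,
    ⟨(h1 x).1.trans (a1 x).1.1, (a1 x).1.2.trans hs⟩, fun t ht => ((b1 x).2 t ht).trans hx⟩⟩

variable (gr N) in
/-- subcubes -/
def Sub (q : ℕ × ι) : Set (ℕ × ι) :=
  {p | q.1 ≤ p.1 ∧ p.1 ≤ N ∧ ∃ y, gr.idx gr.a0 p.1 y = p.2 ∧ gr.idx gr.a0 q.1 y = q.2}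

lemma dep_eq {T : A → ℕ → ι → Prop} (hh : 0 < h) {j : ℕ} {y y' : E}
    (e : gr.idx gr.a0 j y = gr.idx gr.a0 j y') (hj : gr.dep T k N y ≤ j) :
    gr.dep T k N y' = gr.dep T k N y := by
  have a : gr.dep T k N y' ≤ gr.dep T k N y :=
    not_lt.1 fun hc => lt_irrefl _ ((Grid.dep_congr hh e hj).2 hc)
  exact le_antisymm a (not_lt.1 fun hc => lt_irrefl _ ((Grid.dep_congr hh e (a.trans hj)).1 hc))

lemma book {T : A → ℕ → ι → Prop} (hh : 0 < h) (hk : k ≤ N) (B : ℕ × ι → ℝ≥0∞) :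
    ∑' p, (OA gr k m (gr.dep T k N)).indicator B p + ∑' q, (Lf gr k N m (gr.dep T k N)).indicator
      (fun q => ∑' p, (Sub gr N q).indicator B p) q ≤ ∑' p, (Sub gr N (k, m)).indicator B p := by
  have e : ∀ q, (Lf gr k N m (gr.dep T k N)).indicator (fun q => ∑' p, (Sub gr N q).indicator B p) q =
      ∑' p, (Lf gr k N m (gr.dep T k N)).indicator (fun q => (Sub gr N q).indicator B p) q :=
    fun q => by by_cases hq : q ∈ Lf gr k N m (gr.dep T k N) <;> simp [hq]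
  simp only [e]
  rw [ENNReal.tsum_comm, ← ENNReal.tsum_add]
  refine ENNReal.tsum_le_tsum fun p => ?_
  have key : ∀ q ∈ Lf gr k N m (gr.dep T k N), p ∈ Sub gr N q → ∃ y, gr.idx gr.a0 p.1 y = p.2 ∧
      gr.idx gr.a0 k y = m ∧ q = (gr.dep T k N y, gr.idx gr.a0 (gr.dep T k N y) y) ∧
      gr.dep T k N y ≤ p.1 ∧ p.1 ≤ N := by
    rintro q ⟨-, y, a2, a3, a4⟩ ⟨b1, b2, z, b3, b4⟩
    have c1 := dep_eq hh (a2.trans b4.symm) a4.le
    have c2 := Grid.lt_dep (T := T) (g := gr) hh hk y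
    refine ⟨z, b3, (gr.nest_le (by omega) (b4.trans a2.symm)).trans a3, ?_, by omega, b2⟩
    rw [c1, a4, b4]
  by_cases hex : ∃ q ∈ Lf gr k N m (gr.dep T k N), p ∈ Sub gr N q
  · obtain ⟨q, q1, q2⟩ := hex
    obtain ⟨y, a1, a2, a3, a4, a5⟩ := key q q1 q2
    have c2 := Grid.lt_dep (T := T) (g := gr) hh hk y
    have c3 : p ∉ OA gr k m (gr.dep T k N) := by
      rintro ⟨_, z, b1, _, b3⟩
      have := dep_eq hh (a1.trans b1.symm) a4
      omega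
    rw [indicator_of_notMem c3, zero_add, tsum_eq_single q, indicator_of_mem q1, indicator_of_mem q2,
      indicator_of_mem (show p ∈ Sub gr N (k, m) from ⟨by simp only; omega, a5, y, a1, a2⟩)]
    intro q' hq'
    by_contra hc
    have d1 := mem_of_indicator_ne_zero hc
    rw [indicator_of_mem d1] at hc
    obtain ⟨z, b1, -, b3, -, -⟩ := key q' d1 (mem_of_indicator_ne_zero hc)
    refine hq' ?_
    rw [a3, b3, dep_eq hh (a1.trans b1.symm) a4, gr.nest_le a4 (a1.trans b1.symm)]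
  · rw [ENNReal.tsum_eq_zero.2 fun q => ?_, add_zero]
    · refine indicator_le_indicator_of_subset (fun p hp => ?_) (fun _ => zero_le) p
      obtain ⟨a1, y, a2, a3, a4⟩ := hp
      refine ⟨a1, ?_, y, a2, a3⟩
      have := Grid.dep_le (T := T) (g := gr) (k := k) (N := N) hh y
      omega
    · by_contra hc
      have d1 := mem_of_indicator_ne_zero hc
      rw [indicator_of_mem d1] at hc
      exact hex ⟨q, d1, mem_of_indicator_ne_zero hc⟩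

variable (μ gr νs g N ε) in
/-- full budget -/
noncomputable def Bud (p : ℕ × ι) : ℝ≥0∞ := ENNReal.ofReal ((1 - ε) *
  ∫ y in gr.nb p.1 p.2 6, ‖νs p.1 y‖ ∂μ - ‖∫ y in gr.nb p.1 p.2 6, νs p.1 y ∂μ‖) + bud μ gr g N p

variable (μ A ι G N₀) in
theorem recursion [Nontrivial E] [Nonempty A] : ∃ (ε : ℝ) (C₁ C₂ : ℝ≥0∞), 0 < ε ∧ C₁ ≠ ∞ ∧ C₂ ≠ ∞ ∧
    ∀ (h δ : ℝ) (gr : Grid E A ι G N₀ h) (N : ℕ) (m₀ : ι) (νs b : ℕ → E → E) (g : ℕ → E → ℝ)
    (a : E → ℝ → ℝ) (L : ℝ) (w : E → ℝ), 0 < h → Dec μ gr ε δ (N + 1) νs b g → 0 ≤ L →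
    JL a (sc h N) (sc h 0) L → (∀ x ∈ gr.nb 0 m₀ 3, St μ a (νs (N + 1)) x (sc h 0)) →
    Measurable w → (∀ x, 0 ≤ w x) → (∀ x ∈ gr.cube 0 m₀, ∀ r, Opt a (sc h N) (sc h 0) x r →
      w x ≤ ‖aa μ (νs (N + 1)) x r‖ / μ.real (ball (0 : E) r)) →
    ∀ (n k : ℕ) (x₀ : E), x₀ ∈ gr.cube 0 m₀ → k ≤ N → N < k + n →
      ∫⁻ x in gr.cube k (gr.idx gr.a0 k x₀) ∩
        {x | ∃ r ∈ Icc (sc h N) (sc h k), Opt a (sc h N) (sc h 0) x r}, ENNReal.ofReal (w x) ∂μ ≤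
      C₁ * ∫⁻ y in gr.nb k (gr.idx gr.a0 k x₀) 6, ‖νs k y‖ₑ ∂μ +
        C₂ * ∑' p, (Sub gr N (k, gr.idx gr.a0 k x₀)).indicator (Bud μ ε gr νs g N) p := by
  obtain ⟨K₂, hK₂, hT⟩ := tree_cost μ A ι G N₀
  set τ : ℝ≥0∞ := (Fintype.card A : ℝ≥0∞)⁻¹ * ENNReal.ofReal (1 / 1000) with hτ
  have τ0 : τ ≠ 0 := mul_ne_zero (by simp) (by simp)
  have τ1 : τ ≠ ∞ := ENNReal.mul_ne_top (by simp) (by simp)
  have τ2 : Fintype.card A * τ ≤ ENNReal.ofReal (1 / 1000) := by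
    rw [hτ, ← mul_assoc]; exact mul_le_of_le_one_left' (ENNReal.mul_inv_le_one _)
  set K₁ : ℝ≥0∞ := 3 * N₀ * (τ⁻¹ * Fintype.card A + 1) with hK₁
  have K1 : K₁ ≠ ∞ := ENNReal.mul_ne_top (ENNReal.mul_ne_top (by simp) (by simp))
    (ENNReal.add_ne_top.2 ⟨ENNReal.mul_ne_top (ENNReal.inv_ne_top.2 τ0) (by simp), by simp⟩)
  set ε := 1 / (20 * (K₁.toReal + 1)) with hε
  have ε0 : 0 < ε := by positivity
  have ε1 : 2 * (K₁ + 1) * (10 * ENNReal.ofReal ε) = 1 := by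
    rw [← ENNReal.ofReal_toReal K1, ← ENNReal.ofReal_one, ← ENNReal.ofReal_add (by positivity)
      zero_le_one, ← ENNReal.ofReal_ofNat 2, ← ENNReal.ofReal_ofNat 10,
      ← ENNReal.ofReal_mul (by positivity), ← ENNReal.ofReal_mul (by positivity),
      ← ENNReal.ofReal_mul (by positivity), hε]
    congr 1
    field_simp
    norm_num
  refine ⟨ε, 4 * K₂, 12 * K₂ + 11 * (4 * K₂ * K₁), ε0, by finiteness, by finiteness,
    fun h δ gr N m₀ νs b g a L w hh D hL hA hSt mw w0 hw n => ?_⟩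
  induction n with
  | zero => intro k _ _ _ _; omega
  | succ n ih =>
  intro k x₀ h0 hk hn
  set m := gr.idx gr.a0 k x₀ with hm
  obtain ⟨e, he, he'⟩ := exists_dir (∫ y in gr.nb k m 6, νs k y ∂μ)
  set P := gr.dep (trig μ gr νs g (cTr gr νs k m e) k m τ) k N with hP
  have mν := D.meas k (by omega)
  have mc : Measurable (cTr gr νs k m e) := mν.indicator (cTr_set mν e)
  have s0 : ∀ j, sc h j ≤ sc h 0 := fun j => (sc_anti hh).antitone (Nat.zero_le j)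
  have x0 : x₀ ∈ gr.cube k m := rfl
  have sub : ∀ x ∈ gr.cube k m, x ∈ gr.cube 0 m₀ := fun x hx =>
    (gr.nest_le (Nat.zero_le k) hx).trans h0
  set S := gr.cube k m ∩ {x | ∃ r ∈ Icc (lo gr k N m P x) (sc h k), Opt a (sc h N) (sc h 0) x r}
  have mS : MeasurableSet S := (gr.meas _ _ _).inter
    (opt_meas hL hA (s0 k) (lo_mem hh hk P) (lo_lip hh x0 P))
  set F : ℕ × ι → Set E := fun q => gr.cube q.1 q.2 ∩
    {x | ∃ r ∈ Icc (sc h N) (sc h q.1), Opt a (sc h N) (sc h 0) x r} with hF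
  set X := ∫⁻ y in gr.nb k m 6, ‖νs k y‖ₑ ∂μ
  set Y := ∫⁻ y, oT gr νs g (cTr gr νs k m e) k N m P y ∂μ
  set Z := ∑' p, (OA gr k m P).indicator (Bud μ ε gr νs g N) p
  have z1 : ∑' p, (OA gr k m P).indicator (bud μ gr g N) p ≤ Z := ENNReal.tsum_le_tsum fun p =>
    indicator_le_indicator le_add_self
  have t1 : ∫⁻ x in S, ENNReal.ofReal (w x) ∂μ ≤ K₂ * (X + Y + Z) := by
    have := hT h ε δ gr N k m νs b g e x₀ τ a L (S.indicator w) hh D hk x0 he τ2 hL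
      (hA.mono (s0 k)) (fun x hx => ?_) (indicator_nonneg fun x _ => w0 x) P hP fun x => ?_
    · rw [← lintegral_indicator mS]
      refine le_trans (le_of_eq (lintegral_congr fun x => ?_))
        (this.trans (mul_le_mul_right (add_le_add le_rfl z1) _))
      by_cases hx : x ∈ S <;> simp [hx]
    · obtain ⟨z, z1, z2⟩ := gr.mem_nb.1 hx
      have := hSt x (gr.mem_nb.2 ⟨z, sub z z1, z2.trans_le (by linarith [s0 k])⟩)
      exact ⟨fun r a b => this.1 r a (b.trans (s0 k)), fun r a b => this.2 r a (b.trans (s0 k))⟩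
    · by_cases hx : x ∈ S
      · obtain ⟨a1, r, a2, a3⟩ := id hx
        rw [indicator_of_mem hx]
        exact Or.inr ⟨gr.mem_nb.2 ⟨x, a1, by rw [dist_self]; linarith [sc_pos hh k]⟩, r, a2,
          fun t ht => a3.2 t ⟨(lo_mem hh hk P x).1.trans ht.1, ht.2.trans (s0 k)⟩,
          hw x (sub x a1) r a3⟩
      · exact Or.inl (indicator_of_notMem hx _)
  have t2 : Y ≤ 10 * ENNReal.ofReal ε * X + 11 * Z := by
    refine (oT_int D mc hk P).trans ((add_le_add (o0_le (D.int k (by omega)) mν he he' ε0.le)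
      z1).trans ?_)
    have : ENNReal.ofReal ((1 - ε) * ∫ y in gr.nb k m 6, ‖νs k y‖ ∂μ -
        ‖∫ y in gr.nb k m 6, νs k y ∂μ‖) ≤ Z := le_trans (by
      rw [indicator_of_mem (show (k, m) ∈ OA gr k m P from
        ⟨le_rfl, x₀, rfl, rfl, Grid.lt_dep hh hk x₀⟩)]
      exact le_self_add) (ENNReal.le_tsum (k, m))
    refine (add_le_add (mul_le_mul_right (add_le_add le_rfl this) _) le_rfl).trans (le_of_eq ?_)
    ring
  have t3 : ∑' p, (Lf gr k N m P).indicator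
      (fun p => ∫⁻ y in gr.nb p.1 p.2 6, ‖νs p.1 y‖ₑ ∂μ) p ≤ K₁ * Y := by
    refine (leaves_le hh D mc hk).trans ?_
    rw [hK₁, mul_assoc (3 * _), add_mul, one_mul, mul_assoc τ⁻¹]
    gcongr
    rw [← ENNReal.div_eq_inv_mul, ENNReal.le_div_iff_mul_le (Or.inl τ0) (Or.inl τ1), mul_comm]
    exact weak_type hh hk τ
  have t4 : ∫⁻ x in F (k, m), ENNReal.ofReal (w x) ∂μ ≤ ∫⁻ x in S, ENNReal.ofReal (w x) ∂μ +
      ∑' q, (Lf gr k N m P).indicator (fun q => ∫⁻ x in F q, ENNReal.ofReal (w x) ∂μ) q := by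
    refine (lintegral_mono_set (t := S ∪ ⋃ q : Lf gr k N m P, F q) fun x hx => ?_).trans
      ((lintegral_union_le _ _ _).trans (add_le_add le_rfl ((lintegral_iUnion_le _ _).trans
        (le_of_eq (tsum_subtype _ fun q => ∫⁻ x in F q, ENNReal.ofReal (w x) ∂μ)))))
    obtain ⟨a1, r, a2, a3⟩ := hx
    by_cases hc : lo gr k N m P x ≤ r
    · exact Or.inl ⟨a1, r, ⟨hc, a2.2⟩, a3⟩
    · obtain ⟨b1, b2⟩ := lt_lo hh P a1 a2.1 (not_le.1 hc)
      exact Or.inr (mem_iUnion.2 ⟨⟨(P x, gr.idx gr.a0 (P x) x), b1, x, rfl, a1, rfl⟩, rfl, r,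
        ⟨a2.1, b2⟩, a3⟩)
  have t5 : ∑' q, (Lf gr k N m P).indicator (fun q => ∫⁻ x in F q, ENNReal.ofReal (w x) ∂μ) q ≤
      4 * K₂ * (K₁ * Y) + (12 * K₂ + 11 * (4 * K₂ * K₁)) * ∑' q, (Lf gr k N m P).indicator
        (fun q => ∑' p, (Sub gr N q).indicator (Bud μ ε gr νs g N) p) q := by
    refine le_trans ?_ (add_le_add (mul_le_mul_right t3 _) le_rfl)
    rw [← ENNReal.tsum_mul_left, ← ENNReal.tsum_mul_left, ← ENNReal.tsum_add]
    refine ENNReal.tsum_le_tsum fun q => ?_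
    by_cases hq : q ∈ Lf gr k N m P
    · simp only [indicator_of_mem hq]
      obtain ⟨a1, y, a2, a3, a4⟩ := hq
      have := Grid.lt_dep (T := trig μ gr νs g (cTr gr νs k m e) k m τ) (g := gr) hh hk y
      have := ih q.1 y (sub y a3) a1 (by rw [← hP] at this; omega)
      rwa [a2] at this
    · simp [hq]
  refine (t4.trans (add_le_add t1 t5)).trans (le_trans ?_ (add_le_add le_rfl
    (mul_le_mul_right (book (T := trig μ gr νs g (cTr gr νs k m e) k m τ) hh hk _) _)))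
  rw [mul_add (_ + _), ← add_assoc, ← add_assoc]
  refine add_le_add ?_ le_rfl
  change _ ≤ _ + _ * Z
  have u1 : 10 * ENNReal.ofReal ε ≤ 1 := ε1 ▸ le_mul_of_one_le_left' (one_le_mul one_le_two
    le_add_self)
  have u2 : 2 * K₁ * (10 * ENNReal.ofReal ε) ≤ 1 := ε1 ▸ by gcongr; exact le_self_add
  calc _ ≤ K₂ * (X + (10 * ENNReal.ofReal ε * X + 11 * Z) + Z) +
        4 * K₂ * (K₁ * (10 * ENNReal.ofReal ε * X + 11 * Z)) := by gcongr
    _ = K₂ * X + K₂ * X * (10 * ENNReal.ofReal ε) + 2 * K₂ * X * (2 * K₁ * (10 * ENNReal.ofReal ε))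
        + (12 * K₂ + 11 * (4 * K₂ * K₁)) * Z := by ring
    _ ≤ K₂ * X + K₂ * X * 1 + 2 * K₂ * X * 1 + (12 * K₂ + 11 * (4 * K₂ * K₁)) * Z := by gcongr
    _ = _ := by ring

end Vale.Agent.P137
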