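import Vale.Agent.P137.CCut
import Mathlib.Analysis.Calculus.Rademacher

open MeasureTheory Metric Set Filter
open scoped ENNReal Topology RealInnerProductSpace

set_option linter.unusedSectionVars false

namespace Vale.Agent.P137

variable {E : Type*} [NormedAddCommGroup E] [InnerProductSpace ℝ E] [FiniteDimensional ℝ E]
  [MeasurableSpace E] [BorelSpace E] {μ : Measure E} [μ.IsAddHaarMeasure]

/-- joint Lipschitz bound -/
def JL (A : E → ℝ → ℝ) (s₁ s₂ L : ℝ) : Prop := ∀ x x' r r', r ∈ Icc s₁ s₂ → r' ∈ Icc s₁ s₂ →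
  |A x r - A x' r'| ≤ L * (‖x - x'‖ + |r - r'|)

lemma deriv_nonneg_right {φ : ℝ → ℝ} {d : ℝ} (h : HasDerivAt φ d 0) (h0 : φ 0 = 0)
    (h1 : ∀ᶠ t in 𝓝[>] (0 : ℝ), 0 ≤ φ t) : 0 ≤ d := by
  refine ge_of_tendsto h.tendsto_slope_zero_right ?_
  filter_upwards [h1, self_mem_nhdsWithin] with t a b
  rw [zero_add, h0, sub_zero]
  exact mul_nonneg (inv_nonneg.2 (le_of_lt b)) a

lemma exists_opt {A : E → ℝ → ℝ} {s₁ s₂ L : ℝ} (hL : 0 ≤ L) (hA : JL A s₁ s₂ L) {lo : E → ℝ}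
    (h1 : ∀ x, lo x ∈ Icc s₁ s₂) (h2 : ∀ x z, lo x ≤ lo z + ‖x - z‖ / 2) :
    ∃ ro : E → ℝ, (∀ x, ro x ∈ Icc (lo x) s₂ ∧ ∀ t ∈ Icc (lo x) s₂, A x t ≤ A x (ro x)) ∧
      ∀ x z, A x (ro x) ≤ A z (ro z) + 2 * L * ‖x - z‖ := by
  have : ∀ x, ∃ r ∈ Icc (lo x) s₂, ∀ t ∈ Icc (lo x) s₂, A x t ≤ A x r := fun x =>
    isCompact_Icc.exists_isMaxOn (f := A x) (nonempty_Icc.2 (h1 x).2)
      (LipschitzOnWith.of_dist_le_mul (K := ⟨L, hL⟩) fun r hr r' hr' => by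
        have := hA x x r r' ⟨(h1 x).1.trans hr.1, hr.2⟩ ⟨(h1 x).1.trans hr'.1, hr'.2⟩
        rw [sub_self, norm_zero, zero_add] at this
        exact this).continuousOn
  choose ro a1 a2 using this
  refine ⟨ro, fun x => ⟨a1 x, a2 x⟩, fun x z => ?_⟩
  have b1 : max (ro x) (lo z) ∈ Icc (lo z) s₂ := ⟨le_max_right _ _, max_le (a1 x).2 (h1 z).2⟩
  have b2 := hA x z (ro x) _ ⟨(h1 x).1.trans (a1 x).1, (a1 x).2⟩ ⟨(h1 z).1.trans b1.1, b1.2⟩
  have b3 : |ro x - max (ro x) (lo z)| ≤ ‖x - z‖ := by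
    have := h2 z x
    rw [norm_sub_rev] at this
    rw [abs_sub_comm, abs_of_nonneg (sub_nonneg.2 (le_max_left _ _)), sub_le_iff_le_add, max_le_iff]
    constructor <;> linarith [norm_nonneg (x - z), (a1 x).1]
  have b4 := mul_le_mul_of_nonneg_left b3 hL
  linarith [a2 z _ b1, (abs_le.1 b2).2]

lemma int_cancel {H : E → ℝ} {L : NNReal} (hH : LipschitzWith L H) {x₀ : E} {ρ : ℝ}
    (hs : ∀ x, ρ < ‖x - x₀‖ → H x = 0) (e : E) (C : ℝ) {u : E → ℝ} (u0 : ∀ x, 0 ≤ u x)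
    {P : E → ℝ≥0∞} (hP : ∀ᵐ x ∂μ, ENNReal.ofReal (u x - C * lineDeriv ℝ H x e) ≤ P x) :
    ∫⁻ x, ENNReal.ofReal (u x) ∂μ ≤ ∫⁻ x, P x ∂μ := by
  have hc : HasCompactSupport H := HasCompactSupport.intro (isCompact_closedBall x₀ ρ)
    fun y hy => hs y (not_le.1 (mt mem_closedBall_iff_norm.2 hy))
  have mF : Measurable fun x => C * lineDeriv ℝ H x e :=
    (measurable_lineDeriv hH.continuous).const_mul C
  have iF : Integrable (fun x => C * lineDeriv ℝ H x e) μ := by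
    refine Integrable.const_mul ((integrableOn_iff_integrable_of_support_subset
      (s := closedBall x₀ ρ) fun x hx => ?_).1
      ((hH.locallyIntegrable_lineDeriv e).integrableOn_isCompact (isCompact_closedBall x₀ ρ))) C
    by_contra hx'
    refine hx ?_
    have : H =ᶠ[𝓝 x] fun _ => 0 := by
      filter_upwards [isClosed_closedBall.isOpen_compl.mem_nhds hx'] with y hy
      exact hs y (not_le.1 (mt mem_closedBall_iff_norm.2 hy))
    simp only [this.lineDeriv_eq]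
    simp [lineDeriv]
  have h0 : ∫ x, C * lineDeriv ℝ H x e ∂μ = 0 := by
    have := (LipschitzWith.const (1 : ℝ)).integral_lineDeriv_mul_eq (μ := μ) hH hc (-e)
    simp only [neg_neg, mul_one] at this
    rw [integral_const_mul, ← this]
    simp [lineDeriv]
  have iF' : Integrable (fun x => -(C * lineDeriv ℝ H x e)) μ := iF.neg
  have mF' : Measurable fun x => ENNReal.ofReal (-(C * lineDeriv ℝ H x e)) := mF.neg.ennreal_ofReal
  rw [integral_eq_lintegral_pos_part_sub_lintegral_neg_part iF, sub_eq_zero,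
    ENNReal.toReal_eq_toReal_iff' iF.lintegral_lt_top.ne iF'.lintegral_lt_top.ne] at h0
  rw [← ENNReal.add_le_add_iff_left iF.lintegral_lt_top.ne]
  nth_rewrite 1 [h0]
  rw [← lintegral_add_left mF', ← lintegral_add_left mF.ennreal_ofReal]
  refine lintegral_mono_ae ?_
  filter_upwards [hP] with x hx
  rcases le_total 0 (C * lineDeriv ℝ H x e) with h | h
  · rw [ENNReal.ofReal_of_nonpos (neg_nonpos.2 h), zero_add]
    refine le_trans ?_ (add_le_add le_rfl hx)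
    exact le_trans (by rw [add_sub_cancel]) ENNReal.ofReal_add_le
  · rw [ENNReal.ofReal_of_nonpos h, zero_add, ← ENNReal.ofReal_add (neg_nonneg.2 h) (u0 x),
      neg_add_eq_sub]
    exact hx

lemma sup_cancel {A : E → ℝ → ℝ} {ν : E → E} {s₁ s₂ L : ℝ} (hL : 0 ≤ L) (h0 : 0 < s₁)
    (hA : JL A s₁ s₂ L) {lo : E → ℝ} (h1 : ∀ x, lo x ∈ Icc s₁ s₂)
    (h2 : ∀ x z, lo x ≤ lo z + ‖x - z‖ / 2) {Z : Set E} {x₀ : E} {ρ : ℝ}
    (hZ : ∀ x ∈ Z, ‖x - x₀‖ ≤ ρ) (hlo : ∀ x ∉ Z, lo x = s₂) (hSt : ∀ x ∈ Z, St μ A ν x s₂) {e : E}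
    (he : ‖e‖ = 1) {C : ℝ} (hC : 0 ≤ C) {u : E → ℝ} (u0 : ∀ x, 0 ≤ u x) {P : E → ℝ≥0∞}
    (hu : ∀ x, u x = 0 ∨ (x ∈ Z ∧ ∃ r ∈ Icc (lo x) s₂, (∀ t ∈ Icc (lo x) s₂, A x t ≤ A x r) ∧
      u x ≤ ‖aa μ ν x r‖ / μ.real (ball (0 : E) r)))
    (hP₁ : ∀ x ∈ Z, ENNReal.ofReal (‖aa μ ν x s₂‖ / μ.real (ball (0 : E) s₂)) ≤ P x)
    (hP₂ : ∀ x ∈ Z, ∀ r ∈ Ico (lo x) s₂, (∀ t ∈ Icc (lo x) s₂, A x t ≤ A x r) →
      ENNReal.ofReal ((‖aa μ ν x r‖ - C * (⟪e, aa μ ν x r⟫ + 1 / 2 * ps μ ν x r / r)) /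
        μ.real (ball (0 : E) r) + C * (‖aa μ ν x s₂‖ / μ.real (ball (0 : E) s₂))) ≤ P x) :
    ∫⁻ x, ENNReal.ofReal (u x) ∂μ ≤ ∫⁻ x, P x ∂μ := by
  obtain ⟨ro, a1, a2⟩ := exists_opt hL hA h1 h2
  have s2 : s₂ ∈ Icc s₁ s₂ := ⟨(h1 0).1.trans (h1 0).2, le_rfl⟩
  have hH : LipschitzWith ⟨3 * L, by positivity⟩ fun x => A x (ro x) - A x s₂ :=
    LipschitzWith.of_le_add_mul _ fun x z => by
      have := (abs_le.1 (hA x z s₂ s₂ s2 s2)).1
      simp only [sub_self, abs_zero, add_zero] at this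
      rw [dist_eq_norm]
      change _ ≤ _ + 3 * L * _
      linarith [a2 x z]
  have H0 : ∀ x, 0 ≤ A x (ro x) - A x s₂ := fun x =>
    sub_nonneg.2 ((a1 x).2 s₂ ⟨(h1 x).2, le_rfl⟩)
  have H1 : ∀ x ∉ Z, ro x = s₂ := fun x hx => le_antisymm (a1 x).1.2 ((hlo x hx).ge.trans (a1 x).1.1)
  refine int_cancel hH (x₀ := x₀) (ρ := ρ) (fun x hx => by
    rw [H1 x fun h => absurd (hZ x h) (not_le.2 hx), sub_self]) e C u0 ?_
  filter_upwards [hH.ae_lineDifferentiableAt (μ := μ) e] with x hx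
  have hd : HasDerivAt (fun t : ℝ => A (x + t • e) (ro (x + t • e)) - A (x + t • e) s₂)
      (lineDeriv ℝ (fun x => A x (ro x) - A x s₂) x e) 0 := hx.hasLineDerivAt
  set D := lineDeriv ℝ (fun x => A x (ro x) - A x s₂) x e
  have k1 : A x (ro x) = A x s₂ → 0 ≤ C * D := fun h => mul_nonneg hC
    (deriv_nonneg_right hd (by simp [h]) (Eventually.of_forall fun t => H0 _))
  have k2 : x ∈ Z → ∀ r ∈ Icc (lo x) s₂, (∀ t ∈ Icc (lo x) s₂, A x t ≤ A x r) →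
      ENNReal.ofReal (‖aa μ ν x r‖ / μ.real (ball (0 : E) r) - C * D) ≤ P x := by
    intro hZ r hr hopt
    have e1 : A x (ro x) = A x r := le_antisymm (hopt _ (a1 x).1) ((a1 x).2 r hr)
    rcases hr.2.eq_or_lt with rfl | hr2
    · exact (ENNReal.ofReal_le_ofReal (sub_le_self _ (k1 e1))).trans (hP₁ x hZ)
    refine le_trans (ENNReal.ofReal_le_ofReal ?_) (hP₂ x hZ r ⟨hr.1, hr2⟩ hopt)
    have r0 : 0 < r := h0.trans_le ((h1 x).1.trans hr.1)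
    have d1 := (hSt x hZ).1 r r0 hr.2 e (1 / 2)
    have d2 := (hSt x hZ).1 s₂ (r0.trans hr2) le_rfl e 0
    simp only [zero_mul, add_zero, zero_div] at d2
    have d3 := deriv_nonneg_right (hd.sub (d1.sub d2)) (by simp [e1]) (by
      filter_upwards [Ioo_mem_nhdsGT (sub_pos.2 hr2)] with t ht
      have := h2 (x + t • e) x
      rw [add_sub_cancel_left, norm_smul, he, Real.norm_of_nonneg ht.1.le] at this
      have := (a1 (x + t • e)).2 (r + 1 / 2 * t) ⟨by linarith [hr.1], by linarith [ht.1, ht.2]⟩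
      simp only [Pi.sub_apply]
      linarith)
    have d4 : -(‖aa μ ν x s₂‖ / μ.real (ball (0 : E) s₂)) ≤
        -(⟪e, aa μ ν x s₂⟫ / μ.real (ball (0 : E) s₂)) := by
      have := (abs_le.1 (abs_real_inner_le_norm e (aa μ ν x s₂))).2
      rw [he, one_mul] at this
      gcongr
    have d5 := mul_le_mul_of_nonneg_left (show (⟪e, aa μ ν x r⟫ + 1 / 2 * ps μ ν x r / r) /
      μ.real (ball (0 : E) r) - ‖aa μ ν x s₂‖ / μ.real (ball (0 : E) s₂) ≤ D by linarith) hC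
    rw [sub_div, mul_div_assoc C]
    linarith
  rcases hu x with h | ⟨hZ, r, hr, hopt, h⟩
  · by_cases hZ : x ∈ Z
    · refine le_trans (ENNReal.ofReal_le_ofReal ?_) (k2 hZ _ (a1 x).1 (a1 x).2)
      rw [h]
      gcongr
      positivity
    · rw [h, zero_sub, ENNReal.ofReal_of_nonpos (neg_nonpos.2 (k1 (by rw [H1 x hZ])))]
      exact zero_le
  · exact le_trans (ENNReal.ofReal_le_ofReal (by gcongr)) (k2 hZ r hr hopt)

end Vale.Agent.P137
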