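import Vale.Agent.P137.CGrid

open MeasureTheory Metric Set Filter
open scoped ENNReal Topology

set_option linter.unusedSectionVars false

namespace Vale.Agent.P137

namespace Grid

variable {E : Type} [PseudoMetricSpace E] [MeasurableSpace E] [OpensMeasurableSpace E] {A ι : Type}
  [Countable ι] [Fintype A] {G N₀ : ℕ} {h : ℝ} (g : Grid E A ι G N₀ h) (T : A → ℕ → ι → Prop)
  (k N : ℕ)

/-- union of the stopping cubes -/
def Om (j : ℕ) : Set E := {z | ∃ α i, k ≤ i ∧ i + (G + 3) ≤ j ∧ T α i (g.idx α i z)}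

/-- alive cubes -/
def alive (j : ℕ) (m : ι) : Prop := j ≤ N ∧ ∃ z ∈ g.nb j m 13, z ∉ g.Om T k j

open Classical in
/-- first dead level -/
noncomputable def dep (y : E) : ℕ :=
  Nat.find (p := fun j => ¬ g.alive T k N j (g.idx g.a0 j y)) ⟨N + 1, fun h => by
    have := h.1; omega⟩

variable {g T k N}

lemma Om_mono {j j' : ℕ} (hj : j ≤ j') : g.Om T k j ⊆ g.Om T k j' :=
  fun _ ⟨α, i, h1, h2, h3⟩ => ⟨α, i, h1, h2.trans hj, h3⟩

lemma Om_meas (j : ℕ) : MeasurableSet (g.Om T k j) := by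
  have : g.Om T k j = ⋃ α, ⋃ i, {z | k ≤ i ∧ i + (G + 3) ≤ j ∧ T α i (g.idx α i z)} := by
    ext z; simp [Om]
  rw [this]
  exact MeasurableSet.iUnion fun α => MeasurableSet.iUnion fun i =>
    g.meas_pre α i fun m => k ≤ i ∧ i + (G + 3) ≤ j ∧ T α i m

lemma aliveW (h0 : 0 < h) {j : ℕ} {y y' : E} (ha : g.alive T k N (j + 1) (g.idx g.a0 (j + 1) y'))
    (hd : dist y y' ≤ 6 * sc h j) : g.alive T k N j (g.idx g.a0 j y) := by
  obtain ⟨h1, z, h2, h3⟩ := ha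
  obtain ⟨w, h4, h5⟩ := g.mem_nb.1 h2
  refine ⟨by omega, z, g.mem_nb.2 ⟨y, rfl, ?_⟩, fun hz => h3 (Om_mono j.le_succ hz)⟩
  have h6 := g.diam _ _ _ _ h4
  have h7 := dist_triangle4_right z y w y'
  linarith [sc_succ h j, sc_pos h0 (j + 1)]

lemma alive_iff (h0 : 0 < h) {j : ℕ} {y : E} :
    g.alive T k N j (g.idx g.a0 j y) ↔ j < g.dep T k N y := by
  classical
  refine ⟨fun ha => ?_, fun hj => not_not.1 (Nat.find_min _ hj)⟩
  rw [dep, Nat.lt_find_iff]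
  intro l hl
  rw [not_not]
  induction j, hl using Nat.le_induction with
  | base => exact ha
  | succ j _ ih => exact ih (aliveW h0 ha (by rw [dist_self]; linarith [sc_pos h0 j]))

lemma dep_le (h0 : 0 < h) (y : E) : g.dep T k N y ≤ N + 1 := by
  by_contra hc
  have := ((alive_iff h0).2 (not_le.1 hc)).1
  omega

lemma lt_dep (h0 : 0 < h) (hk : k ≤ N) (y : E) : k < g.dep T k N y :=
  (alive_iff h0).1 ⟨hk, y, g.mem_nb.2 ⟨y, rfl, by rw [dist_self]; linarith [sc_pos h0 k]⟩,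
    fun ⟨_, i, h1, h2, _⟩ => by omega⟩

lemma depW (h0 : 0 < h) {j : ℕ} {y y' : E} (ha : j + 1 < g.dep T k N y')
    (hd : dist y y' ≤ 6 * sc h j) : j < g.dep T k N y :=
  (alive_iff h0).1 (aliveW h0 ((alive_iff h0).2 ha) hd)

lemma dep_congr (h0 : 0 < h) {j l : ℕ} {y y' : E} (e : g.idx g.a0 j y = g.idx g.a0 j y')
    (hl : l ≤ j) : l < g.dep T k N y ↔ l < g.dep T k N y' := by
  rw [← alive_iff h0, ← alive_iff h0, g.nest_le hl e]

lemma dep_meas (h0 : 0 < h) : Measurable (g.dep T k N) := by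
  refine measurable_of_Ioi fun j => ?_
  have : g.dep T k N ⁻¹' Ioi j = {y | g.alive T k N j (g.idx g.a0 j y)} :=
    Set.ext fun y => (alive_iff h0).symm
  rw [this]
  exact g.meas_pre _ _ _

lemma absorb_cube (h0 : 0 < h) {i : ℕ} {y : E} (hi : k ≤ i) (hy : i + (G + 3) < g.dep T k N y) :
    ∃ α, ¬ T α i (g.idx α i y) := by
  obtain ⟨-, z, h2, h3⟩ := (alive_iff h0).2 hy
  obtain ⟨w, h4, h5⟩ := g.mem_nb.1 h2
  have h6 := g.diam _ _ _ _ h4
  obtain ⟨α, hα⟩ := g.close i y z (by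
    have := sc_add h (i + G) 3
    rw [add_assoc] at this
    linarith [dist_triangle_left y z w, dist_comm z w, sc_pos h0 (i + (G + 3))])
  exact ⟨α, fun hT => h3 ⟨α, i, hi, le_rfl, hα ▸ hT⟩⟩

lemma dead_sub (h0 : 0 < h) {y z : E} (hy : g.dep T k N y ≤ N)
    (hz : z ∈ g.nb (g.dep T k N y) (g.idx g.a0 (g.dep T k N y) y) 13) : z ∈ g.Om T k N := by
  by_contra hc
  exact lt_irrefl _ ((alive_iff h0).1 ⟨hy, z, hz, fun h => hc (Om_mono hy h)⟩)

lemma first_trig (h0 : 0 < h) {z : E} (hz : z ∈ g.Om T k N) : ∃ α i, i + (G + 3) ≤ N ∧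
    T α i (g.idx α i z) ∧ ∀ y, g.idx α i y = g.idx α i z → i < g.dep T k N y := by
  classical
  have hex : ∃ i, ∃ α, k ≤ i ∧ i + (G + 3) ≤ N ∧ T α i (g.idx α i z) := by
    obtain ⟨α, i, h⟩ := hz
    exact ⟨i, α, h⟩
  obtain ⟨α, h1, h2, h3⟩ := Nat.find_spec hex
  refine ⟨α, _, h2, h3, fun y hy => (alive_iff h0).1 ⟨by omega, z, g.mem_nb.2 ⟨y, rfl, ?_⟩,
    fun ⟨α', i, a1, a2, a3⟩ => Nat.find_min hex (m := i) (by omega) ⟨α', a1, by omega, a3⟩⟩⟩
  linarith [g.diam _ _ _ _ hy.symm, sc_pos h0 (Nat.find hex)]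

end Grid

end Vale.Agent.P137
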