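import Vale.Agent.P137.CBuild
import Vale.Agent.P137.CTree1
import Mathlib.MeasureTheory.Integral.Layercake

open MeasureTheory Metric Set Filter
open scoped ENNReal Topology RealInnerProductSpace

set_option linter.unusedSectionVars false

namespace Vale.Agent.P137

lemma tsum_rev (f : ℕ → ℝ≥0∞) (n : ℕ) : ∑' i, (if i ≤ n then f (n - i) else 0) ≤ ∑' i, f i := by
  rw [tsum_eq_sum (s := Finset.range (n + 1)) fun i hi => if_neg (by simpa using hi),
    Finset.sum_congr rfl (g := fun i => f (n - i)) fun i hi => if_pos (by simpa using hi),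
    Finset.sum_flip]
  exact ENNReal.sum_le_tsum _

variable {E : Type} [NormedAddCommGroup E] [InnerProductSpace ℝ E] [FiniteDimensional ℝ E]
  [MeasurableSpace E] [BorelSpace E] (μ : Measure E) [μ.IsAddHaarMeasure]
  {A ι : Type} [Countable ι] [Fintype A] {G N₀ : ℕ} {h ε δ : ℝ} (gr : Grid E A ι G N₀ h)
  (νs b : ℕ → E → E) (g : ℕ → E → ℝ) (c : E → E) (k N : ℕ) (m : ι)

/-- non aligned part at the top -/
noncomputable def o0 : E → ℝ≥0∞ := (gr.nb k m 6).indicator fun y => ‖νs k y - c y‖ₑ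

/-- running remainder -/
noncomputable def ot (j : ℕ) (y : E) : ℝ≥0∞ := o0 gr νs c k m y + ∑ l ∈ Finset.Ico k (j + 1),
  (thickening (6 * sc h l) (gr.cube k m)).indicator (fun y => ENNReal.ofReal (g l y)) y

/-- stopping condition -/
def trig (τ : ℝ≥0∞) (α : A) (i : ℕ) (n : ι) : Prop :=
  τ * ∫⁻ y in {y | gr.idx α i y = n}, ‖c y‖ₑ ∂μ <
    ∫⁻ y in {y | gr.idx α i y = n}, ot gr νs g c k m (i + (G + 3)) y ∂μ

/-- owned alive cubes -/
def OA (D : E → ℕ) : Set (ℕ × ι) :=
  {p | k ≤ p.1 ∧ ∃ y, gr.idx gr.a0 p.1 y = p.2 ∧ gr.idx gr.a0 k y = m ∧ p.1 < D y}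

/-- leaves -/
def Lf (D : E → ℕ) : Set (ℕ × ι) :=
  {p | p.1 ≤ N ∧ ∃ y, gr.idx gr.a0 p.1 y = p.2 ∧ gr.idx gr.a0 k y = m ∧ D y = p.1}

/-- total remainder -/
noncomputable def oT (D : E → ℕ) (y : E) : ℝ≥0∞ := o0 gr νs c k m y + ∑ l ∈ Finset.Ico k (N + 1),
  ∑' p, (OA gr k m D ∩ {p | p.1 ≤ l ∧ l ≤ p.1 + (G + 4)}).indicator
    (fun p => (gr.nb p.1 p.2 6).indicator (fun y => ENNReal.ofReal (g l y)) y) p

/-- budget of a cube -/
noncomputable def bud (p : ℕ × ι) : ℝ≥0∞ := ∑ l ∈ Finset.Ico p.1 (N + 1),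
  Dw G (l - p.1) * ∫⁻ y in gr.nb p.1 p.2 6, ENNReal.ofReal (g l y) ∂μ

variable {μ gr νs b g c k N m} {T : A → ℕ → ι → Prop}

lemma o0_meas (D : Dec μ gr ε δ (N + 1) νs b g) (mc : Measurable c) (hk : k ≤ N) :
    Measurable (o0 gr νs c k m) :=
  ((D.meas k (by omega)).sub mc).enorm.indicator (gr.nb_meas _ _ _)

lemma oT_term_meas (D : Dec μ gr ε δ (N + 1) νs b g) {l : ℕ} (hl : l ∈ Finset.Ico k (N + 1))
    (S : Set (ℕ × ι)) (p : ℕ × ι) : Measurable fun y => S.indicator
      (fun p => (gr.nb p.1 p.2 6).indicator (fun y => ENNReal.ofReal (g l y)) y) p := by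
  by_cases hp : p ∈ S
  · simp only [indicator_of_mem hp]
    exact (D.cls l (Finset.mem_Ico.1 hl).2).2.1.ennreal_ofReal.indicator (gr.nb_meas _ _ _)
  · simp only [indicator_of_notMem hp, measurable_const]

lemma oT_meas (D : Dec μ gr ε δ (N + 1) νs b g) (mc : Measurable c) (hk : k ≤ N) (P : E → ℕ) :
    Measurable (oT gr νs g c k N m P) :=
  (o0_meas D mc hk).add (Finset.measurable_sum _ fun _ hl =>
    Measurable.tsum (oT_term_meas D hl _))

lemma res_le (hh : 0 < h) (D : Dec μ gr ε δ (N + 1) νs b g) {i j : ℕ} {y y' : E} (h1 : k ≤ i)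
    (h2 : i ≤ N + 1) (h3 : i ≤ j + 1) (h4 : gr.idx gr.a0 k y' = m)
    (hy : y ∈ gr.nb i (gr.idx gr.a0 i y') 6) : ‖νs i y - c y‖ₑ ≤ ot gr νs g c k m j y := by
  obtain ⟨z, z1, z2⟩ := gr.mem_nb.1 hy
  have z3 : ∀ l ≤ i, y ∈ thickening (6 * sc h l) (gr.cube k m) := fun l hl =>
    mem_thickening_iff.2 ⟨z, (gr.nest_le h1 z1).trans h4,
      z2.trans_le (by linarith [(sc_anti hh).antitone hl])⟩
  rw [D.tele h1 h2, add_sub_right_comm, ot, o0, indicator_of_mem (show y ∈ gr.nb k m 6 from z3 k h1)]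
  refine (enorm_add_le _ _).trans (add_le_add le_rfl ((enorm_sum_le _ _).trans (le_trans
    (Finset.sum_le_sum fun l hl => ?_) (Finset.sum_le_sum_of_subset
      (Finset.Ico_subset_Ico_right h3)))))
  have := Finset.mem_Ico.1 hl
  rw [indicator_of_mem (z3 l this.2.le), ← ofReal_norm]
  exact ENNReal.ofReal_le_ofReal ((D.cls l (by omega)).2.2.2.1 y)

lemma ot_le_oT (hh : 0 < h) (hk : k ≤ N) {j : ℕ} {y : E} (hj : j ≤ N)
    (hy : j - (G + 3) < gr.dep T k N y) :
    ot gr νs g c k m j y ≤ oT gr νs g c k N m (gr.dep T k N) y := by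
  refine add_le_add le_rfl (le_trans (Finset.sum_le_sum fun l hl => ?_)
    (Finset.sum_le_sum_of_subset (Finset.Ico_subset_Ico_right (Nat.succ_le_succ hj))))
  have hl' := Finset.mem_Ico.1 hl
  by_cases hy' : y ∈ thickening (6 * sc h l) (gr.cube k m)
  swap
  · simp [hy']
  obtain ⟨z, z1, z2⟩ := mem_thickening_iff.1 hy'
  obtain ⟨i, i1, i2, i3, i4⟩ : ∃ i, k ≤ i ∧ i ≤ l ∧ l ≤ i + (G + 4) ∧ i < gr.dep T k N z := by
    by_cases hc : l ≤ k + (G + 4)
    · exact ⟨k, le_rfl, hl'.1, hc, Grid.lt_dep hh hk z⟩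
    · refine ⟨l - (G + 4), by omega, by omega, by omega, Grid.depW hh (y' := y) (by omega) ?_⟩
      rw [dist_comm]
      linarith [(sc_anti hh).antitone (show l - (G + 4) ≤ l by omega)]
  refine le_trans ?_ (ENNReal.le_tsum (i, gr.idx gr.a0 i z))
  rw [indicator_of_mem hy', indicator_of_mem (show (i, gr.idx gr.a0 i z) ∈
    OA gr k m (gr.dep T k N) ∩ {p | p.1 ≤ l ∧ l ≤ p.1 + (G + 4)} from
    ⟨⟨i1, z, rfl, z1, i4⟩, i2, i3⟩), indicator_of_mem (gr.mem_nb.2 ⟨z, rfl,
      z2.trans_le (by linarith [(sc_anti hh).antitone i2])⟩)]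

lemma weak_type (hh : 0 < h) (hk : k ≤ N) (τ : ℝ≥0∞) : τ * ∫⁻ y in gr.Om (trig μ gr νs g c k m τ) k N, ‖c y‖ₑ ∂μ ≤ Fintype.card A *
      ∫⁻ y, oT gr νs g c k N m (gr.dep (trig μ gr νs g c k m τ) k N) y ∂μ := by
  have := gr.cover_le (τ • μ.withDensity fun y => ‖c y‖ₑ)
    (μ.withDensity (oT gr νs g c k N m (gr.dep (trig μ gr νs g c k m τ) k N)))
    (fun α i n => i + (G + 3) ≤ N ∧ trig μ gr νs g c k m τ α i n ∧
      ∀ y, gr.idx α i y = n → i < gr.dep (trig μ gr νs g c k m τ) k N y)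
    (S := gr.Om (trig μ gr νs g c k m τ) k N) (T := univ) (N + 1) (fun α i n ⟨h1, h2, h3⟩ => by
      rw [Measure.smul_apply, withDensity_apply _ (gr.meas α i n),
        withDensity_apply _ (gr.meas α i n)]
      exact h2.le.trans (setLIntegral_mono' (gr.meas α i n) fun y hy =>
        ot_le_oT hh hk h1 (by simpa using h3 y hy)))
    (fun y hy => by
      obtain ⟨α, i, h1, h2, h3⟩ := Grid.first_trig hh hy
      exact ⟨α, i, by omega, h1, h2, h3⟩) (fun _ _ _ _ => trivial)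
  rwa [Measure.smul_apply, withDensity_apply _ (Grid.Om_meas N),
    withDensity_apply _ MeasurableSet.univ, Measure.restrict_univ] at this

lemma leaves_le (hh : 0 < h) (D : Dec μ gr ε δ (N + 1) νs b g) (mc : Measurable c) (hk : k ≤ N) :
    ∑' p, (Lf gr k N m (gr.dep T k N)).indicator
      (fun p => ∫⁻ y in gr.nb p.1 p.2 6, ‖νs p.1 y‖ₑ ∂μ) p ≤ 3 * N₀ *
      (∫⁻ y in gr.Om T k N, ‖c y‖ₑ ∂μ + ∫⁻ y, oT gr νs g c k N m (gr.dep T k N) y ∂μ) := by
  set Y := fun y => (gr.Om T k N).indicator (fun y => ‖c y‖ₑ) y + oT gr νs g c k N m (gr.dep T k N) y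
  have m1 : Measurable ((gr.Om T k N).indicator fun y => ‖c y‖ₑ) :=
    mc.enorm.indicator (Grid.Om_meas N)
  have mY : Measurable Y := m1.add (oT_meas D mc hk _)
  set F : ℕ → E → ℝ≥0∞ := fun j => {y | j ≤ gr.dep T k N y + 1 ∧ gr.dep T k N y ≤ j + 1}.indicator Y
  have mF : ∀ j, Measurable (F j) := fun j => mY.indicator
    (Grid.dep_meas hh (MeasurableSet.of_discrete (s := {n | j ≤ n + 1 ∧ n ≤ j + 1})))
  calc _ ≤ ∑' p : ℕ × ι, ∫⁻ y in gr.nb p.1 p.2 6, F p.1 y ∂μ := by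
        refine ENNReal.tsum_le_tsum fun p => indicator_apply_le' (fun hp => ?_) (fun _ => zero_le)
        obtain ⟨j, n⟩ := p
        obtain ⟨h1, y', e1, h2, e2⟩ := hp
        simp only at e1 e2
        subst e1 e2
        refine setLIntegral_mono' (gr.nb_meas _ _ _) fun y hy => ?_
        obtain ⟨z, z1, z2⟩ := gr.mem_nb.1 hy
        simp only at h1 z1 z2 hy ⊢
        have a1 := Grid.lt_dep (T := T) (g := gr) hh hk y'
        have a0 := Grid.lt_dep (T := T) (g := gr) hh hk y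
        set j := gr.dep T k N y' with hj
        have a2 : gr.dep T k N y ≤ j + 1 := by
          by_contra hc
          exact lt_irrefl j ((Grid.dep_congr hh z1 le_rfl).1 (Grid.depW hh (not_le.1 hc)
            (by rw [dist_comm]; exact z2.le)))
        have a3 : j ≤ gr.dep T k N y + 1 := by
          by_contra hc
          have := (Grid.dep_congr (T := T) (k := k) (N := N) hh z1
            (l := gr.dep T k N y + 1) (by omega)).2 (by omega)
          exact lt_irrefl _ (Grid.depW hh this (z2.le.trans (by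
            linarith [(sc_anti hh).antitone (show gr.dep T k N y ≤ j by omega)])))
        simp only [F, Y]
        rw [indicator_of_mem (show y ∈ {y | j ≤ gr.dep T k N y + 1 ∧ gr.dep T k N y ≤ j + 1} from
          ⟨a3, a2⟩), indicator_of_mem (Grid.dead_sub hh h1 (gr.mem_nb.2 ⟨z, z1, z2.trans_le
            (by linarith [sc_pos hh j])⟩)), ← add_sub_cancel (c y) (νs j y)]
        exact (enorm_add_le _ _).trans (add_le_add le_rfl ((res_le hh D a1.le (by omega)
          (j := j - 1) (by omega) h2 hy).trans (ot_le_oT hh hk (by omega) (by omega))))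
    _ ≤ ∑' j, N₀ * ∫⁻ y, F j y ∂μ := by
        rw [ENNReal.tsum_prod']
        exact ENNReal.tsum_le_tsum fun j => gr.tsum_lintegral_nb μ j (mF j)
    _ ≤ N₀ * ∫⁻ y, 3 * Y y ∂μ := by
        rw [ENNReal.tsum_mul_left, ← lintegral_tsum fun j => (mF j).aemeasurable]
        refine mul_le_mul_right (lintegral_mono fun y => ?_) _
        rw [tsum_eq_sum (s := Finset.Icc (gr.dep T k N y - 1) (gr.dep T k N y + 1)) fun j hj =>
          indicator_of_notMem (fun hc => hj (Finset.mem_Icc.2 ⟨by have := hc.2; omega, hc.1⟩)) _]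
        refine (Finset.sum_le_card_nsmul _ _ (Y y) fun j _ => indicator_le_self _ _ y).trans ?_
        rw [nsmul_eq_mul, Nat.card_Icc]
        exact mul_le_mul_left (by exact_mod_cast (by omega)) _
    _ = _ := by
        rw [lintegral_const_mul _ mY, lintegral_add_left m1, lintegral_indicator (Grid.Om_meas N)]
        ring

lemma oT_int (D : Dec μ gr ε δ (N + 1) νs b g) (mc : Measurable c) (hk : k ≤ N) (P : E → ℕ) :
    ∫⁻ y, oT gr νs g c k N m P y ∂μ ≤ ∫⁻ y in gr.nb k m 6, ‖νs k y - c y‖ₑ ∂μ +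
      ∑' p, (OA gr k m P).indicator (bud μ gr g N) p := by
  simp only [oT]
  rw [lintegral_add_left (o0_meas D mc hk), o0, lintegral_indicator (gr.nb_meas _ _ _),
    lintegral_finsetSum _ fun _ hl => Measurable.tsum (oT_term_meas D hl _),
    Finset.sum_congr rfl fun _ hl => lintegral_tsum fun p => (oT_term_meas D hl _ p).aemeasurable,
    ← Summable.tsum_finsetSum fun _ _ => ENNReal.summable]
  refine add_le_add le_rfl (ENNReal.tsum_le_tsum fun p => ?_)
  by_cases hp : p ∈ OA gr k m P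
  · rw [indicator_of_mem hp, bud, ← Finset.sum_subset (s₁ := Finset.Ico p.1 (N + 1))
      (Finset.Ico_subset_Ico_left hp.1) fun l h1 h2 => ?_]
    · refine Finset.sum_le_sum fun l hl => ?_
      by_cases hc : p ∈ OA gr k m P ∩ {p | p.1 ≤ l ∧ l ≤ p.1 + (G + 4)}
      · simp only [indicator_of_mem hc]
        rw [lintegral_indicator (gr.nb_meas _ _ _)]
        exact le_mul_of_one_le_left' (Dw_ge (by have := hc.2.2; omega))
      · simp [indicator_of_notMem hc]
    · have hc : p ∉ OA gr k m P ∩ {p | p.1 ≤ l ∧ l ≤ p.1 + (G + 4)} := fun hc =>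
        h2 (Finset.mem_Ico.2 ⟨hc.2.1, (Finset.mem_Ico.1 h1).2⟩)
      simp [indicator_of_notMem hc]
  · have hc : ∀ l, p ∉ OA gr k m P ∩ {p | p.1 ≤ l ∧ l ≤ p.1 + (G + 4)} := fun l hc => hp hc.1
    simp [indicator_of_notMem (hc _)]

lemma res_sum (hh : 0 < h) (D : Dec μ gr ε δ (N + 1) νs b g) (mc : Measurable c) (hk : k ≤ N) :
    ∑' p, (OA gr k m (gr.dep T k N)).indicator (fun p => ∫⁻ y in gr.nb p.1 p.2 6,
      ‖νs p.1 y - c y‖ₑ * Dw G (gr.dep T k N y - p.1) ∂μ) p ≤
      N₀ * ((∑' n, Dw G n) * ∫⁻ y, oT gr νs g c k N m (gr.dep T k N) y ∂μ) := by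
  set F : ℕ → E → ℝ≥0∞ := fun i y => (if i ≤ gr.dep T k N y then Dw G (gr.dep T k N y - i) else 0) *
    oT gr νs g c k N m (gr.dep T k N) y
  have mF : ∀ i, Measurable (F i) := fun i => ((measurable_from_nat (f := fun n =>
    if i ≤ n then Dw G (n - i) else 0)).comp (Grid.dep_meas hh)).mul (oT_meas D mc hk _)
  calc _ ≤ ∑' p : ℕ × ι, ∫⁻ y in gr.nb p.1 p.2 6, F p.1 y ∂μ := by
        refine ENNReal.tsum_le_tsum fun p => indicator_apply_le' (fun hp => ?_) (fun _ => zero_le)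
        obtain ⟨i, n⟩ := p
        obtain ⟨h1, y', e1, h2, h3⟩ := hp
        simp only at e1
        subst e1
        refine setLIntegral_mono' (gr.nb_meas _ _ _) fun y hy => ?_
        obtain ⟨z, z1, z2⟩ := gr.mem_nb.1 hy
        simp only at h1 z1 z2 hy h3 ⊢
        have a0 := Grid.lt_dep (T := T) (g := gr) hh hk y
        have a1 := Grid.dep_le (T := T) (g := gr) (k := k) (N := N) hh y'
        have a3 : i ≤ gr.dep T k N y := by
          by_contra hc
          have := (Grid.dep_congr (T := T) (k := k) (N := N) hh z1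
            (l := gr.dep T k N y + 1) (by omega)).2 (by omega)
          exact lt_irrefl _ (Grid.depW hh this (z2.le.trans (by
            linarith [(sc_anti hh).antitone (show gr.dep T k N y ≤ i by omega)])))
        simp only [F, if_pos a3]
        rw [mul_comm]
        exact mul_le_mul_right ((res_le hh D h1 (by omega) (j := i - 1) (by omega) h2 hy).trans
          (ot_le_oT hh hk (by omega) (by omega))) _
    _ ≤ ∑' j, N₀ * ∫⁻ y, F j y ∂μ := by
        rw [ENNReal.tsum_prod']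
        exact ENNReal.tsum_le_tsum fun j => gr.tsum_lintegral_nb μ j (mF j)
    _ ≤ _ := by
        rw [ENNReal.tsum_mul_left, ← lintegral_tsum fun j => (mF j).aemeasurable,
          ← lintegral_const_mul _ (oT_meas D mc hk _)]
        refine mul_le_mul_right (lintegral_mono fun y => ?_) _
        simp only [F, ENNReal.tsum_mul_right]
        exact mul_le_mul_left (tsum_rev _ _) _

end Vale.Agent.P137
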