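import Vale.Agent.P137.CTree2

open MeasureTheory Metric Set Filter
open scoped ENNReal Topology RealInnerProductSpace

set_option linter.unusedSectionVars false

namespace Vale.Agent.P137

variable {E : Type} [NormedAddCommGroup E] [InnerProductSpace ℝ E] [FiniteDimensional ℝ E]
  [MeasurableSpace E] [BorelSpace E] {μ : Measure E} [μ.IsAddHaarMeasure]
  {A ι : Type} [Countable ι] [Fintype A] {G N₀ : ℕ} {h ε δ : ℝ} {gr : Grid E A ι G N₀ h}
  {νs b : ℕ → E → E} {g : ℕ → E → ℝ} {c : E → E} {k N : ℕ} {m : ι}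

lemma ofReal_int_mul {f k : E → ℝ} (mf : Measurable f) (mk : Measurable k) (f0 : ∀ y, 0 ≤ f y)
    (k0 : ∀ y, 0 ≤ k y) (hi : Integrable (fun y => f y * k y) μ) :
    ENNReal.ofReal (∫ y, f y * k y ∂μ) =
      ∫⁻ t in Ioi (0 : ℝ), (μ.withDensity fun y => ENNReal.ofReal (f y)) {a | t < k a} := by
  rw [← lintegral_eq_lintegral_meas_lt _ (Eventually.of_forall k0) mk.aemeasurable,
    lintegral_withDensity_eq_lintegral_mul _ mf.ennreal_ofReal mk.ennreal_ofReal,
    ofReal_integral_eq_lintegral_ofReal hi (Eventually.of_forall fun y => mul_nonneg (f0 y) (k0 y))]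
  exact lintegral_congr fun y => ENNReal.ofReal_mul (f0 y)

lemma absorb (hh : 0 < h) (D : Dec μ gr ε δ (N + 1) νs b g) (hc : Integrable c μ)
    (mc : Measurable c) {τ : ℝ≥0∞} (hτ : Fintype.card A * τ ≤ ENNReal.ofReal (1 / 1000))
    {i : ℕ} {y' : E} (h1 : k ≤ i) (h2 : i ≤ N) (h3 : gr.idx gr.a0 k y' = m) (n : ℕ) (Λ : ℝ)
    (K : E → E) (hn : i + (G + 30) ≤ n) (a1 : 0 ≤ Λ) (a2 : ∀ y z, ‖K y - K z‖ ≤ Λ * ‖y - z‖)
    (a3 : ∃ M, ∀ y, ‖K y‖ ≤ M) :
    ∫ y, (if n ≤ gr.dep (trig μ gr νs g c k m τ) k N y then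
        (gr.nb i (gr.idx gr.a0 i y') 6).indicator (fun y => ‖νs i y - c y‖) y * ‖K y‖ else 0) ∂μ ≤
      1 / 1000 * ∫ y, ‖c y‖ * ‖K y‖ ∂μ + Λ * ∫ y, fin' G h ((gr.nb i (gr.idx gr.a0 i y') 6).indicator
        fun y => ‖νs i y - c y‖) (gr.dep (trig μ gr νs g c k m τ) k N) n y ∂μ := by
  set P := gr.dep (trig μ gr νs g c k m τ) k N with hP
  set o := (gr.nb i (gr.idx gr.a0 i y') 6).indicator fun y => ‖νs i y - c y‖ with ho
  have mP : Measurable P := Grid.dep_meas hh
  have mL := gr.nb_meas i (gr.idx gr.a0 i y') 6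
  have io : Integrable o μ := ((D.int i (by omega)).sub hc).norm.indicator mL
  have mo : Measurable o := ((D.meas i (by omega)).sub mc).norm.indicator mL
  have o0 : ∀ y, 0 ≤ o y := fun y => indicator_nonneg (fun _ _ => norm_nonneg _) y
  have hK : Continuous K := (LipschitzWith.of_dist_le_mul (K := ⟨Λ, a1⟩) fun z w => by
    rw [dist_eq_norm, dist_eq_norm]; exact a2 z w).continuous
  set k' := fun y => if n ≤ P y then max (‖K y‖ - Λ * (3 ^ (G + 4) * sc h (P y))) 0 else 0 with hk'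
  have mk : Measurable k' := Measurable.ite (mP (MeasurableSet.of_discrete (s := {j | n ≤ j})))
    ((hK.norm.measurable.sub ((((measurable_from_nat (f := sc h)).comp mP).const_mul _).const_mul
      _)).max measurable_const) measurable_const
  have k0 : ∀ y, 0 ≤ k' y := fun y => by
    simp only [hk']; split_ifs; exacts [le_max_right _ _, le_rfl]
  have k1 : ∀ y, k' y ≤ ‖K y‖ := fun y => by
    have := sc_pos hh (P y)
    simp only [hk']; split_ifs
    exacts [max_le (sub_le_self _ (by positivity)) (norm_nonneg _), norm_nonneg _]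
  have i1 : Integrable (fun y => o y * k' y) μ := (lipK_int' ⟨hK, a3⟩ io).mono'
    (mo.mul mk).aestronglyMeasurable (Eventually.of_forall fun y => by
      rw [Real.norm_of_nonneg (mul_nonneg (o0 y) (k0 y))]
      exact mul_le_mul_of_nonneg_left (k1 y) (o0 y))
  have i2 := (fin_int (G := G) hh io mP n).const_mul Λ
  have e1 : ∫ y, (if n ≤ P y then o y * ‖K y‖ else 0) ∂μ ≤
      ∫ y, o y * k' y ∂μ + Λ * ∫ y, fin' G h o P n y ∂μ := by
    rw [← integral_const_mul, ← integral_add i1 i2]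
    refine integral_mono_of_nonneg (Eventually.of_forall fun y => ?_) (i1.add i2)
      (Eventually.of_forall fun y => ?_)
    · dsimp only
      split_ifs
      exacts [mul_nonneg (o0 y) (norm_nonneg _), le_rfl]
    · simp only [hk', fin']
      split_ifs
      · nlinarith [mul_le_mul_of_nonneg_left
          (le_max_left (‖K y‖ - Λ * (3 ^ (G + 4) * sc h (P y))) 0) (o0 y)]
      · simp
  refine e1.trans (add_le_add ?_ le_rfl)
  have i3 := lipK_int' ⟨hK, a3⟩ hc.norm
  rw [← ENNReal.ofReal_le_ofReal_iff (mul_nonneg (by norm_num) (integral_nonneg fun y =>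
    mul_nonneg (norm_nonneg _) (norm_nonneg _))), ENNReal.ofReal_mul (by norm_num),
    ofReal_int_mul mo mk o0 k0 i1, ofReal_int_mul mc.norm hK.norm.measurable
      (fun _ => norm_nonneg _) (fun _ => norm_nonneg _) i3,
    ← lintegral_const_mul' _ _ ENNReal.ofReal_ne_top]
  refine setLIntegral_mono' measurableSet_Ioi fun t ht => ?_
  refine le_trans ?_ (mul_le_mul_left hτ _)
  rw [mul_assoc]
  refine gr.cover_le _ (τ • μ.withDensity fun y => ENNReal.ofReal ‖c y‖) (fun α j q =>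
    (μ.withDensity fun y => ENNReal.ofReal (o y)) {y | gr.idx α j y = q} ≤
      (τ • μ.withDensity fun y => ENNReal.ofReal ‖c y‖) {y | gr.idx α j y = q} ∧
    ∀ y, gr.idx α j y = q → t < ‖K y‖) (N + 2) (fun _ _ _ h => h.1) (fun y hy => ?_)
    fun α j y hy => hy.2 y rfl
  have b1 : n ≤ P y := by
    by_contra hc
    simp only [hk', mem_ofPred_eq, if_neg hc] at hy
    exact lt_asymm hy ht
  simp only [hk', mem_ofPred_eq, if_pos b1, lt_max_iff] at hy
  have b2 := hy.resolve_right (lt_asymm ht)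
  have b3 : P y ≤ N + 1 := Grid.dep_le hh y
  obtain ⟨j, hj⟩ : ∃ j, P y = j + (G + 4) := ⟨P y - (G + 4), by omega⟩
  obtain ⟨α, hα⟩ := Grid.absorb_cube (g := gr) (T := trig μ gr νs g c k m τ) (k := k) (N := N) hh
    (i := j) (y := y) (by omega) (by rw [← hP]; omega)
  refine ⟨α, j, by omega, ?_, fun w hw => ?_⟩
  · rw [Measure.smul_apply, withDensity_apply _ (gr.meas _ _ _), withDensity_apply _ (gr.meas _ _ _)]
    simp only [ofReal_norm]
    refine le_trans (lintegral_mono fun w => ?_) (not_lt.1 hα)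
    by_cases hw : w ∈ gr.nb i (gr.idx gr.a0 i y') 6
    · rw [ho, indicator_of_mem hw, ofReal_norm]
      exact res_le hh D h1 (by omega) (by omega) h3 hw
    · simp [ho, hw]
  · have c1 := gr.diam _ _ _ _ hw
    have c2 := a2 y w
    have c3 := norm_sub_norm_le (K y) (K w)
    rw [hj, ← sc_add] at b2
    rw [dist_comm, dist_eq_norm] at c1
    nlinarith

variable (gr νs k m) in
/-- aligned part -/
noncomputable def cTr (e : E) : E → E :=
  (gr.nb k m 6 ∩ {y | 9 / 10 * ‖νs k y‖ ≤ ⟪e, νs k y⟫}).indicator (νs k)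

lemma cTr_set (mν : Measurable (νs k)) (e : E) :
    MeasurableSet (gr.nb k m 6 ∩ {y | 9 / 10 * ‖νs k y‖ ≤ ⟪e, νs k y⟫}) :=
  (gr.nb_meas _ _ _).inter (measurableSet_le (mν.norm.const_mul _) (by fun_prop))

lemma cTr_align (e y : E) : 9 / 10 * ‖cTr gr νs k m e y‖ ≤ ⟪e, cTr gr νs k m e y⟫ := by
  by_cases hy : y ∈ gr.nb k m 6 ∩ {y | 9 / 10 * ‖νs k y‖ ≤ ⟪e, νs k y⟫}
  · rw [cTr, indicator_of_mem hy]; exact hy.2
  · simp [cTr, indicator_of_notMem hy]

lemma exists_dir [Nontrivial E] (a : E) : ∃ e : E, ‖e‖ = 1 ∧ ⟪e, a⟫ = ‖a‖ := by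
  by_cases ha : a = 0
  · obtain ⟨e, he⟩ := exists_norm_eq E zero_le_one
    exact ⟨e, he, by simp [ha]⟩
  · have := norm_ne_zero_iff.2 ha
    refine ⟨‖a‖⁻¹ • a, by rw [norm_smul, norm_inv, norm_norm, inv_mul_cancel₀ this], ?_⟩
    rw [real_inner_smul_left, real_inner_self_eq_norm_mul_norm]
    field_simp

lemma o0_le (hν : Integrable (νs k) μ) (mν : Measurable (νs k)) {e : E} (he : ‖e‖ = 1)
    (he' : ⟪e, ∫ y in gr.nb k m 6, νs k y ∂μ⟫ = ‖∫ y in gr.nb k m 6, νs k y ∂μ‖) (hε : 0 ≤ ε) :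
    ∫⁻ y in gr.nb k m 6, ‖νs k y - cTr gr νs k m e y‖ₑ ∂μ ≤
      10 * (ENNReal.ofReal ε * ∫⁻ y in gr.nb k m 6, ‖νs k y‖ₑ ∂μ +
        ENNReal.ofReal ((1 - ε) * ∫ y in gr.nb k m 6, ‖νs k y‖ ∂μ -
          ‖∫ y in gr.nb k m 6, νs k y ∂μ‖)) := by
  have i1 : IntegrableOn (fun y => νs k y - cTr gr νs k m e y) (gr.nb k m 6) μ :=
    (hν.sub (hν.indicator (cTr_set mν e))).integrableOn
  have i2 : IntegrableOn (fun y => ⟪e, νs k y⟫) (gr.nb k m 6) μ := (hν.const_inner e).integrableOn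
  rw [← ofReal_integral_norm_eq_lintegral_enorm i1,
    ← ofReal_integral_norm_eq_lintegral_enorm hν.integrableOn, ← ENNReal.ofReal_mul hε]
  refine le_trans ?_ (mul_le_mul_right ENNReal.ofReal_add_le _)
  rw [← ENNReal.ofReal_ofNat, ← ENNReal.ofReal_mul (by norm_num)]
  refine ENNReal.ofReal_le_ofReal (le_trans (setIntegral_mono_on i1.norm
    ((hν.norm.integrableOn.sub i2).const_mul 10) (gr.nb_meas _ _ _) fun y hy => ?_) (le_of_eq ?_))
  · have := (abs_le.1 (abs_real_inner_le_norm e (νs k y))).2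
    rw [he, one_mul] at this
    by_cases hc : 9 / 10 * ‖νs k y‖ ≤ ⟪e, νs k y⟫
    · rw [cTr, indicator_of_mem (show y ∈ gr.nb k m 6 ∩ {y | 9 / 10 * ‖νs k y‖ ≤ ⟪e, νs k y⟫} from
        ⟨hy, hc⟩), sub_self, norm_zero]
      simp only [Pi.sub_apply]
      linarith
    · rw [cTr, indicator_of_notMem (fun h => hc h.2), sub_zero]
      simp only [Pi.sub_apply]
      linarith [not_le.1 hc]
  · simp only [Pi.sub_apply]
    rw [integral_const_mul, integral_sub hν.norm.integrableOn i2, integral_inner hν.integrableOn, he']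
    ring

end Vale.Agent.P137
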