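import Vale.Agent.P137.CTree3
import Vale.Agent.P137.CSup

open MeasureTheory Metric Set Filter
open scoped ENNReal Topology RealInnerProductSpace

set_option linter.unusedSectionVars false

namespace Vale.Agent.P137

variable {E : Type} [NormedAddCommGroup E] [InnerProductSpace ℝ E] [FiniteDimensional ℝ E]
  [MeasurableSpace E] [BorelSpace E] {μ : Measure E} [μ.IsAddHaarMeasure]
  {A ι : Type} [Countable ι] [Fintype A] {G N₀ : ℕ} {h ε δ : ℝ} {gr : Grid E A ι G N₀ h}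
  {νs b : ℕ → E → E} {g : ℕ → E → ℝ} {c : E → E} {k N : ℕ} {m : ι}

lemma div_ball {a t r : ℝ} {X : ℝ≥0∞} (ht : 0 < t) (htr : t ≤ r) (h : ENNReal.ofReal a ≤ X) :
    ENNReal.ofReal (a / μ.real (ball (0 : E) r)) ≤ (μ (ball (0 : E) t))⁻¹ * X := by
  rw [ENNReal.ofReal_div_of_pos (real_ball_pos 0 (ht.trans_le htr)),
    ofReal_measureReal measure_ball_lt_top.ne, ENNReal.div_eq_inv_mul]
  gcongr

lemma inv_ball {t : ℝ} (ht : 0 < t) (K S : ℝ≥0∞) :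
    (μ (ball (0 : E) t))⁻¹ * (K * μ (ball (0 : E) t) * S) = K * S := by
  rw [mul_right_comm, mul_comm, mul_assoc,
    ENNReal.mul_inv_cancel (measure_ball_pos μ 0 ht).ne' measure_ball_lt_top.ne, mul_one]

lemma exists_scale (hh : 0 < h) {r : ℝ} (h1 : sc h N ≤ r) (h2 : r < sc h k) :
    ∃ i, sc h (i + 1) ≤ r ∧ r < sc h i ∧ k ≤ i := by
  classical
  have hex : ∃ j, sc h j ≤ r := ⟨N, h1⟩
  have a1 := Nat.find_spec hex
  have a2 : k < Nat.find hex := (sc_anti hh).lt_iff_gt.1 (a1.trans_lt h2)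
  obtain ⟨i, hi⟩ : ∃ i, Nat.find hex = i + 1 := ⟨Nat.find hex - 1, by omega⟩
  exact ⟨i, hi ▸ a1, not_le.1 (Nat.find_min hex (by omega)), by omega⟩

variable (gr k N m) in
/-- lower radius of a tree -/
noncomputable def lo (P : E → ℕ) (x : E) : ℝ :=
  min (sc h k) (max (sc h N) (⨅ z : gr.cube k m, (sc h (P z) + ‖x - z‖ / 3)))

lemma lo_bdd (hh : 0 < h) (P : E → ℕ) (x : E) :
    BddBelow (range fun z : gr.cube k m => sc h (P z) + ‖x - z‖ / 3) :=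
  ⟨0, by rintro _ ⟨z, rfl⟩; have := sc_pos hh (P z); positivity⟩

lemma lo_mem (hh : 0 < h) (hk : k ≤ N) (P : E → ℕ) (x : E) :
    lo gr k N m P x ∈ Icc (sc h N) (sc h k) :=
  ⟨le_min ((sc_anti hh).antitone hk) (le_max_left _ _), min_le_left _ _⟩

lemma lo_lip (hh : 0 < h) {x₀ : E} (h0 : x₀ ∈ gr.cube k m) (P : E → ℕ) (x z : E) :
    lo gr k N m P x ≤ lo gr k N m P z + ‖x - z‖ / 2 := by
  have : Nonempty (gr.cube k m) := ⟨⟨x₀, h0⟩⟩
  have a : ⨅ w : gr.cube k m, (sc h (P w) + ‖x - w‖ / 3) ≤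
      (⨅ w : gr.cube k m, (sc h (P w) + ‖z - w‖ / 3)) + ‖x - z‖ / 2 := by
    rw [← sub_le_iff_le_add]
    refine le_ciInf fun w => ?_
    linarith [ciInf_le (lo_bdd hh P x) w, norm_sub_le_norm_sub_add_norm_sub x z w,
      norm_nonneg (x - z)]
  rw [lo, lo, ← min_add_add_right, ← max_add_add_right]
  have := norm_nonneg (x - z)
  gcongr <;> linarith

lemma lo_out {x₀ : E} (h0 : x₀ ∈ gr.cube k m) (hh : 0 < h) (P : E → ℕ) {x : E}
    (hx : x ∉ gr.nb k m 3) : lo gr k N m P x = sc h k := by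
  have : Nonempty (gr.cube k m) := ⟨⟨x₀, h0⟩⟩
  refine min_eq_left (le_max_of_le_right (le_ciInf fun w => ?_))
  have := not_lt.1 fun hc => hx (gr.mem_nb.2 ⟨w, w.2, hc⟩)
  rw [dist_eq_norm] at this
  linarith [sc_pos hh (P w)]

lemma lo_lt {x₀ : E} (h0 : x₀ ∈ gr.cube k m) (hh : 0 < h) (P : E → ℕ) {x : E} {r : ℝ}
    (hr : r ∈ Ico (lo gr k N m P x) (sc h k)) : ∃ p ∈ OA gr k m P, x ∈ gr.nb p.1 p.2 3 ∧
      sc h (p.1 + 1) ≤ r ∧ r ≤ sc h p.1 := by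
  have : Nonempty (gr.cube k m) := ⟨⟨x₀, h0⟩⟩
  obtain ⟨a1, a2⟩ := max_le_iff.1 ((min_le_iff.1 hr.1).resolve_left (not_le.2 hr.2))
  obtain ⟨i, b1, b2, b3⟩ := exists_scale hh a1 hr.2
  obtain ⟨w, hw⟩ := exists_lt_of_ciInf_lt (a2.trans_lt b2)
  refine ⟨(i, gr.idx gr.a0 i w), ⟨b3, w, rfl, w.2, (sc_anti hh).lt_iff_gt.1 ?_⟩,
    gr.mem_nb.2 ⟨w, rfl, ?_⟩, b1, b2.le⟩
  · linarith [norm_nonneg (x - w)]
  · rw [dist_eq_norm]; linarith [sc_pos hh (P w)]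

lemma lt_lo (hh : 0 < h) (P : E → ℕ) {x : E} (hx : x ∈ gr.cube k m) {r : ℝ} (h1 : sc h N ≤ r)
    (h2 : r < lo gr k N m P x) : P x ≤ N ∧ r ≤ sc h (P x) := by
  have a := (lt_max_iff.1 (lt_min_iff.1 h2).2).resolve_left (not_lt.2 h1)
  have b := ciInf_le (lo_bdd hh P x) ⟨x, hx⟩
  simp only [sub_self, norm_zero, zero_div, add_zero] at b
  exact ⟨((sc_anti hh).lt_iff_gt.1 (h1.trans_lt (a.trans_le b))).le, (a.trans_le b).le⟩

variable (μ A ι G N₀) in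
theorem tree_cost : ∃ K : ℝ≥0∞, K ≠ ∞ ∧ ∀ (h ε δ : ℝ) (gr : Grid E A ι G N₀ h) (N k : ℕ) (m : ι)
    (νs b : ℕ → E → E) (g : ℕ → E → ℝ) (e x₀ : E) (τ : ℝ≥0∞) (a : E → ℝ → ℝ) (L : ℝ) (u : E → ℝ),
    0 < h → Dec μ gr ε δ (N + 1) νs b g → k ≤ N → x₀ ∈ gr.cube k m → ‖e‖ = 1 →
    Fintype.card A * τ ≤ ENNReal.ofReal (1 / 1000) → 0 ≤ L → JL a (sc h N) (sc h k) L →
    (∀ x ∈ gr.nb k m 3, St μ a (νs (N + 1)) x (sc h k)) → (∀ x, 0 ≤ u x) →
    ∀ P, P = gr.dep (trig μ gr νs g (cTr gr νs k m e) k m τ) k N →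
    (∀ x, u x = 0 ∨ (x ∈ gr.nb k m 3 ∧ ∃ r ∈ Icc (lo gr k N m P x) (sc h k),
      (∀ t ∈ Icc (lo gr k N m P x) (sc h k), a x t ≤ a x r) ∧
      u x ≤ ‖aa μ (νs (N + 1)) x r‖ / μ.real (ball (0 : E) r))) →
    ∫⁻ x, ENNReal.ofReal (u x) ∂μ ≤ K * (∫⁻ y in gr.nb k m 6, ‖νs k y‖ₑ ∂μ +
      ∫⁻ y, oT gr νs g (cTr gr νs k m e) k N m P y ∂μ +
        ∑' p, (OA gr k m P).indicator (bud μ gr g N) p) := by
  obtain ⟨C, C0, hC⟩ := build μ A ι G N₀
  refine ⟨ENNReal.ofReal C * (252 * (N₀ + 1) * (∑' n, Dw G n + 1)), ENNReal.mul_ne_top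
    ENNReal.ofReal_ne_top (ENNReal.mul_ne_top (ENNReal.mul_ne_top (by simp) (by simp))
      (by simp [Dw_sum])),
    fun h ε δ gr N k m νs b g e x₀ τ a L u hh D hk h0 he hτ hL hA hSt u0 P hP hu => ?_⟩
  set c := cTr gr νs k m e with hc
  have mν := D.meas k (by omega)
  have ic : Integrable c μ := (D.int k (by omega)).indicator (cTr_set mν e)
  have mc : Measurable c := mν.indicator (cTr_set mν e)
  have mP : Measurable P := hP ▸ Grid.dep_meas hh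
  have lc : ∀ x z : E, sc h k ≤ sc h k + ‖x - z‖ / 2 := fun x z => by linarith [norm_nonneg (x - z)]
  obtain ⟨E₀, a1, a2, a3⟩ := hC h ε δ gr N k m νs b g (fun _ => 0) e (fun _ => k) (fun _ => sc h k)
    (fun _ => sc h k) x₀ hh D hk h0 (integrable_zero _ _ _) measurable_const measurable_const he
    (by simp) lc lc fun n Λ K h1 h2 _ _ => by
      simp [fin', show ¬ n ≤ k by omega]
  have : ∀ p : ℕ × ι, ∃ Err : E → ℝ≥0∞, Measurable Err ∧ (p ∈ OA gr k m P →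
      ∫⁻ x, Err x ∂μ ≤ ENNReal.ofReal C * μ (ball (0 : E) (sc h (p.1 + 1))) *
        (∫⁻ y in gr.nb p.1 p.2 6, ‖νs p.1 y - c y‖ₑ * Dw G (P y - p.1) ∂μ + bud μ gr g N p) ∧
      ∀ x r, x ∈ gr.nb k m 3 → x ∈ gr.nb p.1 p.2 3 → sc h (p.1 + 1) ≤ r → r ≤ sc h p.1 →
        r ∈ Ico (lo gr k N m P x) (sc h k) → (∀ t ∈ Icc (lo gr k N m P x) (sc h k), a x t ≤ a x r) →
        ENNReal.ofReal (‖aa μ (νs (N + 1)) x r‖ - 250 * (⟪e, aa μ (νs (N + 1)) x r⟫ +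
          1 / 2 * ps μ (νs (N + 1)) x r / r)) ≤ Err x) := by
    intro p
    by_cases hp : p ∈ OA gr k m P
    · obtain ⟨b1, y, b2, b3, b4⟩ := hp
      have b5 : p.1 ≤ N := by
        have := Grid.dep_le (g := gr) (T := trig μ gr νs g c k m τ) (k := k) (N := N) hh y
        rw [← hP] at this
        omega
      obtain ⟨Err, c1, c2, c3⟩ := hC h ε δ gr N p.1 p.2 νs b g c e P (lo gr k N m P)
        (fun _ => sc h k) y hh D b5 b2 ic mc mP he (cTr_align e) (lo_lip hh h0 P) lc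
        (by rw [← b2, hP]; exact absorb hh D ic mc hτ b1 b5 b3)
      exact ⟨Err, c1, fun _ => ⟨c2, fun x r d0 d1 d2 d3 d4 d5 => (c3 a x r _ d1 d2 d3 d4.1 d4.2.le
        le_rfl (hSt x d0) fun t t1 t2 => d5 t ⟨t1, t2⟩).1⟩⟩
    · exact ⟨0, measurable_zero, fun h => absurd h hp⟩
  choose Er e1 e2 using this
  have m2 : ∀ p, Measurable fun x => (OA gr k m P).indicator
      (fun p => (μ (ball (0 : E) (sc h (p.1 + 1))))⁻¹ * Er p x) p := fun p => by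
    by_cases hp : p ∈ OA gr k m P
    · simpa only [indicator_of_mem hp] using (e1 p).const_mul _
    · simp only [indicator_of_notMem hp, measurable_const]
  have top : ∀ x ∈ gr.nb k m 3, ENNReal.ofReal (‖aa μ (νs (N + 1)) x (sc h k)‖ /
      μ.real (ball (0 : E) (sc h k))) ≤ (μ (ball (0 : E) (sc h (k + 1))))⁻¹ * E₀ x := fun x hx => by
    have s1 := (sc_anti hh).antitone k.le_succ
    refine div_ball (sc_pos hh _) s1 ?_
    simpa using (a3 a x _ _ hx s1 le_rfl le_rfl le_rfl le_rfl (hSt x hx)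
      fun t t1 t2 => by rw [le_antisymm t2 t1]).2
  refine (sup_cancel hL (sc_pos hh N) hA (lo_mem hh hk P) (lo_lip hh h0 P) (x₀ := x₀)
    (fun x hx => gr.nb_diam hx (gr.mem_nb.2 ⟨x₀, h0, by rw [dist_self]; linarith [sc_pos hh k]⟩))
    (fun x hx => lo_out h0 hh P hx) hSt he (C := 250) (by norm_num) u0
    (P := fun x => 251 * ((μ (ball (0 : E) (sc h (k + 1))))⁻¹ * E₀ x) + ∑' p, (OA gr k m P).indicator
      (fun p => (μ (ball (0 : E) (sc h (p.1 + 1))))⁻¹ * Er p x) p) hu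
    (fun x hx => (top x hx).trans (le_add_right (le_mul_of_one_le_left' (by norm_num))))
    fun x hx r hr hopt => ?_).trans ?_
  · obtain ⟨p, p1, p2, p3, p4⟩ := lo_lt h0 hh P hr
    refine ENNReal.ofReal_add_le.trans ?_
    rw [add_comm, ENNReal.ofReal_mul (by norm_num)]
    refine add_le_add (mul_le_mul' (by norm_num) (top x hx)) (le_trans ?_ (ENNReal.le_tsum p))
    rw [indicator_of_mem p1]
    exact div_ball (sc_pos hh _) p3 ((e2 p p1).2 x r hx p2 p3 p4 hr hopt)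
  rw [lintegral_add_left ((a1.const_mul _).const_mul _), lintegral_const_mul _ (a1.const_mul _),
    lintegral_const_mul _ a1, lintegral_tsum fun p => (m2 p).aemeasurable]
  set X := ∫⁻ y in gr.nb k m 6, ‖νs k y‖ₑ ∂μ
  set Y := ∫⁻ y, oT gr νs g c k N m P y ∂μ with hY
  set Z := ∑' p, (OA gr k m P).indicator (bud μ gr g N) p
  set S := ∑' n, Dw G n
  have f1 : (μ (ball (0 : E) (sc h (k + 1))))⁻¹ * ∫⁻ x, E₀ x ∂μ ≤
      ENNReal.ofReal C * (X * S + Z) := by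
    refine (mul_le_mul_right a2 _).trans ?_
    rw [inv_ball (sc_pos hh _)]
    refine mul_le_mul_right (add_le_add ?_ (le_trans ?_ (ENNReal.le_tsum (k, m)))) _
    · simp only [sub_zero]
      rw [lintegral_mul_const _ mν.enorm]
      exact mul_le_mul_right (ENNReal.le_tsum _) _
    · rw [indicator_of_mem (show (k, m) ∈ OA gr k m P from
        ⟨le_rfl, x₀, h0, h0, hP ▸ Grid.lt_dep hh hk x₀⟩), bud]
  have f2 : ∑' p, ∫⁻ x, (OA gr k m P).indicator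
      (fun p => (μ (ball (0 : E) (sc h (p.1 + 1))))⁻¹ * Er p x) p ∂μ ≤
      ENNReal.ofReal C * (N₀ * (S * Y) + Z) := by
    refine le_trans ?_ (mul_le_mul_right (add_le_add (hP ▸ res_sum hh D mc hk) le_rfl) _)
    rw [← ENNReal.tsum_add, ← ENNReal.tsum_mul_left]
    refine ENNReal.tsum_le_tsum fun p => ?_
    by_cases hp : p ∈ OA gr k m P
    · simp only [indicator_of_mem hp]
      rw [lintegral_const_mul _ (e1 p)]
      exact (mul_le_mul_right (e2 p hp).1 _).trans (inv_ball (sc_pos hh _) _ _).le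
    · simp [indicator_of_notMem hp]
  refine (add_le_add (mul_le_mul_right f1 _) f2).trans ?_
  rw [mul_left_comm, ← mul_add, mul_assoc]
  refine mul_le_mul_right (le_iff_exists_add.2 ⟨X * S + 252 * X + 252 * N₀ * (S + 1) * X +
    251 * N₀ * S * Y + 252 * S * Y + 252 * (N₀ + 1) * Y + 252 * (N₀ * (S + 1) + S) * Z, ?_⟩) _
  ring

end Vale.Agent.P137
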