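import Vale.Agent.P137.Cell1

open MeasureTheory Metric Set Filter
open scoped ENNReal Topology

set_option linter.unusedSectionVars false

namespace Vale.Agent.P137

variable {E : Type*} [NormedAddCommGroup E] [NormedSpace ℝ E] [FiniteDimensional ℝ E]
  [MeasurableSpace E] [BorelSpace E] (μ : Measure E) [μ.IsAddHaarMeasure]

noncomputable def cA (p : E → ℝ) (ζ ρ₀ : ℝ) (z : E × E) : ℝ≥0∞ :=
  ⨆ (c : E) (r : ℝ) (_ : r ∈ Icc ρ₀ (ρ₀ + ζ) ∧ z ∈ ball c ζ ×ˢ ball c r),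
    ENNReal.ofReal (av μ p c r)

noncomputable def cLo (p : E → ℝ) (ζ ρ₀ : ℝ) (c₀ : E) : ℝ≥0∞ :=
  ⨅ (c : E) (r : ℝ) (l : ℝ) (_ : r ∈ Icc ρ₀ (ρ₀ + ζ) ∧ Good μ p c r l ∧ c₀ ∈ ball c ζ),
    ENNReal.ofReal l

noncomputable def cD (p : E → ℝ) (R : ℝ) (c₀ : E) : ℝ :=
  (∫ u in ball (0 : E) (8 * R), W μ p (8 * R) (c₀ + u) ∂μ) / (dl E * μ.real (ball (0 : E) R) ^ 2)

noncomputable def cF (p : E → ℝ) (R ρ₀ : ℝ) (z : E × E) : ℝ≥0∞ :=
  min (cA μ p (xi E * R / 4) ρ₀ z - cLo μ p (xi E * R / 4) ρ₀ z.1) (ENNReal.ofReal (cD μ p R z.1))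

noncomputable def cT (p : E → ℝ) (h R ρ₀ : ℝ) (x : E) : ℝ≥0∞ :=
  (μ (ball (0 : E) (xi E * R / 4)))⁻¹ *
    ∫⁻ c₀, (cF μ p R ρ₀ (c₀, c₀ + (1 + 2 * h / R)⁻¹ • (x - c₀)) - cF μ p R ρ₀ (c₀, x)) ∂μ

variable {μ}

lemma cA_measurable (p : E → ℝ) (ζ ρ₀ : ℝ) : Measurable (cA μ p ζ ρ₀) := by
  refine measurable_of_Ioi fun t => IsOpen.measurableSet ?_
  rw [isOpen_iff_mem_nhds]
  intro z hz
  simp only [mem_preimage, mem_Ioi, cA, lt_iSup_iff] at hz
  obtain ⟨c, r, ⟨h1, h2⟩, h3⟩ := hz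
  filter_upwards [(isOpen_ball.prod isOpen_ball).mem_nhds h2] with w hw
  simp only [mem_preimage, mem_Ioi, cA, lt_iSup_iff]
  exact ⟨c, r, ⟨h1, hw⟩, h3⟩

lemma cLo_measurable (p : E → ℝ) (ζ ρ₀ : ℝ) : Measurable (cLo μ p ζ ρ₀) := by
  refine measurable_of_Iio fun t => IsOpen.measurableSet ?_
  rw [isOpen_iff_mem_nhds]
  intro z hz
  simp only [mem_preimage, mem_Iio, cLo, iInf_lt_iff] at hz
  obtain ⟨c, r, l, ⟨h1, h2, h4⟩, h3⟩ := hz
  filter_upwards [isOpen_ball.mem_nhds h4] with w hw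
  simp only [mem_preimage, mem_Iio, cLo, iInf_lt_iff]
  exact ⟨c, r, l, ⟨h1, h2, hw⟩, h3⟩

lemma om_measurable {p : E → ℝ} (hm : Measurable p) :
    Measurable (fun z : E × E => om p z.1 z.2) := by
  unfold om
  have ha : Measurable (fun x : ℝ => |x|) := continuous_abs.measurable
  have h0 : Measurable (fun z : E × E => p z.1) := hm.comp measurable_fst
  have h1 : Measurable (fun z : E × E => p (z.1 - z.2)) := hm.comp (by fun_prop)
  have h2 : Measurable (fun z : E × E => p (z.1 + z.2)) := hm.comp (by fun_prop)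
  exact ((ha.comp (h0.sub h1)).add (ha.comp (h2.sub h0))).sub (ha.comp (h2.sub h1))

lemma W_measurable {p : E → ℝ} (hm : Measurable p) (ρ : ℝ) : Measurable (W μ p ρ) :=
  ((om_measurable hm).stronglyMeasurable.integral_prod_right'
    (ν := μ.restrict (ball (0 : E) ρ))).measurable

lemma cD_measurable {p : E → ℝ} (hm : Measurable p) (R : ℝ) : Measurable (cD μ p R) := by
  have : Measurable (fun z : E × E => W μ p (8 * R) (z.1 + z.2)) :=
    (W_measurable hm _).comp (by fun_prop)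
  exact (this.stronglyMeasurable.integral_prod_right'
    (ν := μ.restrict (ball (0 : E) (8 * R)))).measurable.div_const _

lemma cF_measurable {p : E → ℝ} (hm : Measurable p) (R ρ₀ : ℝ) : Measurable (cF μ p R ρ₀) :=
  ((cA_measurable p _ _).sub ((cLo_measurable p _ _).comp measurable_fst)).min
    (((cD_measurable hm R).comp measurable_fst).ennreal_ofReal)

lemma cT_integrand_measurable {p : E → ℝ} (hm : Measurable p) (h R ρ₀ : ℝ) :
    Measurable (fun z : E × E =>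
      cF μ p R ρ₀ (z.2, z.2 + (1 + 2 * h / R)⁻¹ • (z.1 - z.2)) - cF μ p R ρ₀ (z.2, z.1)) :=
  ((cF_measurable hm R ρ₀).comp (by fun_prop)).sub ((cF_measurable hm R ρ₀).comp (by fun_prop))

lemma cT_measurable {p : E → ℝ} (hm : Measurable p) (h R ρ₀ : ℝ) : Measurable (cT μ p h R ρ₀) :=
  (cT_integrand_measurable hm h R ρ₀).lintegral_prod_right'.const_mul _

lemma cD_eq (p : E → ℝ) (R : ℝ) (c₀ : E) : cD μ p R c₀ =
    (∫ b in ball c₀ (8 * R), W μ p (8 * R) b ∂μ) / (dl E * μ.real (ball (0 : E) R) ^ 2) := by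
  unfold cD
  rw [← (measurePreserving_add_left μ c₀).setIntegral_preimage_emb
    (Homeomorph.addLeft c₀).measurableEmbedding (W μ p (8 * R)) (ball c₀ (8 * R))]
  simp

lemma contract_mem {c c₀ x : E} {r h ζ κ : ℝ} (hκ : 0 ≤ κ) (hc : c₀ ∈ ball c ζ)
    (hx : dist x c < r + h) (hh : h ≤ κ * (r - ζ)) : c₀ + (1 + κ)⁻¹ • (x - c₀) ∈ ball c r := by
  rw [mem_ball, dist_eq_norm] at hc ⊢
  rw [dist_eq_norm] at hx
  have hk : 0 < 1 + κ := by linarith
  have e : c₀ + (1 + κ)⁻¹ • (x - c₀) - c = (1 + κ)⁻¹ • ((x - c) + κ • (c₀ - c)) := by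
    have : (1 + κ)⁻¹ * κ = 1 - (1 + κ)⁻¹ := by field_simp; ring
    rw [smul_add, smul_smul, this]
    module
  rw [e, norm_smul, norm_inv, Real.norm_eq_abs, abs_of_pos hk, inv_mul_lt_iff₀ hk]
  have h1 := norm_add_le (x - c) (κ • (c₀ - c))
  rw [norm_smul, Real.norm_eq_abs, abs_of_nonneg hκ] at h1
  have : κ * ‖c₀ - c‖ ≤ κ * ζ := by gcongr
  nlinarith

lemma ofReal_le_of_forall {a b : ℝ≥0∞} {m : ℝ} (ha : a < ENNReal.ofReal m)
    (h : ∀ l : ℝ, a < ENNReal.ofReal l → l < m → ENNReal.ofReal l ≤ b) :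
    ENNReal.ofReal m ≤ b := by
  by_contra hb
  obtain ⟨l, -, h1, h2⟩ := ENNReal.lt_iff_exists_real_btwn.1 (max_lt ha (not_le.1 hb))
  have h3 := h l ((le_max_left _ _).trans_lt h1) (ENNReal.ofReal_lt_ofReal_iff'.1 h2).1
  exact absurd ((le_max_right _ _).trans_lt h1) (not_lt.2 h3)

lemma cT_bound {p : E → ℝ} (hm : Measurable p) (hp : Integrable p μ) {h R ρ₀ : ℝ} (hR : 0 < R)
    (hh : 0 ≤ h) (h1 : R ≤ ρ₀) (h2 : ρ₀ ≤ 2 * R) (x c : E) (r : ℝ)
    (hr : r ∈ Icc ρ₀ (ρ₀ + xi E * R / 4)) (hx : dist x c < r + h) (a : ℝ≥0∞) (ha : gM μ p x ≤ a)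
    (hG : ∀ l : ℝ, a < ENNReal.ofReal l → l < av μ p c r → Good μ p c r l) :
    ENNReal.ofReal (av μ p c r) ≤ a + cT μ p h R ρ₀ x := by
  by_cases hlt : ENNReal.ofReal (av μ p c r) ≤ a
  · exact hlt.trans le_self_add
  push Not at hlt
  have hξ := xi_pos (E := E)
  have hξ' := xi_le (E := E)
  have hζ : xi E * R ≤ R / 100 := by nlinarith
  have hζ0 : 0 < xi E * R / 4 := by positivity
  set ζ := xi E * R / 4 with hζdef
  have key : ∀ c₀ ∈ ball c ζ, ENNReal.ofReal (av μ p c r) - a ≤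
      cF μ p R ρ₀ (c₀, c₀ + (1 + 2 * h / R)⁻¹ • (x - c₀)) - cF μ p R ρ₀ (c₀, x) := by
    intro c₀ hc₀
    have k1 : cLo μ p ζ ρ₀ c₀ ≤ a := by
      by_contra hcon
      obtain ⟨l, -, l1, l2⟩ := ENNReal.lt_iff_exists_real_btwn.1 (lt_min hlt (not_le.1 hcon))
      have l3 := hG l l1 (ENNReal.ofReal_lt_ofReal_iff'.1 (l2.trans_le (min_le_left _ _))).1
      have : cLo μ p ζ ρ₀ c₀ ≤ ENNReal.ofReal l :=
        iInf_le_of_le c (iInf_le_of_le r (iInf_le_of_le l (iInf_le _ ⟨hr, l3, hc₀⟩)))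
      exact absurd (l2.trans_le (min_le_right _ _)) (not_lt.2 this)
    have k2 : ENNReal.ofReal (av μ p c r) - cLo μ p ζ ρ₀ c₀ ≤ ENNReal.ofReal (cD μ p R c₀) := by
      rw [tsub_le_iff_right, ← tsub_le_iff_left]
      refine le_iInf fun c₁ => le_iInf fun r₁ => le_iInf fun l₁ => le_iInf fun hh₁ => ?_
      rw [tsub_le_iff_left]
      refine ofReal_le_of_forall hlt fun l l1 l2 => ?_
      have := pair_bound hm hp hR h1 h2 c₀ c₁ c r₁ r l₁ l (mem_ball'.1 hh₁.2.2)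
        (mem_ball'.1 hc₀) hh₁.1 hr hh₁.2.1 (hG l l1 l2)
      rw [← cD_eq] at this
      exact (ENNReal.ofReal_le_ofReal (by linarith)).trans ENNReal.ofReal_add_le
    have k3 : ENNReal.ofReal (av μ p c r) ≤
        cA μ p ζ ρ₀ (c₀, c₀ + (1 + 2 * h / R)⁻¹ • (x - c₀)) := by
      refine le_iSup_of_le c (le_iSup_of_le r (le_iSup_of_le ⟨hr, hc₀, ?_⟩ le_rfl))
      refine contract_mem (by positivity) hc₀ hx ?_
      calc h = 2 * h / R * (R / 2) := by field_simp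
        _ ≤ _ := by gcongr; linarith [hr.1]
    have k4 : cA μ p ζ ρ₀ (c₀, x) ≤ a := by
      refine le_trans (iSup_le fun c₁ => iSup_le fun r₁ => iSup_le fun hh₁ => ?_) ha
      exact le_iSup_of_le c₁ (le_iSup_of_le r₁ (le_iSup_of_le hh₁.2.2 le_rfl))
    calc ENNReal.ofReal (av μ p c r) - a
        = (ENNReal.ofReal (av μ p c r) - cLo μ p ζ ρ₀ c₀) - (a - cLo μ p ζ ρ₀ c₀) := by
          rw [tsub_tsub, add_tsub_cancel_of_le k1]
      _ ≤ _ := by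
          refine tsub_le_tsub (le_min (tsub_le_tsub_right k3 _) k2) ?_
          exact (min_le_left _ _).trans (tsub_le_tsub_right k4 _)
  rw [← tsub_le_iff_left]
  have hb0 : μ (ball (0 : E) ζ) ≠ 0 := (measure_ball_pos μ _ hζ0).ne'
  have hb1 : μ (ball (0 : E) ζ) ≠ ∞ := measure_ball_lt_top.ne
  unfold cT
  rw [← hζdef, ← ENNReal.mul_le_mul_iff_right hb0 hb1, ← mul_assoc, ENNReal.mul_inv_cancel hb0 hb1,
    one_mul, ← Measure.addHaar_ball_center μ c, mul_comm, ← setLIntegral_const]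
  exact (setLIntegral_mono' measurableSet_ball key).trans (setLIntegral_le_lintegral _ _)

end Vale.Agent.P137
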