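import Vale.Agent.P137.Cell2
import Mathlib.MeasureTheory.Measure.Haar.NormedSpace

open MeasureTheory Metric Set Filter
open scoped ENNReal Topology

set_option linter.unusedSectionVars false

namespace Vale.Agent.P137

variable {E : Type*} [NormedAddCommGroup E] [NormedSpace ℝ E] [FiniteDimensional ℝ E]
  [MeasurableSpace E] [BorelSpace E] (μ : Measure E) [μ.IsAddHaarMeasure]

/-- scale term of the telescoping series -/
noncomputable def tel (p : E → ℝ) (ρ : ℝ) : ℝ :=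
  (∫ b, W μ p ρ b ∂μ) / ρ ^ (Module.finrank ℝ E + 1)

noncomputable def cC : ℝ :=
  2 ^ (Module.finrank ℝ E + 1) * 24 ^ Module.finrank ℝ E * 8 ^ (Module.finrank ℝ E + 1) /
    (dl E * (xi E / 4) ^ Module.finrank ℝ E * μ.real (ball (0 : E) 1))

variable {μ}

lemma cC_nonneg : 0 ≤ cC μ := by
  unfold cC
  have := dl_pos (E := E)
  have := xi_pos (E := E)
  positivity

lemma tel_nonneg (p : E → ℝ) {ρ : ℝ} (hρ : 0 < ρ) : 0 ≤ tel μ p ρ :=
  div_nonneg (integral_nonneg fun b => W_nonneg p ρ b) (by positivity)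

lemma cD_nonneg (p : E → ℝ) (R : ℝ) (c₀ : E) : 0 ≤ cD μ p R c₀ :=
  div_nonneg (integral_nonneg fun _ => W_nonneg p _ _) (by have := dl_pos (E := E); positivity)

lemma lintegral_cD {p : E → ℝ} (hm : Measurable p) (hp : Integrable p μ) (R : ℝ) :
    ∫⁻ c₀, ENNReal.ofReal (cD μ p R c₀) ∂μ = ENNReal.ofReal (μ.real (ball (0 : E) (8 * R)) *
      (∫ b, W μ p (8 * R) b ∂μ) / (dl E * μ.real (ball (0 : E) R) ^ 2)) := by
  have hi := shift_integrable_prod (W_measurable (μ := μ) hm (8 * R)) (W_integrable hm hp (8 * R))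
    (8 * R) (fun u => u) measurable_id
  have hi2 : Integrable (cD μ p R) μ := hi.integral_prod_left.div_const _
  rw [← ofReal_integral_eq_lintegral_ofReal hi2 (Eventually.of_forall (cD_nonneg p R))]
  congr 1
  unfold cD
  rw [integral_div, integral_integral_swap hi]
  simp only [integral_add_right_eq_self (W μ p (8 * R))]
  simp

lemma cF_slice {p : E → ℝ} {R ρ₀ : ℝ} (hR : 0 < R) (h2 : ρ₀ ≤ 2 * R) (c₀ : E) :
    ∫⁻ x, cF μ p R ρ₀ (c₀, x) ∂μ ≤ ENNReal.ofReal (cD μ p R c₀) * μ (ball (0 : E) (3 * R)) := by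
  have hξ' := xi_le (E := E)
  have hζ : xi E * R ≤ R / 100 := by nlinarith
  rw [← Measure.addHaar_ball_center μ c₀, ← lintegral_indicator_const measurableSet_ball]
  refine lintegral_mono fun x => ?_
  by_cases hx : x ∈ ball c₀ (3 * R)
  · rw [indicator_of_mem hx]; exact min_le_right _ _
  · rw [indicator_of_notMem hx]
    refine (min_le_left _ _).trans (tsub_le_self.trans ?_)
    refine iSup_le fun c => iSup_le fun r => iSup_le fun hh => absurd ?_ hx
    refine ball_subset_ball' ?_ hh.2.2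
    have := mem_ball'.1 hh.2.1
    have := hh.1.2
    simp only at *
    linarith

lemma cF_mono {p : E → ℝ} {R ρ₀ κ : ℝ} (hR : 0 < R) (h1 : R ≤ ρ₀) (hκ : 0 ≤ κ) (c₀ x : E) :
    cF μ p R ρ₀ (c₀, x) ≤ cF μ p R ρ₀ (c₀, c₀ + (1 + κ)⁻¹ • (x - c₀)) := by
  have hξ' := xi_le (E := E)
  have hζ : xi E * R ≤ R / 100 := by nlinarith
  refine min_le_min (tsub_le_tsub_right ?_ _) le_rfl
  refine iSup_le fun c => iSup_le fun r => iSup_le fun hh => ?_
  refine le_iSup_of_le c (le_iSup_of_le r (le_iSup_of_le ⟨hh.1, hh.2.1, ?_⟩ le_rfl))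
  refine contract_mem (h := 0) hκ hh.2.1 (by simpa using hh.2.2) ?_
  exact mul_nonneg hκ (by linarith [hh.1.1])

lemma cT_integral {p : E → ℝ} (hm : Measurable p) (hp : Integrable p μ) {h R ρ₀ : ℝ} (hR : 0 < R)
    (hh : 0 ≤ h) (hhR : 2 * h ≤ R) (h1 : R ≤ ρ₀) (h2 : ρ₀ ≤ 2 * R) :
    ∫⁻ x, cT μ p h R ρ₀ x ∂μ ≤ ENNReal.ofReal (cC μ * h * tel μ p (8 * R)) := by
  have hξ := xi_pos (E := E)
  have hδ := dl_pos (E := E)
  have hζ0 : 0 < xi E * R / 4 := by positivity
  have hκ0 : 0 ≤ 2 * h / R := by positivity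
  have hκ1 : 2 * h / R ≤ 1 := by rwa [div_le_one hR]
  unfold cT
  rw [lintegral_const_mul _ (cT_integrand_measurable hm h R ρ₀).lintegral_prod_right',
    lintegral_lintegral_swap (cT_integrand_measurable hm h R ρ₀).aemeasurable]
  have key : ∀ c₀ : E, ∫⁻ x, (cF μ p R ρ₀ (c₀, c₀ + (1 + 2 * h / R)⁻¹ • (x - c₀)) -
      cF μ p R ρ₀ (c₀, x)) ∂μ ≤ (ENNReal.ofReal (2 ^ Module.finrank ℝ E * (2 * h / R)) *
        μ (ball (0 : E) (3 * R))) * ENNReal.ofReal (cD μ p R c₀) := by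
    intro c₀
    have hs := cF_slice (μ := μ) (p := p) hR h2 c₀
    refine (dilation_gain (f := fun x => cF μ p R ρ₀ (c₀, x))
      ((cF_measurable hm R ρ₀).comp measurable_prodMk_left) c₀ hκ0 hκ1
      (hs.trans_lt (ENNReal.mul_lt_top ENNReal.ofReal_lt_top measure_ball_lt_top)).ne
      (fun x => cF_mono hR h1 hκ0 c₀ x)).trans ?_
    rw [mul_assoc, mul_comm (μ _)]
    gcongr
  refine (mul_le_mul_right (lintegral_mono key) _).trans ?_
  rw [lintegral_const_mul _ (cD_measurable hm R).ennreal_ofReal, lintegral_cD hm hp,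
    ← ofReal_measureReal (μ := μ) (s := ball (0 : E) (3 * R)) measure_ball_lt_top.ne,
    ← ofReal_measureReal (μ := μ) (s := ball (0 : E) (xi E * R / 4)) measure_ball_lt_top.ne,
    ← ENNReal.ofReal_inv_of_pos (real_ball_pos _ hζ0), ← ENNReal.ofReal_mul (by positivity),
    ← ENNReal.ofReal_mul (by positivity), ← ENNReal.ofReal_mul (by positivity)]
  refine ENNReal.ofReal_le_ofReal (le_of_eq ?_)
  have hV := real_ball_pos (μ := μ) (0 : E) one_pos
  rw [real_ball _ hζ0, real_ball _ (show 0 < 3 * R by positivity),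
    real_ball _ (show 0 < 8 * R by positivity), real_ball _ hR]
  unfold cC tel
  rw [show xi E * R / 4 = xi E / 4 * R by ring, show (24 : ℝ) = 3 * 8 by norm_num]
  simp only [mul_pow, pow_succ]
  field_simp

noncomputable def Psi (μ : Measure E) (p : E → ℝ) (ρ : ℝ) : ℝ :=
  (∫ u in ball (0 : E) ρ, V μ p u ∂μ) / ρ ^ (Module.finrank ℝ E + 1)

lemma V_integrableOn {p : E → ℝ} (hm : Measurable p) {L : ℝ} (hV : ∀ u, V μ p u ≤ L * ‖u‖)
    (s ρ : ℝ) : IntegrableOn (fun u => V μ p (s • u)) (ball (0 : E) ρ) μ := by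
  refine Measure.integrableOn_of_bounded (M := |L| * (|s| * ρ)) measure_ball_lt_top.ne
    ((V_measurable hm).comp (measurable_const_smul s)).aestronglyMeasurable ?_
  refine (ae_restrict_iff' measurableSet_ball).2 (Eventually.of_forall fun u hu => ?_)
  rw [Real.norm_eq_abs, abs_of_nonneg (V_nonneg p _)]
  refine (hV _).trans ?_
  rw [norm_smul, Real.norm_eq_abs]
  have := (mem_ball_zero_iff.1 hu).le
  gcongr
  exact le_abs_self L

lemma tel_eq {p : E → ℝ} (hm : Measurable p) (hp : Integrable p μ) {L : ℝ}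
    (hV : ∀ u, V μ p u ≤ L * ‖u‖) {ρ : ℝ} (hρ : 0 < ρ) :
    tel μ p ρ = 2 * (Psi μ p ρ - Psi μ p (2 * ρ)) := by
  have i1 := V_integrableOn hm hV 1 ρ
  simp only [one_smul] at i1
  unfold tel Psi
  rw [integral_W hm hp, integral_sub (i1.const_mul 2) (V_integrableOn hm hV 2 ρ),
    integral_const_mul, Measure.setIntegral_comp_smul_of_pos μ (V μ p) _ two_pos,
    smul_ball two_ne_zero, smul_zero, Real.norm_ofNat, smul_eq_mul]
  simp only [mul_pow, pow_succ]
  field_simp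

lemma Psi_nonneg (p : E → ℝ) {ρ : ℝ} (hρ : 0 < ρ) : 0 ≤ Psi μ p ρ :=
  div_nonneg (integral_nonneg fun u => V_nonneg p u) (by positivity)

lemma Psi_le {p : E → ℝ} (hm : Measurable p) {L : ℝ} (hL : 0 ≤ L)
    (hV : ∀ u, V μ p u ≤ L * ‖u‖) {ρ : ℝ} (hρ : 0 < ρ) :
    Psi μ p ρ ≤ L * μ.real (ball (0 : E) 1) := by
  have i1 := V_integrableOn hm hV 1 ρ
  simp only [one_smul] at i1
  have h := setIntegral_mono_on i1 (integrableOn_const (C := L * ρ) measure_ball_lt_top.ne)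
    measurableSet_ball (fun u hu => (hV u).trans (by
      have := (mem_ball_zero_iff.1 hu).le
      gcongr))
  rw [setIntegral_const, real_ball _ hρ, smul_eq_mul] at h
  unfold Psi
  rw [div_le_iff₀ (by positivity), pow_succ]
  linarith

lemma tel_sum_le {p : E → ℝ} (hm : Measurable p) (hp : Integrable p μ) {L : ℝ} (hL : 0 ≤ L)
    (hV : ∀ u, V μ p u ≤ L * ‖u‖) {ρ : ℝ} (hρ : 0 < ρ) :
    ∑' n : ℕ, ENNReal.ofReal (tel μ p (ρ * (1 / 2) ^ n)) ≤
      ENNReal.ofReal (2 * (L * μ.real (ball (0 : E) 1))) := by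
  have hs : ∀ N : ℕ, ∑ n ∈ Finset.range N, tel μ p (ρ * (1 / 2) ^ n) =
      2 * (Psi μ p (2 * (ρ * (1 / 2) ^ N)) - Psi μ p (2 * ρ)) := by
    intro N
    induction N with
    | zero => simp
    | succ N ih =>
      rw [Finset.sum_range_succ, ih, tel_eq hm hp hV (by positivity),
        show 2 * (ρ * (1 / 2) ^ (N + 1)) = ρ * (1 / 2) ^ N by rw [pow_succ]; ring]
      ring
  refine ENNReal.tsum_le_of_sum_range_le fun N => ?_
  rw [← ENNReal.ofReal_sum_of_nonneg fun n _ => tel_nonneg p (by positivity), hs]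
  refine ENNReal.ofReal_le_ofReal ?_
  have h1 := Psi_le hm hL hV (ρ := 2 * (ρ * (1 / 2) ^ N)) (by positivity)
  have h2 := Psi_nonneg (μ := μ) p (ρ := 2 * ρ) (by positivity)
  linarith

end Vale.Agent.P137
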