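import Vale.Agent.P137.Basic

open MeasureTheory Metric Set Filter
open scoped ENNReal Topology

set_option linter.unusedSectionVars false

namespace Vale.Agent.P137

variable {E : Type*} [NormedAddCommGroup E] [NormedSpace ℝ E] [FiniteDimensional ℝ E]
  [MeasurableSpace E] [BorelSpace E] {μ : Measure E} [μ.IsAddHaarMeasure]

lemma pre_sub_left (a : E) (s : Set E) : μ ((fun z => a - z) ⁻¹' s) = μ s :=
  (Measure.measurePreserving_sub_left μ a).measure_preimage_emb
    (Homeomorph.subLeft a).measurableEmbedding s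

lemma pre_sub_right (a : E) (s : Set E) : μ ((fun z => z - a) ⁻¹' s) = μ s :=
  (measurePreserving_sub_right μ a).measure_preimage_emb
    (Homeomorph.subRight a).measurableEmbedding s

lemma pos_integrableOn {p : E → ℝ} (hp : Integrable p μ) (l : ℝ) (c : E) (r : ℝ) :
    IntegrableOn (fun x => max (p x - l) 0) (ball c r) μ :=
  (hp.integrableOn.sub (integrableOn_const measure_ball_lt_top.ne)).pos_part

lemma neg_integrableOn {p : E → ℝ} (hp : Integrable p μ) (l : ℝ) (c : E) (r : ℝ) :
    IntegrableOn (fun x => max (l - p x) 0) (ball c r) μ :=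
  ((integrableOn_const measure_ball_lt_top.ne).sub hp.integrableOn).pos_part

lemma pos_sub_neg {p : E → ℝ} (hp : Integrable p μ) (l : ℝ) (c : E) (r : ℝ) :
    ∫ x in ball c r, max (p x - l) 0 ∂μ - ∫ x in ball c r, max (l - p x) 0 ∂μ
      = ∫ x in ball c r, p x ∂μ - l * μ.real (ball c r) := by
  rw [← integral_sub (pos_integrableOn hp l c r) (neg_integrableOn hp l c r)]
  have : ∀ x, max (p x - l) 0 - max (l - p x) 0 = p x - l := by
    intro x
    rcases le_total (p x) l with h | h
    · rw [max_eq_right (by linarith), max_eq_left (by linarith)]; ring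
    · rw [max_eq_left (by linarith), max_eq_right (by linarith)]; ring
  simp only [this]
  rw [integral_sub hp.integrableOn (integrableOn_const measure_ball_lt_top.ne)]
  simp [mul_comm]

/-- Step 1: a high point with small defect. -/
lemma exists_high {p : E → ℝ} (hm : Measurable p) (hp : Integrable p μ) (c : E) {r : ℝ}
    (hr : 0 < r) (ρ l δ K Φ : ℝ) (hδ : 0 < δ) (hΦ : 0 < Φ) (hKΦ : K ≤ δ * Φ)
    (hI : ∫ x in ball c r, max (p x - l) 0 ∂μ = Φ * μ.real (ball c r))
    (hK : ∫ b in ball c r, W μ p ρ b ∂μ ≤ K * μ.real (ball c r) ^ 2)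
    (H1 : μ.real ({x | l < p x} ∩ ball c r) ≤ δ * μ.real (ball c r)) :
    ∃ b ∈ ball c r, Φ ≤ 4 * δ * max (p b - l) 0 ∧
      W μ p ρ b ≤ 4 * δ * max (p b - l) 0 * μ.real (ball c r) := by
  by_contra hcon
  push Not at hcon
  set v := μ.real (ball c r) with hv
  have hv0 : 0 < v := real_ball_pos c hr
  have hS : MeasurableSet {x | l < p x} := measurableSet_lt measurable_const hm
  have hpt : ∀ b ∈ ball c r, max (p b - l) 0 ≤
      ({x | l < p x}.indicator (fun _ => Φ / (4 * δ)) b) + W μ p ρ b / (4 * δ * v) := by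
    intro b hb
    have hW := W_nonneg (μ := μ) p ρ b
    have hW' : 0 ≤ W μ p ρ b / (4 * δ * v) := by positivity
    by_cases hl : l < p b
    · rw [indicator_of_mem (show b ∈ {x | l < p x} from hl)]
      by_cases h1 : Φ ≤ 4 * δ * max (p b - l) 0
      · have h2 := hcon b hb h1
        have : max (p b - l) 0 ≤ W μ p ρ b / (4 * δ * v) := by
          rw [le_div_iff₀ (by positivity)]; nlinarith
        have : 0 ≤ Φ / (4 * δ) := by positivity
        linarith
      · have : max (p b - l) 0 ≤ Φ / (4 * δ) := by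
          rw [le_div_iff₀ (by positivity)]; nlinarith
        linarith
    · rw [indicator_of_notMem (show b ∉ {x | l < p x} from hl), max_eq_right (by linarith)]
      linarith
  have i1 : IntegrableOn ({x | l < p x}.indicator (fun _ => Φ / (4 * δ))) (ball c r) μ :=
    (integrableOn_const measure_ball_lt_top.ne).indicator hS
  have i2 : IntegrableOn (fun b => W μ p ρ b / (4 * δ * v)) (ball c r) μ :=
    ((W_integrable hm hp ρ).div_const _).integrableOn
  have h := setIntegral_mono_on (pos_integrableOn hp l c r) (i1.add i2) measurableSet_ball hpt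
  simp only [Pi.add_apply] at h
  rw [integral_add i1 i2, integral_div, setIntegral_indicator hS, setIntegral_const, hI,
    inter_comm, smul_eq_mul] at h
  have h3 : μ.real ({x | l < p x} ∩ ball c r) * (Φ / (4 * δ)) ≤ Φ * v / 4 := by
    calc _ ≤ δ * v * (Φ / (4 * δ)) := by gcongr
      _ = Φ * v / 4 := by field_simp
  have h4 : (∫ b in ball c r, W μ p ρ b ∂μ) / (4 * δ * v) ≤ Φ * v / 4 := by
    rw [div_le_iff₀ (by positivity)]
    calc _ ≤ K * v ^ 2 := hK
      _ ≤ δ * Φ * v ^ 2 := by gcongr
      _ = _ := by ring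
  have : 0 < Φ * v := by positivity
  linarith

/-- Step 2: the function is large on most of the reflected ball. -/
lemma bad_small {p : E → ℝ} (hp : Integrable p μ) (c b : E) {r ρ : ℝ} (hρ : 2 * r ≤ ρ)
    (hb : b ∈ ball c r) (l δ t v : ℝ) (ht : 0 < t) (htb : t = p b - l)
    (hW : W μ p ρ b ≤ 4 * δ * t * v)
    (H1 : μ.real ({x | l < p x} ∩ ball c r) ≤ δ * v) :
    μ.real ({z | p z ≤ l + t / 2} ∩ ball (b + b - c) r) ≤ 9 * δ * v := by
  have hsub : {z | p z ≤ l + t / 2} ∩ ball (b + b - c) r ⊆
      ((fun z => b + b - z) ⁻¹' ({x | l < p x} ∩ ball c r)) ∪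
      ((fun z => z - b) ⁻¹' ({u | t / 2 ≤ om p b u} ∩ ball (0 : E) ρ)) := by
    rintro z ⟨hz1, hz2⟩
    have hzB : b + b - z ∈ ball c r := by
      rw [mem_ball, dist_eq_norm] at hz2 ⊢
      rw [← norm_neg, show -(b + b - z - c) = z - (b + b - c) by abel]; exact hz2
    by_cases hl : l < p (b + b - z)
    · exact Or.inl ⟨hl, hzB⟩
    · right
      refine ⟨?_, ?_⟩
      · have h := om_max p b (z - b)
        have e1 : b - (z - b) = b + b - z := by abel
        have e2 : b + (z - b) = z := by abel
        rw [e1, e2] at h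
        have : max (p (b + b - z)) (p z) ≤ l + t / 2 :=
          max_le (by linarith) hz1
        show t / 2 ≤ om p b (z - b)
        linarith
      · rw [mem_ball, dist_eq_norm] at hzB hb
        rw [mem_ball_zero_iff]
        have e : z - b = (b - c) - (b + b - z - c) := by abel
        calc ‖z - b‖ ≤ ‖b - c‖ + ‖b + b - z - c‖ := by rw [e]; exact norm_sub_le _ _
          _ < ρ := by linarith
  have f1 : μ ((fun z => b + b - z) ⁻¹' ({x | l < p x} ∩ ball c r))
      = μ ({x | l < p x} ∩ ball c r) := pre_sub_left _ _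
  have f2 : μ ((fun z => z - b) ⁻¹' ({u | t / 2 ≤ om p b u} ∩ ball (0 : E) ρ))
      = μ ({u | t / 2 ≤ om p b u} ∩ ball (0 : E) ρ) := pre_sub_right _ _
  have n1 : μ ({x | l < p x} ∩ ball c r) ≠ ∞ :=
    ((measure_mono inter_subset_right).trans_lt measure_ball_lt_top).ne
  have n2 : μ ({u | t / 2 ≤ om p b u} ∩ ball (0 : E) ρ) ≠ ∞ :=
    ((measure_mono inter_subset_right).trans_lt measure_ball_lt_top).ne
  have hmk := mul_meas_ge_le_integral_of_nonneg (μ := μ.restrict (ball (0 : E) ρ))
    (f := fun u => om p b u) (Eventually.of_forall fun u => om_nonneg p b u)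
    (om_integrableOn hp b ρ) (t / 2)
  rw [measureReal_def, Measure.restrict_apply' measurableSet_ball, ← measureReal_def] at hmk
  have h8 : μ.real ({u | t / 2 ≤ om p b u} ∩ ball (0 : E) ρ) ≤ 8 * δ * v := by
    have : t / 2 * μ.real ({u | t / 2 ≤ om p b u} ∩ ball (0 : E) ρ) ≤ t / 2 * (8 * δ * v) := by
      refine hmk.trans (hW.trans (le_of_eq (by ring)))
    exact le_of_mul_le_mul_left this (by positivity)
  calc _ ≤ μ.real (((fun z => b + b - z) ⁻¹' ({x | l < p x} ∩ ball c r)) ∪
      ((fun z => z - b) ⁻¹' ({u | t / 2 ≤ om p b u} ∩ ball (0 : E) ρ))) :=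
        measureReal_mono hsub (measure_union_ne_top (f1 ▸ n1) (f2 ▸ n2))
    _ ≤ _ := measureReal_union_le _ _
    _ = μ.real ({x | l < p x} ∩ ball c r) +
        μ.real ({u | t / 2 ≤ om p b u} ∩ ball (0 : E) ρ) := by
        simp only [measureReal_def, f1, f2]
    _ ≤ _ := by linarith

end Vale.Agent.P137
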