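import Vale.Agent.P137.Core1

open MeasureTheory Metric Set Filter
open scoped ENNReal Topology

set_option linter.unusedSectionVars false

namespace Vale.Agent.P137

variable {E : Type*} [NormedAddCommGroup E] [NormedSpace ℝ E] [FiniteDimensional ℝ E]
  [MeasurableSpace E] [BorelSpace E] {μ : Measure E} [μ.IsAddHaarMeasure]

/-- Step 4: control of the negative part near the high point. -/
lemma neg_pointwise {p : E → ℝ} (hm : Measurable p) (hp : Integrable p μ) (c b y : E) {r ρ : ℝ}
    (hρ : 2 * r ≤ ρ) (hb : b ∈ ball c r) (hy : y ∈ ball b (r / 2)) (l l' β : ℝ) (hl : l ≤ l')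
    (hbad : μ.real ({z | p z ≤ l'} ∩ ball (b + b - c) r) ≤ β) :
    max (l - p y) 0 * (μ.real (ball b (r / 2)) - β) ≤
      ∫ x in ball c r, max (l - p x) 0 ∂μ + W μ p ρ y := by
  have hr : 0 < r := pos_of_mem_ball hb
  set Bad := {z | p z ≤ l'} ∩ ball (b + b - c) r with hBad
  have hBm : MeasurableSet Bad := (measurableSet_le hm measurable_const).inter measurableSet_ball
  set G := ball (b - c) (r / 2) \ ((fun u => y + u) ⁻¹' Bad) with hG
  have hGm : MeasurableSet G :=
    measurableSet_ball.diff (hBm.preimage (measurable_const.add measurable_id))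
  have hGfin : μ G ≠ ∞ := ((measure_mono sdiff_subset).trans_lt measure_ball_lt_top).ne
  have hBfin : μ Bad ≠ ∞ := ((measure_mono inter_subset_right).trans_lt measure_ball_lt_top).ne
  have hGge : μ.real (ball b (r / 2)) - β ≤ μ.real G := by
    have h1 : μ.real (ball (b - c) (r / 2)) ≤ μ.real (G ∪ ((fun u => y + u) ⁻¹' Bad)) := by
      refine measureReal_mono ?_ (measure_union_ne_top hGfin ?_)
      · intro u hu
        by_cases h : u ∈ (fun u => y + u) ⁻¹' Bad
        · exact Or.inr h
        · exact Or.inl ⟨hu, h⟩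
      · rw [measure_preimage_add]; exact hBfin
    have h2 := measureReal_union_le (μ := μ) G ((fun u => y + u) ⁻¹' Bad)
    have h3 : μ.real ((fun u => y + u) ⁻¹' Bad) = μ.real Bad := by
      simp only [measureReal_def, measure_preimage_add]
    rw [Measure.addHaar_real_ball_center] at h1 ⊢
    linarith
  rw [mem_ball, dist_eq_norm] at hb hy
  have hG1 : G ⊆ (fun u => y - u) ⁻¹' ball c r := by
    rintro u ⟨hu, -⟩
    rw [mem_ball, dist_eq_norm] at hu
    rw [mem_preimage, mem_ball, dist_eq_norm,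
      show y - u - c = (y - b) - (u - (b - c)) by abel]
    exact (norm_sub_le _ _).trans_lt (by linarith)
  have hG2 : G ⊆ ball (0 : E) ρ := by
    rintro u ⟨hu, -⟩
    rw [mem_ball, dist_eq_norm] at hu
    rw [mem_ball_zero_iff, show u = (u - (b - c)) + (b - c) by abel]
    exact (norm_add_le _ _).trans_lt (by linarith)
  have hpt : ∀ u ∈ G, max (l - p y) 0 ≤ max (l - p (y - u)) 0 + om p y u := by
    rintro u ⟨hu, hu2⟩
    rw [mem_ball, dist_eq_norm] at hu
    have hz : y + u ∈ ball (b + b - c) r := by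
      rw [mem_ball, dist_eq_norm, show y + u - (b + b - c) = (y - b) + (u - (b - c)) by abel]
      exact (norm_add_le _ _).trans_lt (by linarith)
    have hz2 : l' < p (y + u) := by
      by_contra h
      exact hu2 ⟨not_lt.1 h, hz⟩
    have h1 := om_min p y u
    have h2 := om_nonneg p y u
    have h3 := le_max_left (l - p (y - u)) 0
    have h4 := le_max_right (l - p (y - u)) 0
    have h5 : l - max (l - p (y - u)) 0 ≤ min (p (y - u)) (p (y + u)) :=
      le_min (by linarith) (by linarith)
    exact max_le (by linarith) (by linarith)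
  have i0 : IntegrableOn (fun u => max (l - p (y - u)) 0) ((fun u => y - u) ⁻¹' ball c r) μ := by
    have := ((Measure.measurePreserving_sub_left μ y).integrableOn_comp_preimage
      (Homeomorph.subLeft y).measurableEmbedding (f := fun x => max (l - p x) 0)
      (s := ball c r)).2 (neg_integrableOn hp l c r)
    exact this
  have e0 : ∫ u in (fun u => y - u) ⁻¹' ball c r, max (l - p (y - u)) 0 ∂μ
      = ∫ x in ball c r, max (l - p x) 0 ∂μ :=
    (Measure.measurePreserving_sub_left μ y).setIntegral_preimage_emb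
      (Homeomorph.subLeft y).measurableEmbedding (fun x => max (l - p x) 0) (ball c r)
  have i1 := i0.mono_set hG1
  have i2 := (om_integrableOn hp y ρ).mono_set hG2
  have h := setIntegral_mono_on (integrableOn_const hGfin) (i1.add i2) hGm hpt
  simp only [Pi.add_apply] at h
  rw [integral_add i1 i2, setIntegral_const, smul_eq_mul] at h
  have k1 : ∫ u in G, max (l - p (y - u)) 0 ∂μ ≤ ∫ x in ball c r, max (l - p x) 0 ∂μ := by
    rw [← e0]
    exact setIntegral_mono_set i0 (Eventually.of_forall fun u => le_max_right _ _)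
      hG1.eventuallyLE
  have k2 : ∫ u in G, om p y u ∂μ ≤ W μ p ρ y :=
    setIntegral_mono_set (om_integrableOn hp y ρ) (Eventually.of_forall fun u => om_nonneg p y u)
      hG2.eventuallyLE
  have k3 : max (l - p y) 0 * (μ.real (ball b (r / 2)) - β) ≤ max (l - p y) 0 * μ.real G :=
    mul_le_mul_of_nonneg_left hGge (le_max_right _ _)
  linarith

/-- the density constant -/
noncomputable def dl (E : Type*) [AddCommGroup E] [Module ℝ E] : ℝ :=
  (1 / 160) ^ Module.finrank ℝ E / 100

lemma dl_pos : 0 < dl E := by unfold dl; positivity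

lemma final_arith {v δ q Φ K l₁ l₂ t X Y I : ℝ} (hv0 : 0 < v) (hδ0 : 0 < δ) (hq2 : 100 * δ ≤ q)
    (hq1 : q ≤ 1) (hΦ0 : 0 < Φ) (hKΦ : K ≤ δ * Φ) (hD : 0 < l₂ - l₁) (hΦD : l₂ - l₁ < Φ)
    (h1 : Φ ≤ 4 * δ * t) (hX : 0 ≤ X) (hneg : X * (q * v - 9 * δ * v) ≤ q * v * (Φ * v) + K * v ^ 2)
    (hposl : t / 2 * (91 * δ * v) ≤ Y) (hps : Y - X = I - l₁ * (q * v)) (havg : I ≤ l₂ * (q * v)) :
    False := by
  have hq0 : 0 < q := by linarith
  have hX2 : X ≤ 2 * Φ * v := by
    have a2 : K * v ^ 2 ≤ q * v * (Φ * v) / 100 := by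
      have : K ≤ q * Φ / 100 := by nlinarith
      nlinarith [sq_nonneg v]
    have a3 : X * (q * v * 91 / 100) ≤ X * (q * v - 9 * δ * v) :=
      mul_le_mul_of_nonneg_left (by nlinarith) hX
    have a4 : X * (q * v * 91 / 100) ≤ 2 * Φ * v * (q * v * 91 / 100) := by
      have : 0 < q * v * (Φ * v) := by positivity
      nlinarith
    exact le_of_mul_le_mul_right a4 (by positivity)
  have b1 : 11 * Φ * v ≤ t / 2 * (91 * δ * v) := by nlinarith
  have b2 : (l₂ - l₁) * (q * v) ≤ Φ * v := by
    have : (l₂ - l₁) * q ≤ Φ := by nlinarith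
    nlinarith
  have : 0 < Φ * v := by positivity
  nlinarith

/-- The main lemma. -/
lemma core {p : E → ℝ} (hm : Measurable p) (hp : Integrable p μ) (c : E) {r ρ : ℝ}
    (hr : 0 < r) (hρ : 2 * r ≤ ρ) (l₁ l₂ K : ℝ)
    (hK : ∫ b in ball c (2 * r), W μ p ρ b ∂μ ≤ K * μ.real (ball c r) ^ 2)
    (H1 : μ.real ({x | l₁ < p x} ∩ ball c r) ≤ dl E * μ.real (ball c r))
    (H2 : l₂ * μ.real (ball c r) < ∫ x in ball c r, p x ∂μ)
    (H3 : ∀ b ∈ ball c r, l₂ * μ.real (ball b (r / 2)) < ∫ x in ball b (r / 2), p x ∂μ →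
      μ.real ({x | l₂ < p x} ∩ ball b (r / 80)) ≤ dl E * μ.real (ball c r)) :
    dl E * (l₂ - l₁) ≤ K := by
  by_contra hcon
  push Not at hcon
  set v := μ.real (ball c r) with hv
  have hv0 : 0 < v := real_ball_pos c hr
  set δ := dl E with hδ
  have hδ0 : 0 < δ := dl_pos
  have hWi := W_integrable (μ := μ) hm hp ρ
  have hWmono : ∀ s, s ⊆ ball c (2 * r) → ∫ b in s, W μ p ρ b ∂μ ≤ K * v ^ 2 := fun s hs =>
    (setIntegral_mono_set hWi.integrableOn (Eventually.of_forall fun b => W_nonneg p ρ b)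
      hs.eventuallyLE).trans hK
  have hK0 : 0 ≤ K := by
    have := hWmono ∅ (empty_subset _)
    simp only [Measure.restrict_empty, integral_zero_measure] at this
    exact nonneg_of_mul_nonneg_left this (by positivity)
  have hD : 0 < l₂ - l₁ := by
    by_contra h
    have : δ * (l₂ - l₁) ≤ 0 := mul_nonpos_of_nonneg_of_nonpos hδ0.le (not_lt.1 h)
    linarith
  set Φ := (∫ x in ball c r, max (p x - l₁) 0 ∂μ) / v with hΦ
  have hI : ∫ x in ball c r, max (p x - l₁) 0 ∂μ = Φ * v := by rw [hΦ]; field_simp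
  have hN0 : 0 ≤ ∫ x in ball c r, max (l₁ - p x) 0 ∂μ := integral_nonneg fun _ => le_max_right _ _
  have hps := pos_sub_neg hp l₁ c r
  rw [hI, ← hv] at hps
  have hΦD : l₂ - l₁ < Φ := by
    have : (l₂ - l₁) * v < Φ * v := by nlinarith
    exact lt_of_mul_lt_mul_right this hv0.le
  have hΦ0 : 0 < Φ := by linarith
  have hN : ∫ x in ball c r, max (l₁ - p x) 0 ∂μ ≤ Φ * v := by nlinarith
  have hKΦ : K ≤ δ * Φ := by nlinarith
  obtain ⟨b, hb, h1, h2⟩ := exists_high hm hp c hr ρ l₁ δ K Φ hδ0 hΦ0 hKΦ hI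
    (hWmono _ (ball_subset_ball (by linarith))) H1
  have hpos : 0 < max (p b - l₁) 0 := by
    by_contra h
    have : 4 * δ * max (p b - l₁) 0 ≤ 0 :=
      mul_nonpos_of_nonneg_of_nonpos (by positivity) (not_lt.1 h)
    linarith
  have ht0 : 0 < p b - l₁ := by
    rcases lt_max_iff.1 hpos with h | h
    · exact h
    · exact absurd h (lt_irrefl _)
  rw [max_eq_left ht0.le] at h1 h2
  set t := p b - l₁ with ht
  have hbad := bad_small hp c b hρ hb l₁ δ t v ht0 ht h2 H1
  set Bad := {z | p z ≤ l₁ + t / 2} ∩ ball (b + b - c) r with hBad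
  have hBfin : μ Bad ≠ ∞ := ((measure_mono inter_subset_right).trans_lt measure_ball_lt_top).ne
  have hb' : ‖b - c‖ < r := by rwa [mem_ball, dist_eq_norm] at hb
  set S := ball (b + (1 / 160 : ℝ) • (b - c)) (1 / 160 * r) with hS
  have hS1 : S ⊆ ball (b + b - c) r := by
    apply ball_subset_ball'
    rw [dist_eq_norm, show b + (1 / 160 : ℝ) • (b - c) - (b + b - c) = (-159 / 160 : ℝ) • (b - c) by
      module, norm_smul, Real.norm_eq_abs, abs_of_neg (by norm_num)]
    linarith
  have hS2 : S ⊆ ball b (r / 80) := by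
    apply ball_subset_ball'
    rw [dist_eq_norm, add_sub_cancel_left, norm_smul, Real.norm_eq_abs, abs_of_pos (by norm_num)]
    linarith
  have hSv : μ.real S = 100 * δ * v := by
    rw [hS, real_ball_mul _ c hr (by norm_num), hδ, dl]; ring
  set q : ℝ := (1 / 2) ^ Module.finrank ℝ E with hq
  have hq1 : q ≤ 1 := pow_le_one₀ (by norm_num) (by norm_num)
  have hq2 : 100 * δ ≤ q := by
    have : ((1 : ℝ) / 160) ^ Module.finrank ℝ E ≤ q := pow_le_pow_left₀ (by norm_num) (by norm_num) _
    rw [hδ, dl]; linarith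
  have hB' : μ.real (ball b (r / 2)) = q * v := by
    rw [show r / 2 = 1 / 2 * r by ring, real_ball_mul _ c hr (by norm_num)]
  have hδ1 : δ ≤ 1 / 100 := by linarith
  have htΦ : Φ ≤ t / 2 := by nlinarith
  have havg : ∫ x in ball b (r / 2), p x ∂μ ≤ l₂ * μ.real (ball b (r / 2)) := by
    by_contra h
    have h3 := H3 b hb (not_le.1 h)
    have hsub : S ⊆ Bad ∪ ({x | l₂ < p x} ∩ ball b (r / 80)) := by
      intro z hz
      by_cases hz' : p z ≤ l₁ + t / 2
      · exact Or.inl ⟨hz', hS1 hz⟩
      · exact Or.inr ⟨show l₂ < p z by linarith, hS2 hz⟩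
    have h4 := (measureReal_mono hsub (measure_union_ne_top hBfin
      ((measure_mono inter_subset_right).trans_lt measure_ball_lt_top).ne)).trans
      (measureReal_union_le (μ := μ) _ _)
    have : 0 < δ * v := by positivity
    linarith
  have hneg : (∫ y in ball b (r / 2), max (l₁ - p y) 0 ∂μ) * (q * v - 9 * δ * v) ≤
      q * v * (Φ * v) + K * v ^ 2 := by
    have i1 := (neg_integrableOn hp l₁ b (r / 2)).mul_const (q * v - 9 * δ * v)
    have i2 : IntegrableOn (fun _ : E => Φ * v) (ball b (r / 2)) μ :=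
      integrableOn_const measure_ball_lt_top.ne
    have i3 : IntegrableOn (W μ p ρ) (ball b (r / 2)) μ := hWi.integrableOn
    have h := setIntegral_mono_on i1 (i2.add i3) measurableSet_ball (fun y hy => by
      have := neg_pointwise hm hp c b y hρ hb hy l₁ (l₁ + t / 2) _ (by linarith) hbad
      rw [hB'] at this
      simp only [Pi.add_apply]
      linarith)
    simp only [Pi.add_apply] at h
    rw [integral_add i2 i3, integral_mul_const, setIntegral_const, hB', smul_eq_mul] at h
    have := hWmono (ball b (r / 2)) (ball_subset_ball' (by rw [dist_eq_norm]; linarith))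
    linarith
  have hposl : t / 2 * (91 * δ * v) ≤ ∫ y in ball b (r / 2), max (p y - l₁) 0 ∂μ := by
    have hm' : MeasurableSet (S \ Bad) := measurableSet_ball.diff
      ((measurableSet_le hm measurable_const).inter measurableSet_ball)
    have hfin : μ (S \ Bad) ≠ ∞ := ((measure_mono sdiff_subset).trans_lt measure_ball_lt_top).ne
    have hsub : S \ Bad ⊆ ball b (r / 2) :=
      sdiff_subset.trans (hS2.trans (ball_subset_ball (by linarith)))
    have e1 : 91 * δ * v ≤ μ.real (S \ Bad) := by
      have h4 := (measureReal_mono (subset_sdiff_union S Bad)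
        (measure_union_ne_top hfin hBfin)).trans (measureReal_union_le (μ := μ) _ _)
      linarith
    have i0 := pos_integrableOn hp l₁ b (r / 2)
    have h := setIntegral_mono_on (integrableOn_const (C := t / 2) hfin) (i0.mono_set hsub) hm'
      (fun z hz => by
        have : ¬ p z ≤ l₁ + t / 2 := fun h => hz.2 ⟨h, hS1 hz.1⟩
        exact le_max_of_le_left (by linarith))
    rw [setIntegral_const, smul_eq_mul] at h
    have h5 := setIntegral_mono_set i0 (Eventually.of_forall fun _ => le_max_right _ _)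
      hsub.eventuallyLE
    nlinarith
  have hps' := pos_sub_neg hp l₁ b (r / 2)
  rw [hB'] at hps' havg
  exact final_arith hv0 hδ0 hq2 hq1 hΦ0 hKΦ hD hΦD h1 (integral_nonneg fun _ => le_max_right _ _)
    hneg hposl hps' havg

end Vale.Agent.P137
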