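import Vale.Agent.P137.Small
import Mathlib.Analysis.Distribution.AEEqOfIntegralContDiff
import Mathlib.MeasureTheory.Integral.IntervalIntegral.FundThmCalculus
import Mathlib.MeasureTheory.Function.L2Space

open MeasureTheory Metric Set Filter
open scoped ENNReal Topology ContDiff

set_option linter.unusedSectionVars false

namespace Vale.Agent.P137

variable {E : Type*} [NormedAddCommGroup E] [InnerProductSpace ℝ E] [FiniteDimensional ℝ E]
  [MeasurableSpace E] [BorelSpace E] {μ : Measure E} [μ.IsAddHaarMeasure]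

lemma mp_shift (u : E) : MeasurePreserving (fun z : E × ℝ => z.1 + z.2 • u)
    (μ.prod (volume.restrict (Ioc (0 : ℝ) 1))) μ := by
  have hm : Measurable fun z : E × ℝ => z.1 + z.2 • u := by fun_prop
  refine ⟨hm, Measure.ext fun s hs => ?_⟩
  rw [Measure.map_apply hm hs, Measure.prod_apply_symm (hm hs)]
  have : ∀ t : ℝ, μ ((fun x => (x, t)) ⁻¹' ((fun z : E × ℝ => z.1 + z.2 • u) ⁻¹' s)) = μ s :=
    fun t => measure_preimage_add_right μ (t • u) s
  simp [this]

lemma ftc_line {φ : E → ℝ} (hφ : ContDiff ℝ ∞ φ) (x u : E) :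
    φ (x - u) - φ x = -∫ t in Ioc (0 : ℝ) 1, fderiv ℝ φ (x - t • u) u := by
  have hd : Differentiable ℝ φ := hφ.differentiable (by simp)
  have hc : Continuous (fderiv ℝ φ) := hφ.continuous_fderiv (by simp)
  have h1 : ∀ t ∈ uIcc (0 : ℝ) 1,
      HasDerivAt (fun t : ℝ => φ (x - t • u)) (-fderiv ℝ φ (x - t • u) u) t := by
    intro t _
    have a : HasDerivAt (fun t : ℝ => x - t • u) (-u) t := by
      simpa using ((hasDerivAt_id t).smul_const u).const_sub x
    have b := (hd (x - t • u)).hasFDerivAt.comp_hasDerivAt t a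
    rw [map_neg] at b
    exact b
  have h2 := intervalIntegral.integral_eq_sub_of_hasDerivAt h1
    (Continuous.intervalIntegrable (by fun_prop) 0 1)
  rw [intervalIntegral.integral_of_le zero_le_one, integral_neg] at h2
  simpa using h2.symm

lemma diff_eq_ae {f : E → ℝ} {G : E → E} (hf : Integrable f μ) (hG : Integrable G μ)
    (hw : ∀ φ : E → ℝ, ContDiff ℝ ∞ φ → HasCompactSupport φ → ∀ v : E,
      ∫ x, f x * fderiv ℝ φ x v ∂μ = -∫ x, inner ℝ (G x) v * φ x ∂μ) (u : E) :
    ∀ᵐ x ∂μ, f (x + u) - f x = ∫ t in Ioc (0 : ℝ) 1, inner ℝ (G (x + t • u)) u := by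
  have hk : Integrable (fun x => inner ℝ (G x) u) μ := hG.inner_const u
  have hk2 : Integrable (fun z : E × ℝ => inner ℝ (G (z.1 + z.2 • u)) u)
      (μ.prod (volume.restrict (Ioc (0 : ℝ) 1))) :=
    (mp_shift u).integrable_comp_of_integrable hk
  refine ae_eq_of_integral_contDiff_smul_eq
    ((hf.comp_add_right u).sub hf).locallyIntegrable hk2.integral_prod_left.locallyIntegrable
    fun φ hφ hφc => ?_
  have hc : Continuous (fderiv ℝ φ) := hφ.continuous_fderiv (by simp)
  obtain ⟨M, hM⟩ := hφ.continuous.bounded_above_of_compact_support hφc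
  obtain ⟨M', hM'⟩ := hc.bounded_above_of_compact_support (hφc.fderiv ℝ)
  have hφm : ∀ {g : E → ℝ}, Integrable g μ → ∀ a : E, Integrable (fun x => g x * φ (x - a)) μ :=
    fun hg a => hg.mul_bdd (hφ.continuous.comp (by fun_prop)).aestronglyMeasurable
      (Eventually.of_forall fun x => hM _)
  have e1 : ∫ x, φ x • (f (x + u) - f x) ∂μ = ∫ x, f x * (φ (x - u) - φ x) ∂μ := by
    have a1 := hφm (hf.comp_add_right u) 0
    have a2 := hφm hf 0
    have a3 := hφm hf u
    simp only [sub_zero] at a1 a2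
    simp only [smul_eq_mul, mul_comm (φ _)]
    simp only [mul_sub, sub_mul]
    rw [integral_sub a1 a2, integral_sub a3 a2,
      ← integral_add_right_eq_self (fun x => f x * φ (x - u)) u]
    simp
  have i1 : Integrable (fun z : E × ℝ => f z.1 * fderiv ℝ φ (z.1 - z.2 • u) u)
      (μ.prod (volume.restrict (Ioc (0 : ℝ) 1))) :=
    (hf.comp_fst _).mul_bdd (c := M' * ‖u‖) (Continuous.aestronglyMeasurable (by fun_prop))
      (Eventually.of_forall fun z => (ContinuousLinearMap.le_opNorm _ _).trans (by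
        gcongr; exact hM' _))
  have i2 : Integrable (fun z : E × ℝ => inner ℝ (G (z.1 + z.2 • u)) u * φ z.1)
      (μ.prod (volume.restrict (Ioc (0 : ℝ) 1))) :=
    hk2.mul_bdd (hφ.continuous.comp continuous_fst).aestronglyMeasurable
      (Eventually.of_forall fun z => hM _)
  have e2 : ∀ t : ℝ, ∫ x, f x * fderiv ℝ φ (x - t • u) u ∂μ =
      -∫ x, inner ℝ (G (x + t • u)) u * φ x ∂μ := by
    intro t
    have := hw (fun x => φ (x - t • u)) (hφ.comp (contDiff_id.sub contDiff_const))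
      (hφc.comp_homeomorph (Homeomorph.subRight (t • u))) u
    simp only [fderiv_comp_sub] at this
    rw [this, ← integral_add_right_eq_self _ (t • u)]
    simp
  rw [e1]
  simp only [ftc_line hφ, mul_neg, ← integral_const_mul, smul_eq_mul]
  rw [integral_neg, integral_integral_swap (f := fun x t => f x * fderiv ℝ φ (x - t • u) u) i1]
  simp only [e2, integral_neg, neg_neg, mul_comm (φ _)]
  exact (integral_integral_swap (f := fun x t => inner ℝ (G (x + t • u)) u * φ x) i2).symm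

lemma exc_le_of_weak {f : E → ℝ} {G : E → E} (hf : Integrable f μ) (hG : Integrable G μ)
    (hGm : Measurable G)
    (hw : ∀ φ : E → ℝ, ContDiff ℝ ∞ φ → HasCompactSupport φ → ∀ v : E,
      ∫ x, f x * fderiv ℝ φ x v ∂μ = -∫ x, inner ℝ (G x) v * φ x ∂μ) {Λ : ℝ} (hΛ : 0 ≤ Λ)
    (u : E) : ∫⁻ x, exc (fun x => |f x|) Λ u x ∂μ ≤
      (∫⁻ x, (‖G x‖ₑ - ENNReal.ofReal Λ) ∂μ) * ENNReal.ofReal ‖u‖ := by
  have hq : Measurable fun x => ‖G x‖ₑ - ENNReal.ofReal Λ := hGm.enorm.sub measurable_const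
  have hq2 : Measurable fun z : E × ℝ => ‖G (z.1 + z.2 • u)‖ₑ - ENNReal.ofReal Λ :=
    hq.comp (mp_shift (μ := μ) u).measurable
  rw [← (mp_shift u).lintegral_comp hq, lintegral_prod _ hq2.aemeasurable,
    ← lintegral_mul_const _ hq2.lintegral_prod_right']
  refine lintegral_mono_ae ?_
  filter_upwards [diff_eq_ae hf hG hw u] with x hx
  rw [exc, tsub_le_iff_right]
  calc ‖|f (x + u)| - |f x|‖ₑ ≤ ‖f (x + u) - f x‖ₑ := by
        rw [← ofReal_norm, ← ofReal_norm]
        exact ENNReal.ofReal_le_ofReal (abs_abs_sub_abs_le_abs_sub _ _)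
    _ ≤ ∫⁻ t in Ioc (0 : ℝ) 1, ‖inner ℝ (G (x + t • u)) u‖ₑ := by
        rw [hx]; exact enorm_integral_le_lintegral_enorm _
    _ ≤ ∫⁻ t in Ioc (0 : ℝ) 1, ((‖G (x + t • u)‖ₑ - ENNReal.ofReal Λ) * ENNReal.ofReal ‖u‖ +
          ENNReal.ofReal (Λ * ‖u‖)) := by
        refine lintegral_mono fun t => ?_
        rw [ENNReal.ofReal_mul hΛ, ← add_mul, ← ofReal_norm]
        refine le_trans ?_ (mul_le_mul_left le_tsub_add _)
        rw [← ofReal_norm, ← ENNReal.ofReal_mul (norm_nonneg _)]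
        exact ENNReal.ofReal_le_ofReal (norm_inner_le_norm _ _)
    _ = _ := by
        rw [lintegral_add_right _ measurable_const, lintegral_mul_const' _ _
          ENNReal.ofReal_ne_top]
        simp

lemma exists_level {G : E → E} (hG : Integrable G μ) (hGm : Measurable G) {ε : ℝ} (hε : 0 < ε) :
    ∃ Λ : ℝ, 0 ≤ Λ ∧ ∫⁻ x, (‖G x‖ₑ - ENNReal.ofReal Λ) ∂μ ≤ ENNReal.ofReal ε := by
  have ht := tendsto_lintegral_of_dominated_convergence (μ := μ)
    (F := fun (n : ℕ) x => ‖G x‖ₑ - ENNReal.ofReal n) (f := fun _ => 0) (fun x => ‖G x‖ₑ)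
    (fun n => hGm.enorm.sub measurable_const) (fun n => Eventually.of_forall fun x => tsub_le_self)
    hG.2.ne (Eventually.of_forall fun x => ?_)
  · rw [lintegral_zero] at ht
    obtain ⟨n, hn⟩ := (ht.eventually (gt_mem_nhds (ENNReal.ofReal_pos.2 hε))).exists
    exact ⟨n, Nat.cast_nonneg n, hn.le⟩
  · refine tendsto_const_nhds.congr' ?_
    filter_upwards [tendsto_natCast_atTop_atTop.eventually_ge_atTop ‖G x‖] with n hn
    rw [← ofReal_norm, tsub_eq_zero_of_le (ENNReal.ofReal_le_ofReal hn)]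

end Vale.Agent.P137
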