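import Vale.Agent.P137.Cell1
import Mathlib.Analysis.InnerProductSpace.Basic
import Mathlib.MeasureTheory.Covering.Vitali

open MeasureTheory Metric Set Filter
open scoped ENNReal Topology

set_option linter.unusedSectionVars false

namespace Vale.Agent.P137

variable {E : Type*} [NormedAddCommGroup E] [InnerProductSpace ℝ E] [FiniteDimensional ℝ E]
  [MeasurableSpace E] [BorelSpace E] {μ : Measure E} [μ.IsAddHaarMeasure]

lemma convex_sq (X B : E) (t : ℝ) : ‖(1 - t) • X + t • B‖ ^ 2 =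
    (1 - t) * ‖X‖ ^ 2 + t * ‖B‖ ^ 2 - t * (1 - t) * ‖X - B‖ ^ 2 := by
  rw [norm_add_sq_real, norm_sub_sq_real, norm_smul, norm_smul, real_inner_smul_left,
    real_inner_smul_right, mul_pow, mul_pow, Real.norm_eq_abs, Real.norm_eq_abs, sq_abs, sq_abs]
  ring

lemma seg_norm_le (x a c : E) {t : ℝ} (h0 : 0 ≤ t) (h1 : t ≤ 1) :
    ‖x + t • (a - x) - c‖ ≤ (1 - t) * ‖x - c‖ + t * ‖a - c‖ := by
  rw [show x + t • (a - x) - c = (1 - t) • (x - c) + t • (a - c) by module]
  refine (norm_add_le _ _).trans ?_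
  rw [norm_smul, norm_smul, Real.norm_eq_abs, Real.norm_eq_abs, abs_of_nonneg h0,
    abs_of_nonneg (by linarith)]

lemma seg_two_balls {x a b c : E} {r h t : ℝ} (hh : 0 < h) (hr : 500 * h ≤ r)
    (hx : ‖x - c‖ < r + h) (hb : ‖b - c‖ < r) (ha : ‖a - b‖ < r / 80) (hxb : r / 2 ≤ ‖x - b‖)
    (ht : 120 * h ≤ t * r) (ht1 : t ≤ 1) :
    x + t • (a - x) ∈ ball c r ∪ ball b (r / 2) := by
  have hr0 : 0 < r := by linarith
  have ht0 : 0 < t := by
    by_contra hc
    have : t * r ≤ 0 := mul_nonpos_of_nonpos_of_nonneg (not_lt.1 hc) hr0.le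
    linarith
  by_cases h45 : 4 / 5 ≤ t
  · right
    rw [mem_ball, dist_eq_norm]
    refine (seg_norm_le x a b ht0.le ht1).trans_lt ?_
    have h2 : ‖x - b‖ ≤ 2 * r + h := by
      rw [show x - b = (x - c) - (b - c) by abel]
      exact (norm_sub_le _ _).trans (by linarith)
    have h3 : (1 - t) * ‖x - b‖ ≤ 1 / 5 * (2 * r + h) := by gcongr; linarith
    have h4 : t * ‖a - b‖ ≤ 1 * ‖a - b‖ := by gcongr
    linarith
  · left
    push Not at h45
    rw [mem_ball, dist_eq_norm, show x + t • (a - x) - c =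
      ((1 - t) • (x - c) + t • (b - c)) + t • (a - b) by module]
    refine (norm_add_le _ _).trans_lt ?_
    rw [norm_smul, Real.norm_eq_abs, abs_of_pos ht0]
    have e := convex_sq (x - c) (b - c) t
    rw [show x - c - (b - c) = x - b by abel] at e
    have k1 : ‖x - c‖ ^ 2 ≤ (r + h) ^ 2 := by gcongr
    have k2 : ‖b - c‖ ^ 2 ≤ (r + h) ^ 2 := by gcongr; linarith
    have k3 : (r / 2) ^ 2 ≤ ‖x - b‖ ^ 2 := by gcongr
    have k4 : t * (1 / 5) * (r / 2) ^ 2 ≤ t * (1 - t) * ‖x - b‖ ^ 2 := by gcongr; linarith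
    have k5 : (1 - t) * ‖x - c‖ ^ 2 + t * ‖b - c‖ ^ 2 ≤ (r + h) ^ 2 := by
      calc _ ≤ (1 - t) * (r + h) ^ 2 + t * (r + h) ^ 2 := by gcongr
        _ = _ := by ring
    have k6 : ‖(1 - t) • (x - c) + t • (b - c)‖ ≤ r - t * r / 80 := by
      refine (pow_le_pow_iff_left₀ (norm_nonneg _) (by nlinarith) two_ne_zero).1 ?_
      have : 120 * h * r ≤ t * r * r := by gcongr
      nlinarith [sq_nonneg (t * r / 80)]
    have k7 : t * ‖a - b‖ < t * (r / 80) := by gcongr
    linarith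

lemma le_gM (p : E → ℝ) {z c : E} {r l : ℝ} (hz : z ∈ ball c r) (hl : l < av μ p c r) :
    ENNReal.ofReal l ≤ gM μ p z :=
  (ENNReal.ofReal_le_ofReal hl.le).trans (le_iSup_of_le c (le_iSup_of_le r (le_iSup_of_le hz le_rfl)))

lemma good_of_vis {p : E → ℝ} {S : Set E} {x c : E} {r h l : ℝ} (hh : 0 < h)
    (hr : 5 * h / xi E ≤ r) (hx : dist x c < r + h) (hS : ball c (2 * r) ⊆ S)
    (hg : gM μ p x < ENNReal.ofReal l) (hl : l < av μ p c r)
    (hvis : ∀ A ⊆ ball x (3 * r), (∀ a ∈ A, l < p a ∧ ∀ t ∈ Icc (5 * h / xi E / (4 * r)) 1,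
      x + t • (a - x) ∈ S ∧ ENNReal.ofReal l ≤ gM μ p (x + t • (a - x))) →
      μ.real A ≤ (4 * r) ^ Module.finrank ℝ E *
        (dl1 E * μ.real (ball (0 : E) 1) / 4 ^ Module.finrank ℝ E)) :
    Good μ p c r l := by
  have hξ := xi_pos (E := E)
  have hξ' := xi_le (E := E)
  have h500 : 500 * h ≤ 5 * h / xi E := by rw [le_div_iff₀ hξ]; nlinarith
  have hr0 : 0 < r := by linarith
  have e : (4 * r) ^ Module.finrank ℝ E *
      (dl1 E * μ.real (ball (0 : E) 1) / 4 ^ Module.finrank ℝ E) = dl1 E * μ.real (ball c r) := by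
    rw [real_ball c hr0, mul_pow]; field_simp
  rw [e] at hvis
  rw [dist_eq_norm] at hx
  have ht : ∀ t ∈ Icc (5 * h / xi E / (4 * r)) 1, 5 * h / xi E ≤ t * (4 * r) := fun t ht =>
    (div_le_iff₀ (by positivity)).1 ht.1
  have ht0 : ∀ t ∈ Icc (5 * h / xi E / (4 * r)) 1, 0 < t := fun t ht =>
    lt_of_lt_of_le (by positivity) ht.1
  refine ⟨hvis _ ?_ ?_, hl, fun b hb hlb => hvis _ ?_ ?_⟩
  · refine inter_subset_right.trans (ball_subset_ball' ?_)
    rw [dist_comm, dist_eq_norm]; nlinarith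
  · rintro a ⟨ha1, ha2⟩
    refine ⟨ha1, fun t htt => ?_⟩
    have : x + t • (a - x) ∈ ball c r := by
      rw [mem_ball, dist_eq_norm] at ha2 ⊢
      have t0 := ht0 t htt
      have t1 := (div_le_iff₀ hξ).1 (ht t htt)
      refine (seg_norm_le x a c t0.le htt.2).trans_lt ?_
      have k1 : (1 - t) * ‖x - c‖ ≤ (1 - t) * (r + h) := by gcongr; linarith [htt.2]
      have k2 : t * ‖a - c‖ < t * ((1 - xi E) * r) := by gcongr
      nlinarith
    exact ⟨hS (ball_subset_ball (by linarith) this), le_gM p this hl⟩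
  · refine inter_subset_right.trans (ball_subset_ball' ?_)
    have := dist_triangle_right b x c
    rw [dist_eq_norm x c] at this
    linarith [mem_ball.1 hb]
  · rintro a ⟨ha1, ha2⟩
    refine ⟨ha1, fun t htt => ?_⟩
    have hxb : r / 2 ≤ ‖x - b‖ := by
      by_contra hc
      exact absurd (le_gM p (mem_ball_iff_norm.2 (not_le.1 hc)) hlb) (not_le.2 hg)
    rcases seg_two_balls hh (h500.trans hr) hx (mem_ball_iff_norm.1 hb) (mem_ball_iff_norm.1 ha2)
      hxb (by linarith [ht t htt]) htt.2 with h1 | h1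
    · exact ⟨hS (ball_subset_ball (by linarith) h1), le_gM p h1 hl⟩
    · exact ⟨hS (ball_subset_ball' (by linarith [mem_ball.1 hb]) h1), le_gM p h1 hlb⟩

/-- Vitali covering estimate -/
lemma vitali_bound (q : E → ℝ≥0∞) (a : ℝ≥0∞) (F : Set (E × ℝ)) (R : ℝ)
    (hF : ∀ z ∈ F, 0 < z.2 ∧ z.2 ≤ R ∧ a * μ (ball z.1 z.2) ≤ ∫⁻ x in ball z.1 z.2, q x ∂μ) :
    a * μ (⋃ z ∈ F, ball z.1 (2 * z.2)) ≤
      ENNReal.ofReal (8 ^ Module.finrank ℝ E) * ∫⁻ x, q x ∂μ := by
  obtain ⟨u, huF, hdisj, hcov⟩ := Vitali.exists_disjoint_subfamily_covering_enlargement_ball F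
    (fun z => z.1) (fun z => 2 * z.2) (2 * R) (fun z hz => by linarith [(hF z hz).2.1]) 4
    (by norm_num)
  have hdisj' : u.PairwiseDisjoint fun z => ball z.1 z.2 :=
    hdisj.mono_on fun z hz => ball_subset_ball (by linarith [(hF z (huF hz)).1])
  have hc : u.Countable := hdisj'.countable_of_isOpen (fun _ _ => isOpen_ball)
    fun z hz => nonempty_ball.2 (hF z (huF hz)).1
  have h1 : (⋃ z ∈ F, ball z.1 (2 * z.2)) ⊆ ⋃ z ∈ u, ball z.1 (8 * z.2) := by
    refine iUnion₂_subset fun z hz => ?_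
    obtain ⟨b, hb, h⟩ := hcov z hz
    refine h.trans (subset_iUnion₂_of_subset b hb (ball_subset_ball (le_of_eq (by ring))))
  calc _ ≤ a * ∑' z : u, μ (ball z.1.1 (8 * z.1.2)) :=
        mul_le_mul_right ((measure_mono h1).trans (measure_biUnion_le μ hc _)) _
    _ = ENNReal.ofReal (8 ^ Module.finrank ℝ E) * ∑' z : u, a * μ (ball z.1.1 z.1.2) := by
        rw [← ENNReal.tsum_mul_left, ← ENNReal.tsum_mul_left]
        refine tsum_congr fun z => ?_
        rw [Measure.addHaar_ball_mul_of_pos μ _ (by norm_num), Measure.addHaar_ball_center μ z.1.1,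
          mul_left_comm]
    _ ≤ ENNReal.ofReal (8 ^ Module.finrank ℝ E) * ∑' z : u, ∫⁻ x in ball z.1.1 z.1.2, q x ∂μ := by
        gcongr with z
        exact (hF z (huF z.2)).2.2
    _ ≤ _ := by
        rw [← lintegral_biUnion hc (fun _ _ => measurableSet_ball) hdisj']
        gcongr
        exact Measure.restrict_le_self

end Vale.Agent.P137
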