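import Vale.Agent.P137.Defs
import Vale.Agent.P137.AB
import Vale.Agent.P137.Weak2

open MeasureTheory Metric Set Filter
open scoped ENNReal Topology ContDiff

set_option linter.unusedSectionVars false

namespace Vale.Agent.P137

section
variable {E : Type*} [NormedAddCommGroup E] [InnerProductSpace ℝ E] [FiniteDimensional ℝ E]
  [MeasurableSpace E] [BorelSpace E] (μ : Measure E) [μ.IsAddHaarMeasure] [Nontrivial E]

theorem abstract_main : ∃ C : ℝ, 0 ≤ C ∧ ∀ (f : E → ℝ) (G : E → E), Measurable f → Measurable G →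
    Integrable f μ → Integrable G μ → (∀ φ : E → ℝ, ContDiff ℝ ∞ φ → HasCompactSupport φ →
      ∀ v : E, ∫ x, f x * fderiv ℝ φ x v ∂μ = -∫ x, inner ℝ (G x) v * φ x ∂μ) →
    (∀ᵐ x ∂μ, gM μ (fun x => |f x|) x < ⊤) ∧
    LocallyIntegrable (fun x => (gM μ (fun x => |f x|) x).toReal) μ ∧
    ∀ e : E, ∃ Γ : E → ℝ, Integrable Γ μ ∧ ∫ x, |Γ x| ∂μ ≤ C * (∫ x, ‖G x‖ ∂μ) * ‖e‖ ∧
      ∀ φ : E → ℝ, ContDiff ℝ ∞ φ → HasCompactSupport φ →
        ∫ x, (gM μ (fun x => |f x|) x).toReal * fderiv ℝ φ x e ∂μ = -∫ x, Γ x * φ x ∂μ := by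
  obtain ⟨C, hC, hA⟩ := thmA μ
  refine ⟨2 * C, by positivity, fun f G hfm hGm hf hG hw => ?_⟩
  set L := ∫ x, ‖G x‖ ∂μ with hL
  have hL0 : 0 ≤ L := integral_nonneg fun _ => norm_nonneg _
  have hm : Measurable fun x => |f x| := continuous_abs.measurable.comp hfm
  have h0 : ∀ x, 0 ≤ |f x| := fun x => abs_nonneg _
  have hp : Integrable (fun x => |f x|) μ := hf.abs
  have hV : ∀ u, V μ (fun x => |f x|) u ≤ L * ‖u‖ := by
    intro u
    have h1 := exc_le_of_weak hf hG hGm hw le_rfl u
    simp only [exc, zero_mul, ENNReal.ofReal_zero, tsub_zero] at h1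
    rwa [← ofReal_integral_norm_eq_lintegral_enorm hG,
      ← ofReal_integral_norm_eq_lintegral_enorm (f := fun x => |f (x + u)| - |f x|)
        ((hp.comp_add_right u).sub hp), ← ENNReal.ofReal_mul hL0,
      ENNReal.ofReal_le_ofReal_iff (by positivity)] at h1
  have hX : ∀ ε, 0 < ε → ∃ Λ, 0 ≤ Λ ∧ ∀ u, ∫⁻ z, exc (fun x => |f x|) Λ u z ∂μ ≤
      ENNReal.ofReal (ε * ‖u‖) := by
    intro ε hε
    obtain ⟨Λ, h1, h2⟩ := exists_level hG hGm hε
    refine ⟨Λ, h1, fun u => (exc_le_of_weak hf hG hGm hw h1 u).trans ?_⟩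
    rw [ENNReal.ofReal_mul hε.le]
    gcongr
  have hfin := gM_ae_lt_top μ h0 hp
  have hgm := gM_measurable (μ := μ) (fun x => |f x|)
  have hA' := two_sided μ hgm hfin 0 (C * L) (by positivity) (fun v => by
    simpa using hA _ hm h0 hp L hL0 hV v)
  refine ⟨hfin, locInt hgm.ennreal_toReal (by positivity) hA', fun e => ?_⟩
  rw [mul_assoc 2 C L]
  refine dir_deriv hgm.ennreal_toReal (by positivity) hA' (fun η hη => ?_) e
  obtain ⟨Λ, h1, h2⟩ := thmB μ hm h0 hp hL0 hV hX (η / 2) (by positivity)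
  refine ⟨Λ, h1, fun u => ?_⟩
  have := two_sided μ hgm hfin Λ (η / 2) (by positivity) h2 u
  rwa [show 2 * (η / 2) = η by ring] at this

end

lemma uncentered_eq {d : ℕ} {f f' : EuclideanSpace ℝ (Fin d) → ℝ} (hf : Integrable f' volume)
    (h : f =ᵐ[volume] f') : uncenteredMaximal f = gM volume (fun x => |f' x|) := by
  funext x
  refine iSup_congr fun c => iSup_congr fun r => iSup_congr fun hx => ?_
  have hr := pos_of_mem_ball hx
  have h1 : ∫⁻ y in ball c r, ‖f y‖ₑ = ∫⁻ y in ball c r, ENNReal.ofReal |f' y| := by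
    refine lintegral_congr_ae (ae_restrict_of_ae ?_)
    filter_upwards [h] with y hy
    rw [hy, ← ofReal_norm, Real.norm_eq_abs]
  rw [h1, ← av_mul (fun x => abs_nonneg _) hf.abs c hr,
    ENNReal.mul_div_cancel_right (measure_ball_pos volume c hr).ne' measure_ball_lt_top.ne]

theorem uncentered_main (d : ℕ) (hd : 1 ≤ d) : ∃ C : ℝ,
    ∀ (f : EuclideanSpace ℝ (Fin d) → ℝ) (G : EuclideanSpace ℝ (Fin d) → EuclideanSpace ℝ (Fin d)),
      Integrable f volume → Integrable G volume → HasWeakGradient f G →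
      (∀ᵐ x, uncenteredMaximal f x < ⊤) ∧
      ∃ G' : EuclideanSpace ℝ (Fin d) → EuclideanSpace ℝ (Fin d),
        HasWeakGradient (fun x => (uncenteredMaximal f x).toReal) G' ∧ Integrable G' volume ∧
          ∫ x, ‖G' x‖ ≤ C * ∫ x, ‖G x‖ := by
  have : Nonempty (Fin d) := ⟨⟨0, hd⟩⟩
  obtain ⟨C, hC, h⟩ := abstract_main (volume : Measure (EuclideanSpace ℝ (Fin d)))
  refine ⟨d * C, fun f G hf hG hw => ?_⟩
  have ef := hf.1.ae_eq_mk
  have eG := hG.1.ae_eq_mk
  obtain ⟨h1, h2, h3⟩ := h (hf.1.mk f) (hG.1.mk G) hf.1.stronglyMeasurable_mk.measurable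
    hG.1.stronglyMeasurable_mk.measurable (hf.congr ef) (hG.congr eG) (fun φ a b v => by
      have := hw.2.2 φ a b v
      rw [integral_congr_ae (g := fun x => hf.1.mk f x * fderiv ℝ φ x v)
        (by filter_upwards [ef] with x hx; rw [hx]),
        integral_congr_ae (f := fun x => inner ℝ (G x) v * φ x)
          (g := fun x => inner ℝ (hG.1.mk G x) v * φ x)
          (by filter_upwards [eG] with x hx; rw [hx])] at this
      exact this)
  rw [← uncentered_eq (hf.congr ef) ef] at h1 h2 h3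
  have eL : ∫ x, ‖hG.1.mk G x‖ = ∫ x, ‖G x‖ :=
    integral_congr_ae (by filter_upwards [eG] with x hx; rw [hx])
  rw [eL] at h3
  set b := EuclideanSpace.basisFun (Fin d) ℝ with hb
  choose Γ g1 g2 g3 using fun i => h3 (b i)
  have gi : ∀ i, Integrable (fun x => Γ i x • b i) volume := fun i => (g1 i).smul_const _
  have hG' : Integrable (fun x => ∑ i, Γ i x • b i) volume :=
    integrable_finsetSum _ fun i _ => gi i
  refine ⟨h1, fun x => ∑ i, Γ i x • b i, ⟨h2, hG'.locallyIntegrable, fun φ a c v => ?_⟩, hG', ?_⟩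
  · have hc : Continuous (fderiv ℝ φ) := a.continuous_fderiv (by simp)
    obtain ⟨M, hM⟩ := a.continuous.bounded_above_of_compact_support c
    have i1 : ∀ i, Integrable (fun x => inner ℝ (b i) v *
        ((uncenteredMaximal f x).toReal * fderiv ℝ φ x (b i))) volume := fun i =>
      (h2.integrable_smul_right_of_hasCompactSupport (g := fun x => fderiv ℝ φ x (b i))
        (by fun_prop) (c.fderiv_apply ℝ (b i))).const_mul _
    have i2 : ∀ i, Integrable (fun x => inner ℝ (b i) v * (Γ i x * φ x)) volume := fun i =>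
      ((g1 i).mul_bdd a.continuous.aestronglyMeasurable (Eventually.of_forall hM)).const_mul _
    have e1 : ∀ x, (uncenteredMaximal f x).toReal * fderiv ℝ φ x v = ∑ i, inner ℝ (b i) v *
        ((uncenteredMaximal f x).toReal * fderiv ℝ φ x (b i)) := by
      intro x
      conv_lhs => rw [← b.sum_repr' v]
      simp only [map_sum, map_smul, smul_eq_mul, Finset.mul_sum]
      exact Finset.sum_congr rfl fun i _ => by ring
    have e2 : ∀ x, inner ℝ (∑ i, Γ i x • b i) v * φ x = ∑ i, inner ℝ (b i) v * (Γ i x * φ x) := by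
      intro x
      simp only [sum_inner, real_inner_smul_left, Finset.sum_mul]
      exact Finset.sum_congr rfl fun i _ => by ring
    simp only [e1, e2]
    rw [integral_finsetSum _ fun i _ => i1 i, integral_finsetSum _ fun i _ => i2 i,
      ← Finset.sum_neg_distrib]
    refine Finset.sum_congr rfl fun i _ => ?_
    rw [integral_const_mul, integral_const_mul, g3 i φ a c, mul_neg]
  · calc _ ≤ ∫ x, ∑ i, |Γ i x| := by
          refine integral_mono hG'.norm (integrable_finsetSum _ fun i _ => (g1 i).abs) fun x => ?_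
          refine (norm_sum_le _ _).trans (le_of_eq (Finset.sum_congr rfl fun i _ => ?_))
          rw [norm_smul, b.orthonormal.1 i, mul_one, Real.norm_eq_abs]
      _ ≤ ∑ _i : Fin d, C * ∫ x, ‖G x‖ := by
          rw [integral_finsetSum _ fun i _ => (g1 i).abs]
          refine Finset.sum_le_sum fun i _ => ?_
          have := g2 i
          rwa [b.orthonormal.1 i, mul_one] at this
      _ = _ := by simp [mul_assoc]

end Vale.Agent.P137
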