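import Vale.Agent.P137.Core1

open MeasureTheory Metric Set Filter
open scoped ENNReal Topology Pointwise

set_option linter.unusedSectionVars false

namespace Vale.Agent.P137

variable {E : Type*} [NormedAddCommGroup E] [NormedSpace ℝ E] [FiniteDimensional ℝ E]
  [MeasurableSpace E] [BorelSpace E] {μ : Measure E} [μ.IsAddHaarMeasure]

lemma min_tsub_le (a b T : ℝ≥0∞) : min b T - min a T ≤ b - a := by
  rw [tsub_le_iff_right]
  rcases le_total a T with h | h
  · rw [min_eq_left h]; exact (min_le_left _ _).trans le_tsub_add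
  · rw [min_eq_right h]; exact (min_le_right _ _).trans le_add_self

lemma swap_le {n : E → ℝ≥0∞} (hn : Measurable n) {S : Set E} (hS : MeasurableSet S)
    (hSf : μ S ≠ ∞) (h0 : ∀ x, x ∉ S → n x = 0) (u : E) :
    ∫⁻ x, (n (x + u) - n x) ∂μ ≤ ∫⁻ x, (n x - n (x + u)) ∂μ := by
  have hnu : Measurable fun x => n (x + u) := hn.comp (measurable_add_const u)
  have h1 : ∀ T : ℕ, ∫⁻ x, (min (n (x + u)) T - min (n x) T) ∂μ ≤ ∫⁻ x, (n x - n (x + u)) ∂μ := by
    intro T
    have m1 : Measurable fun x => min (n x) (T : ℝ≥0∞) := hn.min measurable_const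
    have m2 : Measurable fun x => min (n (x + u)) (T : ℝ≥0∞) := hnu.min measurable_const
    have hfin : ∫⁻ x, min (n x) (T : ℝ≥0∞) ∂μ ≠ ∞ := by
      refine ne_top_of_le_ne_top (ENNReal.mul_ne_top (ENNReal.natCast_ne_top T) hSf) ?_
      rw [← lintegral_indicator_const hS]
      refine lintegral_mono fun x => ?_
      by_cases hx : x ∈ S
      · rw [indicator_of_mem hx]; exact min_le_right _ _
      · rw [indicator_of_notMem hx, h0 x hx]; simp
    have e : ∫⁻ x, (min (n (x + u)) T - min (n x) T) ∂μ + ∫⁻ x, min (n x) (T : ℝ≥0∞) ∂μ =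
        ∫⁻ x, (min (n x) T - min (n (x + u)) T) ∂μ + ∫⁻ x, min (n x) (T : ℝ≥0∞) ∂μ := by
      conv_rhs => rw [← lintegral_add_right_eq_self (fun x => min (n x) (T : ℝ≥0∞)) u]
      rw [← lintegral_add_right _ m1, ← lintegral_add_right _ m2]
      refine lintegral_congr fun x => ?_
      rw [tsub_add_eq_max, tsub_add_eq_max, max_comm]
    rw [(ENNReal.add_left_inj hfin).1 e]
    exact lintegral_mono fun x => min_tsub_le _ _ _
  refine le_trans ?_ (iSup_le h1)
  rw [← lintegral_iSup (f := fun (T : ℕ) x => min (n (x + u)) (T : ℝ≥0∞) - min (n x) T)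
    (fun T => (hnu.min measurable_const).sub (hn.min measurable_const))]
  · refine lintegral_mono fun x => ?_
    have : n (x + u) = ⨆ T : ℕ, min (n (x + u)) (T : ℝ≥0∞) := by
      rw [← inf_iSup_eq, ENNReal.iSup_natCast]; simp
    conv_lhs => rw [this, ENNReal.iSup_sub]
    exact iSup_mono fun T => tsub_le_tsub_left (min_le_left _ _) _
  · intro T T' hT x
    have hT' : (T : ℝ≥0∞) ≤ T' := by exact_mod_cast hT
    rcases le_total (n x) T with h | h
    · simp only [min_eq_left h, min_eq_left (h.trans hT')]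
      exact tsub_le_tsub_right (min_le_min le_rfl hT') _
    · simp only [min_eq_right h]
      rw [tsub_eq_zero_of_le (min_le_right _ _)]
      exact zero_le

/-- highest level visible along the discrete ray -/
noncomputable def vm (g : E → ℝ≥0∞) (p : E → ℝ) (z : E × E) : ℝ≥0∞ :=
  ⨆ k : ℕ, min (⨅ (j : ℕ) (_ : j < k), g (z.2 + (j : ℝ) • z.1))
    (ENNReal.ofReal (p (z.2 + (k : ℝ) • z.1)))

lemma vm_measurable {g : E → ℝ≥0∞} (hg : Measurable g) {p : E → ℝ} (hm : Measurable p) :
    Measurable (vm g p) := by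
  refine Measurable.iSup fun k => Measurable.min ?_ (hm.comp (by fun_prop)).ennreal_ofReal
  exact Measurable.iInf fun j => Measurable.iInf_Prop _ (hg.comp (by fun_prop))

lemma le_vm (g : E → ℝ≥0∞) (p : E → ℝ) (u x : E) : ENNReal.ofReal (p x) ≤ vm g p (u, x) :=
  le_iSup_of_le 0 (by simp)

lemma vm_le (g : E → ℝ≥0∞) (p : E → ℝ) (u x : E) :
    vm g p (u, x) ≤ max (ENNReal.ofReal (p x)) (min (g x) (vm g p (u, x + u))) := by
  refine iSup_le fun k => ?_
  cases k with
  | zero => exact le_max_of_le_left (by simp)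
  | succ k =>
    refine le_max_of_le_right (le_min ?_ (le_iSup_of_le k (min_le_min ?_ ?_)))
    · refine (min_le_left _ _).trans (iInf_le_of_le 0 (iInf_le_of_le (Nat.succ_pos k) (by simp)))
    · refine le_iInf fun j => le_iInf fun hj => iInf_le_of_le (j + 1)
        (iInf_le_of_le (Nat.succ_lt_succ hj) (le_of_eq ?_))
      congr 1
      simp only [Nat.cast_add, Nat.cast_one, add_smul, one_smul]; abel
    · refine le_of_eq ?_
      congr 2
      simp only [Nat.cast_add, Nat.cast_one, add_smul, one_smul]; abel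

lemma ofReal_le_add_enorm (a b : ℝ) : ENNReal.ofReal a ≤ ENNReal.ofReal b + ‖a - b‖ₑ := by
  rw [← ofReal_norm]
  refine (ENNReal.ofReal_le_ofReal ?_).trans ENNReal.ofReal_add_le
  have := le_abs_self (a - b)
  rw [Real.norm_eq_abs]; linarith

noncomputable def vn (g : E → ℝ≥0∞) (p : E → ℝ) (z : E × E) : ℝ≥0∞ :=
  vm g p z - ENNReal.ofReal (p z.2)

noncomputable def vY (g : E → ℝ≥0∞) (p : E → ℝ) (S : Set E) (z : E × E) : ℝ≥0∞ :=
  (vn (S.indicator g) p (z.1, z.2 + z.1) - vn (S.indicator g) p z) +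
    S.indicator (fun x => ‖p (x + z.1) - p x‖ₑ) z.2

lemma vn_measurable {g : E → ℝ≥0∞} (hg : Measurable g) {p : E → ℝ} (hm : Measurable p) :
    Measurable (vn g p) :=
  (vm_measurable hg hm).sub (hm.comp measurable_snd).ennreal_ofReal

lemma vY_measurable {g : E → ℝ≥0∞} (hg : Measurable g) {p : E → ℝ} (hm : Measurable p)
    {S : Set E} (hS : MeasurableSet S) : Measurable (vY g p S) := by
  have h := vn_measurable (hg.indicator hS) hm
  refine ((h.comp (by fun_prop)).sub h).add ?_
  have h2 : Measurable fun z : E × E => ‖p (z.2 + z.1) - p z.2‖ₑ :=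
    ((hm.comp (by fun_prop)).sub (hm.comp measurable_snd)).enorm
  exact h2.indicator (measurable_snd hS)

lemma lintegral_vY {g : E → ℝ≥0∞} (hg : Measurable g) {p : E → ℝ} (hm : Measurable p)
    {S : Set E} (hS : MeasurableSet S) (hSf : μ S ≠ ∞) (u : E) :
    ∫⁻ x, vY g p S (u, x) ∂μ ≤ 2 * ∫⁻ x in S, ‖p (x + u) - p x‖ₑ ∂μ := by
  have hn : Measurable fun x => vn (S.indicator g) p (u, x) :=
    (vn_measurable (hg.indicator hS) hm).comp measurable_prodMk_left
  have h0 : ∀ x, x ∉ S → vn (S.indicator g) p (u, x) = 0 := by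
    intro x hx
    have := vm_le (S.indicator g) p u x
    rw [indicator_of_notMem hx] at this
    exact tsub_eq_zero_of_le (by simpa using this)
  have h2 : Measurable fun x : E => ‖p (x + u) - p x‖ₑ :=
    ((hm.comp (by fun_prop)).sub hm).enorm
  unfold vY
  rw [lintegral_add_right _ (h2.indicator hS), lintegral_indicator hS, two_mul]
  refine add_le_add ((swap_le hn hS hSf h0 u).trans ?_) le_rfl
  rw [← lintegral_indicator hS]
  refine lintegral_mono fun x => ?_
  by_cases hx : x ∈ S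
  · rw [indicator_of_mem hx, tsub_le_iff_right, vn, tsub_le_iff_right]
    refine (vm_le _ p u x).trans (max_le le_add_self ((min_le_right _ _).trans ?_))
    calc vm (S.indicator g) p (u, x + u)
        ≤ vn (S.indicator g) p (u, x + u) + ENNReal.ofReal (p (x + u)) := le_tsub_add
      _ ≤ vn (S.indicator g) p (u, x + u) + (ENNReal.ofReal (p x) + ‖p (x + u) - p x‖ₑ) := by
          gcongr; exact ofReal_le_add_enorm _ _
      _ = _ := by ring
  · rw [h0 x hx]; simp

lemma vm_step {g : E → ℝ≥0∞} {p : E → ℝ} {S : Set E} (u x : E) (hx : x ∈ S)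
    (hpx : ENNReal.ofReal (p x) ≤ g x) :
    vm (S.indicator g) p (u, x + u) ≤ g x + vY g p S (u, x) := by
  have h1 : vm (S.indicator g) p (u, x) ≤ g x := by
    refine (vm_le _ p u x).trans (max_le hpx ((min_le_left _ _).trans ?_))
    rw [indicator_of_mem hx]
  have h2 : vn (S.indicator g) p (u, x) + ENNReal.ofReal (p x) = vm (S.indicator g) p (u, x) :=
    tsub_add_cancel_of_le (le_vm _ p u x)
  unfold vY
  rw [indicator_of_mem hx]
  calc vm (S.indicator g) p (u, x + u)
      ≤ vn (S.indicator g) p (u, x + u) + ENNReal.ofReal (p (x + u)) := le_tsub_add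
    _ ≤ (vn (S.indicator g) p (u, x + u) - vn (S.indicator g) p (u, x) +
          vn (S.indicator g) p (u, x)) + (ENNReal.ofReal (p x) + ‖p (x + u) - p x‖ₑ) := by
        gcongr
        · exact le_tsub_add
        · exact ofReal_le_add_enorm _ _
    _ = (vn (S.indicator g) p (u, x) + ENNReal.ofReal (p x)) +
          (vn (S.indicator g) p (u, x + u) - vn (S.indicator g) p (u, x) +
            ‖p (x + u) - p x‖ₑ) := by ring
    _ ≤ _ := by rw [h2]; gcongr

lemma vis {g : E → ℝ≥0∞} (hg : Measurable g) {p : E → ℝ} (hm : Measurable p)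
    {S : Set E} (hS : MeasurableSet S) (hSf : μ S ≠ ∞) {H δ₀ : ℝ} (hH : 0 < H) (hδ : 0 < δ₀)
    (M : ℝ≥0∞) (hM : ∀ u : E, ‖u‖ ≤ H → ∫⁻ x in S, ‖p (x + u) - p x‖ₑ ∂μ ≤ M) :
    ∃ y : E → ℝ≥0∞, Measurable y ∧
      ∫⁻ x, y x ∂μ ≤ (ENNReal.ofReal δ₀)⁻¹ * (2 * M * μ (ball (0 : E) 1)) ∧
      ∀ x ∈ S, ENNReal.ofReal (p x) ≤ g x → ∀ l : ℝ, g x + y x < ENNReal.ofReal l →
        ∀ r, H ≤ r → ∀ A ⊆ ball x (3 * r), (∀ a ∈ A, l < p a ∧ ∀ t ∈ Icc (H / (4 * r)) 1,
          x + t • (a - x) ∈ S ∧ ENNReal.ofReal l ≤ g (x + t • (a - x))) →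
        μ.real A ≤ (4 * r) ^ Module.finrank ℝ E * δ₀ := by
  have hY : Measurable fun z : E × E => vY g p S (H • z.2, z.1) :=
    (vY_measurable hg hm hS).comp (by fun_prop)
  have hd0 : ENNReal.ofReal δ₀ ≠ 0 := by simpa using hδ
  refine ⟨fun x => (ENNReal.ofReal δ₀)⁻¹ * ∫⁻ w in ball (0 : E) 1, vY g p S (H • w, x) ∂μ,
    hY.lintegral_prod_right'.const_mul _, ?_, ?_⟩
  · rw [lintegral_const_mul _ hY.lintegral_prod_right', ← setLIntegral_const,
      lintegral_lintegral_swap (f := fun x w => vY g p S (H • w, x)) hY.aemeasurable]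
    refine mul_le_mul_right (setLIntegral_mono' measurableSet_ball fun w hw => ?_) _
    refine (lintegral_vY hg hm hS hSf _).trans (mul_le_mul_right (hM _ ?_) _)
    rw [norm_smul, Real.norm_eq_abs, abs_of_pos hH]
    exact mul_le_of_le_one_right hH.le (mem_ball_zero_iff.1 hw).le
  intro x hx hpx l hl r hr A hA hvis
  set Z := {w | ENNReal.ofReal l ≤ vm (S.indicator g) p (H • w, x + H • w)} ∩ ball (0 : E) 1
  have hZ : μ Z ≤ ENNReal.ofReal δ₀ := by
    by_contra hcon
    set γ := ENNReal.ofReal l - g x with hγ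
    have h1 : (ENNReal.ofReal δ₀)⁻¹ * ∫⁻ w in ball (0 : E) 1, vY g p S (H • w, x) ∂μ < γ :=
      lt_tsub_iff_left.2 hl
    have h2 := mul_meas_ge_le_lintegral₀ (μ := μ.restrict (ball (0 : E) 1))
      (f := fun w => vY g p S (H • w, x)) (hY.comp measurable_prodMk_left).aemeasurable γ
    rw [Measure.restrict_apply' measurableSet_ball] at h2
    have h3 : μ Z ≤ μ ({w | γ ≤ vY g p S (H • w, x)} ∩ ball (0 : E) 1) :=
      measure_mono (inter_subset_inter_left _ fun w hw =>
        tsub_le_iff_left.2 (le_trans hw (vm_step _ x hx hpx)))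
    have h4 : γ * ENNReal.ofReal δ₀ ≤ ∫⁻ w in ball (0 : E) 1, vY g p S (H • w, x) ∂μ :=
      le_trans (by gcongr; exact (not_le.1 hcon).le.trans h3) h2
    refine absurd h1 (not_lt.2 ?_)
    rw [mul_comm, ← div_eq_mul_inv, ENNReal.le_div_iff_mul_le (Or.inl hd0)
      (Or.inl ENNReal.ofReal_ne_top)]
    exact h4
  have hr0 : 0 < r := by linarith
  obtain ⟨k, hk1, hk2⟩ : ∃ k : ℕ, 3 * r ≤ (k + 1) * H ∧ (k + 1) * H ≤ 4 * r := by
    refine ⟨⌊3 * r / H⌋₊, ?_, ?_⟩
    · rw [← div_le_iff₀ hH]; exact (Nat.lt_floor_add_one _).le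
    · have := Nat.floor_le (show 0 ≤ 3 * r / H by positivity)
      rw [le_div_iff₀ hH] at this
      linarith
  have hs : 0 < ((k : ℝ) + 1) * H := by positivity
  have hsub : A ⊆ (fun a => a - x) ⁻¹' ((((k : ℝ) + 1) * H) • Z) := by
    intro a ha
    rw [mem_preimage, mem_smul_set_iff_inv_smul_mem₀ hs.ne']
    obtain ⟨v1, v2⟩ := hvis a ha
    have e : ∀ j : ℝ, x + H • (((k : ℝ) + 1) * H)⁻¹ • (a - x) +
        j • H • (((k : ℝ) + 1) * H)⁻¹ • (a - x) = x + ((j + 1) / (k + 1)) • (a - x) := by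
      intro j
      simp only [smul_smul, add_assoc, ← add_smul]
      congr 2
      field_simp
      ring
    refine ⟨?_, ?_⟩
    rw [mem_ofPred_eq, vm]
    refine le_iSup_of_le k (le_min (le_iInf fun j => le_iInf fun hj => ?_) ?_)
    · have hj' : (j : ℝ) ≤ k := by exact_mod_cast hj.le
      have := v2 (((j : ℝ) + 1) / (k + 1)) ⟨?_, ?_⟩
      · simp only [e]
        rw [indicator_of_mem this.1]
        exact this.2
      · rw [div_le_div_iff₀ (by positivity) (by positivity)]
        have : (0 : ℝ) ≤ j * (4 * r) := by positivity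
        linarith
      · rw [div_le_one (by positivity)]; linarith
    · simp only [e]
      rw [div_self (by positivity), one_smul, add_sub_cancel]
      exact ENNReal.ofReal_le_ofReal v1.le
    · have := hA ha
      rw [mem_ball, dist_eq_norm] at this
      rw [mem_ball_zero_iff, norm_smul, norm_inv, Real.norm_eq_abs, abs_of_pos hs,
        inv_mul_lt_iff₀ hs]
      linarith
  have h5 := measure_mono (μ := μ) hsub
  rw [pre_sub_right, Measure.addHaar_smul_of_nonneg μ hs.le] at h5
  refine ENNReal.toReal_le_of_le_ofReal (by positivity) (h5.trans ?_)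
  rw [ENNReal.ofReal_mul (by positivity)]
  gcongr

end Vale.Agent.P137
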