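import Vale.Agent.P137.Cell1
import Vale.Agent.P137.Vis
import Mathlib.MeasureTheory.Constructions.Polish.Basic

open MeasureTheory Metric Set Filter
open scoped ENNReal Topology

set_option linter.unusedSectionVars false

namespace Vale.Agent.P137

variable {E : Type*} [NormedAddCommGroup E] [NormedSpace ℝ E] [FiniteDimensional ℝ E]
  [MeasurableSpace E] [BorelSpace E] {μ : Measure E} [μ.IsAddHaarMeasure]

/-- excess of a finite difference over a slope -/
noncomputable def exc (p : E → ℝ) (Λ : ℝ) (u z : E) : ℝ≥0∞ :=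
  ‖p (z + u) - p z‖ₑ - ENNReal.ofReal (Λ * ‖u‖)

lemma exc_measurable {p : E → ℝ} (hm : Measurable p) (Λ : ℝ) :
    Measurable fun w : E × E => exc p Λ w.2 w.1 := by
  have h1 : Measurable fun w : E × E => ‖p (w.1 + w.2) - p w.1‖ₑ :=
    ((hm.comp (by fun_prop)).sub (hm.comp measurable_fst)).enorm
  exact h1.sub (Measurable.ennreal_ofReal (by fun_prop))

lemma enorm_le_exc (p : E → ℝ) (Λ : ℝ) (u z : E) :
    ‖p (z + u) - p z‖ₑ ≤ ENNReal.ofReal (Λ * ‖u‖) + exc p Λ u z := le_add_tsub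

lemma lintegral_exc_ball {p : E → ℝ} (hm : Measurable p) {Λ ε : ℝ} (hε : 0 ≤ ε)
    (hX : ∀ u, ∫⁻ z, exc p Λ u z ∂μ ≤ ENNReal.ofReal (ε * ‖u‖)) (ρ : ℝ) :
    ∫⁻ z, ∫⁻ u in ball (0 : E) ρ, exc p Λ u z ∂μ ∂μ ≤
      ENNReal.ofReal (ε * ρ) * μ (ball (0 : E) ρ) := by
  rw [lintegral_lintegral_swap (f := fun z u => exc p Λ u z) (exc_measurable hm Λ).aemeasurable,
    ← setLIntegral_const]
  refine setLIntegral_mono' measurableSet_ball fun u hu => (hX u).trans ?_
  have := (mem_ball_zero_iff.1 hu).le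
  gcongr

lemma av_mul {p : E → ℝ} (h0 : ∀ x, 0 ≤ p x) (hp : Integrable p μ) (c : E) {r : ℝ} (hr : 0 < r) :
    ENNReal.ofReal (av μ p c r) * μ (ball c r) = ∫⁻ x in ball c r, ENNReal.ofReal (p x) ∂μ := by
  have hv := real_ball_pos (μ := μ) c hr
  rw [← ofReal_integral_eq_lintegral_ofReal hp.integrableOn (Eventually.of_forall h0),
    ← ofReal_measureReal (μ := μ) (s := ball c r) measure_ball_lt_top.ne,
    ← ENNReal.ofReal_mul' hv.le, av, div_mul_cancel₀ _ hv.ne']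

lemma setLIntegral_shift (f : E → ℝ≥0∞) (z : E) (ρ : ℝ) :
    ∫⁻ y in ball z ρ, f (y - z) ∂μ = ∫⁻ u in ball (0 : E) ρ, f u ∂μ := by
  rw [← (measurePreserving_sub_right μ z).setLIntegral_comp_preimage_emb
    (Homeomorph.subRight z).measurableEmbedding f (ball 0 ρ)]
  congr 2
  ext y
  simp [dist_eq_norm]

lemma le_of_mul_le {a b m I : ℝ≥0∞} (h0 : m ≠ 0) (h1 : m ≠ ∞) (h : a * m ≤ b * m + I) :
    a ≤ b + m⁻¹ * I := by
  rw [← ENNReal.mul_le_mul_iff_left h0 h1, add_mul, mul_comm m⁻¹, mul_assoc,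
    ENNReal.inv_mul_cancel h0 h1, mul_one]
  exact h

lemma av_le_point {p : E → ℝ} (h0 : ∀ x, 0 ≤ p x) (hp : Integrable p μ) {Λ : ℝ} (hΛ : 0 ≤ Λ)
    {z c : E} {r : ℝ} (hz : z ∈ ball c r) :
    ENNReal.ofReal (av μ p c r) ≤ (ENNReal.ofReal (p z) + ENNReal.ofReal (Λ * (2 * r))) +
      (μ (ball (0 : E) r))⁻¹ * ∫⁻ u in ball (0 : E) (2 * r), exc p Λ u z ∂μ := by
  have hr : 0 < r := pos_of_mem_ball hz
  rw [← Measure.addHaar_ball_center μ c]
  refine le_of_mul_le (measure_ball_pos μ c hr).ne' measure_ball_lt_top.ne ?_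
  have hsub : ball c r ⊆ ball z (2 * r) := ball_subset_ball' (by linarith [mem_ball'.1 hz])
  rw [av_mul h0 hp c hr, ← setLIntegral_shift (fun u => exc p Λ u z) z, ← setLIntegral_const]
  refine le_trans ?_ (add_le_add le_rfl (lintegral_mono_set hsub))
  rw [← lintegral_add_left measurable_const]
  refine setLIntegral_mono' measurableSet_ball fun y hy => ?_
  have h1 := enorm_le_exc p Λ (y - z) z
  rw [add_sub_cancel] at h1
  have h2 := (mem_ball_iff_norm.1 (hsub hy)).le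
  calc ENNReal.ofReal (p y) ≤ ENNReal.ofReal (p z) + ‖p y - p z‖ₑ := ofReal_le_add_enorm _ _
    _ ≤ ENNReal.ofReal (p z) + (ENNReal.ofReal (Λ * (2 * r)) + exc p Λ (y - z) z) := by
        refine add_le_add le_rfl (h1.trans ?_)
        gcongr
    _ = _ := by rw [add_assoc]

lemma gM_measurable (p : E → ℝ) : Measurable (gM μ p) := by
  refine measurable_of_Ioi fun t => IsOpen.measurableSet ?_
  rw [isOpen_iff_mem_nhds]
  intro z hz
  simp only [mem_preimage, mem_Ioi, gM, lt_iSup_iff] at hz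
  obtain ⟨c, r, h1, h3⟩ := hz
  filter_upwards [isOpen_ball.mem_nhds h1] with w hw
  simp only [mem_preimage, mem_Ioi, gM, lt_iSup_iff]
  exact ⟨c, r, hw, h3⟩

lemma exc_zero_bound {p : E → ℝ} (hp : Integrable p μ) {L : ℝ} (hV : ∀ u, V μ p u ≤ L * ‖u‖)
    (u : E) : ∫⁻ z, ‖p (z + u) - p z‖ₑ ∂μ ≤ ENNReal.ofReal (L * ‖u‖) := by
  have hi : Integrable (fun z => p (z + u) - p z) μ := (hp.comp_add_right u).sub hp
  rw [← ofReal_integral_norm_eq_lintegral_enorm hi]
  exact ENNReal.ofReal_le_ofReal (hV u)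

lemma ae_le_gM {p : E → ℝ} (hm : Measurable p) (h0 : ∀ x, 0 ≤ p x) (hp : Integrable p μ) {L : ℝ}
    (hL : 0 ≤ L) (hV : ∀ u, V μ p u ≤ L * ‖u‖) :
    ∀ᵐ x ∂μ, ENNReal.ofReal (p x) ≤ gM μ p x := by
  have hX : ∀ u, ∫⁻ z, exc p 0 u z ∂μ ≤ ENNReal.ofReal (L * ‖u‖) := fun u => by
    simpa [exc] using exc_zero_bound hp hV u
  have key : ∀ r, 0 < r → ∫⁻ x, (ENNReal.ofReal (p x) - gM μ p x) ∂μ ≤ ENNReal.ofReal (L * r) := by
    intro r hr
    have hb0 : μ (ball (0 : E) r) ≠ 0 := (measure_ball_pos μ _ hr).ne'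
    have hb1 : μ (ball (0 : E) r) ≠ ∞ := measure_ball_lt_top.ne
    calc _ ≤ ∫⁻ x, (μ (ball (0 : E) r))⁻¹ * ∫⁻ u in ball (0 : E) r, exc p 0 u x ∂μ ∂μ := by
          refine lintegral_mono fun x => ?_
          rw [tsub_le_iff_left]
          refine le_trans (le_of_mul_le hb0 hb1 ?_) (add_le_add (le_iSup_of_le x (le_iSup_of_le r
            (le_iSup_of_le (mem_ball_self hr) le_rfl))) le_rfl)
          have hme : Measurable fun y => exc p 0 (y - x) x :=
            (exc_measurable hm 0).comp (f := fun y => (x, y - x)) (by fun_prop)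
          rw [← setLIntegral_shift (fun u => exc p 0 u x) x, ← Measure.addHaar_ball_center μ x,
            av_mul h0 hp x hr, ← setLIntegral_const, ← lintegral_add_right _ hme]
          refine lintegral_mono fun y => ?_
          have := ofReal_le_add_enorm (p x) (p y)
          rw [enorm_sub_rev] at this
          simpa [exc] using this
      _ ≤ (μ (ball (0 : E) r))⁻¹ * (ENNReal.ofReal (L * r) * μ (ball (0 : E) r)) := by
          rw [lintegral_const_mul _ (exc_measurable hm 0).lintegral_prod_right']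
          exact mul_le_mul_right (lintegral_exc_ball hm hL hX r) _
      _ = _ := by rw [mul_comm, mul_assoc, ENNReal.mul_inv_cancel hb0 hb1, mul_one]
  have h1 : ∫⁻ x, (ENNReal.ofReal (p x) - gM μ p x) ∂μ = 0 := by
    have ht : Tendsto (fun r : ℝ => ENNReal.ofReal (L * r)) (𝓝[>] 0) (𝓝 0) := by
      have : Tendsto (fun r : ℝ => ENNReal.ofReal (L * r)) (𝓝 0) (𝓝 (ENNReal.ofReal (L * 0))) :=
        (ENNReal.continuous_ofReal.comp (by fun_prop)).tendsto 0
      simpa using this.mono_left nhdsWithin_le_nhds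
    exact le_zero_iff.1 (ge_of_tendsto ht (eventually_nhdsWithin_of_forall key))
  filter_upwards [(lintegral_eq_zero_iff (hm.ennreal_ofReal.sub (gM_measurable p))).1 h1] with x hx
  exact tsub_eq_zero_iff_le.1 hx

lemma small_radius {p : E → ℝ} (hm : Measurable p) (h0 : ∀ x, 0 ≤ p x) (hp : Integrable p μ)
    {Λ ε H : ℝ} (hΛ : 0 ≤ Λ) (hε : 0 ≤ ε) (hH : 0 < H)
    (hX : ∀ u, ∫⁻ z, exc p Λ u z ∂μ ≤ ENNReal.ofReal (ε * ‖u‖)) :
    ∃ Z : E → ℝ≥0∞, Measurable Z ∧
      ∫⁻ z, Z z ∂μ ≤ ENNReal.ofReal (4 ^ Module.finrank ℝ E * (4 * H * ε)) ∧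
      ∀ z c r, z ∈ ball c r → r ≤ H → ENNReal.ofReal (av μ p c r) ≤
        (ENNReal.ofReal (p z) + ENNReal.ofReal (Λ * (2 * H))) + Z z := by
  have hmn : ∀ n : ℕ, Measurable fun z => (μ (ball (0 : E) (H * (1 / 2) ^ (n + 1))))⁻¹ *
      ∫⁻ u in ball (0 : E) (2 * (H * (1 / 2) ^ n)), exc p Λ u z ∂μ := fun n =>
    (exc_measurable hm Λ).lintegral_prod_right'.const_mul _
  refine ⟨fun z => ∑' n : ℕ, (μ (ball (0 : E) (H * (1 / 2) ^ (n + 1))))⁻¹ *
      ∫⁻ u in ball (0 : E) (2 * (H * (1 / 2) ^ n)), exc p Λ u z ∂μ, Measurable.tsum hmn,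
      ?_, ?_⟩
  · rw [lintegral_tsum fun n => (hmn n).aemeasurable]
    have hs : HasSum (fun n : ℕ => 4 ^ Module.finrank ℝ E * (2 * H * ε) * (1 / 2 : ℝ) ^ n)
        (4 ^ Module.finrank ℝ E * (4 * H * ε)) := by
      have := hasSum_geometric_two.mul_left (4 ^ Module.finrank ℝ E * (2 * H * ε))
      rwa [show 4 ^ Module.finrank ℝ E * (2 * H * ε) * 2 = 4 ^ Module.finrank ℝ E * (4 * H * ε) by
        ring] at this
    rw [← hs.tsum_eq, ENNReal.ofReal_tsum_of_nonneg (fun n => by positivity) hs.summable]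
    refine ENNReal.tsum_le_tsum fun n => ?_
    have hr : 0 < H * (1 / 2) ^ (n + 1) := by positivity
    have hb0 : μ (ball (0 : E) (H * (1 / 2) ^ (n + 1))) ≠ 0 := (measure_ball_pos μ _ hr).ne'
    rw [lintegral_const_mul _ (exc_measurable hm Λ).lintegral_prod_right']
    refine (mul_le_mul_right (lintegral_exc_ball hm hε hX _) _).trans (le_of_eq ?_)
    conv_lhs => rw [show ball (0 : E) (2 * (H * (1 / 2) ^ n)) =
      ball 0 (4 * (H * (1 / 2) ^ (n + 1))) by rw [pow_succ]; ring_nf]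
    rw [Measure.addHaar_ball_mul_of_pos μ _ (by norm_num : (0 : ℝ) < 4), mul_comm, mul_assoc,
      mul_assoc, ENNReal.mul_inv_cancel hb0 measure_ball_lt_top.ne, mul_one,
      ← ENNReal.ofReal_mul (by positivity)]
    congr 1
    ring
  · intro z c r hz hr
    have hr0 : 0 < r := pos_of_mem_ball hz
    obtain ⟨n, hn1, hn2⟩ := exists_nat_pow_near_of_lt_one (x := r / H) (y := 1 / 2)
      (by positivity) ((div_le_one hH).2 hr) (by norm_num) (by norm_num)
    rw [lt_div_iff₀ hH] at hn1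
    rw [div_le_iff₀ hH] at hn2
    refine (av_le_point h0 hp hΛ hz).trans (add_le_add (by gcongr) (le_trans ?_
      (ENNReal.le_tsum n)))
    refine mul_le_mul' (ENNReal.inv_le_inv.2 (measure_mono (ball_subset_ball (by linarith))))
      (lintegral_mono_set (ball_subset_ball (by linarith)))

end Vale.Agent.P137
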