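import Vale.Agent.P137.Cell3
import Vale.Agent.P137.Small
import Vale.Agent.P137.Geom

open MeasureTheory Metric Set Filter
open scoped ENNReal Topology

set_option linter.unusedSectionVars false

namespace Vale.Agent.P137

variable {E : Type*} [NormedAddCommGroup E] [InnerProductSpace ℝ E] [FiniteDimensional ℝ E]
  [MeasurableSpace E] [BorelSpace E] {μ : Measure E} [μ.IsAddHaarMeasure]

noncomputable def cN (E : Type*) [AddCommGroup E] [Module ℝ E] : ℕ := ⌊4 / xi E⌋₊ + 1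

/-- all scales at once -/
lemma scales {p : E → ℝ} (hm : Measurable p) (hp : Integrable p μ) {h R₀ : ℝ} (hh : 0 < h)
    (hR₀ : 0 < R₀) :
    ∃ T : E → ℝ≥0∞, Measurable T ∧
      ∫⁻ x, T x ∂μ ≤ ENNReal.ofReal (cN E * cC μ * h) *
        ∑' n : ℕ, ENNReal.ofReal (tel μ p (4 * R₀ * (1 / 2) ^ n)) ∧
      ∀ x c r, 4 * h ≤ r → r ≤ R₀ → dist x c < r + h → ∀ a : ℝ≥0∞, gM μ p x ≤ a →
        (∀ l : ℝ, a < ENNReal.ofReal l → l < av μ p c r → Good μ p c r l) →
        ENNReal.ofReal (av μ p c r) ≤ a + T x := by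
  classical
  have hξ := xi_pos (E := E)
  set R : ℕ → ℝ := fun n => R₀ * (1 / 2) ^ (n + 1) with hR
  have hRpos : ∀ n, 0 < R n := fun n => by simp only [hR]; positivity
  set T : ℕ → ℕ → E → ℝ≥0∞ := fun n i x =>
    if R n + i * (xi E * R n / 4) ≤ 2 * R n ∧ 2 * h ≤ R n then
      cT μ p h (R n) (R n + i * (xi E * R n / 4)) x else 0 with hT
  have hTm : ∀ n i, Measurable (T n i) := by
    intro n i
    by_cases hc : R n + i * (xi E * R n / 4) ≤ 2 * R n ∧ 2 * h ≤ R n
    · simp only [hT, if_pos hc]; exact cT_measurable hm _ _ _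
    · simp only [hT, if_neg hc]; exact measurable_const
  have hTi : ∀ n i, ∫⁻ x, T n i x ∂μ ≤ ENNReal.ofReal (cC μ * h) *
      ENNReal.ofReal (tel μ p (4 * R₀ * (1 / 2) ^ n)) := by
    intro n i
    by_cases hc : R n + i * (xi E * R n / 4) ≤ 2 * R n ∧ 2 * h ≤ R n
    · simp only [hT, if_pos hc]
      have := hRpos n
      refine (cT_integral hm hp (hRpos n) hh.le hc.2 (le_add_of_nonneg_right (by positivity))
        hc.1).trans (le_of_eq ?_)
      rw [← ENNReal.ofReal_mul (mul_nonneg cC_nonneg hh.le)]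
      congr 3
      simp only [hR, pow_succ]; ring
    · simp [hT, if_neg hc]
  have hSm : ∀ n, Measurable fun x => ∑ i ∈ Finset.range (cN E), T n i x := fun n =>
    Finset.measurable_fun_sum _ fun i _ => hTm n i
  refine ⟨fun x => ∑' n, ∑ i ∈ Finset.range (cN E), T n i x, Measurable.tsum hSm, ?_, ?_⟩
  · rw [lintegral_tsum fun n => (hSm n).aemeasurable, ← ENNReal.tsum_mul_left]
    refine ENNReal.tsum_le_tsum fun n => ?_
    rw [lintegral_finsetSum _ fun i _ => hTm n i]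
    refine (Finset.sum_le_sum fun i _ => hTi n i).trans (le_of_eq ?_)
    rw [Finset.sum_const, Finset.card_range, nsmul_eq_mul, ← mul_assoc, mul_assoc (cN E : ℝ),
      ENNReal.ofReal_mul (Nat.cast_nonneg _), ENNReal.ofReal_natCast]
  · intro x c r hr1 hr2 hx a ha hG
    have hr0 : 0 < r := by linarith
    obtain ⟨n, hn1, hn2⟩ := exists_nat_pow_near_of_lt_one (x := r / R₀) (y := 1 / 2)
      (by positivity) ((div_le_one hR₀).2 hr2) (by norm_num) (by norm_num)
    rw [lt_div_iff₀ hR₀] at hn1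
    rw [div_le_iff₀ hR₀] at hn2
    have e1 : R n < r := by simp only [hR]; linarith
    have e2 : r ≤ 2 * R n := by simp only [hR, pow_succ]; linarith
    have hζ : 0 < xi E * R n / 4 := by have := hRpos n; positivity
    set i := ⌊(r - R n) / (xi E * R n / 4)⌋₊ with hi
    have i1 : (i : ℝ) * (xi E * R n / 4) ≤ r - R n := by
      rw [← le_div_iff₀ hζ]; exact Nat.floor_le (div_nonneg (by linarith) hζ.le)
    have i2 : r - R n < (i + 1) * (xi E * R n / 4) := by
      rw [← div_lt_iff₀ hζ]; exact Nat.lt_floor_add_one _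
    have i3 : i ∈ Finset.range (cN E) := by
      rw [Finset.mem_range, cN, Nat.lt_succ_iff]
      refine Nat.floor_le_floor ?_
      rw [div_le_div_iff₀ hζ hξ]
      nlinarith
    have hc : R n + i * (xi E * R n / 4) ≤ 2 * R n ∧ 2 * h ≤ R n := ⟨by linarith, by linarith⟩
    refine (cT_bound hm hp (hRpos n) hh.le (le_add_of_nonneg_right (by positivity)) hc.1 x c r
      ⟨by linarith, by linarith⟩ hx a ha hG).trans (add_le_add le_rfl ?_)
    refine le_trans ?_ (ENNReal.le_tsum n)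
    refine le_trans (le_of_eq ?_) (Finset.single_le_sum (f := fun i => T n i x)
      (fun _ _ => zero_le) i3)
    simp only [hT, if_pos hc]

lemma not_heavy {p : E → ℝ} (hm : Measurable p) (h0 : ∀ x, 0 ≤ p x) (hp : Integrable p μ)
    {x v c : E} {r : ℝ} (hx : x - v ∈ ball c r) (a : ℝ≥0∞)
    (ha : ∫⁻ y in ball c r, ‖p (y + v) - p y‖ₑ ∂μ ≤ a * μ (ball c r)) :
    ENNReal.ofReal (av μ p c r) ≤ gM μ p x + a := by
  have hr : 0 < r := pos_of_mem_ball hx
  have hx' : x ∈ ball (c + v) r := by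
    rw [mem_ball_iff_norm] at hx ⊢
    rwa [show x - (c + v) = x - v - c by abel]
  refine le_trans ?_ (add_le_add (le_iSup_of_le (c + v) (le_iSup_of_le r
    (le_iSup_of_le hx' le_rfl))) le_rfl)
  rw [← ENNReal.mul_le_mul_iff_left (measure_ball_pos μ c hr).ne' measure_ball_lt_top.ne, add_mul,
    av_mul h0 hp c hr]
  have e1 : μ (ball c r) = μ (ball (c + v) r) := by
    rw [Measure.addHaar_ball_center μ c, Measure.addHaar_ball_center μ (c + v)]
  have e2 : ∫⁻ y in ball (c + v) r, ENNReal.ofReal (p y) ∂μ =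
      ∫⁻ y in ball c r, ENNReal.ofReal (p (y + v)) ∂μ := by
    rw [← (measurePreserving_add_right μ v).setLIntegral_comp_preimage_emb
      (Homeomorph.addRight v).measurableEmbedding (fun y => ENNReal.ofReal (p y)) (ball (c + v) r)]
    simp
  refine le_trans ?_ (add_le_add le_rfl ha)
  conv_rhs => rw [e1, av_mul h0 hp (c + v) hr, e2]
  have hm2 : Measurable fun y => ENNReal.ofReal (p (y + v)) :=
    (hm.comp (measurable_add_const v)).ennreal_ofReal
  rw [← lintegral_add_left hm2]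
  refine lintegral_mono fun y => ?_
  rw [enorm_sub_rev]
  exact ofReal_le_add_enorm _ _

/-- the heavy region -/
lemma heavy_region {p : E → ℝ} (hp : Integrable p μ) {L Λ R₀ : ℝ} (hΛ : 0 < Λ)
    (hV : ∀ u, V μ p u ≤ L * ‖u‖) (hR : L ≤ Λ * μ.real (ball (0 : E) R₀)) {v : E} (hv : v ≠ 0) :
    ∃ S : Set E, MeasurableSet S ∧ μ S ≤ ENNReal.ofReal (8 ^ Module.finrank ℝ E * (L / Λ)) ∧
      ∀ c r, 0 < r → ENNReal.ofReal (Λ * ‖v‖) * μ (ball c r) <
        ∫⁻ y in ball c r, ‖p (y + v) - p y‖ₑ ∂μ → r ≤ R₀ ∧ ball c (2 * r) ⊆ S := by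
  have hh : 0 < ‖v‖ := norm_pos_iff.2 hv
  set F : Set (E × ℝ) := {z | 0 < z.2 ∧ ENNReal.ofReal (Λ * ‖v‖) * μ (ball z.1 z.2) <
    ∫⁻ y in ball z.1 z.2, ‖p (y + v) - p y‖ₑ ∂μ} with hF
  have htot := exc_zero_bound hp hV v
  have hrad : ∀ z ∈ F, z.2 ≤ R₀ := by
    intro z hz
    by_contra hc
    refine absurd (hz.2.trans_le ((setLIntegral_le_lintegral _ _).trans htot)) (not_lt.2 ?_)
    calc ENNReal.ofReal (L * ‖v‖) ≤ ENNReal.ofReal (Λ * ‖v‖ * μ.real (ball (0 : E) R₀)) :=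
          ENNReal.ofReal_le_ofReal (by nlinarith)
      _ = ENNReal.ofReal (Λ * ‖v‖) * μ (ball (0 : E) R₀) := by
          rw [ENNReal.ofReal_mul (by positivity), ofReal_measureReal measure_ball_lt_top.ne]
      _ ≤ _ := by
          rw [Measure.addHaar_ball_center μ z.1]
          gcongr
          exact (not_le.1 hc).le
  have hb := vitali_bound (μ := μ) (fun y => ‖p (y + v) - p y‖ₑ) (ENNReal.ofReal (Λ * ‖v‖)) F R₀
    fun z hz => ⟨hz.1, hrad z hz, hz.2.le⟩
  refine ⟨⋃ z ∈ F, ball z.1 (2 * z.2), (isOpen_biUnion fun _ _ => isOpen_ball).measurableSet, ?_,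
    fun c r hr hcr => ⟨hrad (c, r) ⟨hr, hcr⟩,
      subset_biUnion_of_mem (u := fun z : E × ℝ => ball z.1 (2 * z.2)) (x := (c, r)) ⟨hr, hcr⟩⟩⟩
  have ha0 : ENNReal.ofReal (Λ * ‖v‖) ≠ 0 := by simpa using mul_pos hΛ hh
  rw [← ENNReal.mul_le_mul_iff_right ha0 ENNReal.ofReal_ne_top]
  refine hb.trans ((mul_le_mul_right htot _).trans (le_of_eq ?_))
  rw [← ENNReal.ofReal_mul (by positivity), ← ENNReal.ofReal_mul (by positivity)]
  congr 1
  field_simp

end Vale.Agent.P137
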