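import Vale.Agent.P137.ST1

open MeasureTheory Metric Set Filter
open scoped ENNReal Topology

set_option linter.unusedSectionVars false

namespace Vale.Agent.P137

variable {E : Type*} [NormedAddCommGroup E] [InnerProductSpace ℝ E] [FiniteDimensional ℝ E]
  [MeasurableSpace E] [BorelSpace E] (μ : Measure E) [μ.IsAddHaarMeasure]

lemma ofReal_le_mul {k h a b : ℝ} (τ : ℝ≥0∞) (hk : 0 ≤ k * h) (hb : b ≤ k * h * a) :
    ENNReal.ofReal b ≤ ENNReal.ofReal (k * h) * (ENNReal.ofReal a + τ) := by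
  refine (ENNReal.ofReal_le_ofReal hb).trans ?_
  rw [ENNReal.ofReal_mul hk]
  exact mul_le_mul_right le_self_add _

theorem ST : ∃ C₁ C₂ : ℝ, 0 ≤ C₁ ∧ 0 ≤ C₂ ∧ ∀ (p : E → ℝ), Measurable p → (∀ x, 0 ≤ p x) →
    Integrable p μ → ∀ L Λ Λ' ε R₀ : ℝ, 0 ≤ L → (∀ u, V μ p u ≤ L * ‖u‖) → 0 < Λ → 0 ≤ Λ' →
    0 ≤ ε → (∀ u, ∫⁻ z, exc p Λ' u z ∂μ ≤ ENNReal.ofReal (ε * ‖u‖)) → 0 < R₀ →
    L ≤ Λ * μ.real (ball (0 : E) R₀) → ∀ v : E,
    ∫⁻ x, (gM μ p (x - v) - (gM μ p x + ENNReal.ofReal (C₁ * (Λ + Λ') * ‖v‖))) ∂μ ≤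
      ENNReal.ofReal (C₂ * ‖v‖) * (ENNReal.ofReal (ε + Λ' * (L / Λ)) +
        ∑' n : ℕ, ENNReal.ofReal (tel μ p (4 * R₀ * (1 / 2) ^ n))) := by
  have hξ := xi_pos (E := E)
  have hξ' := xi_le (E := E)
  have hd1 := dl1_pos (E := E)
  have hV1 := real_ball_pos (μ := μ) (0 : E) one_pos
  have hcC := cC_nonneg (μ := μ)
  set d := Module.finrank ℝ E with hd
  set δ₀ := dl1 E * μ.real (ball (0 : E) 1) / 4 ^ d with hδ₀
  have hδ₀0 : 0 < δ₀ := by positivity
  set k₁ : ℝ := 4 ^ d * (20 / xi E) with hk₁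
  set k₂ : ℝ := δ₀⁻¹ * (2 * (5 / xi E * 8 ^ d) * μ.real (ball (0 : E) 1)) with hk₂
  set k₃ : ℝ := cN E * cC μ with hk₃
  refine ⟨1 + 10 / xi E, k₁ + 1 + k₂ + k₃, by positivity, by positivity, ?_⟩
  intro p hm h0 hp L Λ Λ' ε R₀ hL hV hΛ hΛ' hε hX hR₀ hR v
  rcases eq_or_ne v 0 with rfl | hv
  · simp
  have hh : 0 < ‖v‖ := norm_pos_iff.2 hv
  set h := ‖v‖ with hhdef
  set H := 5 * h / xi E with hH
  have hH0 : 0 < H := by positivity
  have h500 : 500 * h ≤ H := by rw [hH, le_div_iff₀ hξ]; nlinarith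
  obtain ⟨S, hSm, hSv, hS⟩ := heavy_region hp hΛ hV hR hv
  obtain ⟨T, hTm, hTi, hT⟩ := scales hm hp hh hR₀
  obtain ⟨Z, hZm, hZi, hZ⟩ := small_radius hm h0 hp hΛ' hε hH0 hX
  have h8 : (1 : ℝ) ≤ 8 ^ d := one_le_pow₀ (by norm_num)
  obtain ⟨y, hym, hyi, hy⟩ := vis (gM_measurable (μ := μ) p) hm hSm
    (hSv.trans_lt ENNReal.ofReal_lt_top).ne hH0 hδ₀0
    (ENNReal.ofReal (H * 8 ^ d * (ε + Λ' * (L / Λ)))) (fun u hu => by
      calc _ ≤ ∫⁻ x in S, (ENNReal.ofReal (Λ' * ‖u‖) + exc p Λ' u x) ∂μ :=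
            lintegral_mono fun x => enorm_le_exc p Λ' u x
        _ ≤ ENNReal.ofReal (Λ' * ‖u‖) * ENNReal.ofReal (8 ^ d * (L / Λ)) +
            ENNReal.ofReal (ε * ‖u‖) := by
            rw [lintegral_add_left measurable_const, setLIntegral_const]
            exact add_le_add (mul_le_mul_right hSv _)
              ((setLIntegral_le_lintegral _ _).trans (hX u))
        _ ≤ _ := by
            rw [← ENNReal.ofReal_mul (by positivity),
              ← ENNReal.ofReal_add (by positivity) (by positivity)]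
            refine ENNReal.ofReal_le_ofReal ?_
            have a1 : Λ' * ‖u‖ * (8 ^ d * (L / Λ)) ≤ Λ' * H * (8 ^ d * (L / Λ)) := by gcongr
            have a2 : ε * ‖u‖ ≤ ε * (H * 8 ^ d) := by gcongr; nlinarith
            nlinarith)
  have hpt : ∀ᵐ x ∂μ, gM μ p (x - v) - (gM μ p x + ENNReal.ofReal ((1 + 10 / xi E) * (Λ + Λ') * h))
      ≤ Z (x - v) + exc p Λ' (-v) x + y x + T x := by
    filter_upwards [ae_le_gM hm h0 hp hL hV] with x hx
    rw [tsub_le_iff_left]
    refine iSup_le fun c => iSup_le fun r => iSup_le fun hxv => ?_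
    have hr0 : 0 < r := pos_of_mem_ball hxv
    by_cases hsm : r ≤ H
    · have b1 := hZ (x - v) c r hxv hsm
      have b2 := ofReal_le_add_enorm (p (x - v)) (p x)
      have b3 := enorm_le_exc p Λ' (-v) x
      rw [← sub_eq_add_neg, norm_neg] at b3
      have b4 : ENNReal.ofReal (Λ' * h) + ENNReal.ofReal (Λ' * (2 * H)) ≤
          ENNReal.ofReal ((1 + 10 / xi E) * (Λ + Λ') * h) := by
        rw [← ENNReal.ofReal_add (by positivity) (by positivity)]
        refine ENNReal.ofReal_le_ofReal ?_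
        have : Λ' * h + Λ' * (2 * H) = (1 + 10 / xi E) * Λ' * h := by rw [hH]; ring
        rw [this]; gcongr; linarith
      calc _ ≤ (gM μ p x + (ENNReal.ofReal (Λ' * h) + exc p Λ' (-v) x) +
            ENNReal.ofReal (Λ' * (2 * H))) + Z (x - v) :=
            b1.trans (by gcongr; exact b2.trans (add_le_add hx b3))
        _ = gM μ p x + (ENNReal.ofReal (Λ' * h) + ENNReal.ofReal (Λ' * (2 * H))) +
            (Z (x - v) + exc p Λ' (-v) x) := by ring
        _ ≤ _ := by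
            refine add_le_add (add_le_add le_rfl b4) ?_
            rw [add_assoc _ (y x)]; exact le_self_add
    push Not at hsm
    by_cases hhv : ENNReal.ofReal (Λ * h) * μ (ball c r) <
        ∫⁻ y in ball c r, ‖p (y + v) - p y‖ₑ ∂μ
    · obtain ⟨c1, c2⟩ := hS c r hr0 hhv
      have hxc : dist x c < r + h := by
        have := dist_triangle x (x - v) c
        rw [dist_self_sub_right] at this
        linarith [mem_ball.1 hxv]
      have hxS : x ∈ S := c2 (mem_ball.2 (by linarith))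
      refine (hT x c r (by linarith) c1 hxc (gM μ p x + y x) le_self_add fun l l1 l2 =>
        good_of_vis hh hsm.le hxc c2 (le_self_add.trans_lt l1) l2
          (hy x hxS hx l l1 r hsm.le)).trans ?_
      calc gM μ p x + y x + T x ≤ gM μ p x + y x + T x +
            (ENNReal.ofReal ((1 + 10 / xi E) * (Λ + Λ') * h) + (Z (x - v) + exc p Λ' (-v) x)) :=
            le_self_add
        _ = _ := by ring
    · refine (not_heavy hm h0 hp hxv _ (not_lt.1 hhv)).trans (le_trans ?_ le_self_add)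
      refine add_le_add le_rfl (ENNReal.ofReal_le_ofReal ?_)
      have : 0 ≤ 10 / xi E := by positivity
      gcongr
      nlinarith
  refine (lintegral_mono_ae hpt).trans ?_
  have hem : Measurable fun x => exc p Λ' (-v) x :=
    (exc_measurable hm Λ').comp (f := fun x => (x, -v)) (by fun_prop)
  rw [lintegral_add_right _ hTm, lintegral_add_right _ hym, lintegral_add_right _ hem,
    lintegral_sub_right_eq_self Z v]
  set a := ε + Λ' * (L / Λ) with ha
  have hεa : ε ≤ a := le_add_of_nonneg_right (by positivity)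
  set τ := ∑' n : ℕ, ENNReal.ofReal (tel μ p (4 * R₀ * (1 / 2) ^ n))
  have f1 : ∫⁻ x, Z x ∂μ ≤ ENNReal.ofReal (k₁ * h) * (ENNReal.ofReal a + τ) := by
    refine hZi.trans (ofReal_le_mul τ (by positivity) ?_)
    calc _ = k₁ * h * ε := by rw [hk₁, hH]; ring
      _ ≤ _ := by gcongr
  have f2 : ∫⁻ x, exc p Λ' (-v) x ∂μ ≤ ENNReal.ofReal (1 * h) * (ENNReal.ofReal a + τ) := by
    refine (hX _).trans (ofReal_le_mul τ (by positivity) ?_)
    rw [norm_neg]; nlinarith
  have f3 : ∫⁻ x, y x ∂μ ≤ ENNReal.ofReal (k₂ * h) * (ENNReal.ofReal a + τ) := by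
    refine hyi.trans ?_
    rw [← ENNReal.ofReal_inv_of_pos hδ₀0,
      ← ofReal_measureReal (μ := μ) (s := ball (0 : E) 1) measure_ball_lt_top.ne,
      ← ENNReal.ofReal_ofNat 2, ← ENNReal.ofReal_mul (by positivity),
      ← ENNReal.ofReal_mul (by positivity), ← ENNReal.ofReal_mul (by positivity)]
    refine ofReal_le_mul τ (by positivity) (le_of_eq ?_)
    rw [hk₂, hH]; ring
  have f4 : ∫⁻ x, T x ∂μ ≤ ENNReal.ofReal (k₃ * h) * (ENNReal.ofReal a + τ) :=
    hTi.trans (mul_le_mul_right le_add_self _)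
  refine (add_le_add (add_le_add (add_le_add f1 f2) f3) f4).trans (le_of_eq ?_)
  rw [← add_mul, ← add_mul, ← add_mul, ← ENNReal.ofReal_add (by positivity) (by positivity),
    ← ENNReal.ofReal_add (by positivity) (by positivity),
    ← ENNReal.ofReal_add (by positivity) (by positivity)]
  congr 2
  ring

end Vale.Agent.P137
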